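import Vale.Agent.P245.K.FldDef
import Vale.Agent.P254.Bdl.B17

/-!
# P245, covector fields: finite-dimensional algebra (helper979)
-/

set_option linter.all false

open MeasureTheory Filter Topology Set Metric
open scoped NNReal ENNReal ContDiff
open Vale.Agent.P227.M Vale.Agent.P227.M.K814 Vale.Agent.P254 Vale.Agent.P254.SN

namespace Vale.Agent.P245.K

variable {n : ℕ}

/-- the form of a matrix on vectors -/
noncomputable def q2 (T : Matrix (Fin n) (Fin n) ℝ) (u v : Fin n → ℝ) : ℝ :=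
  ∑ a, ∑ b, T a b * u a * v b

/-- the form of a matrix on arrays -/
noncomputable def Q2 (T : Matrix (Fin n) (Fin n) ℝ) (A B : Fin n → Fin n → ℝ) : ℝ :=
  ∑ k, ∑ l, T k l * ∑ a, ∑ b, T a b * A k a * B l b

theorem ip_eq (t : E n → Matrix (Fin n) (Fin n) ℝ) (al be : E n → Fin n → ℝ) (x : E n) :
    ip t al be x = q2 (t x) (al x) (be x) := rfl

theorem Dip_eq (t : E n → Matrix (Fin n) (Fin n) ℝ) (al be : E n → Fin n → ℝ) (x : E n) :
    Dip t al be x = Q2 (t x) (fun k a => DD t al k a x) (fun k a => DD t be k a x) := rfl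

theorem Gam_eq (t : E n → Matrix (Fin n) (Fin n) ℝ) (f g : E n → ℝ) (x : E n) :
    Gam t f g x = q2 (t x) (fun a => pd a f x) (fun a => pd a g x) := rfl

theorem Q2_eq (T : Matrix (Fin n) (Fin n) ℝ) (A B : Fin n → Fin n → ℝ) :
    Q2 T A B = ∑ k, ∑ l, T k l * q2 T (A k) (B l) := rfl

section
variable (T : Matrix (Fin n) (Fin n) ℝ)

theorem q2_dot (u v : Fin n → ℝ) : q2 T u v = u ⬝ᵥ (T.mulVec v) := by
  unfold q2
  simp only [dotProduct, Matrix.mulVec, Finset.mul_sum]
  exact Finset.sum_congr rfl fun i _ => Finset.sum_congr rfl fun j _ => by ring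

theorem q2_add_left (u u' v : Fin n → ℝ) : q2 T (fun a => u a + u' a) v = q2 T u v + q2 T u' v := by
  unfold q2
  simp only [← Finset.sum_add_distrib]
  exact Finset.sum_congr rfl fun i _ => Finset.sum_congr rfl fun j _ => by ring

theorem q2_add_right (u v v' : Fin n → ℝ) : q2 T u (fun a => v a + v' a) = q2 T u v + q2 T u v' := by
  unfold q2
  simp only [← Finset.sum_add_distrib]
  exact Finset.sum_congr rfl fun i _ => Finset.sum_congr rfl fun j _ => by ring

theorem q2_smul_left (c : ℝ) (u v : Fin n → ℝ) : q2 T (fun a => c * u a) v = c * q2 T u v := by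
  unfold q2
  simp only [Finset.mul_sum]
  exact Finset.sum_congr rfl fun i _ => Finset.sum_congr rfl fun j _ => by ring

theorem q2_smul_right (c : ℝ) (u v : Fin n → ℝ) : q2 T u (fun a => c * v a) = c * q2 T u v := by
  unfold q2
  simp only [Finset.mul_sum]
  exact Finset.sum_congr rfl fun i _ => Finset.sum_congr rfl fun j _ => by ring

theorem q2_comm (hs : ∀ i j, T i j = T j i) (u v : Fin n → ℝ) : q2 T u v = q2 T v u := by
  unfold q2
  rw [Finset.sum_comm]
  exact Finset.sum_congr rfl fun i _ => Finset.sum_congr rfl fun j _ => by rw [hs j i]; ring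

/-- factorisation -/
theorem q2_fact (S : Matrix (Fin n) (Fin n) ℝ) (hT : T = S.transpose * S) (u v : Fin n → ℝ) :
    q2 T u v = ∑ p, (∑ a, S p a * u a) * (∑ b, S p b * v b) := by
  have h : ∀ a b, T a b = ∑ p, S p a * S p b := fun a b => by rw [hT]; rfl
  unfold q2
  simp only [h, Finset.sum_mul, Finset.mul_sum]
  calc ∑ a, ∑ b, ∑ p, S p a * S p b * u a * v b
      = ∑ a, ∑ p, ∑ b, S p a * S p b * u a * v b := Finset.sum_congr rfl fun a _ => Finset.sum_comm
    _ = ∑ p, ∑ a, ∑ b, S p a * S p b * u a * v b := Finset.sum_comm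
    _ = ∑ p, ∑ b, ∑ a, S p a * S p b * u a * v b := Finset.sum_congr rfl fun p _ => Finset.sum_comm
    _ = _ := by
      refine Finset.sum_congr rfl fun p _ => Finset.sum_congr rfl fun b _ =>
        Finset.sum_congr rfl fun a _ => by ring

variable (hT : T.PosSemidef)
include hT

theorem q2_nonneg (u : Fin n → ℝ) : 0 ≤ q2 T u u := by
  obtain ⟨S, hS⟩ := Vale.Agent.P254.S2.pw_fact hT
  rw [q2_fact T S hS]
  exact Finset.sum_nonneg fun p _ => mul_self_nonneg _

theorem q2_symm (u v : Fin n → ℝ) : q2 T u v = q2 T v u := by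
  obtain ⟨S, hS⟩ := Vale.Agent.P254.S2.pw_fact hT
  rw [q2_fact T S hS, q2_fact T S hS]
  exact Finset.sum_congr rfl fun p _ => mul_comm _ _

theorem q2_cs (u v : Fin n → ℝ) : (q2 T u v) ^ 2 ≤ q2 T u u * q2 T v v := by
  obtain ⟨S, hS⟩ := Vale.Agent.P254.S2.pw_fact hT
  rw [q2_fact T S hS, q2_fact T S hS, q2_fact T S hS]
  have := Finset.sum_mul_sq_le_sq_mul_sq Finset.univ (fun p => ∑ a, S p a * u a)
    (fun p => ∑ b, S p b * v b)
  simpa only [sq] using this

theorem Q2_fact (S : Matrix (Fin n) (Fin n) ℝ) (hS : T = S.transpose * S) (A B : Fin n → Fin n → ℝ) :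
    Q2 T A B = ∑ r, q2 T (fun k => ∑ a, S r a * A k a) (fun k => ∑ a, S r a * B k a) := by
  rw [Q2_eq]
  simp only [q2_fact T S hS (A _) (B _)]
  have h1 : ∀ r, q2 T (fun k => ∑ a, S r a * A k a) (fun k => ∑ a, S r a * B k a) =
      ∑ k, ∑ l, T k l * (∑ a, S r a * A k a) * (∑ a, S r a * B l a) := fun r => rfl
  simp only [h1, Finset.mul_sum (Finset.univ : Finset (Fin n)) (fun p => (∑ a, S p a * A _ a) * _)]
  calc ∑ k, ∑ l, ∑ r, T k l * ((∑ a, S r a * A k a) * (∑ b, S r b * B l b))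
      = ∑ k, ∑ r, ∑ l, T k l * ((∑ a, S r a * A k a) * (∑ b, S r b * B l b)) :=
        Finset.sum_congr rfl fun k _ => Finset.sum_comm
    _ = ∑ r, ∑ k, ∑ l, T k l * ((∑ a, S r a * A k a) * (∑ b, S r b * B l b)) := Finset.sum_comm
    _ = _ := by
      refine Finset.sum_congr rfl fun r _ => Finset.sum_congr rfl fun k _ =>
        Finset.sum_congr rfl fun l _ => by ring

theorem Q2_nonneg (A : Fin n → Fin n → ℝ) : 0 ≤ Q2 T A A := by
  obtain ⟨S, hS⟩ := Vale.Agent.P254.S2.pw_fact hT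
  rw [Q2_fact T hT S hS]
  exact Finset.sum_nonneg fun r _ => q2_nonneg T hT _

theorem Q2_symm (A B : Fin n → Fin n → ℝ) : Q2 T A B = Q2 T B A := by
  obtain ⟨S, hS⟩ := Vale.Agent.P254.S2.pw_fact hT
  rw [Q2_fact T hT S hS, Q2_fact T hT S hS]
  exact Finset.sum_congr rfl fun r _ => q2_symm T hT _ _

/-- `q2 (A · u) (A · u) ≤ Q2 A A * q2 u u` -/
theorem q2_kato (A : Fin n → Fin n → ℝ) (u : Fin n → ℝ) :
    q2 T (fun k => q2 T (A k) u) (fun k => q2 T (A k) u) ≤ Q2 T A A * q2 T u u := by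
  obtain ⟨S, hS⟩ := Vale.Agent.P254.S2.pw_fact hT
  obtain ⟨W, hW⟩ : ∃ W : Fin n → Fin n → ℝ, W = fun p r => ∑ k, S p k * ∑ a, S r a * A k a :=
    ⟨_, rfl⟩
  obtain ⟨w, hw⟩ : ∃ w : Fin n → ℝ, w = fun r => ∑ a, S r a * u a := ⟨_, rfl⟩
  have e1 : ∀ p, ∑ k, S p k * q2 T (A k) u = ∑ r, W p r * w r := by
    intro p
    simp only [q2_fact T S hS, hW, hw, Finset.mul_sum (Finset.univ : Finset (Fin n)) (fun r =>
      (∑ a, S r a * A _ a) * _)]
    rw [Finset.sum_comm]
    refine Finset.sum_congr rfl fun r _ => ?_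
    rw [Finset.sum_mul]
    exact Finset.sum_congr rfl fun k _ => by ring
  have e2 : Q2 T A A = ∑ r, ∑ p, W p r ^ 2 := by
    rw [Q2_fact T hT S hS]
    refine Finset.sum_congr rfl fun r _ => ?_
    rw [q2_fact T S hS]
    refine Finset.sum_congr rfl fun p _ => ?_
    rw [hW, sq]
  have e3 : q2 T u u = ∑ r, w r ^ 2 := by
    rw [q2_fact T S hS]
    refine Finset.sum_congr rfl fun p _ => ?_
    rw [hw, sq]
  rw [q2_fact T S hS, e2, e3, Finset.sum_comm, Finset.sum_mul]
  refine Finset.sum_le_sum fun p _ => ?_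
  rw [e1 p, ← sq]
  exact Finset.sum_mul_sq_le_sq_mul_sq _ _ _

omit hT in
theorem Q2_add_right (A B B' : Fin n → Fin n → ℝ) :
    Q2 T A (fun k a => B k a + B' k a) = Q2 T A B + Q2 T A B' := by
  simp only [Q2_eq, q2_add_right, mul_add, Finset.sum_add_distrib]

omit hT in
theorem Q2_add_left (A A' B : Fin n → Fin n → ℝ) :
    Q2 T (fun k a => A k a + A' k a) B = Q2 T A B + Q2 T A' B := by
  simp only [Q2_eq, q2_add_left, mul_add, Finset.sum_add_distrib]

omit hT in
theorem Q2_smul_right (c : ℝ) (A B : Fin n → Fin n → ℝ) :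
    Q2 T A (fun k a => c * B k a) = c * Q2 T A B := by
  simp only [Q2_eq, q2_smul_right, Finset.mul_sum]
  exact Finset.sum_congr rfl fun i _ => Finset.sum_congr rfl fun j _ => by ring

omit hT in
theorem Q2_smul_left (c : ℝ) (A B : Fin n → Fin n → ℝ) :
    Q2 T (fun k a => c * A k a) B = c * Q2 T A B := by
  simp only [Q2_eq, q2_smul_left, Finset.mul_sum]
  exact Finset.sum_congr rfl fun i _ => Finset.sum_congr rfl fun j _ => by ring

omit hT in
/-- pairing with a product array `c ⊗ u` -/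
theorem Q2_tens (A : Fin n → Fin n → ℝ) (c u : Fin n → ℝ) :
    Q2 T A (fun k a => c k * u a) = q2 T (fun k => q2 T (A k) u) c := by
  simp only [Q2_eq, q2_smul_right]
  unfold q2
  exact Finset.sum_congr rfl fun i _ => Finset.sum_congr rfl fun j _ => by ring

omit hT in
theorem Q2_tens_tens (c u : Fin n → ℝ) :
    Q2 T (fun k a => c k * u a) (fun k a => c k * u a) = q2 T c c * q2 T u u := by
  rw [Q2_tens]
  simp only [q2_smul_left]
  have h : (fun k => c k * q2 T u u) = fun k => q2 T u u * c k := funext fun k => mul_comm _ _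
  rw [h, q2_smul_left, mul_comm]

theorem Q2_cs (A B : Fin n → Fin n → ℝ) : (Q2 T A B) ^ 2 ≤ Q2 T A A * Q2 T B B := by
  have h1 : ∀ s : ℝ, 0 ≤ Q2 T A A + 2 * s * Q2 T A B + s ^ 2 * Q2 T B B := by
    intro s
    have h2 := Q2_nonneg T hT (fun k a => A k a + s * B k a)
    simp only [Q2_add_right, Q2_add_left, Q2_smul_right, Q2_smul_left] at h2
    rw [Q2_symm T hT B A] at h2
    linarith
  have h3 : discrim (Q2 T B B) (2 * Q2 T A B) (Q2 T A A) ≤ 0 :=
    discrim_le_zero fun s => by have := h1 s; linarith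
  unfold discrim at h3
  nlinarith [h3]

/-- two terms -/
theorem Q2_add_le (A B : Fin n → Fin n → ℝ) :
    Q2 T (fun k a => A k a + B k a) (fun k a => A k a + B k a) ≤ 2 * Q2 T A A + 2 * Q2 T B B := by
  have h2 := Q2_nonneg T hT (fun k a => A k a + (-1) * B k a)
  simp only [Q2_add_right, Q2_add_left, Q2_smul_right, Q2_smul_left] at h2
  rw [Q2_symm T hT B A] at h2
  rw [Q2_add_right, Q2_add_left, Q2_add_left, Q2_symm T hT B A]
  linarith

end

end Vale.Agent.P245.K
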