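import Vale.Agent.P245.H895.QuadB
import Vale.Agent.P245.H464.Tot

/-!
P245, KLS block, row OP-3 (helper149): the closure of `L` on test functions: form identity against
Lipschitz functions of compact support, energy identity, symmetry, uniqueness.
-/

set_option linter.all false

open MeasureTheory Filter Topology Set Metric
open scoped NNReal ENNReal ContDiff
open Vale.Agent.P227.M Vale.Agent.P227.M.K814 Vale.Agent.P254 Vale.Agent.P254.SN Vale.Agent.P245.H464

namespace Vale.Agent.P245.K.OP3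

/-! ## `L²` convergence, general measure -/

section gen
variable {α : Type*} [MeasurableSpace α] {μ : Measure α}

/-- `f m → u` in `L²(μ)` -/
structure L2to (μ : Measure α) (f : ℕ → α → ℝ) (u : α → ℝ) : Prop where
  mem : ∀ m, MemLp (f m) 2 μ
  lim : MemLp u 2 μ
  conv : Tendsto (fun m => ∫ x, (f m x - u x) ^ 2 ∂μ) atTop (𝓝 0)

theorem inner_toLp1 {f g : α → ℝ} (hf : MemLp f 2 μ) (hg : MemLp g 2 μ) :
    inner ℝ (hf.toLp f) (hg.toLp g) = ∫ x, f x * g x ∂μ := by
  rw [L2.inner_def]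
  refine integral_congr_ae ?_
  filter_upwards [hf.coeFn_toLp, hg.coeFn_toLp] with x h1 h2
  rw [h1, h2]
  simp [mul_comm]

theorem norm_toLp1 {f : α → ℝ} (hf : MemLp f 2 μ) : ‖hf.toLp f‖ = Real.sqrt (∫ x, f x ^ 2 ∂μ) := by
  rw [norm_eq_sqrt_real_inner, inner_toLp1 hf hf]
  simp only [sq]

variable {f g : ℕ → α → ℝ} {u v : α → ℝ}

theorem L2to.tendsto (hf : L2to μ f u) :
    Tendsto (fun m => (hf.mem m).toLp (f m)) atTop (𝓝 (hf.lim.toLp u)) := by
  rw [tendsto_iff_norm_sub_tendsto_zero]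
  have h1 : ∀ m, ‖(hf.mem m).toLp (f m) - hf.lim.toLp u‖ =
      Real.sqrt (∫ x, (f m x - u x) ^ 2 ∂μ) := by
    intro m
    rw [← MemLp.toLp_sub (hf.mem m) hf.lim, norm_toLp1 ((hf.mem m).sub hf.lim)]
    rfl
  simp only [h1]
  have h2 := (Real.continuous_sqrt.tendsto 0).comp hf.conv
  rwa [Real.sqrt_zero] at h2

theorem L2to.mul (hf : L2to μ f u) (hg : L2to μ g v) :
    Tendsto (fun m => ∫ x, f m x * g m x ∂μ) atTop (𝓝 (∫ x, u x * v x ∂μ)) := by
  have h1 := hf.tendsto.inner (𝕜 := ℝ) hg.tendsto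
  rw [inner_toLp1 hf.lim hg.lim] at h1
  refine h1.congr fun m => ?_
  rw [inner_toLp1 (hf.mem m) (hg.mem m)]

theorem L2to.const (hu : MemLp u 2 μ) : L2to μ (fun _ => u) u :=
  ⟨fun _ => hu, hu, by simp⟩

theorem int_mul {f g : α → ℝ} (hf : MemLp f 2 μ) (hg : MemLp g 2 μ) :
    Integrable (fun x => f x * g x) μ := hf.integrable_mul hg

theorem int_sq {f : α → ℝ} (hf : MemLp f 2 μ) : Integrable (fun x => f x ^ 2) μ := hf.integrable_sq

theorem L2to.add (hf : L2to μ f u) (hg : L2to μ g v) :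
    L2to μ (fun m x => f m x + g m x) (fun x => u x + v x) := by
  refine ⟨fun m => (hf.mem m).add (hg.mem m), hf.lim.add hg.lim, ?_⟩
  have h0 : Tendsto (fun m => 2 * ∫ x, (f m x - u x) ^ 2 ∂μ + 2 * ∫ x, (g m x - v x) ^ 2 ∂μ) atTop
      (𝓝 0) := by
    simpa using (hf.conv.const_mul 2).add (hg.conv.const_mul 2)
  refine squeeze_zero (fun m => integral_nonneg fun x => sq_nonneg _) (fun m => ?_) h0
  have i1 : Integrable (fun x => (f m x - u x) ^ 2) μ := int_sq ((hf.mem m).sub hf.lim)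
  have i2 : Integrable (fun x => (g m x - v x) ^ 2) μ := int_sq ((hg.mem m).sub hg.lim)
  rw [← integral_const_mul, ← integral_const_mul, ← integral_add (i1.const_mul 2) (i2.const_mul 2)]
  refine integral_mono_of_nonneg (Eventually.of_forall fun x => sq_nonneg _)
    ((i1.const_mul 2).add (i2.const_mul 2)) (Eventually.of_forall fun x => ?_)
  show (f m x + g m x - (u x + v x)) ^ 2 ≤ 2 * (f m x - u x) ^ 2 + 2 * (g m x - v x) ^ 2
  nlinarith [sq_nonneg ((f m x - u x) - (g m x - v x))]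

theorem L2to.bmul {b : α → ℝ} (hb : Measurable b) {B : ℝ} (hB : ∀ x, |b x| ≤ B)
    (hf : L2to μ f u) : L2to μ (fun m x => b x * f m x) (fun x => b x * u x) := by
  have hm : ∀ {w : α → ℝ}, MemLp w 2 μ → MemLp (fun x => b x * w x) 2 μ := by
    intro w hw
    refine MemLp.of_le_mul (c := B) hw (hb.aestronglyMeasurable.mul hw.1)
      (Eventually.of_forall fun x => ?_)
    rw [norm_mul]
    exact mul_le_mul_of_nonneg_right (hB x) (norm_nonneg _)
  refine ⟨fun m => hm (hf.mem m), hm hf.lim, ?_⟩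
  have h0 : Tendsto (fun m => B ^ 2 * ∫ x, (f m x - u x) ^ 2 ∂μ) atTop (𝓝 0) := by
    simpa using hf.conv.const_mul (B ^ 2)
  refine squeeze_zero (fun m => integral_nonneg fun x => sq_nonneg _) (fun m => ?_) h0
  have i1 : Integrable (fun x => (f m x - u x) ^ 2) μ := int_sq ((hf.mem m).sub hf.lim)
  rw [← integral_const_mul]
  refine integral_mono_of_nonneg (Eventually.of_forall fun x => sq_nonneg _)
    (i1.const_mul _) (Eventually.of_forall fun x => ?_)
  show (b x * f m x - b x * u x) ^ 2 ≤ B ^ 2 * (f m x - u x) ^ 2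
  have h1 : (b x * f m x - b x * u x) ^ 2 = (b x) ^ 2 * (f m x - u x) ^ 2 := by ring
  rw [h1]
  have h2 : (b x) ^ 2 ≤ B ^ 2 := by
    rw [← sq_abs (b x)]
    exact pow_le_pow_left₀ (abs_nonneg _) (hB x) 2
  exact mul_le_mul_of_nonneg_right h2 (sq_nonneg _)

theorem L2to.smul (c : ℝ) (hf : L2to μ f u) : L2to μ (fun m x => c * f m x) (fun x => c * u x) :=
  hf.bmul (b := fun _ => c) measurable_const (B := |c|) fun _ => le_rfl

theorem L2to.neg (hf : L2to μ f u) : L2to μ (fun m x => -f m x) (fun x => -u x) := by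
  have := hf.smul (-1)
  simpa using this

theorem L2to.sub (hf : L2to μ f u) (hg : L2to μ g v) :
    L2to μ (fun m x => f m x - g m x) (fun x => u x - v x) := by
  simpa [sub_eq_add_neg] using hf.add hg.neg

theorem L2to.congr_lim (hf : L2to μ f u) (h : u =ᵐ[μ] v) : L2to μ f v := by
  refine ⟨hf.mem, (memLp_congr_ae h).1 hf.lim, hf.conv.congr fun m => ?_⟩
  refine integral_congr_ae ?_
  filter_upwards [h] with x hx
  rw [hx]

end gen

/-! ## the weighted measure -/

variable {n : ℕ} {ψ V : E n → ℝ} {c1 C1 c C M : ℝ}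

theorem integral_muI (hV : Continuous V) (g : E n → ℝ) : ∫ x, g x ∂(mu V) = I V g := integral_mu hV g

theorem finite_mu (hR : Reg V c1 C1) : IsFiniteMeasure (mu V) := by
  unfold mu
  refine isFiniteMeasure_withDensity_ofReal ?_
  exact hR.integrable_exp.2

theorem memLp_GB (hR : Reg V c1 C1) {f : E n → ℝ} (hf : GB f) : MemLp f 2 (mu V) := by
  haveI := finite_mu hR
  obtain ⟨h1, B, hB⟩ := hf
  exact MemLp.of_bound h1.aestronglyMeasurable B (Eventually.of_forall hB)

theorem memLp_LC (hR : Reg V c1 C1) {f : E n → ℝ} (hf : LC f) : MemLp f 2 (mu V) := by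
  refine memLp_GB hR ⟨hf.1.continuous.measurable, ?_⟩
  obtain ⟨B, hB⟩ := hf.2.exists_bound_of_continuous hf.1.continuous
  exact ⟨B, hB⟩

/-! ## test functions -/

theorem lc_test {f : E n → ℝ} (hf : Test f) : LC f := ⟨ll_of_contDiff (hf.1.of_le (by norm_cast)), hf.2⟩

theorem test_pd1 {f : E n → ℝ} (hf : Test f) (i : Fin n) : Test (pd i f) :=
  Vale.Agent.P245.E456.test_pd hf i

theorem memLp_test (hR : Reg V c1 C1) {f : E n → ℝ} (hf : Test f) : MemLp f 2 (mu V) :=
  memLp_LC hR (lc_test hf)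

theorem gb_pd_lc {f : E n → ℝ} (hf : LC f) (i : Fin n) : GB (pd i f) := by
  obtain ⟨K, hK⟩ := hf.lip
  exact GB.pd hK i

theorem lt_lc {t : E n → Matrix (Fin n) (Fin n) ℝ} (hT : TB V t) {f : E n → ℝ} (hf : Test f) :
    LC (Lt t f) := by
  have h1 : ∀ i j, LC (fun x => t x i j * hess f x i j) := fun i j =>
    LC.mul_left (tll hT.toTF i j) (lc_test (test_pd1 (test_pd1 hf j) i))
  have h2 : ∀ i, LC (fun x : E n => x i * pd i f x) := fun i =>
    LC.mul_left (ll_coord i) (lc_test (test_pd1 hf i))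
  unfold Lt
  refine LC.sub ⟨ll_sum _ fun i _ => ll_sum _ fun j _ => (h1 i j).1, ?_⟩
    ⟨ll_sum _ fun i _ => (h2 i).1, hcs_sum _ fun i _ => (h2 i).2⟩
  exact hcs_sum _ fun i _ => hcs_sum _ fun j _ => (h1 i j).2

/-- the form identity for a test function against a Lipschitz function of compact support -/
theorem test_form {t : E n → Matrix (Fin n) (Fin n) ℝ} (hT : TB V t) {f φ : E n → ℝ} (hf : Test f)
    (hφ : LC φ) :
    ∫ x, φ x * (-Lt t f x) ∂(mu V) = ∫ x, (∑ a, ∑ b, t x a b * pd a φ x * pd b f x) ∂(mu V) := by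
  have hV1 : ContDiff ℝ 1 V := hT.V2.of_le (by norm_num)
  have hVc := hV1.continuous
  rw [integral_muI hVc, integral_muI hVc]
  have hF : ∀ a, LC (fun x => φ x * pd a f x) := fun a => hφ.mul_right (lc_test (test_pd1 hf a)).1
  have hc : ∀ a, CI (fun x => Dt t a (fun y => φ y * pd a f y) x - x a * (φ x * pd a f x)) := fun a =>
    (ci_Dt hT.toTF (hF a) a).sub (CI.of_lc (LC.mul_left (ll_coord a) (hF a)))
  have h0 : I V (fun x => ∑ a, (Dt t a (fun y => φ y * pd a f y) x - x a * (φ x * pd a f x))) = 0 := by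
    rw [I_sum _ hVc fun a _ => hc a]
    exact Finset.sum_eq_zero fun a _ => tcore hT.toTF (hF a) a (Eventually.of_forall fun x => rfl)
  have hcA : CI (fun x => ∑ a, ∑ b, t x a b * pd a φ x * pd b f x) :=
    CI.sum _ fun a _ => CI.sum _ fun b _ => by
      have := CI.mul_left (Bd.of_ll (tll hT.toTF a b)) ((CI.pd hφ a).mul_right
        (Bd.of_ll (lc_test (test_pd1 hf b)).1))
      refine ⟨?_, ?_⟩
      · have h1 := this.1
        have e : (fun x => t x a b * pd a φ x * pd b f x) = fun x => t x a b * (pd a φ x * pd b f x) := by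
          funext x; ring
        rw [e]; exact h1
      · have h1 := this.2
        have e : (fun x => t x a b * pd a φ x * pd b f x) = fun x => t x a b * (pd a φ x * pd b f x) := by
          funext x; ring
        rw [e]; exact h1
  have hcB : CI (fun x => φ x * (-Lt t f x)) := by
    have h1 : LC (fun x => φ x * (-1 * Lt t f x)) :=
      hφ.mul_right (ll_mul (ll_const (-1)) (lt_lc hT hf).1)
    have e : (fun x => φ x * (-Lt t f x)) = fun x => φ x * (-1 * Lt t f x) := by
      funext x; ring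
    rw [e]; exact CI.of_lc h1
  have key : I V (fun x => (∑ a, ∑ b, t x a b * pd a φ x * pd b f x) - φ x * (-Lt t f x)) = 0 := by
    rw [← h0]
    refine I_congr ?_
    filter_upwards [hφ.ae_diff] with x hx
    have hfd : ∀ a, DifferentiableAt ℝ (pd a f) x := fun a =>
      ((test_pd1 hf a).1.differentiable (by simp)).differentiableAt
    have e1 : ∀ a b, pd b (fun y => φ y * pd a f y) x = pd b φ x * pd a f x + φ x * pd b (pd a f) x :=
      fun a b => rpd_mul hx (hfd a)
    unfold Dt Lt hess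
    simp only [e1, mul_add, Finset.sum_add_distrib, Finset.sum_sub_distrib]
    have s1 : ∑ a, ∑ b, t x a b * pd a φ x * pd b f x = ∑ a, ∑ b, t x a b * (pd b φ x * pd a f x) := by
      rw [Finset.sum_comm]
      refine Finset.sum_congr rfl fun a _ => Finset.sum_congr rfl fun b _ => ?_
      rw [hT.symm x b a]; ring
    have s2 : ∑ a, ∑ b, t x a b * (φ x * pd b (pd a f) x) = φ x * ∑ i, ∑ j, t x i j * pd i (pd j f) x := by
      rw [Finset.sum_comm, Finset.mul_sum]
      refine Finset.sum_congr rfl fun a _ => ?_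
      rw [Finset.mul_sum]
      refine Finset.sum_congr rfl fun b _ => ?_
      rw [hT.symm x b a]; ring
    have s3 : ∑ a, x a * (φ x * pd a f x) = φ x * ∑ i, x i * pd i f x := by
      rw [Finset.mul_sum]
      exact Finset.sum_congr rfl fun a _ => by ring
    rw [s1, s2, s3]
    ring
  rw [I_sub hVc hcA hcB] at key
  linarith

/-! ## the domain of the closure -/

/-- `u` is in the domain of the closure of `-L`, with gradient `Du` and value `Au`: `L²` limits of
test functions. -/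
def DomE (V : E n → ℝ) (t : E n → Matrix (Fin n) (Fin n) ℝ) (u : E n → ℝ) (Du : Fin n → E n → ℝ)
    (Au : E n → ℝ) : Prop :=
  ∃ f : ℕ → E n → ℝ, (∀ m, Test (f m)) ∧ L2to (mu V) f u ∧
    (∀ a, L2to (mu V) (fun m => pd a (f m)) (Du a)) ∧ L2to (mu V) (fun m x => -Lt t (f m) x) Au

section
variable {t : E n → Matrix (Fin n) (Fin n) ℝ} {u w Au Aw h h' : E n → ℝ} {Du Dw : Fin n → E n → ℝ}

theorem DomE.mem (hu : DomE V t u Du Au) : MemLp u 2 (mu V) := by
  obtain ⟨f, _, h1, _, _⟩ := hu; exact h1.lim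

theorem DomE.memD (hu : DomE V t u Du Au) (a : Fin n) : MemLp (Du a) 2 (mu V) := by
  obtain ⟨f, _, _, h1, _⟩ := hu; exact (h1 a).lim

theorem DomE.memA (hu : DomE V t u Du Au) : MemLp Au 2 (mu V) := by
  obtain ⟨f, _, _, _, h1⟩ := hu; exact h1.lim

theorem DomE.test (hR : Reg V c1 C1) (hT : TB V t) {f : E n → ℝ} (hf : Test f) :
    DomE V t f (fun a => pd a f) (fun x => -Lt t f x) := by
  refine ⟨fun _ => f, fun _ => hf, L2to.const (memLp_test hR hf), fun a => L2to.const
    (memLp_test hR (test_pd1 hf a)), L2to.const ?_⟩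
  exact (memLp_LC hR (lt_lc hT hf)).neg

theorem Lt_add1 {f g : E n → ℝ} (hf : Test f) (hg : Test g) (x : E n) :
    Lt t (fun y => f y + g y) x = Lt t f x + Lt t g x := by
  have hp : ∀ {f g : E n → ℝ}, Test f → Test g → ∀ i, pd i (fun y => f y + g y) =
      fun y => pd i f y + pd i g y := by
    intro f g hf hg i
    funext y
    unfold pd
    have h2 : fderiv ℝ (fun y => f y + g y) y = fderiv ℝ f y + fderiv ℝ g y :=
      fderiv_add (hf.1.differentiable (by simp)).differentiableAt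
        (hg.1.differentiable (by simp)).differentiableAt
    rw [h2]; rfl
  unfold Lt hess
  simp only [hp hf hg, hp (test_pd1 hf _) (test_pd1 hg _), mul_add, Finset.sum_add_distrib]
  ring

theorem pd_add1 {f g : E n → ℝ} (hf : Test f) (hg : Test g) (i : Fin n) :
    pd i (fun y => f y + g y) = fun y => pd i f y + pd i g y := by
  funext y
  unfold pd
  have h2 : fderiv ℝ (fun y => f y + g y) y = fderiv ℝ f y + fderiv ℝ g y :=
    fderiv_add (hf.1.differentiable (by simp)).differentiableAt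
      (hg.1.differentiable (by simp)).differentiableAt
  rw [h2]; rfl

theorem pd_smul1 {f : E n → ℝ} (hf : Test f) (r : ℝ) (i : Fin n) :
    pd i (fun y => r * f y) = fun y => r * pd i f y := by
  funext y
  unfold pd
  have h2 : fderiv ℝ (fun y => r * f y) y = r • fderiv ℝ f y :=
    fderiv_const_mul (hf.1.differentiable (by simp)).differentiableAt r
  rw [h2]; rfl

theorem test_add {f g : E n → ℝ} (hf : Test f) (hg : Test g) : Test (fun x => f x + g x) :=
  ⟨hf.1.add hg.1, hf.2.add hg.2⟩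

theorem test_smul {f : E n → ℝ} (hf : Test f) (r : ℝ) : Test (fun x => r * f x) :=
  ⟨contDiff_const.mul hf.1, hf.2.mul_left⟩

theorem Lt_smul1 {f : E n → ℝ} (hf : Test f) (r : ℝ) (x : E n) :
    Lt t (fun y => r * f y) x = r * Lt t f x := by
  unfold Lt hess
  simp only [pd_smul1 hf r, pd_smul1 (test_pd1 hf _) r, mul_sub, Finset.mul_sum]
  congr 1
  · exact Finset.sum_congr rfl fun i _ => Finset.sum_congr rfl fun j _ => by ring
  · exact Finset.sum_congr rfl fun i _ => by ring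

theorem DomE.add (hu : DomE V t u Du Au) (hw : DomE V t w Dw Aw) :
    DomE V t (fun x => u x + w x) (fun a x => Du a x + Dw a x) (fun x => Au x + Aw x) := by
  obtain ⟨f, hf, h1, h2, h3⟩ := hu
  obtain ⟨g, hg, k1, k2, k3⟩ := hw
  refine ⟨fun m x => f m x + g m x, fun m => test_add (hf m) (hg m), h1.add k1, fun a => ?_, ?_⟩
  · have := (h2 a).add (k2 a)
    have e : (fun m => pd a (fun x => f m x + g m x)) = fun m x => pd a (f m) x + pd a (g m) x :=
      funext fun m => pd_add1 (hf m) (hg m) a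
    rw [e]; exact this
  · have := h3.add k3
    have e : (fun m x => -Lt t (fun x => f m x + g m x) x) = fun m x => -Lt t (f m) x + -Lt t (g m) x := by
      funext m x
      rw [Lt_add1 (hf m) (hg m)]; ring
    rw [e]; exact this

theorem DomE.smul (r : ℝ) (hu : DomE V t u Du Au) :
    DomE V t (fun x => r * u x) (fun a x => r * Du a x) (fun x => r * Au x) := by
  obtain ⟨f, hf, h1, h2, h3⟩ := hu
  refine ⟨fun m x => r * f m x, fun m => test_smul (hf m) r, h1.smul r, fun a => ?_, ?_⟩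
  · have := (h2 a).smul r
    have e : (fun m => pd a (fun x => r * f m x)) = fun m x => r * pd a (f m) x :=
      funext fun m => pd_smul1 (hf m) r a
    rw [e]; exact this
  · have := h3.smul r
    have e : (fun m x => -Lt t (fun x => r * f m x) x) = fun m x => r * (-Lt t (f m) x) := by
      funext m x
      rw [Lt_smul1 (hf m)]; ring
    rw [e]; exact this

theorem DomE.neg (hu : DomE V t u Du Au) :
    DomE V t (fun x => -u x) (fun a x => -Du a x) (fun x => -Au x) := by
  simpa using hu.smul (-1)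

theorem DomE.sub (hu : DomE V t u Du Au) (hw : DomE V t w Dw Aw) :
    DomE V t (fun x => u x - w x) (fun a x => Du a x - Dw a x) (fun x => Au x - Aw x) := by
  simpa [sub_eq_add_neg] using hu.add hw.neg

theorem DomE.congr {u' Au' : E n → ℝ} {Du' : Fin n → E n → ℝ} (hu : DomE V t u Du Au)
    (h1 : u =ᵐ[mu V] u') (h2 : ∀ a, Du a =ᵐ[mu V] Du' a) (h3 : Au =ᵐ[mu V] Au') :
    DomE V t u' Du' Au' := by
  obtain ⟨f, hf, k1, k2, k3⟩ := hu
  exact ⟨f, hf, k1.congr_lim h1, fun a => (k2 a).congr_lim (h2 a), k3.congr_lim h3⟩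

/-- integral of the form -/
theorem int_form (hT : TB V t) (hD : ∀ a, MemLp (Du a) 2 (mu V)) (hE : ∀ a, MemLp (Dw a) 2 (mu V)) :
    ∫ x, (∑ a, ∑ b, t x a b * Du a x * Dw b x) ∂(mu V) =
      ∑ a, ∑ b, ∫ x, (t x a b * Du a x) * Dw b x ∂(mu V) := by
  have hm : ∀ a b, MemLp (fun x => t x a b * Du a x) 2 (mu V) := by
    intro a b
    obtain ⟨B, hB⟩ := hT.bt
    refine MemLp.of_le_mul (c := B) (hD a)
      ((gb_t hT a b).1.aestronglyMeasurable.mul (hD a).1) (Eventually.of_forall fun x => ?_)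
    rw [norm_mul]
    exact mul_le_mul_of_nonneg_right (hB x a b) (norm_nonneg _)
  rw [integral_finsetSum _ fun a _ => integrable_finsetSum _ fun b _ => int_mul (hm a b) (hE b)]
  refine Finset.sum_congr rfl fun a _ => ?_
  rw [integral_finsetSum _ fun b _ => int_mul (hm a b) (hE b)]

theorem form_lim (hT : TB V t) {f g : ℕ → Fin n → E n → ℝ}
    (hf : ∀ a, L2to (mu V) (fun m => f m a) (Du a)) (hg : ∀ a, L2to (mu V) (fun m => g m a) (Dw a)) :
    Tendsto (fun m => ∫ x, (∑ a, ∑ b, t x a b * f m a x * g m b x) ∂(mu V)) atTop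
      (𝓝 (∫ x, (∑ a, ∑ b, t x a b * Du a x * Dw b x) ∂(mu V))) := by
  rw [int_form hT (fun a => (hf a).lim) (fun a => (hg a).lim)]
  simp only [fun m => int_form hT (fun a => (hf a).mem m) (fun a => (hg a).mem m)]
  refine tendsto_finsetSum _ fun a _ => tendsto_finsetSum _ fun b _ => ?_
  obtain ⟨B, hB⟩ := hT.bt
  exact ((hf a).bmul (gb_t hT a b).1 (B := B) fun x => hB x a b).mul (hg b)

/-- **form identity** against Lipschitz functions of compact support -/
theorem DomE.form (hR : Reg V c1 C1) (hT : TB V t) (hu : DomE V t u Du Au) {φ : E n → ℝ} (hφ : LC φ) :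
    ∫ x, φ x * Au x ∂(mu V) = ∫ x, (∑ a, ∑ b, t x a b * pd a φ x * Du b x) ∂(mu V) := by
  obtain ⟨f, hf, h1, h2, h3⟩ := hu
  have l1 := (L2to.const (memLp_LC hR hφ)).mul h3
  have l2 := form_lim (Du := fun a => pd a φ) hT
    (f := fun _ a => pd a φ) (fun a => L2to.const (memLp_GB hR (gb_pd_lc hφ a))) h2
  refine tendsto_nhds_unique l1 (l2.congr fun m => ?_)
  exact (test_form hT (hf m) hφ).symm

/-- **symmetry**, form version -/
theorem DomE.pair (hR : Reg V c1 C1) (hT : TB V t) (hu : DomE V t u Du Au) (hw : DomE V t w Dw Aw) :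
    ∫ x, w x * Au x ∂(mu V) = ∫ x, (∑ a, ∑ b, t x a b * Dw a x * Du b x) ∂(mu V) := by
  obtain ⟨f, hf, h1, h2, h3⟩ := hu
  obtain ⟨g, hg, k1, k2, k3⟩ := hw
  have l1 := k1.mul h3
  have l2 := form_lim hT (f := fun m a => pd a (g m)) k2 (g := fun m a => pd a (f m)) h2
  refine tendsto_nhds_unique l1 (l2.congr fun m => ?_)
  exact (test_form hT (hf m) (lc_test (hg m))).symm

/-- the form is symmetric -/
theorem form_symm (hT : TB V t) (x : E n) (p q : Fin n → ℝ) :
    ∑ a, ∑ b, t x a b * p a * q b = ∑ a, ∑ b, t x a b * q a * p b := by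
  rw [Finset.sum_comm]
  refine Finset.sum_congr rfl fun a _ => Finset.sum_congr rfl fun b _ => ?_
  rw [hT.symm x b a]; ring

theorem DomE.symm (hR : Reg V c1 C1) (hT : TB V t) (hu : DomE V t u Du Au) (hw : DomE V t w Dw Aw) :
    ∫ x, w x * Au x ∂(mu V) = ∫ x, u x * Aw x ∂(mu V) := by
  rw [hu.pair hR hT hw, hw.pair hR hT hu]
  refine integral_congr_ae (Eventually.of_forall fun x => ?_)
  exact form_symm hT x (fun a => Dw a x) (fun a => Du a x)

/-- **energy identity** -/
theorem DomE.energy (hR : Reg V c1 C1) (hT : TB V t) (hu : DomE V t u Du Au) :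
    ∫ x, u x * Au x ∂(mu V) = ∫ x, (∑ a, ∑ b, t x a b * Du a x * Du b x) ∂(mu V) :=
  hu.pair hR hT hu

end

section
variable {t : E n → Matrix (Fin n) (Fin n) ℝ} {u w Au Aw h h' : E n → ℝ} {Du Dw : Fin n → E n → ℝ}
  {lam Lam : ℝ}

theorem form_low (hT : TE V t lam Lam) (x : E n) (p : Fin n → ℝ) :
    lam * ∑ a, p a ^ 2 ≤ ∑ a, ∑ b, t x a b * p a * p b := by
  have h1 := hT.low x (WithLp.toLp 2 p)
  unfold qf at h1
  rw [← sum_sq_eq] at h1
  exact h1

theorem form_nonneg (hT : TE V t lam Lam) (x : E n) (p : Fin n → ℝ) :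
    0 ≤ ∑ a, ∑ b, t x a b * p a * p b :=
  le_trans (mul_nonneg hT.lam_pos.le (Finset.sum_nonneg fun a _ => sq_nonneg _)) (form_low hT x p)

theorem DomE.pos (hR : Reg V c1 C1) (hT : TE V t lam Lam) (hu : DomE V t u Du Au) :
    0 ≤ ∫ x, u x * Au x ∂(mu V) := by
  rw [hu.energy hR hT.toTB]
  exact integral_nonneg fun x => form_nonneg hT x _

/-- lower bound of the energy -/
theorem DomE.low (hR : Reg V c1 C1) (hT : TE V t lam Lam) (hu : DomE V t u Du Au) :
    lam * ∫ x, (∑ a, Du a x ^ 2) ∂(mu V) ≤ ∫ x, u x * Au x ∂(mu V) := by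
  rw [hu.energy hR hT.toTB, ← integral_const_mul]
  have hm : ∀ a b, MemLp (fun x => t x a b * Du a x) 2 (mu V) := by
    intro a b
    obtain ⟨B, hB⟩ := hT.bt
    refine MemLp.of_le_mul (c := B) (hu.memD a)
      ((gb_t hT.toTB a b).1.aestronglyMeasurable.mul (hu.memD a).1) (Eventually.of_forall fun x => ?_)
    rw [norm_mul]
    exact mul_le_mul_of_nonneg_right (hB x a b) (norm_nonneg _)
  refine integral_mono_of_nonneg (Eventually.of_forall fun x => ?_) ?_
    (Eventually.of_forall fun x => form_low hT x _)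
  · exact mul_nonneg hT.lam_pos.le (Finset.sum_nonneg fun a _ => sq_nonneg _)
  · exact integrable_finsetSum _ fun a _ => integrable_finsetSum _ fun b _ =>
      int_mul (hm a b) (hu.memD b)

/-- a priori bounds: `u + s A u = h` -/
theorem DomE.resolvent_bound (hR : Reg V c1 C1) (hT : TE V t lam Lam) (hu : DomE V t u Du Au) {s : ℝ}
    (hs : 0 < s) (he : ∀ᵐ x ∂(mu V), u x + s * Au x = h x) :
    (∫ x, u x ^ 2 ∂(mu V)) + 2 * s * (∫ x, u x * Au x ∂(mu V)) + s ^ 2 * (∫ x, Au x ^ 2 ∂(mu V)) =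
      ∫ x, h x ^ 2 ∂(mu V) := by
  have i1 := int_sq hu.mem
  have i2 := int_mul hu.mem hu.memA
  have i3 := int_sq hu.memA
  have e : ∫ x, h x ^ 2 ∂(mu V) = ∫ x, (u x ^ 2 + 2 * s * (u x * Au x) + s ^ 2 * Au x ^ 2) ∂(mu V) := by
    refine integral_congr_ae ?_
    filter_upwards [he] with x hx
    rw [← hx]; ring
  have j2 : Integrable (fun x => 2 * s * (u x * Au x)) (mu V) := i2.const_mul _
  have j3 : Integrable (fun x => s ^ 2 * Au x ^ 2) (mu V) := i3.const_mul _
  have j1 : Integrable (fun x => u x ^ 2 + 2 * s * (u x * Au x)) (mu V) := i1.add j2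
  rw [e, integral_add j1 j3, integral_add i1 j2, integral_const_mul, integral_const_mul]

/-- **uniqueness** -/
theorem DomE.unique (hR : Reg V c1 C1) (hT : TE V t lam Lam) (hu : DomE V t u Du Au)
    (hw : DomE V t w Dw Aw) {s : ℝ} (hs : 0 < s) (he : ∀ᵐ x ∂(mu V), u x + s * Au x = h x)
    (he' : ∀ᵐ x ∂(mu V), w x + s * Aw x = h x) :
    u =ᵐ[mu V] w ∧ (∀ a, Du a =ᵐ[mu V] Dw a) ∧ Au =ᵐ[mu V] Aw := by
  have hz := hu.sub hw
  have h0 : ∀ᵐ x ∂(mu V), (u x - w x) + s * (Au x - Aw x) = (fun _ : E n => (0 : ℝ)) x := by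
    filter_upwards [he, he'] with x h1 h2
    show _ = (0 : ℝ)
    linarith
  have hb := hz.resolvent_bound hR hT hs h0
  have p1 : 0 ≤ ∫ x, (u x - w x) ^ 2 ∂(mu V) := integral_nonneg fun x => sq_nonneg _
  have p2 := hz.pos hR hT
  have p3 : 0 ≤ ∫ x, (Au x - Aw x) ^ 2 ∂(mu V) := integral_nonneg fun x => sq_nonneg _
  have p4 := hz.low hR hT
  have e0 : ∫ x, ((fun _ : E n => (0 : ℝ)) x) ^ 2 ∂(mu V) = 0 := by simp
  rw [e0] at hb
  have q2 : 0 ≤ 2 * s * ∫ x, (u x - w x) * (Au x - Aw x) ∂(mu V) := by positivity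
  have q3 : 0 ≤ s ^ 2 * ∫ x, (Au x - Aw x) ^ 2 ∂(mu V) := by positivity
  have z1 : ∫ x, (u x - w x) ^ 2 ∂(mu V) = 0 := by linarith
  have z2 : ∫ x, (u x - w x) * (Au x - Aw x) ∂(mu V) = 0 := by
    have : 2 * s * ∫ x, (u x - w x) * (Au x - Aw x) ∂(mu V) = 0 := by linarith
    rcases mul_eq_zero.1 this with h | h
    · linarith
    · exact h
  have z3 : ∫ x, (Au x - Aw x) ^ 2 ∂(mu V) = 0 := by
    have : s ^ 2 * ∫ x, (Au x - Aw x) ^ 2 ∂(mu V) = 0 := by linarith
    rcases mul_eq_zero.1 this with h | h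
    · exact absurd h (by positivity)
    · exact h
  have z4 : ∫ x, (∑ a, (Du a x - Dw a x) ^ 2) ∂(mu V) = 0 := by
    rw [z2] at p4
    have h5 : 0 ≤ ∫ x, (∑ a, (Du a x - Dw a x) ^ 2) ∂(mu V) :=
      integral_nonneg fun x => Finset.sum_nonneg fun a _ => sq_nonneg _
    have h6 : lam * ∫ x, (∑ a, (Du a x - Dw a x) ^ 2) ∂(mu V) ≤ 0 := p4
    nlinarith [hT.lam_pos]
  have cl : ∀ {g g' : E n → ℝ}, MemLp g 2 (mu V) → MemLp g' 2 (mu V) →
      ∫ x, (g x - g' x) ^ 2 ∂(mu V) = 0 → g =ᵐ[mu V] g' := by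
    intro g g' hg hg' h0
    have := (integral_eq_zero_iff_of_nonneg (fun x => sq_nonneg _) (int_sq (hg.sub hg'))).1 h0
    filter_upwards [this] with x hx
    have hx' : (g x - g' x) ^ 2 = 0 := hx
    have := pow_eq_zero_iff (two_ne_zero) |>.1 hx'
    linarith
  refine ⟨cl hu.mem hw.mem z1, fun a => ?_, cl hu.memA hw.memA z3⟩
  have i4 : Integrable (fun x => ∑ a, (Du a x - Dw a x) ^ 2) (mu V) :=
    integrable_finsetSum _ fun a _ => int_sq ((hu.memD a).sub (hw.memD a))
  have := (integral_eq_zero_iff_of_nonneg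
    (fun x => Finset.sum_nonneg fun a _ => sq_nonneg _) i4).1 z4
  filter_upwards [this] with x hx
  have hx' : ∑ a, (Du a x - Dw a x) ^ 2 = 0 := hx
  have h7 := (Finset.sum_eq_zero_iff_of_nonneg (fun a _ => sq_nonneg _)).1 hx' a (Finset.mem_univ a)
  have := pow_eq_zero_iff (two_ne_zero) |>.1 h7
  linarith

end

/-! ## the statements for `H464.Dom` -/

section
variable {t : E n → Matrix (Fin n) (Fin n) ℝ} {f g : ℕ → E n → ℝ} {u w Au Aw h h' : E n → ℝ}
  {Du Dw : Fin n → E n → ℝ} {lam Lam : ℝ}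

theorem l2to_of (hV : Continuous V) {f : ℕ → E n → ℝ} {u : E n → ℝ} (hf : ∀ m, MemLp (f m) 2 (mu V))
    (hu : Measurable u) (hi : Integrable (fun x => u x ^ 2 * Real.exp (-V x)))
    (hl : Tendsto (fun m => I V (fun x => (f m x - u x) ^ 2)) atTop (𝓝 0)) : L2to (mu V) f u :=
  ⟨hf, (memLp_iff hV hu.aestronglyMeasurable).2 hi, hl.congr fun m => (integral_muI hV _).symm⟩

theorem DomE.of (hT : TB V t) (hu : Dom V t f u Du Au) : DomE V t u Du Au := by
  have hV : Continuous V := hT.V2.continuous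
  refine ⟨f, hu.test, l2to_of hV (fun m => memLp_ci hV (CI.of_lc (lc_test (hu.test m)))) hu.mu hu.iu hu.lu,
    fun a => l2to_of hV (fun m => memLp_ci hV (CI.of_lc (lc_test (test_pd1 (hu.test m) a)))) (hu.mD a)
      (hu.iD a) (hu.lD a), l2to_of hV (fun m => ?_) hu.mA hu.iA hu.lA⟩
  exact (memLp_ci hV (CI.of_lc (lt_lc hT (hu.test m)))).neg

theorem DomE.dom (hT : TB V t) (hu : DomE V t u Du Au) (m1 : Measurable u) (m2 : ∀ a, Measurable (Du a))
    (m3 : Measurable Au) : ∃ f, Dom V t f u Du Au := by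
  have hV : Continuous V := hT.V2.continuous
  obtain ⟨f, hf, h1, h2, h3⟩ := hu
  refine ⟨f, hf, m1, m2, m3, (memLp_iff hV m1.aestronglyMeasurable).1 h1.lim,
    fun a => (memLp_iff hV (m2 a).aestronglyMeasurable).1 (h2 a).lim,
    (memLp_iff hV m3.aestronglyMeasurable).1 h3.lim, h1.conv.congr fun m => integral_muI hV _,
    fun a => (h2 a).conv.congr fun m => integral_muI hV _, h3.conv.congr fun m => integral_muI hV _⟩

/-- **form identity** -/
theorem dom_form (hR : Reg V c1 C1) (hT : TB V t) (hu : Dom V t f u Du Au) {φ : E n → ℝ} (hφ : LC φ) :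
    I V (fun x => φ x * Au x) = I V (fun x => ∑ a, ∑ b, t x a b * pd a φ x * Du b x) := by
  have := (DomE.of hT hu).form hR hT hφ
  rwa [integral_muI hT.V2.continuous, integral_muI hT.V2.continuous] at this

/-- **form identity** for two elements of the domain -/
theorem dom_pair (hR : Reg V c1 C1) (hT : TB V t) (hu : Dom V t f u Du Au) (hw : Dom V t g w Dw Aw) :
    I V (fun x => w x * Au x) = I V (fun x => ∑ a, ∑ b, t x a b * Dw a x * Du b x) := by
  have := (DomE.of hT hu).pair hR hT (DomE.of hT hw)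
  rwa [integral_muI hT.V2.continuous, integral_muI hT.V2.continuous] at this

/-- **symmetry** -/
theorem dom_symm (hR : Reg V c1 C1) (hT : TB V t) (hu : Dom V t f u Du Au) (hw : Dom V t g w Dw Aw) :
    I V (fun x => w x * Au x) = I V (fun x => u x * Aw x) := by
  have := (DomE.of hT hu).symm hR hT (DomE.of hT hw)
  rwa [integral_muI hT.V2.continuous, integral_muI hT.V2.continuous] at this

/-- **energy identity** -/
theorem dom_energy (hR : Reg V c1 C1) (hT : TB V t) (hu : Dom V t f u Du Au) :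
    I V (fun x => u x * Au x) = I V (fun x => ∑ a, ∑ b, t x a b * Du a x * Du b x) :=
  dom_pair hR hT hu hu

theorem dom_low (hR : Reg V c1 C1) (hT : TE V t lam Lam) (hu : Dom V t f u Du Au) :
    lam * I V (fun x => ∑ a, Du a x ^ 2) ≤ I V (fun x => u x * Au x) := by
  have := (DomE.of hT.toTB hu).low hR hT
  rwa [integral_muI hT.V2.continuous, integral_muI hT.V2.continuous] at this

theorem dom_pos (hR : Reg V c1 C1) (hT : TE V t lam Lam) (hu : Dom V t f u Du Au) :
    0 ≤ I V (fun x => u x * Au x) := by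
  have := (DomE.of hT.toTB hu).pos hR hT
  rwa [integral_muI hT.V2.continuous] at this

/-- **a priori identity** for `u + s A u = h` -/
theorem dom_bound (hR : Reg V c1 C1) (hT : TE V t lam Lam) (hu : Dom V t f u Du Au) {s : ℝ}
    (hs : 0 < s) (he : ∀ᵐ x, u x + s * Au x = h x) :
    I V (fun x => u x ^ 2) + 2 * s * I V (fun x => u x * Au x) + s ^ 2 * I V (fun x => Au x ^ 2) =
      I V (fun x => h x ^ 2) := by
  have := (DomE.of hT.toTB hu).resolvent_bound hR hT hs ((mu_ac V).ae_le he)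
  rwa [integral_muI hT.V2.continuous, integral_muI hT.V2.continuous, integral_muI hT.V2.continuous,
    integral_muI hT.V2.continuous] at this

/-- **uniqueness** -/
theorem dom_unique (hR : Reg V c1 C1) (hT : TE V t lam Lam) (hu : Dom V t f u Du Au)
    (hw : Dom V t g w Dw Aw) {s : ℝ} (hs : 0 < s) (he : ∀ᵐ x, u x + s * Au x = h x)
    (he' : ∀ᵐ x, w x + s * Aw x = h x) :
    u =ᵐ[volume] w ∧ (∀ a, Du a =ᵐ[volume] Dw a) ∧ Au =ᵐ[volume] Aw := by
  have hV : Continuous V := hT.V2.continuous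
  obtain ⟨h1, h2, h3⟩ := (DomE.of hT.toTB hu).unique hR hT (DomE.of hT.toTB hw) hs
    ((mu_ac V).ae_le he) ((mu_ac V).ae_le he')
  exact ⟨(ac_mu hV).ae_le h1, fun a => (ac_mu hV).ae_le (h2 a), (ac_mu hV).ae_le h3⟩

end

end Vale.Agent.P245.K.OP3
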