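import Vale.Agent.P245.K.Iface
import Vale.Agent.P245.K.OP3
import Vale.Agent.P245.K.FldAlg

/-!
P245, KLS block, row R1S (helper192): symmetry and linearity of the resolvent `R1` on covector fields.
-/

set_option linter.all false

open MeasureTheory Filter Topology Set Metric
open scoped NNReal ENNReal ContDiff
open Vale.Agent.P227.M Vale.Agent.P227.M.K814 Vale.Agent.P254 Vale.Agent.P254.SN

namespace Vale.Agent.P245.K.R1S

open Vale.Agent.P245.H464 (TE Lt mu integral_mu integrable_mu memLp_iff)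
open Vale.Agent.P245.K.OP3

variable {n : ℕ} {V : E n → ℝ} {t : E n → Matrix (Fin n) (Fin n) ℝ} {c C c1 C1 s : ℝ}

theorem memLp_L2 (hV : Continuous V) {f : E n → ℝ} (hf : L2 V f) : MemLp f 2 (mu V) :=
  (memLp_iff hV hf.1.aestronglyMeasurable).2 hf.2

theorem posT (h : TE V t c C) (x : E n) : (t x).PosSemidef := by
  refine Matrix.PosSemidef.of_dotProduct_mulVec_nonneg ?_ ?_
  · ext i j
    simp only [Matrix.conjTranspose_apply, star_trivial]
    exact h.symm x j i
  · intro v
    have h1 := form_low h x v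
    have h2 : star v ⬝ᵥ (t x).mulVec v = ∑ a, ∑ b, t x a b * v a * v b := by
      simp only [dotProduct, Matrix.mulVec, Finset.mul_sum, star_trivial]
      exact Finset.sum_congr rfl fun a _ => Finset.sum_congr rfl fun b _ => by ring
    rw [h2]
    exact le_trans (mul_nonneg h.lam_pos.le (Finset.sum_nonneg fun a _ => sq_nonneg _)) h1

/-! ## pointwise -/

/-- array of first derivatives -/
noncomputable def dA (α : E n → Fin n → ℝ) (x : E n) (i a : Fin n) : ℝ := pd i (fun y => α y a) x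

theorem ee_eq (α β : E n → Fin n → ℝ) (x : E n) :
    ee t α β x = Q2 (t x) (dA α x) (dA β x) + q2 (t x) (α x) (β x) := by
  unfold ee Q2 dA
  rw [ip_eq]
  congr 1
  refine Finset.sum_congr rfl fun i _ => Finset.sum_congr rfl fun j _ => ?_
  rw [Finset.mul_sum]
  refine Finset.sum_congr rfl fun a _ => ?_
  rw [Finset.mul_sum]
  exact Finset.sum_congr rfl fun b _ => by ring

theorem ip_symm (h : TE V t c C) (α β : E n → Fin n → ℝ) (x : E n) : ip t α β x = ip t β α x := by
  rw [ip_eq, ip_eq]; exact q2_symm _ (posT h x) _ _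

theorem ee_symm (h : TE V t c C) (α β : E n → Fin n → ℝ) (x : E n) : ee t α β x = ee t β α x := by
  rw [ee_eq, ee_eq, Q2_symm _ (posT h x), q2_symm _ (posT h x)]

theorem ip_nonneg (h : TE V t c C) (α : E n → Fin n → ℝ) (x : E n) : 0 ≤ ip t α α x := by
  rw [ip_eq]; exact q2_nonneg _ (posT h x) _

theorem ee_nonneg (h : TE V t c C) (α : E n → Fin n → ℝ) (x : E n) : 0 ≤ ee t α α x := by
  rw [ee_eq]; exact add_nonneg (Q2_nonneg _ (posT h x) _) (q2_nonneg _ (posT h x) _)

/-- linear combination of fields -/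
def lin (p q : ℝ) (α β : E n → Fin n → ℝ) : E n → Fin n → ℝ := fun x a => p * α x a + q * β x a

theorem ip_lin (p q : ℝ) (α α' β : E n → Fin n → ℝ) (x : E n) :
    ip t (lin p q α α') β x = p * ip t α β x + q * ip t α' β x := by
  unfold ip lin
  rw [Finset.mul_sum, Finset.mul_sum, ← Finset.sum_add_distrib]
  refine Finset.sum_congr rfl fun a _ => ?_
  rw [Finset.mul_sum, Finset.mul_sum, ← Finset.sum_add_distrib]
  exact Finset.sum_congr rfl fun b _ => by ring

theorem dA_lin (p q : ℝ) {α α' : E n → Fin n → ℝ} {x : E n}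
    (h1 : ∀ a, DifferentiableAt ℝ (fun y => α y a) x)
    (h2 : ∀ a, DifferentiableAt ℝ (fun y => α' y a) x) (i a : Fin n) :
    dA (lin p q α α') x i a = p * dA α x i a + q * dA α' x i a := by
  unfold dA lin pd
  have e : fderiv ℝ (fun y => p * α y a + q * α' y a) x =
      p • fderiv ℝ (fun y => α y a) x + q • fderiv ℝ (fun y => α' y a) x := by
    have := (((h1 a).hasFDerivAt.const_mul p).add ((h2 a).hasFDerivAt.const_mul q)).fderiv
    exact this
  rw [e]
  simp

theorem ee_lin (p q : ℝ) {α α' : E n → Fin n → ℝ} (β : E n → Fin n → ℝ) {x : E n}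
    (h1 : ∀ a, DifferentiableAt ℝ (fun y => α y a) x)
    (h2 : ∀ a, DifferentiableAt ℝ (fun y => α' y a) x) :
    ee t (lin p q α α') β x = p * ee t α β x + q * ee t α' β x := by
  have e1 := ip_lin (t := t) p q α α' β x
  simp only [ip_eq] at e1
  rw [ee_eq, ee_eq, ee_eq, e1]
  have e2 : Q2 (t x) (dA (lin p q α α') x) (dA β x) =
      p * Q2 (t x) (dA α x) (dA β x) + q * Q2 (t x) (dA α' x) (dA β x) := by
    unfold Q2
    rw [Finset.mul_sum, Finset.mul_sum, ← Finset.sum_add_distrib]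
    refine Finset.sum_congr rfl fun i _ => ?_
    rw [Finset.mul_sum, Finset.mul_sum, ← Finset.sum_add_distrib]
    refine Finset.sum_congr rfl fun j _ => ?_
    have e3 : ∀ a b, t x a b * dA (lin p q α α') x i a * dA β x j b =
        p * (t x a b * dA α x i a * dA β x j b) + q * (t x a b * dA α' x i a * dA β x j b) := by
      intro a b
      rw [dA_lin p q h1 h2]; ring
    simp only [e3, Finset.sum_add_distrib, ← Finset.mul_sum]
    ring
  rw [e2]
  ring

/-! ## integrability -/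

theorem LCF.ae {α : E n → Fin n → ℝ} (hα : LCF α) :
    ∀ᵐ x, ∀ a, DifferentiableAt ℝ (fun y => α y a) x := by
  rw [ae_all_iff]
  exact fun a => (hα a).ae_diff

theorem LCF.lin {α α' : E n → Fin n → ℝ} (p q : ℝ) (h1 : LCF α) (h2 : LCF α') :
    LCF (R1S.lin p q α α') := fun a =>
  LC.add (LC.mul_left (ll_const p) (h1 a)) (LC.mul_left (ll_const q) (h2 a))

theorem ci_ip (h : TE V t c C) {α β : E n → Fin n → ℝ} (h1 : LCF α) (h2 : LCF β) : CI (ip t α β) := by
  unfold ip
  exact CI.sum _ fun a _ => CI.sum _ fun b _ =>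
    CI.mul_right (CI.mul_left (Bd.of_ll (tll h.toTF a b)) (CI.of_lc (h1 a))) (Bd.of_ll (h2 b).1)

theorem ci_ee (h : TE V t c C) {α β : E n → Fin n → ℝ} (h1 : LCF α) (h2 : LCF β) : CI (ee t α β) := by
  unfold ee
  refine CI.add ?_ (ci_ip h h1 h2)
  exact CI.sum _ fun i _ => CI.sum _ fun j _ => CI.sum _ fun a _ => CI.sum _ fun b _ =>
    CI.mul_right (CI.mul_left ((Bd.of_ll (tll h.toTF i j)).mul (Bd.of_ll (tll h.toTF a b)))
      (CI.pd (h1 a) i)) (Bd.pd (h2 b).1 j)

theorem int_ip (h : TE V t c C) {α β : E n → Fin n → ℝ} (h1 : ∀ a, L2 V (fun x => α x a))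
    (h2 : ∀ a, L2 V (fun x => β x a)) : Integrable (fun x => ip t α β x * Real.exp (-V x)) := by
  have hV := h.V2.continuous
  rw [← integrable_mu hV]
  unfold ip
  refine integrable_finsetSum _ fun a _ => integrable_finsetSum _ fun b _ => ?_
  obtain ⟨B, hB⟩ := h.bt
  have hm : MemLp (fun x => t x a b * α x a) 2 (mu V) := by
    refine MemLp.of_le_mul (c := B) (memLp_L2 hV (h1 a))
      ((gb_t h.toTB a b).1.aestronglyMeasurable.mul (memLp_L2 hV (h1 a)).1)
      (Eventually.of_forall fun x => ?_)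
    rw [norm_mul]
    exact mul_le_mul_of_nonneg_right (hB x a b) (norm_nonneg _)
  exact int_mul hm (memLp_L2 hV (h2 b))

theorem l2_of_lcf (hR : Reg V c1 C1) {α : E n → Fin n → ℝ} (h1 : LCF α) (hV : Continuous V) (a : Fin n) :
    L2 V (fun x => α x a) := by
  refine ⟨(h1 a).1.continuous.measurable, ?_⟩
  exact (memLp_iff hV (h1 a).1.continuous.measurable.aestronglyMeasurable).1 (memLp_LC hR (h1 a))

theorem I_lin {f g : E n → ℝ} (p q : ℝ) (hf : Integrable (fun x => f x * Real.exp (-V x)))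
    (hg : Integrable (fun x => g x * Real.exp (-V x))) {k : E n → ℝ}
    (hk : ∀ᵐ x, k x = p * f x + q * g x) : I V k = p * I V f + q * I V g := by
  unfold I
  rw [← integral_const_mul, ← integral_const_mul, ← integral_add (hf.const_mul p) (hg.const_mul q)]
  refine integral_congr_ae ?_
  filter_upwards [hk] with x hx
  rw [hx]; ring

theorem NN_lin (h : TE V t c C) (p q s : ℝ) {α α' β : E n → Fin n → ℝ} (h1 : LCF α) (h2 : LCF α')
    (h3 : LCF β) :
    NN V t s (lin p q α α') β = p * NN V t s α β + q * NN V t s α' β := by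
  have hV := h.V2.continuous
  have e1 : I V (ip t (lin p q α α') β) = p * I V (ip t α β) + q * I V (ip t α' β) :=
    I_lin p q ((ci_ip h h1 h3).integrable hV) ((ci_ip h h2 h3).integrable hV)
      (Eventually.of_forall fun x => ip_lin p q α α' β x)
  have e2 : I V (ee t (lin p q α α') β) = p * I V (ee t α β) + q * I V (ee t α' β) := by
    refine I_lin p q ((ci_ee h h1 h3).integrable hV) ((ci_ee h h2 h3).integrable hV) ?_
    filter_upwards [LCF.ae h1, LCF.ae h2] with x k1 k2
    exact ee_lin p q β k1 k2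
  unfold NN
  rw [e1, e2]
  ring

theorem NN_symm (h : TE V t c C) (s : ℝ) (α β : E n → Fin n → ℝ) : NN V t s α β = NN V t s β α := by
  unfold NN
  rw [I_congr (Eventually.of_forall fun x => ip_symm h α β x),
    I_congr (Eventually.of_forall fun x => ee_symm h α β x)]

theorem NN_nonneg (h : TE V t c C) (hs : 0 ≤ s) (α : E n → Fin n → ℝ) : 0 ≤ NN V t s α α := by
  unfold NN
  refine add_nonneg ?_ (mul_nonneg hs ?_)
  · exact integral_nonneg fun x => mul_nonneg (ip_nonneg h α x) (Real.exp_pos _).le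
  · exact integral_nonneg fun x => mul_nonneg (ee_nonneg h α x) (Real.exp_pos _).le

theorem NN_lin_le (h : TE V t c C) (hs : 0 ≤ s) (p q : ℝ) {α α' : E n → Fin n → ℝ} (h1 : LCF α)
    (h2 : LCF α') :
    NN V t s (lin p q α α') (lin p q α α') ≤ 2 * p ^ 2 * NN V t s α α + 2 * q ^ 2 * NN V t s α' α' := by
  have k1 := LCF.lin p q h1 h2
  have k2 := LCF.lin p (-q) h1 h2
  have e1 : NN V t s (lin p q α α') (lin p q α α') =
      p ^ 2 * NN V t s α α + 2 * (p * q) * NN V t s α α' + q ^ 2 * NN V t s α' α' := by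
    rw [NN_lin h p q s h1 h2 k1, NN_symm h s α, NN_symm h s α', NN_lin h p q s h1 h2 h1,
      NN_lin h p q s h1 h2 h2, NN_symm h s α' α]
    ring
  have e2 : NN V t s (lin p (-q) α α') (lin p (-q) α α') =
      p ^ 2 * NN V t s α α - 2 * (p * q) * NN V t s α α' + q ^ 2 * NN V t s α' α' := by
    rw [NN_lin h p (-q) s h1 h2 k2, NN_symm h s α, NN_symm h s α', NN_lin h p (-q) s h1 h2 h1,
      NN_lin h p (-q) s h1 h2 h2, NN_symm h s α' α]
    ring
  have e3 := NN_nonneg h hs (lin p (-q) α α')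
  rw [e2] at e3
  rw [e1]
  linarith

/-! ## limits -/

theorem l2to {f : ℕ → E n → ℝ} {u : E n → ℝ} (hV : Continuous V) (hf : ∀ m, L2 V (f m)) (hu : L2 V u)
    (h : Tends V f u) : L2to (mu V) f u := by
  refine ⟨fun m => memLp_L2 hV (hf m), memLp_L2 hV hu, ?_⟩
  refine h.congr fun m => ?_
  rw [integral_mu hV]
  rfl

theorem ip_lim (h : TE V t c C) {γ U : E n → Fin n → ℝ} {u : ℕ → E n → Fin n → ℝ}
    (hγ : ∀ a, L2 V (fun x => γ x a)) (hU : ∀ a, L2 V (fun x => U x a))
    (hu : ∀ m a, L2 V (fun x => u m x a)) (ht : ∀ a, Tends V (fun m x => u m x a) (fun x => U x a)) :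
    Tendsto (fun m => I V (ip t γ (u m))) atTop (𝓝 (I V (ip t γ U))) := by
  have hV := h.V2.continuous
  have l := form_lim (V := V) (t := t) h.toTB (f := fun _ a x => γ x a) (Du := fun a x => γ x a)
    (g := fun m a x => u m x a) (Dw := fun a x => U x a)
    (fun a => L2to.const (memLp_L2 hV (hγ a))) (fun a => l2to hV (fun m => hu m a) (hU a) (ht a))
  have e : ∀ α β : E n → Fin n → ℝ, ∫ x, (∑ a, ∑ b, t x a b * α x a * β x b) ∂(mu V) = I V (ip t α β) :=
    fun α β => integral_mu hV _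
  rw [e] at l
  refine l.congr fun m => e _ _

theorem symm_aux (h : Base V t c C) (hs : 0 < s) {γ U γ' U' : E n → Fin n → ℝ} (h1 : R1 V t s γ U)
    (h2 : R1 V t s γ' U') : I V (ip t U γ') = I V (ip t γ U') := by
  obtain ⟨c1, C1, hR⟩ := h.reg
  have hT := h.toTE
  have hV := hT.V2.continuous
  obtain ⟨u, ε, hu, htu, ⟨B, hB⟩, hε, hε0, hε1⟩ := h1.core
  obtain ⟨u', ε', hu', htu', ⟨B', hB'⟩, hε', hε0', hε1'⟩ := h2.core
  have l1 : Tendsto (fun m => I V (ip t γ (u' m))) atTop (𝓝 (I V (ip t γ U'))) :=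
    ip_lim hT h1.g2 h2.U2 (fun m a => l2_of_lcf hR (hu' m) hV a) htu'
  have l2 : Tendsto (fun m => I V (ip t γ' (u m))) atTop (𝓝 (I V (ip t γ' U))) :=
    ip_lim hT h2.g2 h1.U2 (fun m a => l2_of_lcf hR (hu m) hV a) htu
  have l3 : Tendsto (fun m => NN V t s (u m) (u' m) - I V (ip t γ (u' m))) atTop (𝓝 0) := by
    have k : Tendsto (fun m => ε m * Real.sqrt B') atTop (𝓝 0) := by simpa using hε0.mul_const (Real.sqrt B')
    refine squeeze_zero_norm (fun m => ?_) k
    rw [Real.norm_eq_abs]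
    refine (hε1 m (u' m) (hu' m)).trans ?_
    exact mul_le_mul_of_nonneg_left (Real.sqrt_le_sqrt (hB' m)) (hε m)
  have l4 : Tendsto (fun m => NN V t s (u' m) (u m) - I V (ip t γ' (u m))) atTop (𝓝 0) := by
    have k : Tendsto (fun m => ε' m * Real.sqrt B) atTop (𝓝 0) := by simpa using hε0'.mul_const (Real.sqrt B)
    refine squeeze_zero_norm (fun m => ?_) k
    rw [Real.norm_eq_abs]
    refine (hε1' m (u m) (hu m)).trans ?_
    exact mul_le_mul_of_nonneg_left (Real.sqrt_le_sqrt (hB m)) (hε' m)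
  have l5 : Tendsto (fun m => I V (ip t γ (u' m)) - I V (ip t γ' (u m))) atTop (𝓝 0) := by
    have := l4.sub l3
    rw [sub_zero] at this
    refine this.congr fun m => ?_
    rw [NN_symm hT s (u' m) (u m)]
    ring
  have l6 := l1.sub l2
  have e := tendsto_nhds_unique l6 l5
  have e2 : I V (ip t U γ') = I V (ip t γ' U) := I_congr (Eventually.of_forall fun x => ip_symm hT _ _ x)
  rw [e2]
  linarith

theorem L2_lin (hV : Continuous V) {f g : E n → ℝ} (hf : L2 V f) (hg : L2 V g) (p q : ℝ) :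
    L2 V (fun x => p * f x + q * g x) := by
  have hm : Measurable (fun x => p * f x + q * g x) := (hf.1.const_mul p).add (hg.1.const_mul q)
  refine ⟨hm, ?_⟩
  exact (memLp_iff hV hm.aestronglyMeasurable).1
    (((memLp_L2 hV hf).const_mul p).add ((memLp_L2 hV hg).const_mul q))

theorem lin_aux (h : Base V t c C) (hs : 0 < s) {γ U γ' U' : E n → Fin n → ℝ} (h1 : R1 V t s γ U)
    (h2 : R1 V t s γ' U') (p q : ℝ) : R1 V t s (lin p q γ γ') (lin p q U U') := by
  obtain ⟨c1, C1, hR⟩ := h.reg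
  have hT := h.toTE
  have hV := hT.V2.continuous
  obtain ⟨u, ε, hu, htu, ⟨B, hB⟩, hε, hε0, hε1⟩ := h1.core
  obtain ⟨u', ε', hu', htu', ⟨B', hB'⟩, hε', hε0', hε1'⟩ := h2.core
  refine ⟨fun a => L2_lin hV (h1.g2 a) (h2.g2 a) p q, fun a => L2_lin hV (h1.U2 a) (h2.U2 a) p q,
    fun m => lin p q (u m) (u' m), fun m => |p| * ε m + |q| * ε' m, fun m => LCF.lin p q (hu m) (hu' m),
    fun a => ?_, ⟨2 * p ^ 2 * B + 2 * q ^ 2 * B', fun m => ?_⟩, fun m => ?_, ?_, fun m β hβ => ?_⟩
  · have k1 := l2to hV (fun m => l2_of_lcf hR (hu m) hV a) (h1.U2 a) (htu a)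
    have k2 := l2to hV (fun m => l2_of_lcf hR (hu' m) hV a) (h2.U2 a) (htu' a)
    have k3 := ((k1.smul p).add (k2.smul q)).conv
    refine k3.congr fun m => ?_
    rw [integral_mu hV]
    rfl
  · refine (NN_lin_le hT hs.le p q (hu m) (hu' m)).trans ?_
    have a1 := mul_le_mul_of_nonneg_left (hB m) (by positivity : (0 : ℝ) ≤ 2 * p ^ 2)
    have a2 := mul_le_mul_of_nonneg_left (hB' m) (by positivity : (0 : ℝ) ≤ 2 * q ^ 2)
    linarith
  · exact add_nonneg (mul_nonneg (abs_nonneg _) (hε m)) (mul_nonneg (abs_nonneg _) (hε' m))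
  · simpa using (hε0.const_mul |p|).add (hε0'.const_mul |q|)
  · have e1 : I V (ip t (lin p q γ γ') β) = p * I V (ip t γ β) + q * I V (ip t γ' β) :=
      I_lin p q (int_ip hT h1.g2 fun a => l2_of_lcf hR hβ hV a)
        (int_ip hT h2.g2 fun a => l2_of_lcf hR hβ hV a)
        (Eventually.of_forall fun x => ip_lin p q γ γ' β x)
    rw [e1, NN_lin hT p q s (hu m) (hu' m) hβ]
    have e2 : p * NN V t s (u m) β + q * NN V t s (u' m) β - (p * I V (ip t γ β) + q * I V (ip t γ' β)) =
        p * (NN V t s (u m) β - I V (ip t γ β)) + q * (NN V t s (u' m) β - I V (ip t γ' β)) := by ring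
    rw [e2]
    refine (abs_add_le _ _).trans ?_
    rw [abs_mul, abs_mul, add_mul, mul_assoc, mul_assoc]
    exact add_le_add (mul_le_mul_of_nonneg_left (hε1 m β hβ) (abs_nonneg _))
      (mul_le_mul_of_nonneg_left (hε1' m β hβ) (abs_nonneg _))

theorem r1s : StmtR1S := fun n V t c C h s hs γ U γ' U' h1 h2 =>
  ⟨symm_aux h hs h1 h2, fun p q => lin_aux h hs h1 h2 p q⟩

end Vale.Agent.P245.K.R1S
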