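import Vale.Agent.P254.Bdl.B16

/-!
# P245, covector fields: definitions (helper979)

The metric connection on covector fields of the Hessian metric with cometric `t` (in the
`x`-coordinates), the Dirichlet integrand, the curvature term, the divergence.
-/

set_option linter.all false

open MeasureTheory Filter Topology Set Metric
open scoped NNReal ENNReal ContDiff
open Vale.Agent.P227.M Vale.Agent.P227.M.K814 Vale.Agent.P254 Vale.Agent.P254.SN

namespace Vale.Agent.P245.K

variable {n : ℕ}

/-- the scalar product of two covector fields -/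
noncomputable def ip (t : E n → Matrix (Fin n) (Fin n) ℝ) (al be : E n → Fin n → ℝ) (x : E n) : ℝ :=
  ∑ a, ∑ b, t x a b * al x a * be x b

/-- covariant derivative: `(D_k al)_a` -/
noncomputable def DD (t : E n → Matrix (Fin n) (Fin n) ℝ) (al : E n → Fin n → ℝ) (k a : Fin n)
    (x : E n) : ℝ :=
  pd k (fun y => al y a) x +
    1 / 2 * ∑ c, (∑ b, (t x)⁻¹ a b * pd k (fun y => t y b c) x) * al x c

/-- the Dirichlet integrand `<D al, D be>` -/
noncomputable def Dip (t : E n → Matrix (Fin n) (Fin n) ℝ) (al be : E n → Fin n → ℝ) (x : E n) : ℝ :=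
  ∑ k, ∑ l, t x k l * ∑ a, ∑ b, t x a b * DD t al k a x * DD t be l b x

/-- the term with two first derivatives of `t` (as in `stat'`) -/
noncomputable def Sm (t : E n → Matrix (Fin n) (Fin n) ℝ) (x : E n) (a i : Fin n) : ℝ :=
  ∑ b, ∑ e, pd b (fun y => t y i e) x * pd e (fun y => t y a b) x

/-- the curvature term -/
noncomputable def Ric (V : E n → ℝ) (t : E n → Matrix (Fin n) (Fin n) ℝ) (al be : E n → Fin n → ℝ)
    (x : E n) : ℝ :=
  ∑ a, ∑ i, (1 / 4 * Sm t x a i + 1 / 2 * (t x i a +
    ∑ b, ∑ e, t x i e * pd e (pd b V) x * t x a b)) * al x a * be x i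

/-- the scalar carre du champ `<t grad f, grad g>` -/
noncomputable def Gam (t : E n → Matrix (Fin n) (Fin n) ℝ) (f g : E n → ℝ) (x : E n) : ℝ :=
  ∑ a, ∑ b, t x a b * pd a f x * pd b g x

/-- the divergence of a covector field -/
noncomputable def dvg (t : E n → Matrix (Fin n) (Fin n) ℝ) (be : E n → Fin n → ℝ) (x : E n) : ℝ :=
  (∑ a, ∑ b, t x a b * pd a (fun y => be y b) x) - ∑ b, x b * be x b

/-- the regularised length of a covector field -/
noncomputable def nrm (t : E n → Matrix (Fin n) (Fin n) ℝ) (e : ℝ) (u : E n → Fin n → ℝ) (x : E n) :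
    ℝ := Real.sqrt (ip t u u x + e ^ 2)

end Vale.Agent.P245.K
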