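import Vale.Agent.P245.H464.Tot
import Vale.Agent.P245.K.FldDef

/-!
P245, KLS by moment maps (helper13's proof; Lean text: 867, 294, 109): literal interface (helper875).

`V : E n → ℝ` potential, `t : E n → Matrix` = `τ = D²φ` (Lipschitz), measure `e^{-V} dx`,
`L f = tr (t D²f) - ⟨x, ∇f⟩`, `A = -L`.
-/

set_option linter.all false

open MeasureTheory Filter Topology Set
open scoped NNReal ENNReal ContDiff
open Vale.Agent.P227.M Vale.Agent.P227.M.K814 Vale.Agent.P254.SN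

namespace Vale.Agent.P245.K

open Vale.Agent.P245.H464 (TE Lt)

variable {n : ℕ}

/-- everything which the function side knows about `(V, t)`; all rows are stated for `Base`.
For `t = tau ψ` it is `H464.te_tau` + `Reg V`. `H464.esa`, `H464.total` apply (`Base.toTE`). -/
structure Base (V : E n → ℝ) (t : E n → Matrix (Fin n) (Fin n) ℝ) (c C : ℝ) : Prop extends TE V t c C where
  reg : ∃ c1 C1 : ℝ, Reg V c1 C1

/-- measurable and square integrable -/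
def L2 (V : E n → ℝ) (f : E n → ℝ) : Prop :=
  Measurable f ∧ Integrable (fun x => f x ^ 2 * Real.exp (-V x))

/-- `L²(e^{-V})` convergence -/
def Tends (V : E n → ℝ) (f : ℕ → E n → ℝ) (u : E n → ℝ) : Prop :=
  Tendsto (fun m => I V (fun x => (f m x - u x) ^ 2)) atTop (𝓝 0)

/-- `u ∈ D(A)`, `Du` its gradient, `Au = -L u`: closure of test functions in the graph norm (464's `Dom`
with the sequence hidden) -/
def Dom (V : E n → ℝ) (t : E n → Matrix (Fin n) (Fin n) ℝ) (u : E n → ℝ)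
    (Du : Fin n → E n → ℝ) (Au : E n → ℝ) : Prop :=
  ∃ f : ℕ → E n → ℝ, Vale.Agent.P245.H464.Dom V t f u Du Au

/-- `u ∈ H¹`, `Du` its gradient -/
structure H1 (V : E n → ℝ) (u : E n → ℝ) (Du : Fin n → E n → ℝ) : Prop where
  u2 : L2 V u
  D2 : ∀ a, L2 V (Du a)
  core : ∃ f : ℕ → E n → ℝ, (∀ m, LC (f m)) ∧ Tends V f u ∧ (∀ a, Tends V (fun m => pd a (f m)) (Du a))

/-- `|α|_t` (979's `ip`) -/
noncomputable def nt (t : E n → Matrix (Fin n) (Fin n) ℝ) (α : E n → Fin n → ℝ) (x : E n) : ℝ :=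
  Real.sqrt (ip t α α x)

/-- density of the flat form on covector fields; by `stat'` (with `Q = α_c β_a`) its integral is the integral of
979's `Dip + Ric` for Lipschitz compactly supported fields -/
noncomputable def ee (t : E n → Matrix (Fin n) (Fin n) ℝ) (α β : E n → Fin n → ℝ) (x : E n) : ℝ :=
  (∑ i, ∑ j, ∑ a, ∑ c, t x i j * t x a c * pd i (fun y => α y a) x * pd j (fun y => β y c) x) + ip t α β x

/-- `N(α, β) = E ⟨α,β⟩ + s EE(α,β)` -/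
noncomputable def NN (V : E n → ℝ) (t : E n → Matrix (Fin n) (Fin n) ℝ) (s : ℝ) (α β : E n → Fin n → ℝ) : ℝ :=
  I V (ip t α β) + s * I V (ee t α β)

/-- Lipschitz covector field with compact support -/
def LCF (β : E n → Fin n → ℝ) : Prop := ∀ a, LC (fun x => β x a)

/-- `U = (1 + s EE)⁻¹ γ` (867 (3)): near-minimisers, tested against Lipschitz compactly supported fields -/
structure R1 (V : E n → ℝ) (t : E n → Matrix (Fin n) (Fin n) ℝ) (s : ℝ) (γ U : E n → Fin n → ℝ) : Prop where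
  g2 : ∀ a, L2 V (fun x => γ x a)
  U2 : ∀ a, L2 V (fun x => U x a)
  core : ∃ (u : ℕ → E n → Fin n → ℝ) (ε : ℕ → ℝ), (∀ m, LCF (u m)) ∧
    (∀ a, Tends V (fun m x => u m x a) (fun x => U x a)) ∧
    (∃ B, ∀ m, NN V t s (u m) (u m) ≤ B) ∧ (∀ m, 0 ≤ ε m) ∧ Tendsto ε atTop (𝓝 0) ∧
    ∀ m, ∀ β : E n → Fin n → ℝ, LCF β →
      |NN V t s (u m) β - I V (ip t γ β)| ≤ ε m * Real.sqrt (NN V t s β β)

/-! ## operator rows -/

/-! OP-1, OP-2 are DONE: `H464.esa`, `H464.total`. -/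

/-- OP-3a (149 / 72): form identity -/
def StmtForm : Prop := ∀ (n : ℕ) (V : E n → ℝ) (t : E n → Matrix (Fin n) (Fin n) ℝ) (c C : ℝ), Base V t c C →
  ∀ (u Au : E n → ℝ) (Du : Fin n → E n → ℝ), Dom V t u Du Au →
  ∀ (v : E n → ℝ) (Dv : Fin n → E n → ℝ), H1 V v Dv →
    I V (fun x => Au x * v x) = I V (ip t (fun x a => Du a x) (fun x a => Dv a x))

/-- OP-3b (149 / 72): linear combinations, and `D(A) ⊂ H¹`, uniqueness -/
def StmtLin : Prop := ∀ (n : ℕ) (V : E n → ℝ) (t : E n → Matrix (Fin n) (Fin n) ℝ) (c C : ℝ), Base V t c C →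
  (∀ (u Au v Av : E n → ℝ) (Du Dv : Fin n → E n → ℝ), Dom V t u Du Au → Dom V t v Dv Av → ∀ p q : ℝ,
    Dom V t (fun x => p * u x + q * v x) (fun a x => p * Du a x + q * Dv a x)
      (fun x => p * Au x + q * Av x)) ∧
  (∀ (u Au : E n → ℝ) (Du : Fin n → E n → ℝ), Dom V t u Du Au → H1 V u Du) ∧
  (∀ (u : E n → ℝ) (Du Dv : Fin n → E n → ℝ), H1 V u Du → H1 V u Dv → ∀ a, Du a =ᵐ[volume] Dv a) ∧
  (∀ (u Au Av : E n → ℝ) (Du Dv : Fin n → E n → ℝ), Dom V t u Du Au → Dom V t u Dv Av → Au =ᵐ[volume] Av) ∧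
  (∀ (u Au v Av : E n → ℝ) (Du Dv : Fin n → E n → ℝ), Dom V t u Du Au → L2 V v →
    (∀ a, L2 V (Dv a)) → L2 V Av → u =ᵐ[volume] v → (∀ a, Du a =ᵐ[volume] Dv a) → Au =ᵐ[volume] Av →
    Dom V t v Dv Av) ∧
  Dom V t (fun _ => 1) (fun _ _ => 0) (fun _ => 0)

/-- OP-4 (20 / 265): positivity -/
def StmtPos : Prop := ∀ (n : ℕ) (V : E n → ℝ) (t : E n → Matrix (Fin n) (Fin n) ℝ) (c C : ℝ), Base V t c C →
  ∀ s : ℝ, 0 < s → ∀ (u Au : E n → ℝ) (Du : Fin n → E n → ℝ), Dom V t u Du Au →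
    (∀ᵐ x, 0 ≤ u x + s * Au x) → ∀ᵐ x, 0 ≤ u x

/-- OP-5 (700 / 283): spectral gap 1 -/
def StmtGap : Prop := ∀ (n : ℕ) (V : E n → ℝ) (t : E n → Matrix (Fin n) (Fin n) ℝ) (c C : ℝ), Base V t c C →
  ∀ (u Au : E n → ℝ) (Du : Fin n → E n → ℝ), Dom V t u Du Au →
    I V u = 0 → I V (fun x => u x ^ 2) ≤ I V (fun x => u x * Au x)

/-! ## one-forms -/

/-- W (285 / 952): `E (L f) (div β) = EE(∇f, β)` -/
def StmtW : Prop := ∀ (n : ℕ) (V : E n → ℝ) (t : E n → Matrix (Fin n) (Fin n) ℝ) (c C : ℝ), Base V t c C →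
  ∀ f : E n → ℝ, Test f → ∀ β : E n → Fin n → ℝ, LCF β →
    I V (fun x => Lt t f x * dvg t β x) = I V (ee t (fun x a => pd a f x) β)

/-- KID (828 / 979): the exact formula for `EE(v, ξ v)` gives, for Lipschitz compactly supported `v`, `w ≥ 0`:
`EE(v, (w/q) v) ≥ E Γ(w, q) + (1/2) E w |v|²/q`, `q = (|v|² + δ²)^{1/2}` = 979's `nrm t δ v` -/
def StmtKID : Prop := ∀ (n : ℕ) (V : E n → ℝ) (t : E n → Matrix (Fin n) (Fin n) ℝ) (c C : ℝ), Base V t c C →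
  ∀ v : E n → Fin n → ℝ, LCF v → ∀ w : E n → ℝ, LC w → (∀ x, 0 ≤ w x) → ∀ δ : ℝ, 0 < δ →
    I V (Gam t w (nrm t δ v)) + 1 / 2 * I V (fun x => w x * ip t v v x / nrm t δ v x) ≤
      I V (ee t v (fun x a => w x / nrm t δ v x * v x a))

/-- R1E (680 / 192): existence -/
def StmtR1E : Prop := ∀ (n : ℕ) (V : E n → ℝ) (t : E n → Matrix (Fin n) (Fin n) ℝ) (c C : ℝ), Base V t c C →
  ∀ s : ℝ, 0 < s → ∀ γ : E n → Fin n → ℝ, (∀ a, L2 V (fun x => γ x a)) → ∃ U, R1 V t s γ U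

/-- R1S (680 / 192): symmetry (hence uniqueness), linearity -/
def StmtR1S : Prop := ∀ (n : ℕ) (V : E n → ℝ) (t : E n → Matrix (Fin n) (Fin n) ℝ) (c C : ℝ), Base V t c C →
  ∀ s : ℝ, 0 < s → ∀ γ U γ' U' : E n → Fin n → ℝ, R1 V t s γ U → R1 V t s γ' U' →
    I V (ip t U γ') = I V (ip t γ U') ∧
    ∀ p q : ℝ, R1 V t s (fun x a => p * γ x a + q * γ' x a) (fun x a => p * U x a + q * U' x a)

/-- COMM (72 / 405): `∇ (1 + s A)⁻¹ = R1 ∇` -/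
def StmtComm : Prop := ∀ (n : ℕ) (V : E n → ℝ) (t : E n → Matrix (Fin n) (Fin n) ℝ) (c C : ℝ), Base V t c C →
  ∀ s : ℝ, 0 < s → ∀ (f : E n → ℝ) (Df : Fin n → E n → ℝ), H1 V f Df →
  ∀ (u Au : E n → ℝ) (Du : Fin n → E n → ℝ), Dom V t u Du Au → (∀ᵐ x, u x + s * Au x = f x) →
    R1 V t s (fun x a => Df a x) (fun x a => Du a x)

/-- KATO (867 / 828): domination -/
def StmtKato : Prop := ∀ (n : ℕ) (V : E n → ℝ) (t : E n → Matrix (Fin n) (Fin n) ℝ) (c C : ℝ), Base V t c C →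
  ∀ s : ℝ, 0 < s → ∀ γ U : E n → Fin n → ℝ, R1 V t s γ U →
  ∀ (h Ah : E n → ℝ) (Dh : Fin n → E n → ℝ), Dom V t h Dh Ah →
    (∀ᵐ x, (1 + s / 2) * h x + s * Ah x = nt t γ x) → ∀ᵐ x, nt t U x ≤ h x

/-! ## matrix functions -/

/-- bounded symmetric matrix function between `δ` and `B`, in `H¹` with bounded gradient -/
structure MF (V : E n → ℝ) (G : E n → Matrix (Fin n) (Fin n) ℝ)
    (DG : Fin n → E n → Matrix (Fin n) (Fin n) ℝ) (δ B : ℝ) : Prop where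
  d_pos : 0 < δ
  symm : ∀ x i j, G x i j = G x j i
  low : ∀ᵐ x, ∀ v : Fin n → ℝ, δ * ∑ i, v i ^ 2 ≤ ∑ i, ∑ j, G x i j * v i * v j
  upp : ∀ᵐ x, ∀ i j, |G x i j| ≤ B
  h1 : ∀ i j, H1 V (fun x => G x i j) (fun a x => DG a x i j)
  dsymm : ∀ a x i j, DG a x i j = DG a x j i
  dupp : ∀ᵐ x, ∀ a i j, |DG a x i j| ≤ B

/-- `S_G ≤ σ G`, Cauchy-Schwarz form without the inverse -/
def CS (t : E n → Matrix (Fin n) (Fin n) ℝ) (G : E n → Matrix (Fin n) (Fin n) ℝ)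
    (DG : Fin n → E n → Matrix (Fin n) (Fin n) ℝ) (σ : ℝ) : Prop :=
  ∀ᵐ x, ∀ (z : Fin n → ℝ) (ζ : Fin n → Fin n → ℝ),
    (∑ a, ∑ b, t x a b * ∑ k, ∑ l, DG a x k l * z l * ζ b k) ^ 2 ≤
      σ * (∑ k, ∑ l, G x k l * z k * z l) * ∑ a, ∑ b, t x a b * ∑ k, ∑ l, G x k l * ζ a k * ζ b l

/-- matrix inequality `P ≤ Q` a.e. -/
def Mle (P Q : E n → Matrix (Fin n) (Fin n) ℝ) : Prop :=
  ∀ᵐ x, ∀ v : Fin n → ℝ, ∑ i, ∑ j, P x i j * v i * v j ≤ ∑ i, ∑ j, Q x i j * v i * v j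

/-- STEP (386 / 132): one resolvent step for the matrix functions. `AH = A H`, `AG = A G` entrywise. -/
def StmtStep : Prop := ∀ (n : ℕ) (V : E n → ℝ) (t : E n → Matrix (Fin n) (Fin n) ℝ) (c C : ℝ), Base V t c C →
  ∀ s : ℝ, 0 < s → ∀ (δ B σ : ℝ) (H AH : E n → Matrix (Fin n) (Fin n) ℝ)
    (DH : Fin n → E n → Matrix (Fin n) (Fin n) ℝ), 0 ≤ σ → MF V H DH δ B →
    (∀ i j, Dom V t (fun x => H x i j) (fun a x => DH a x i j) (fun x => AH x i j)) →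
    Mle AH H → CS t H DH σ →
  ∀ (G AG : E n → Matrix (Fin n) (Fin n) ℝ) (DG : Fin n → E n → Matrix (Fin n) (Fin n) ℝ),
    (∀ i j, Dom V t (fun x => G x i j) (fun a x => DG a x i j) (fun x => AG x i j)) →
    (∀ x i j, G x i j = G x j i) → (∀ a x i j, DG a x i j = DG a x j i) →
    (∀ᵐ x, ∀ i j, G x i j + s * AG x i j = H x i j) →
    (∃ B', MF V G DG δ B') ∧ Mle AG G ∧ CS t G DG (σ * (1 + s) / (1 + 2 * s))

/-- BASE0 (845 / 478): the library facts about `t` itself: `t ∈ D(A)` with bounded `A t = S - ...`,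
`(1 - A) t ≥ 0` and the first step `S_{J_1 t} ≤ 2 J_1 t` (the proof gives 8/5) -/
def StmtBase0 : Prop := ∀ (n : ℕ) (V : E n → ℝ) (t : E n → Matrix (Fin n) (Fin n) ℝ) (c C : ℝ), Base V t c C →
  ∃ (B : ℝ) (At : E n → Matrix (Fin n) (Fin n) ℝ) (Dt' : Fin n → E n → Matrix (Fin n) (Fin n) ℝ),
    MF V t Dt' c B ∧ (∀ i j, Dom V t (fun x => t x i j) (fun a x => Dt' a x i j) (fun x => At x i j)) ∧
    (∀ᵐ x, ∀ i j, |At x i j| ≤ B) ∧ Mle At t ∧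
    (∀ (G AG : E n → Matrix (Fin n) (Fin n) ℝ) (DG : Fin n → E n → Matrix (Fin n) (Fin n) ℝ),
      (∀ i j, Dom V t (fun x => G x i j) (fun a x => DG a x i j) (fun x => AG x i j)) →
      (∀ x i j, G x i j = G x j i) → (∀ a x i j, DG a x i j = DG a x j i) →
      (∀ᵐ x, ∀ i j, G x i j + AG x i j = t x i j) →
      (∃ B', MF V G DG c B') ∧ Mle AG G ∧ CS t G DG 2)

/-- CHAIN (478 / 845): the whole chain `G_0 = t`, `G_k = (1 + A/k)⁻¹ G_{k-1}` -/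
def StmtChain : Prop := ∀ (n : ℕ) (V : E n → ℝ) (t : E n → Matrix (Fin n) (Fin n) ℝ) (c C : ℝ), Base V t c C →
  ∃ (B : ℕ → ℝ) (G AG : ℕ → E n → Matrix (Fin n) (Fin n) ℝ) (DG : ℕ → Fin n → E n → Matrix (Fin n) (Fin n) ℝ),
    G 0 = t ∧
    (∀ k, MF V (G k) (DG k) c (B k)) ∧
    (∀ k i j, Dom V t (fun x => G k x i j) (fun a x => DG k a x i j) (fun x => AG k x i j)) ∧
    (∀ k, ∀ᵐ x, ∀ i j, |AG k x i j| ≤ B k) ∧
    (∀ k : ℕ, ∀ᵐ x, ∀ i j, G (k + 1) x i j + (1 / ((k : ℝ) + 1)) * AG (k + 1) x i j = G k x i j) ∧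
    (∀ k, Mle (AG k) (G k)) ∧
    (∀ k : ℕ, 1 ≤ k → CS t (G k) (DG k) (6 / ((k : ℝ) + 2))) ∧
    (∀ k : ℕ, 1 ≤ k → Mle (G (k - 1)) (fun x => (1 + 1 / (k : ℝ)) • G k x)) ∧
    (∃ B', ∀ k, ∀ᵐ x, ∀ i j, |G k x i j| ≤ B') ∧
    (∀ i j, Tends V (fun k x => G k x i j) (fun _ => Ex V (fun x => t x i j)))

/-- `E ∑ G_ij Γ(z_i, e_j)` -/
noncomputable def KG (V : E n → ℝ) (t : E n → Matrix (Fin n) (Fin n) ℝ) (G : E n → Matrix (Fin n) (Fin n) ℝ)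
    (Dz De : Fin n → Fin n → E n → ℝ) : ℝ :=
  I V (fun x => ∑ i, ∑ j, G x i j * ip t (fun y a => Dz i a y) (fun y a => De j a y) x)

/-- `E ⟨G z, e⟩` -/
noncomputable def BG (V : E n → ℝ) (G : E n → Matrix (Fin n) (Fin n) ℝ) (z e : Fin n → E n → ℝ) : ℝ :=
  I V (fun x => ∑ i, ∑ j, G x i j * z i x * e j x)

/-- IDENT (19 / 522): `K_G(z,e) = (⟨Gz,Ae⟩ + ⟨G Az, e⟩ - ⟨(AG) z,e⟩)/2` for bounded `G ∈ D(A)` with bounded `AG`
and bounded gradient, `z, e ∈ D(A)ⁿ`, and the Cauchy-Schwarz inequality (h2) from `CS` -/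
def StmtIdent : Prop := ∀ (n : ℕ) (V : E n → ℝ) (t : E n → Matrix (Fin n) (Fin n) ℝ) (c C : ℝ), Base V t c C →
  ∀ (δ B : ℝ) (G AG : E n → Matrix (Fin n) (Fin n) ℝ) (DG : Fin n → E n → Matrix (Fin n) (Fin n) ℝ),
    MF V G DG δ B → (∀ i j, Dom V t (fun x => G x i j) (fun a x => DG a x i j) (fun x => AG x i j)) →
    (∀ᵐ x, ∀ i j, |AG x i j| ≤ B) →
  ∀ (z Az e Ae : Fin n → E n → ℝ) (Dz De : Fin n → Fin n → E n → ℝ),
    (∀ i, Dom V t (z i) (Dz i) (Az i)) → (∀ i, Dom V t (e i) (De i) (Ae i)) →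
    2 * KG V t G Dz De = BG V G z Ae + BG V G Az e - BG V AG z e ∧
    ∀ σ : ℝ, 0 ≤ σ → CS t G DG σ →
      (BG V G Az e - KG V t G Dz De) ^ 2 ≤ σ * KG V t G Dz Dz * BG V G e e

/-! ## abstract layer (pure Hilbert space) -/

/-- resolvents `J s = (1 + s A)⁻¹`, `z ∈ D(A)` with `A z = y` iff `J 1 (z + y) = z`; bounded symmetric forms
`B k = ⟨G_k ·, ·⟩`, `⟨A G_k ·,·⟩ = k (B (k-1) - B k)` -/
structure Abs {H : Type} [NormedAddCommGroup H] [InnerProductSpace ℝ H] [CompleteSpace H]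
    (J : ℝ → H →L[ℝ] H) (B : ℕ → H →L[ℝ] H →L[ℝ] ℝ) (H₀ : Submodule ℝ H) : Prop where
  sym : ∀ s, 0 < s → ∀ x y, inner ℝ (J s x) y = inner ℝ x (J s y)
  r1 : ∀ s, 0 < s → ∀ z y, J 1 (z + y) = z → J s (z + s • y) = z
  r2 : ∀ s, 0 < s → ∀ x, J 1 (J s x + s⁻¹ • (x - J s x)) = J s x
  pos : ∀ z y, J 1 (z + y) = z → 0 ≤ inner ℝ y z
  dense : ∀ x, Tendsto (fun m : ℕ => J (1 / ((m : ℝ) + 1)) x) atTop (𝓝 x)
  inv : ∀ s, 0 < s → ∀ x ∈ H₀, J s x ∈ H₀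
  closed : IsClosed (H₀ : Set H)
  gap : ∀ z y, J 1 (z + y) = z → z ∈ H₀ → ‖z‖ ^ 2 ≤ inner ℝ y z
  bsym : ∀ k x y, B k x y = B k y x
  bpos : ∀ k x, 0 ≤ B k x x
  h1 : ∀ k : ℕ, 1 ≤ k → ∀ x, B (k - 1) x x ≤ (1 + 1 / (k : ℝ)) * B k x x
  bdd : ∃ M, ∀ k x, B k x x ≤ M * ‖x‖ ^ 2
  h4 : ∀ x, Tendsto (fun k => B k x x) atTop (𝓝 (‖x‖ ^ 2))
  hK : ∀ k : ℕ, 1 ≤ k → ∀ z y, J 1 (z + y) = z →
    0 ≤ B k z y + (k : ℝ) / 2 * (B k z z - B (k - 1) z z)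
  h2 : ∀ k : ℕ, 1 ≤ k → ∀ z y e w, J 1 (z + y) = z → J 1 (e + w) = e →
    (B k y e - 1 / 2 * (B k z w + B k y e + (k : ℝ) * (B k z e - B (k - 1) z e))) ^ 2 ≤
      6 / ((k : ℝ) + 2) * (B k z y + (k : ℝ) / 2 * (B k z z - B (k - 1) z z)) * B k e e

/-- ABS: conclusion (K1) -/
def StmtAbs : Prop := ∃ C : ℝ, 0 < C ∧ ∀ (H : Type) [NormedAddCommGroup H] [InnerProductSpace ℝ H]
  [CompleteSpace H] (J : ℝ → H →L[ℝ] H) (B : ℕ → H →L[ℝ] H →L[ℝ] ℝ) (H₀ : Submodule ℝ H), Abs J B H₀ →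
  ∀ z y, J 1 (z + y) = z → z ∈ H₀ → B 1 z y + 1 / 2 * (B 1 z z - B 0 z z) ≤ C * ‖y‖ ^ 2

/-! ## conclusion on the function side -/

/-- isotropic -/
def Iso (V : E n → ℝ) : Prop := (∀ i, Ex V (fun x => x i) = 0) ∧
  ∀ i j : Fin n, Ex V (fun x => x i * x j) = if i = j then 1 else 0

/-- GLUE (865 / 711): from `StmtAbs`, `StmtChain`, `StmtIdent`, operator rows to (K) for `t` itself -/
def StmtK : Prop := ∃ C₀ : ℝ, 0 < C₀ ∧ ∀ (n : ℕ) (V : E n → ℝ) (t : E n → Matrix (Fin n) (Fin n) ℝ) (c C : ℝ),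
  Base V t c C → Iso V → ∀ (z Az : Fin n → E n → ℝ) (Dz : Fin n → Fin n → E n → ℝ),
  (∀ i, Dom V t (z i) (Dz i) (Az i)) → (∀ i, I V (z i) = 0) →
    KG V t t Dz Dz ≤ C₀ * ∑ i, I V (fun x => Az i x ^ 2)

/-- E2 (455 / 425): second Bochner formula, `p = t ∇U` -/
def StmtE2 : Prop := ∀ (n : ℕ) (V : E n → ℝ) (t : E n → Matrix (Fin n) (Fin n) ℝ) (c C : ℝ), Base V t c C →
  ∀ U : E n → ℝ, Test U →
    I V (fun x => ∑ a, ∑ b, pd a (fun y => Dt t b U y) x * pd b (fun y => Dt t a U y) x) ≤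
      I V (fun x => (Lt t U x) ^ 2)

/-- HP (455 / 425): from `StmtK`, `StmtE2`, `StmtGap`, `StmtForm`, `H464.total` to 235's `PoincIso` -/
def StmtPreg : Prop := ∃ C₀ : ℝ, 0 < C₀ ∧ ∀ (n : ℕ) (V : E n → ℝ) (t : E n → Matrix (Fin n) (Fin n) ℝ) (c C : ℝ),
  Base V t c C → Iso V → ∀ f : E n → ℝ, Test f →
    Ex V (fun x => f x ^ 2) - (Ex V f) ^ 2 ≤ C₀ * Ex V (fun x => ∑ a, (pd a f x) ^ 2)

end Vale.Agent.P245.K
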