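import Vale.Agent.P254.Bdl.B16
import Vale.Agent.P245.K.FldDef
import Vale.Agent.P245.H464.ESA
import Vale.Agent.P245.K.Iface

/-!
# P245, row W (helper285): `E (L f)(div be) = a(df, be)`

`t` = cometric with `TF V t`, `be` = covector field with locally Lipschitz compactly supported
components, `a(al,be) = E (Dip al be + Ric al be)`.

* `alg_dip` : the pointwise expansion of `<D al, D be>`
* `flat_pt` : `Dip + Ric = flat integrand + (1/2) (integrands of stat_pair)` pointwise
* `flat_form` : `a(al,be) = E (sum t_kl t_ab d_k al_a d_l be_b + <al,be>)`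
* `W` : `E (L f)(div be) = a(df, be)`
-/

set_option linter.all false

open MeasureTheory Filter Topology Set Metric
open scoped NNReal ENNReal ContDiff
open Vale.Agent.P227.M Vale.Agent.P227.M.K814 Vale.Agent.P254 Vale.Agent.P254.SN
open Vale.Agent.P245.H464 (Lt)

namespace Vale.Agent.P245.K

variable {n : ℕ}

/-! ## algebra -/

section alg

variable {T Ti : Matrix (Fin n) (Fin n) ℝ} {P : Fin n → Fin n → Fin n → ℝ}

/-- lowering the index: `T (A + (1/2) Ti P al) = T A + (1/2) P al` -/
theorem alg_low (hTi : T * Ti = 1) (A : Fin n → ℝ) (Pk : Fin n → Fin n → ℝ) (al : Fin n → ℝ)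
    (b : Fin n) :
    ∑ a, T b a * (A a + 1 / 2 * ∑ c, (∑ m, Ti a m * Pk m c) * al c) =
      (∑ a, T b a * A a) + 1 / 2 * ∑ c, Pk b c * al c := by
  have h1 : ∀ c, ∑ a, T b a * (∑ m, Ti a m * Pk m c) = Pk b c := by
    intro c
    have h2 : ∀ m, ∑ a, T b a * Ti a m = if b = m then 1 else 0 := by
      intro m
      have := congrFun (congrFun hTi b) m
      rw [Matrix.mul_apply] at this
      rw [this, Matrix.one_apply]
    calc ∑ a, T b a * (∑ m, Ti a m * Pk m c) = ∑ m, (∑ a, T b a * Ti a m) * Pk m c := by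
          simp only [Finset.mul_sum, Finset.sum_mul]
          rw [Finset.sum_comm]
          exact Finset.sum_congr rfl fun _ _ => Finset.sum_congr rfl fun _ _ => by ring
      _ = Pk b c := by
          simp only [h2, ite_mul, one_mul, zero_mul, Finset.sum_ite_eq, Finset.mem_univ, if_true]
  simp only [mul_add, Finset.sum_add_distrib]
  congr 1
  calc ∑ a, T b a * (1 / 2 * ∑ c, (∑ m, Ti a m * Pk m c) * al c)
      = 1 / 2 * ∑ c, (∑ a, T b a * (∑ m, Ti a m * Pk m c)) * al c := by
        simp only [Finset.mul_sum, Finset.sum_mul]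
        rw [Finset.sum_comm]
        exact Finset.sum_congr rfl fun _ _ => Finset.sum_congr rfl fun _ _ =>
          Finset.sum_congr rfl fun _ _ => by ring
    _ = 1 / 2 * ∑ c, Pk b c * al c := by simp only [h1]

/-- the quartic term -/
theorem alg_quart (hT : ∀ i j, T i j = T j i) (hTi : Ti * T = 1)
    (hH : ∀ d b k, ∑ e, T d e * P e b k = ∑ e, T b e * P e d k)
    (al be : Fin n → ℝ) :
    ∑ k, ∑ l, T k l * ∑ a, (∑ c, (∑ m, Ti a m * P k m c) * al c) * (∑ d, P l a d * be d) =
      ∑ c, ∑ d, (∑ l, ∑ a, P a l c * P l a d) * al c * be d := by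
  have h2 : ∀ a k, ∑ m, Ti a m * T m k = if a = k then 1 else 0 := by
    intro a k
    have := congrFun (congrFun hTi a) k
    rw [Matrix.mul_apply] at this
    rw [this, Matrix.one_apply]
  have h3 : ∀ l a c, ∑ k, T k l * (∑ m, Ti a m * P k m c) = P a l c := by
    intro l a c
    calc ∑ k, T k l * (∑ m, Ti a m * P k m c) = ∑ m, Ti a m * (∑ k, T l k * P k m c) := by
          simp only [Finset.mul_sum]
          rw [Finset.sum_comm]
          exact Finset.sum_congr rfl fun m _ => Finset.sum_congr rfl fun k _ => by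
            rw [hT k l]; ring
      _ = ∑ m, Ti a m * (∑ k, T m k * P k l c) := by
          exact Finset.sum_congr rfl fun m _ => by rw [hH l m c]
      _ = ∑ k, (∑ m, Ti a m * T m k) * P k l c := by
          simp only [Finset.mul_sum, Finset.sum_mul]
          rw [Finset.sum_comm]
          exact Finset.sum_congr rfl fun m _ => Finset.sum_congr rfl fun k _ => by ring
      _ = P a l c := by
          simp only [h2, ite_mul, one_mul, zero_mul, Finset.sum_ite_eq, Finset.mem_univ, if_true]
  calc ∑ k, ∑ l, T k l * ∑ a, (∑ c, (∑ m, Ti a m * P k m c) * al c) * (∑ d, P l a d * be d)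
      = ∑ l, ∑ k, ∑ a, ∑ c, ∑ d, (T k l * (∑ m, Ti a m * P k m c)) * (P l a d * al c * be d) := by
        rw [Finset.sum_comm]
        refine Finset.sum_congr rfl fun l _ => Finset.sum_congr rfl fun k _ => ?_
        rw [Finset.mul_sum]
        refine Finset.sum_congr rfl fun a _ => ?_
        rw [Finset.sum_mul_sum, Finset.mul_sum]
        refine Finset.sum_congr rfl fun c _ => ?_
        rw [Finset.mul_sum]
        exact Finset.sum_congr rfl fun d _ => by ring
    _ = ∑ l, ∑ a, ∑ c, ∑ d, ∑ k, (T k l * (∑ m, Ti a m * P k m c)) * (P l a d * al c * be d) := by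
        refine Finset.sum_congr rfl fun l _ => ?_
        rw [Finset.sum_comm]
        refine Finset.sum_congr rfl fun a _ => ?_
        rw [Finset.sum_comm]
        refine Finset.sum_congr rfl fun c _ => ?_
        rw [Finset.sum_comm]
    _ = ∑ l, ∑ a, ∑ c, ∑ d, P a l c * (P l a d * al c * be d) := by
        refine Finset.sum_congr rfl fun l _ => Finset.sum_congr rfl fun a _ =>
          Finset.sum_congr rfl fun c _ => Finset.sum_congr rfl fun d _ => ?_
        rw [← Finset.sum_mul, h3 l a c]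
    _ = ∑ c, ∑ d, (∑ l, ∑ a, P a l c * P l a d) * al c * be d := by
        have e1 : ∀ l, ∑ a, ∑ c, ∑ d, P a l c * (P l a d * al c * be d) =
            ∑ c, ∑ d, ∑ a, P a l c * (P l a d * al c * be d) := by
          intro l
          rw [Finset.sum_comm]
          exact Finset.sum_congr rfl fun c _ => by rw [Finset.sum_comm]
        simp only [e1]
        rw [Finset.sum_comm]
        refine Finset.sum_congr rfl fun c _ => ?_
        rw [Finset.sum_comm]
        refine Finset.sum_congr rfl fun d _ => ?_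
        simp only [Finset.sum_mul]
        exact Finset.sum_congr rfl fun _ _ => Finset.sum_congr rfl fun _ _ => by ring

/-- expansion of `<D al, D be>` -/
theorem alg_dip (hT : ∀ i j, T i j = T j i) (hTi : T * Ti = 1)
    (hH : ∀ d b k, ∑ e, T d e * P e b k = ∑ e, T b e * P e d k)
    (A B : Fin n → Fin n → ℝ) (al be : Fin n → ℝ) :
    ∑ k, ∑ l, T k l * ∑ a, ∑ b, T a b *
        (A k a + 1 / 2 * ∑ c, (∑ m, Ti a m * P k m c) * al c) *
        (B l b + 1 / 2 * ∑ c, (∑ m, Ti b m * P l m c) * be c) =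
      (∑ k, ∑ l, T k l * ∑ a, ∑ b, T a b * A k a * B l b)
      + 1 / 2 * (∑ k, ∑ l, T k l * ∑ a, (∑ c, P k a c * al c) * B l a)
      + 1 / 2 * (∑ k, ∑ l, T k l * ∑ a, A k a * ∑ c, P l a c * be c)
      + 1 / 4 * ∑ c, ∑ d, (∑ l, ∑ a, P a l c * P l a d) * al c * be d := by
  have hTi' : Ti * T = 1 := mul_eq_one_comm.mp hTi
  rw [← alg_quart hT hTi' hH al be]
  have key : ∀ k l, ∑ a, ∑ b, T a b *
        (A k a + 1 / 2 * ∑ c, (∑ m, Ti a m * P k m c) * al c) *
        (B l b + 1 / 2 * ∑ c, (∑ m, Ti b m * P l m c) * be c) =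
      (∑ a, ∑ b, T a b * A k a * B l b) + 1 / 2 * (∑ a, (∑ c, P k a c * al c) * B l a)
      + 1 / 2 * (∑ a, A k a * ∑ c, P l a c * be c)
      + 1 / 4 * ∑ a, (∑ c, (∑ m, Ti a m * P k m c) * al c) * (∑ d, P l a d * be d) := by
    intro k l
    set U : Fin n → ℝ := fun a => A k a + 1 / 2 * ∑ c, (∑ m, Ti a m * P k m c) * al c with hU
    set W : Fin n → ℝ := fun b => B l b + 1 / 2 * ∑ c, (∑ m, Ti b m * P l m c) * be c with hW
    have hWl : ∀ a, ∑ b, T a b * W b = (∑ b, T a b * B l b) + 1 / 2 * ∑ c, P l a c * be c :=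
      fun a => alg_low hTi (B l) (P l) be a
    have hUl : ∀ b, ∑ a, T b a * U a = (∑ a, T b a * A k a) + 1 / 2 * ∑ c, P k b c * al c :=
      fun b => alg_low hTi (A k) (P k) al b
    have s1 : ∑ a, ∑ b, T a b * U a * W b = ∑ a, U a * ∑ b, T a b * W b := by
      refine Finset.sum_congr rfl fun a _ => ?_
      rw [Finset.mul_sum]
      exact Finset.sum_congr rfl fun b _ => by ring
    have s2 : ∑ a, U a * ∑ b, T a b * B l b = ∑ b, (∑ a, T b a * U a) * B l b := by
      simp only [Finset.mul_sum, Finset.sum_mul]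
      rw [Finset.sum_comm]
      exact Finset.sum_congr rfl fun b _ => Finset.sum_congr rfl fun a _ => by
        rw [hT a b]; ring
    have s3 : ∑ b, (∑ a, T b a * A k a) * B l b = ∑ a, ∑ b, T a b * A k a * B l b := by
      simp only [Finset.sum_mul]
      rw [Finset.sum_comm]
      exact Finset.sum_congr rfl fun a _ => Finset.sum_congr rfl fun b _ => by rw [hT b a]
    rw [s1]
    simp only [hWl, mul_add, Finset.sum_add_distrib]
    rw [s2]
    simp only [hUl, add_mul, Finset.sum_add_distrib]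
    rw [s3]
    have s4 : ∑ a, U a * (1 / 2 * ∑ c, P l a c * be c) =
        1 / 2 * (∑ a, A k a * ∑ c, P l a c * be c)
        + 1 / 4 * ∑ a, (∑ c, (∑ m, Ti a m * P k m c) * al c) * (∑ d, P l a d * be d) := by
      rw [Finset.mul_sum, Finset.mul_sum, ← Finset.sum_add_distrib]
      refine Finset.sum_congr rfl fun a _ => ?_
      simp only [hU]
      ring
    have s5 : ∑ b, 1 / 2 * (∑ c, P k b c * al c) * B l b =
        1 / 2 * ∑ a, (∑ c, P k a c * al c) * B l a := by
      rw [Finset.mul_sum]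
      exact Finset.sum_congr rfl fun a _ => by ring
    rw [s4, s5]
    ring
  have fin : ∀ X Y Z Q : Fin n → Fin n → ℝ,
      ∑ k, ∑ l, T k l * (X k l + 1 / 2 * Y k l + 1 / 2 * Z k l + 1 / 4 * Q k l) =
      (∑ k, ∑ l, T k l * X k l) + 1 / 2 * (∑ k, ∑ l, T k l * Y k l)
      + 1 / 2 * (∑ k, ∑ l, T k l * Z k l) + 1 / 4 * (∑ k, ∑ l, T k l * Q k l) := by
    intro X Y Z Q
    simp only [Finset.mul_sum, ← Finset.sum_add_distrib]
    exact Finset.sum_congr rfl fun _ _ => Finset.sum_congr rfl fun _ _ => by ring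
  exact (Finset.sum_congr rfl fun k _ => Finset.sum_congr rfl fun l _ => by
    rw [key k l]).trans (fin _ _ _ _)

theorem sum3_rot (F : Fin n → Fin n → Fin n → ℝ) :
    ∑ a, ∑ b, ∑ c, F a b c = ∑ b, ∑ c, ∑ a, F a b c := by
  rw [Finset.sum_comm]
  exact Finset.sum_congr rfl fun b _ => Finset.sum_comm

theorem sum4_pair (F : Fin n → Fin n → Fin n → Fin n → ℝ) :
    ∑ b, ∑ e, ∑ a, ∑ i, F b e a i = ∑ a, ∑ i, ∑ b, ∑ e, F b e a i :=
  calc ∑ b, ∑ e, ∑ a, ∑ i, F b e a i = ∑ b, ∑ a, ∑ i, ∑ e, F b e a i :=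
        Finset.sum_congr rfl fun b _ => sum3_rot (F b)
    _ = ∑ a, ∑ i, ∑ b, ∑ e, F b e a i := sum3_rot fun b a i => ∑ e, F b e a i

theorem sum4_swap (F : Fin n → Fin n → Fin n → Fin n → ℝ) :
    ∑ e, ∑ b, ∑ i, ∑ a, F e b i a = ∑ a, ∑ i, ∑ b, ∑ e, F e b i a :=
  calc ∑ e, ∑ b, ∑ i, ∑ a, F e b i a = ∑ b, ∑ e, ∑ i, ∑ a, F e b i a := Finset.sum_comm
    _ = ∑ b, ∑ e, ∑ a, ∑ i, F e b i a :=
        Finset.sum_congr rfl fun b _ => Finset.sum_congr rfl fun e _ => Finset.sum_comm
    _ = ∑ a, ∑ i, ∑ b, ∑ e, F e b i a := sum4_pair fun b e a i => F e b i a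

end alg

/-! ## the pointwise identity -/

variable {V : E n → ℝ} {t : E n → Matrix (Fin n) (Fin n) ℝ}

/-- the flat integrand -/
noncomputable def flt (t : E n → Matrix (Fin n) (Fin n) ℝ) (al be : E n → Fin n → ℝ) (x : E n) : ℝ :=
  ∑ k, ∑ l, t x k l * ∑ a, ∑ b, t x a b * pd k (fun y => al y a) x * pd l (fun y => be y b) x

/-- the integrand of `stat_pair` -/
noncomputable def stI (V : E n → ℝ) (t : E n → Matrix (Fin n) (Fin n) ℝ) (a i : Fin n)
    (Q : E n → ℝ) (x : E n) : ℝ :=
  (∑ b, ∑ e, t x i e * pd e (pd b V) x * t x a b) * Q x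
      + (∑ b, Dt t b (fun y => t y i a) x * pd b Q x)
      + (∑ b, ∑ e, pd b (fun y => t y i e) x * pd e (fun y => t y a b) x) * Q x
      - t x i a * Q x

theorem flat_pt {x : E n} (hs : ∀ y i j, t y i j = t y j i) (hinv : t x * (t x)⁻¹ = 1)
    (htot : ∀ d b k, ∑ e, t x d e * pd e (fun z => t z b k) x =
      ∑ e, t x b e * pd e (fun z => t z d k) x)
    {al be : E n → Fin n → ℝ} (hal : ∀ a, DifferentiableAt ℝ (fun y => al y a) x)
    (hbe : ∀ a, DifferentiableAt ℝ (fun y => be y a) x) :
    Dip t al be x + Ric V t al be x = flt t al be x + ip t al be x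
      + 1 / 2 * ∑ a, ∑ i, stI V t a i (fun y => al y a * be y i) x := by
  have hP : ∀ k i j, pd k (fun y => t y i j) x = pd k (fun y => t y j i) x := by
    intro k i j
    have : (fun y => t y i j) = fun y => t y j i := funext fun y => hs y i j
    rw [this]
  have e1 := alg_dip (T := t x) (Ti := (t x)⁻¹) (P := fun k i j => pd k (fun y => t y i j) x)
    (hs x) hinv htot (fun k a => pd k (fun y => al y a) x) (fun l b => pd l (fun y => be y b) x)
    (al x) (be x)
  have e2 : Dip t al be x = (∑ k, ∑ l, t x k l * ∑ a, ∑ b, t x a b * pd k (fun y => al y a) x *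
        pd l (fun y => be y b) x)
      + 1 / 2 * (∑ k, ∑ l, t x k l * ∑ a, (∑ c, pd k (fun y => t y a c) x * al x c) *
        pd l (fun y => be y a) x)
      + 1 / 2 * (∑ k, ∑ l, t x k l * ∑ a, pd k (fun y => al y a) x *
        ∑ c, pd l (fun y => t y a c) x * be x c)
      + 1 / 4 * ∑ c, ∑ d, (∑ l, ∑ a, pd a (fun y => t y l c) x * pd l (fun y => t y a d) x) *
        al x c * be x d := e1
  have e3 : (∑ k, ∑ l, t x k l * ∑ a, (∑ c, pd k (fun y => t y a c) x * al x c) *
        pd l (fun y => be y a) x) =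
      ∑ a, ∑ i, ∑ b, Dt t b (fun y => t y i a) x * (al x a * pd b (fun y => be y i) x) := by
    have s1 : (∑ k, ∑ l, t x k l * ∑ a, (∑ c, pd k (fun y => t y a c) x * al x c) *
        pd l (fun y => be y a) x) = ∑ e, ∑ b, ∑ i, ∑ a,
          t x b e * pd e (fun y => t y i a) x * (al x a * pd b (fun y => be y i) x) := by
      refine Finset.sum_congr rfl fun e _ => Finset.sum_congr rfl fun b _ => ?_
      rw [Finset.mul_sum]
      refine Finset.sum_congr rfl fun i _ => ?_
      rw [Finset.sum_mul, Finset.mul_sum]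
      exact Finset.sum_congr rfl fun a _ => by rw [hs x e b]; ring
    rw [s1, sum4_swap]
    refine Finset.sum_congr rfl fun a _ => Finset.sum_congr rfl fun i _ =>
      Finset.sum_congr rfl fun b _ => ?_
    unfold Dt
    rw [Finset.sum_mul]
  have e4 : (∑ k, ∑ l, t x k l * ∑ a, pd k (fun y => al y a) x *
        ∑ c, pd l (fun y => t y a c) x * be x c) =
      ∑ a, ∑ i, ∑ b, Dt t b (fun y => t y i a) x * (pd b (fun y => al y a) x * be x i) := by
    have s1 : (∑ k, ∑ l, t x k l * ∑ a, pd k (fun y => al y a) x *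
        ∑ c, pd l (fun y => t y a c) x * be x c) = ∑ b, ∑ e, ∑ a, ∑ i,
          t x b e * pd e (fun y => t y i a) x * (pd b (fun y => al y a) x * be x i) := by
      refine Finset.sum_congr rfl fun b _ => Finset.sum_congr rfl fun e _ => ?_
      rw [Finset.mul_sum]
      refine Finset.sum_congr rfl fun a _ => ?_
      rw [Finset.mul_sum, Finset.mul_sum]
      exact Finset.sum_congr rfl fun i _ => by rw [hP e a i]; ring
    rw [s1, sum4_pair]
    refine Finset.sum_congr rfl fun a _ => Finset.sum_congr rfl fun i _ =>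
      Finset.sum_congr rfl fun b _ => ?_
    unfold Dt
    rw [Finset.sum_mul]
  have e5 : ∑ c, ∑ d, (∑ l, ∑ a, pd a (fun y => t y l c) x * pd l (fun y => t y a d) x) *
        al x c * be x d = ∑ a, ∑ i, Sm t x a i * al x a * be x i := by
    refine Finset.sum_congr rfl fun c _ => Finset.sum_congr rfl fun d _ => ?_
    unfold Sm
    have s1 : (∑ l, ∑ a, pd a (fun y => t y l c) x * pd l (fun y => t y a d) x) =
        ∑ b, ∑ e, pd b (fun y => t y d e) x * pd e (fun y => t y c b) x := by
      refine Finset.sum_congr rfl fun b _ => Finset.sum_congr rfl fun e _ => ?_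
      rw [hP e b c, hP b e d]; ring
    rw [s1]
  have e6 : ∀ a i, stI V t a i (fun y => al y a * be y i) x =
      (∑ b, ∑ e, t x i e * pd e (pd b V) x * t x a b) * (al x a * be x i)
      + (∑ b, Dt t b (fun y => t y i a) x * (pd b (fun y => al y a) x * be x i))
      + (∑ b, Dt t b (fun y => t y i a) x * (al x a * pd b (fun y => be y i) x))
      + Sm t x a i * (al x a * be x i) - t x i a * (al x a * be x i) := by
    intro a i
    have s1 : ∀ b, pd b (fun y => al y a * be y i) x =
        pd b (fun y => al y a) x * be x i + al x a * pd b (fun y => be y i) x := fun b =>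
      Vale.Agent.P227.M.rpd_mul (hal a) (hbe i)
    have s2 : (∑ b, Dt t b (fun y => t y i a) x * pd b (fun y => al y a * be y i) x) =
        (∑ b, Dt t b (fun y => t y i a) x * (pd b (fun y => al y a) x * be x i))
        + (∑ b, Dt t b (fun y => t y i a) x * (al x a * pd b (fun y => be y i) x)) := by
      rw [← Finset.sum_add_distrib]
      exact Finset.sum_congr rfl fun b _ => by rw [s1 b]; ring
    unfold stI Sm
    rw [s2]
    ring
  simp only [e6]
  rw [e2, e3, e4, e5]
  unfold Ric flt ip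
  have e7 : ∀ F G : Fin n → Fin n → ℝ, (∑ a, ∑ i, F a i) + (∑ a, ∑ i, G a i) =
      ∑ a, ∑ i, (F a i + G a i) := by
    intro F G
    simp only [Finset.sum_add_distrib]
  have e8 : ∀ (c : ℝ) (F : Fin n → Fin n → ℝ), c * (∑ a, ∑ i, F a i) = ∑ a, ∑ i, c * F a i := by
    intro c F
    simp only [Finset.mul_sum]
  rw [add_assoc, add_assoc, add_assoc, add_assoc]
  congr 1
  rw [e8, e8, e8, e8, e7, e7, e7, e7]
  refine Finset.sum_congr rfl fun a _ => Finset.sum_congr rfl fun i _ => ?_
  rw [hs x i a]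
  ring

/-! ## integration -/

theorem ci_stI (h : TF V t) {Q : E n → ℝ} (hQ : LC Q) (a i : Fin n) : CI (stI V t a i Q) := by
  have hVa : ∀ b, ContDiff ℝ 1 (pd b V) := fun b => FlatB.contDiff_pd h.V2 b
  have hVc : ∀ e b, Bd (pd e (pd b V)) := fun e b =>
    Bd.of_cont (FlatB.continuous_pd (hVa b) e)
  have bt : ∀ p q, Bd (fun x => t x p q) := fun p q => Bd.of_ll (tll h p q)
  have bp : ∀ k p q, Bd (pd k (fun x => t x p q)) := fun k p q => Bd.pd (tll h p q) k
  have cQ : CI Q := CI.of_lc hQ
  refine CI.sub (CI.add (CI.add ?_ ?_) ?_) ?_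
  · exact CI.mul_left (Bd.sum _ fun b _ => Bd.sum _ fun e _ => ((bt i e).mul (hVc e b)).mul (bt a b)) cQ
  · exact CI.sum _ fun b _ => CI.mul_left (bd_Dt h (tll h i a) b) (CI.pd hQ b)
  · exact CI.mul_left (Bd.sum _ fun b _ => Bd.sum _ fun e _ => (bp b i e).mul (bp e a b)) cQ
  · exact CI.mul_left (bt i a) cQ

theorem ci_flt (h : TF V t) {al be : E n → Fin n → ℝ}
    (hal : ∀ a, LocallyLipschitz (fun x => al x a)) (hbe : ∀ a, LC (fun x => be x a)) :
    CI (flt t al be) := by
  have bt : ∀ p q, Bd (fun x => t x p q) := fun p q => Bd.of_ll (tll h p q)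
  exact CI.sum _ fun k _ => CI.sum _ fun l _ => CI.mul_left (bt k l) <| CI.sum _ fun a _ =>
    CI.sum _ fun b _ => CI.mul_left ((bt a b).mul (Bd.pd (hal a) k)) (CI.pd (hbe b) l)

theorem ci_ip (h : TF V t) {al be : E n → Fin n → ℝ}
    (hal : ∀ a, LocallyLipschitz (fun x => al x a)) (hbe : ∀ a, LC (fun x => be x a)) :
    CI (ip t al be) := by
  have bt : ∀ p q, Bd (fun x => t x p q) := fun p q => Bd.of_ll (tll h p q)
  exact CI.sum _ fun a _ => CI.sum _ fun b _ =>
    CI.mul_left ((bt a b).mul (Bd.of_ll (hal a))) (CI.of_lc (hbe b))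

theorem I_const_mul (c : ℝ) (V f : E n → ℝ) : I V (fun x => c * f x) = c * I V f := by
  unfold I
  rw [← integral_const_mul]
  exact integral_congr_ae (Eventually.of_forall fun x => by simp only []; ring)

theorem CI.const_mul' {f : E n → ℝ} (c : ℝ) (hf : CI f) : CI (fun x => c * f x) :=
  CI.mul_left (Bd.of_cont continuous_const) hf

/-- **the flat form of `a(al,be)`** -/
theorem flat_form (h : TF V t) (hinv : ∀ x, t x * (t x)⁻¹ = 1) {al be : E n → Fin n → ℝ}
    (hal : ∀ a, LocallyLipschitz (fun x => al x a)) (hald : ∀ᵐ x, ∀ a, DifferentiableAt ℝ (fun y => al y a) x)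
    (hbe : ∀ a, LC (fun x => be x a)) :
    I V (fun x => Dip t al be x + Ric V t al be x) = I V (fun x => flt t al be x + ip t al be x) := by
  have hV1 : ContDiff ℝ 1 V := h.V2.of_le (by norm_num)
  have hVc := hV1.continuous
  have hQ : ∀ a i, LC (fun y => al y a * be y i) := fun a i => LC.mul_left (hal a) (hbe i)
  have hst : ∀ a i, I V (stI V t a i (fun y => al y a * be y i)) = 0 := fun a i =>
    stat_pair h (hQ a i) a i
  have hS : I V (fun x => 1 / 2 * ∑ a, ∑ i, stI V t a i (fun y => al y a * be y i) x) = 0 := by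
    rw [I_const_mul, I_sum _ hVc fun a _ => CI.sum _ fun i _ => ci_stI h (hQ a i) a i]
    rw [Finset.sum_eq_zero, mul_zero]
    intro a _
    rw [I_sum _ hVc fun i _ => ci_stI h (hQ a i) a i]
    exact Finset.sum_eq_zero fun i _ => hst a i
  have hcS : CI (fun x => 1 / 2 * ∑ a, ∑ i, stI V t a i (fun y => al y a * be y i) x) :=
    CI.const_mul' (1 / 2) (CI.sum _ fun a _ => CI.sum _ fun i _ => ci_stI h (hQ a i) a i)
  have hadd := I_add hVc ((ci_flt h hal hbe).add (ci_ip h hal hbe)) hcS
  rw [hS, add_zero] at hadd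
  rw [← hadd]
  refine I_congr ?_
  have hbd : ∀ᵐ x, ∀ a, DifferentiableAt ℝ (fun y => be y a) x := by
    rw [ae_all_iff]
    exact fun a => (hbe a).ae_diff
  filter_upwards [hald, hbd, h.tot] with x hx1 hx2 hx3
  exact flat_pt h.symm (hinv x) hx3 hx1 hx2

/-! ## the scalar part -/

/-- `∂_a f` and `∂_a ∂_b f` are test functions -/
theorem test_pd {f : E n → ℝ} (hf : Test f) (a : Fin n) : Test (pd a f) :=
  ⟨contDiff_pd_top hf.1 a, hcs_pd hf.2 a⟩

theorem lc_Lt (h : TF V t) {f : E n → ℝ} (hf : Test f) : LC (Lt t f) := by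
  refine LC.sub ?_ ?_
  · exact LC.sum _ fun i _ => LC.sum _ fun j _ =>
      LC.mul_left (tll h i j) (Test.lc (test_pd (test_pd hf j) i))
  · exact LC.sum _ fun i _ => LC.mul_left (ll_coord i) (Test.lc (test_pd hf i))

theorem ci_dvg (h : TF V t) {be : E n → Fin n → ℝ} (hbe : ∀ a, LC (fun x => be x a)) :
    CI (dvg t be) := by
  have bt : ∀ p q, Bd (fun x => t x p q) := fun p q => Bd.of_ll (tll h p q)
  refine CI.sub ?_ ?_
  · exact CI.sum _ fun a _ => CI.sum _ fun b _ => CI.mul_left (bt a b) (CI.pd (hbe b) a)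
  · exact CI.sum _ fun b _ => CI.mul_left (Bd.of_ll (ll_coord b)) (CI.of_lc (hbe b))

/-- the derivative of `L f` -/
theorem pd_Lt {f : E n → ℝ} (hf : Test f) {x : E n}
    (hx : ∀ i j, DifferentiableAt ℝ (fun y => t y i j) x) (a : Fin n) :
    pd a (Lt t f) x = (∑ i, ∑ j, (pd a (fun y => t y i j) x * hess f x i j
      + t x i j * pd a (pd i (pd j f)) x)) - pd a f x - ∑ i, x i * hess f x a i := by
  have hd1 : ∀ i, DifferentiableAt ℝ (pd i f) x := fun i =>
    ((test_pd hf i).1.differentiable (by simp)).differentiableAt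
  have hd2 : ∀ i j, DifferentiableAt ℝ (pd i (pd j f)) x := fun i j =>
    ((test_pd (test_pd hf j) i).1.differentiable (by simp)).differentiableAt
  have h1 : ∀ i j, DifferentiableAt ℝ (fun y => t y i j * hess f y i j) x := fun i j =>
    (hx i j).fun_mul (hd2 i j)
  have h2 : ∀ i, DifferentiableAt ℝ (fun y => y i * pd i f y) x := fun i =>
    (rad_diff_coord i x).fun_mul (hd1 i)
  have e1 : pd a (fun y => ∑ i, ∑ j, t y i j * hess f y i j) x =
      ∑ i, ∑ j, (pd a (fun y => t y i j) x * hess f x i j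
      + t x i j * pd a (pd i (pd j f)) x) := by
    rw [Vale.Agent.P227.M.rpd_sum (fun i _ => DifferentiableAt.fun_sum fun j _ => h1 i j)]
    refine Finset.sum_congr rfl fun i _ => ?_
    rw [Vale.Agent.P227.M.rpd_sum (fun j _ => h1 i j)]
    refine Finset.sum_congr rfl fun j _ => ?_
    exact Vale.Agent.P227.M.rpd_mul (hx i j) (hd2 i j)
  have e2 : pd a (fun y : E n => ∑ i, y i * pd i f y) x = pd a f x + ∑ i, x i * hess f x a i := by
    rw [Vale.Agent.P227.M.rpd_sum (fun i _ => h2 i)]
    have e3 : ∀ i, pd a (fun y : E n => y i * pd i f y) x =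
        (if i = a then pd i f x else 0) + x i * hess f x a i := by
      intro i
      rw [Vale.Agent.P227.M.rpd_mul (rad_diff_coord i x) (hd1 i), rpd_coord]
      unfold hess
      split_ifs <;> ring
    simp only [e3, Finset.sum_add_distrib, Finset.sum_ite_eq', Finset.mem_univ, if_true]
  have e4 : pd a (Lt t f) x = pd a (fun y => ∑ i, ∑ j, t y i j * hess f y i j) x -
      pd a (fun y : E n => ∑ i, y i * pd i f y) x :=
    Vale.Agent.P227.M.rpd_sub (DifferentiableAt.fun_sum fun i _ => DifferentiableAt.fun_sum fun j _ => h1 i j)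
      (DifferentiableAt.fun_sum fun i _ => h2 i)
  rw [e4, e1, e2]
  ring

/-- third derivatives commute -/
theorem third_comm {f : E n → ℝ} (hf : Test f) (x : E n) (a l j : Fin n) :
    pd a (pd l (pd j f)) x = pd l (pd j (pd a f)) x := by
  have h2 : ∀ {g : E n → ℝ}, Test g → ContDiff ℝ 2 g := fun hg => hg.1.of_le (by norm_cast)
  have s1 : ∀ {g : E n → ℝ}, Test g → ∀ p q, pd p (pd q g) = pd q (pd p g) := by
    intro g hg p q
    funext y
    exact rad_hess_symm (h2 hg) y p q
  rw [s1 (test_pd hf j) a l, s1 hf a j]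

/-- the transported gradient of `L f` -/
theorem alg_W (h : TF V t) {f : E n → ℝ} (hf : Test f) {x : E n}
    (hx : ∀ i j, DifferentiableAt ℝ (fun y => t y i j) x)
    (htot : ∀ d b k, ∑ e, t x d e * pd e (fun z => t z b k) x =
      ∑ e, t x b e * pd e (fun z => t z d k) x) (b : Fin n) :
    Dt t b (Lt t f) x = (∑ j, ∑ a, ∑ l, t x j l * (pd l (fun y => t y b a) x * hess f x j a
      + t x b a * pd l (pd j (pd a f)) x)) - (∑ j, ∑ a, x j * (t x b a * hess f x j a))
      - ∑ a, t x b a * pd a f x := by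
  have hs := h.symm x
  have hhs : ∀ i j, hess f x i j = hess f x j i := fun i j =>
    rad_hess_symm (hf.1.of_le (by norm_cast)) x i j
  unfold Dt
  simp only [pd_Lt hf hx]
  have e1 : ∑ a, t x b a * ((∑ i, ∑ j, (pd a (fun y => t y i j) x * hess f x i j
      + t x i j * pd a (pd i (pd j f)) x)) - pd a f x - ∑ i, x i * hess f x a i) =
      (∑ a, ∑ i, ∑ j, t x b a * (pd a (fun y => t y i j) x * hess f x i j))
      + (∑ a, ∑ i, ∑ j, t x b a * (t x i j * pd a (pd i (pd j f)) x))
      - (∑ a, ∑ i, x i * (t x b a * hess f x a i)) - ∑ a, t x b a * pd a f x := by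
    rw [← Finset.sum_add_distrib, ← Finset.sum_sub_distrib, ← Finset.sum_sub_distrib]
    refine Finset.sum_congr rfl fun a _ => ?_
    have f1 : (∑ i, ∑ j, (pd a (fun y => t y i j) x * hess f x i j
      + t x i j * pd a (pd i (pd j f)) x)) = (∑ i, ∑ j, pd a (fun y => t y i j) x * hess f x i j)
      + ∑ i, ∑ j, t x i j * pd a (pd i (pd j f)) x := by
      simp only [Finset.sum_add_distrib]
    have f2 : ∑ i, ∑ j, t x b a * (pd a (fun y => t y i j) x * hess f x i j) =
        t x b a * ∑ i, ∑ j, pd a (fun y => t y i j) x * hess f x i j := by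
      simp only [Finset.mul_sum]
    have f3 : ∑ i, ∑ j, t x b a * (t x i j * pd a (pd i (pd j f)) x) =
        t x b a * ∑ i, ∑ j, t x i j * pd a (pd i (pd j f)) x := by
      simp only [Finset.mul_sum]
    have f4 : ∑ i, x i * (t x b a * hess f x a i) = t x b a * ∑ i, x i * hess f x a i := by
      rw [Finset.mul_sum]
      exact Finset.sum_congr rfl fun i _ => by ring
    rw [f1, f2, f3, f4]
    ring
  rw [e1]
  have e2 : (∑ a, ∑ i, ∑ j, t x b a * (pd a (fun y => t y i j) x * hess f x i j)) =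
      ∑ j, ∑ a, ∑ l, t x j l * (pd l (fun y => t y b a) x * hess f x j a) := by
    rw [sum3_rot]
    refine Finset.sum_congr rfl fun j _ => Finset.sum_congr rfl fun a _ => ?_
    calc ∑ l, t x b l * (pd l (fun y => t y j a) x * hess f x j a)
        = (∑ l, t x b l * pd l (fun y => t y j a) x) * hess f x j a := by
          rw [Finset.sum_mul]
          exact Finset.sum_congr rfl fun l _ => by ring
      _ = (∑ l, t x j l * pd l (fun y => t y b a) x) * hess f x j a := by rw [htot b j a]
      _ = _ := by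
          rw [Finset.sum_mul]
          exact Finset.sum_congr rfl fun l _ => by ring
  have e3 : (∑ a, ∑ i, ∑ j, t x b a * (t x i j * pd a (pd i (pd j f)) x)) =
      ∑ j, ∑ a, ∑ l, t x j l * (t x b a * pd l (pd j (pd a f)) x) := by
    rw [Finset.sum_comm]
    rw [sum3_rot fun i a j => t x b a * (t x i j * pd a (pd i (pd j f)) x)]
    rw [Finset.sum_comm]
    refine Finset.sum_congr rfl fun j _ => Finset.sum_congr rfl fun a _ =>
      Finset.sum_congr rfl fun l _ => ?_
    rw [third_comm hf x a l j, hs l j]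
    ring
  have e4 : (∑ a, ∑ i, x i * (t x b a * hess f x a i)) =
      ∑ j, ∑ a, x j * (t x b a * hess f x j a) := by
    rw [Finset.sum_comm]
    exact Finset.sum_congr rfl fun i _ => Finset.sum_congr rfl fun a _ => by rw [hhs a i]
  rw [e2, e3, e4]
  have e5 : (∑ j, ∑ a, ∑ l, t x j l * (pd l (fun y => t y b a) x * hess f x j a
      + t x b a * pd l (pd j (pd a f)) x)) =
      (∑ j, ∑ a, ∑ l, t x j l * (pd l (fun y => t y b a) x * hess f x j a)) +
      ∑ j, ∑ a, ∑ l, t x j l * (t x b a * pd l (pd j (pd a f)) x) := by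
    simp only [mul_add, Finset.sum_add_distrib]
  rw [e5]

/-- `(L f)(div be)` in flat form -/
theorem W1 (h : TF V t) {f : E n → ℝ} (hf : Test f) {be : E n → Fin n → ℝ}
    (hbe : ∀ a, LC (fun x => be x a)) :
    I V (fun x => Lt t f x * dvg t be x) =
      I V (fun x => flt t (fun y a => pd a f y) be x + ip t (fun y a => pd a f y) be x) := by
  have hV1 : ContDiff ℝ 1 V := h.V2.of_le (by norm_num)
  have hVc := hV1.continuous
  have hF : LC (Lt t f) := lc_Lt h hf
  have hal : ∀ a, LocallyLipschitz (fun x => pd a f x) := fun a => (Test.lc (test_pd hf a)).1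
  have hT : ∀ b, LC (fun y => Lt t f y * be y b) := fun b => LC.mul_left hF.1 (hbe b)
  have hS : ∀ b j a, LC (fun y => be y b * (t y b a * hess f y j a)) := fun b j a =>
    LC.mul_left (hbe b).1 (LC.mul_left (tll h b a) (Test.lc (test_pd (test_pd hf a) j)))
  have cT : ∀ b, CI (fun x => Dt t b (fun y => Lt t f y * be y b) x - x b * (Lt t f x * be x b)) :=
    fun b => (ci_Dt h (hT b) b).sub (CI.of_lc (LC.mul_left (ll_coord b) (hT b)))
  have cS : ∀ b j a, CI (fun x => Dt t j (fun y => be y b * (t y b a * hess f y j a)) x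
      - x j * (be x b * (t x b a * hess f x j a))) :=
    fun b j a => (ci_Dt h (hS b j a) j).sub (CI.of_lc (LC.mul_left (ll_coord j) (hS b j a)))
  have iT : ∀ b, I V (fun x => Dt t b (fun y => Lt t f y * be y b) x - x b * (Lt t f x * be x b)) = 0 :=
    fun b => tcore h (hT b) b (Eventually.of_forall fun x => rfl)
  have iS : ∀ b j a, I V (fun x => Dt t j (fun y => be y b * (t y b a * hess f y j a)) x
      - x j * (be x b * (t x b a * hess f x j a))) = 0 :=
    fun b j a => tcore h (hS b j a) j (Eventually.of_forall fun x => rfl)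
  have cSs : ∀ b j, CI (fun x => ∑ a, (Dt t j (fun y => be y b * (t y b a * hess f y j a)) x
      - x j * (be x b * (t x b a * hess f x j a)))) := fun b j => CI.sum _ fun a _ => cS b j a
  have cSss : ∀ b, CI (fun x => ∑ j, ∑ a, (Dt t j (fun y => be y b * (t y b a * hess f y j a)) x
      - x j * (be x b * (t x b a * hess f x j a)))) := fun b => CI.sum _ fun j _ => cSs b j
  have iSss : ∀ b, I V (fun x => ∑ j, ∑ a, (Dt t j (fun y => be y b * (t y b a * hess f y j a)) x
      - x j * (be x b * (t x b a * hess f x j a)))) = 0 := by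
    intro b
    rw [I_sum _ hVc fun j _ => cSs b j]
    refine Finset.sum_eq_zero fun j _ => ?_
    rw [I_sum _ hVc fun a _ => cS b j a]
    exact Finset.sum_eq_zero fun a _ => iS b j a
  have cTS : ∀ b, CI (fun x => (Dt t b (fun y => Lt t f y * be y b) x - x b * (Lt t f x * be x b))
      - ∑ j, ∑ a, (Dt t j (fun y => be y b * (t y b a * hess f y j a)) x
      - x j * (be x b * (t x b a * hess f x j a)))) := fun b => (cT b).sub (cSss b)
  have iTS : I V (fun x => ∑ b, ((Dt t b (fun y => Lt t f y * be y b) x - x b * (Lt t f x * be x b))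
      - ∑ j, ∑ a, (Dt t j (fun y => be y b * (t y b a * hess f y j a)) x
      - x j * (be x b * (t x b a * hess f x j a))))) = 0 := by
    rw [I_sum _ hVc fun b _ => cTS b]
    refine Finset.sum_eq_zero fun b _ => ?_
    rw [I_sub hVc (cT b) (cSss b), iT b, iSss b, sub_zero]
  have c1 : CI (fun x => Lt t f x * dvg t be x) := CI.mul_left (Bd.of_ll hF.1) (ci_dvg h hbe)
  have c2 : CI (fun x => flt t (fun y a => pd a f y) be x + ip t (fun y a => pd a f y) be x) :=
    (ci_flt h hal hbe).add (ci_ip h hal hbe)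
  rw [← sub_eq_zero, ← I_sub hVc c1 c2, ← iTS]
  refine I_congr ?_
  have hbd : ∀ᵐ x, ∀ a, DifferentiableAt ℝ (fun y => be y a) x := by
    rw [ae_all_iff]
    exact fun a => (hbe a).ae_diff
  filter_upwards [hF.ae_diff, hbd, tae h, h.tot] with x hFx hbx htx htot
  have hhd : ∀ j a, DifferentiableAt ℝ (fun y => hess f y j a) x := fun j a =>
    ((test_pd (test_pd hf a) j).1.differentiable (by simp)).differentiableAt
  -- the terms `T b`
  have e1 : ∀ b, Dt t b (fun y => Lt t f y * be y b) x =
      be x b * Dt t b (Lt t f) x + Lt t f x * ∑ a, t x b a * pd a (fun y => be y b) x := by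
    intro b
    unfold Dt
    rw [Finset.mul_sum, Finset.mul_sum, ← Finset.sum_add_distrib]
    refine Finset.sum_congr rfl fun a _ => ?_
    rw [Vale.Agent.P227.M.rpd_mul hFx (hbx b)]
    ring
  -- the terms `S b j a`
  have e2 : ∀ b j a, Dt t j (fun y => be y b * (t y b a * hess f y j a)) x =
      (∑ l, t x j l * (t x b a * pd j (pd a f) x * pd l (fun y => be y b) x))
      + be x b * ∑ l, t x j l * (pd l (fun y => t y b a) x * hess f x j a
      + t x b a * pd l (pd j (pd a f)) x) := by
    intro b j a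
    unfold Dt
    rw [Finset.mul_sum, ← Finset.sum_add_distrib]
    refine Finset.sum_congr rfl fun l _ => ?_
    rw [Vale.Agent.P227.M.rpd_mul (hbx b) ((htx b a).fun_mul (hhd j a)),
      Vale.Agent.P227.M.rpd_mul (htx b a) (hhd j a)]
    have : pd l (fun y => hess f y j a) x = pd l (pd j (pd a f)) x := rfl
    rw [this]
    unfold hess
    ring
  have e3 : ∀ b, (∑ j, ∑ a, (Dt t j (fun y => be y b * (t y b a * hess f y j a)) x
      - x j * (be x b * (t x b a * hess f x j a)))) =
      (∑ j, ∑ a, ∑ l, t x j l * (t x b a * pd j (pd a f) x * pd l (fun y => be y b) x))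
      + be x b * (Dt t b (Lt t f) x + ∑ a, t x b a * pd a f x) := by
    intro b
    rw [alg_W h hf htx htot b]
    have f1 : ∀ (c : ℝ) (F : Fin n → Fin n → ℝ), c * (∑ a, ∑ i, F a i) = ∑ a, ∑ i, c * F a i := by
      intro c F
      simp only [Finset.mul_sum]
    have f2 : (∑ j, ∑ a, ∑ l, t x j l * (pd l (fun y => t y b a) x * hess f x j a
      + t x b a * pd l (pd j (pd a f)) x)) - (∑ j, ∑ a, x j * (t x b a * hess f x j a))
      - ∑ a, t x b a * pd a f x + ∑ a, t x b a * pd a f x =
      (∑ j, ∑ a, ∑ l, t x j l * (pd l (fun y => t y b a) x * hess f x j a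
      + t x b a * pd l (pd j (pd a f)) x)) - (∑ j, ∑ a, x j * (t x b a * hess f x j a)) := by
      ring
    rw [f2, mul_sub, f1, f1, ← Finset.sum_sub_distrib, ← Finset.sum_add_distrib]
    refine Finset.sum_congr rfl fun j _ => ?_
    rw [← Finset.sum_sub_distrib, ← Finset.sum_add_distrib]
    refine Finset.sum_congr rfl fun a _ => ?_
    rw [e2]
    ring
  have e4 : (∑ b, ∑ j, ∑ a, ∑ l, t x j l * (t x b a * pd j (pd a f) x * pd l (fun y => be y b) x)) =
      flt t (fun y a => pd a f y) be x := by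
    unfold flt
    rw [sum3_rot fun b j a => ∑ l, t x j l * (t x b a * pd j (pd a f) x * pd l (fun y => be y b) x)]
    refine Finset.sum_congr rfl fun j _ => ?_
    rw [← sum3_rot fun l a b => t x j l * (t x b a * pd j (pd a f) x * pd l (fun y => be y b) x)]
    refine Finset.sum_congr rfl fun l _ => ?_
    rw [Finset.mul_sum]
    refine Finset.sum_congr rfl fun a _ => ?_
    rw [Finset.mul_sum]
    refine Finset.sum_congr rfl fun b _ => ?_
    rw [h.symm x b a]
  have e5 : (∑ b, be x b * ∑ a, t x b a * pd a f x) = ip t (fun y a => pd a f y) be x := by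
    unfold ip
    simp only [Finset.mul_sum]
    rw [Finset.sum_comm]
    exact Finset.sum_congr rfl fun a _ => Finset.sum_congr rfl fun b _ => by
      rw [h.symm x b a]; ring
  have e6 : dvg t be x = ∑ b, ((∑ a, t x b a * pd a (fun y => be y b) x) - x b * be x b) := by
    unfold dvg
    rw [Finset.sum_comm, Finset.sum_sub_distrib]
    congr 1
    exact Finset.sum_congr rfl fun b _ => Finset.sum_congr rfl fun a _ => by rw [h.symm x a b]
  rw [← e4, ← e5, e6, Finset.mul_sum]
  rw [← Finset.sum_add_distrib, ← Finset.sum_sub_distrib]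
  refine Finset.sum_congr rfl fun b _ => ?_
  rw [e3, e1]
  ring

/-- **(W)** `E (L f)(div be) = a(df, be)`, unnormalised integrals -/
theorem W_I (h : TF V t) (hinv : ∀ x, t x * (t x)⁻¹ = 1) {f : E n → ℝ} (hf : Test f)
    {be : E n → Fin n → ℝ} (hbe : ∀ a, LC (fun x => be x a)) :
    I V (fun x => Lt t f x * dvg t be x) =
      I V (fun x => Dip t (fun y a => pd a f y) be x + Ric V t (fun y a => pd a f y) be x) := by
  have hal : ∀ a, LocallyLipschitz (fun x => pd a f x) := fun a => (Test.lc (test_pd hf a)).1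
  have hald : ∀ᵐ x, ∀ a, DifferentiableAt ℝ (fun y => pd a f y) x :=
    Eventually.of_forall fun x a => ((test_pd hf a).1.differentiable (by simp)).differentiableAt
  rw [W1 h hf hbe, flat_form h hinv hal hald hbe]

/-- **(W)** for expectations -/
theorem W (h : TF V t) (hinv : ∀ x, t x * (t x)⁻¹ = 1) {f : E n → ℝ} (hf : Test f)
    {be : E n → Fin n → ℝ} (hbe : ∀ a, LC (fun x => be x a)) :
    Ex V (fun x => Lt t f x * dvg t be x) =
      Ex V (fun x => Dip t (fun y a => pd a f y) be x + Ric V t (fun y a => pd a f y) be x) := by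
  have h1 := W_I h hinv hf hbe
  unfold I at h1
  unfold Ex
  rw [h1]

/-- an elliptic frame is invertible -/
theorem te_inv {lam Lam : ℝ} (h : Vale.Agent.P245.H464.TE V t lam Lam) (x : E n) :
    t x * (t x)⁻¹ = 1 :=
  Matrix.mul_nonsing_inv _ (Ne.isUnit (Vale.Agent.P227.M.rad_det_ne h.lam_pos (h.low x)))

/-- **(W)** for an elliptic frame -/
theorem W_te {lam Lam : ℝ} (h : Vale.Agent.P245.H464.TE V t lam Lam) {f : E n → ℝ} (hf : Test f)
    {be : E n → Fin n → ℝ} (hbe : ∀ a, LC (fun x => be x a)) :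
    Ex V (fun x => Lt t f x * dvg t be x) =
      Ex V (fun x => Dip t (fun y a => pd a f y) be x + Ric V t (fun y a => pd a f y) be x) :=
  W h.toTF (te_inv h) hf hbe

/-! ## the literal rows of `Iface` -/

theorem ee_eq (t : E n → Matrix (Fin n) (Fin n) ℝ) (al be : E n → Fin n → ℝ) (x : E n) :
    ee t al be x = flt t al be x + ip t al be x := by
  unfold ee flt
  congr 1
  refine Finset.sum_congr rfl fun i _ => Finset.sum_congr rfl fun j _ => ?_
  rw [Finset.mul_sum]
  refine Finset.sum_congr rfl fun a _ => ?_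
  rw [Finset.mul_sum]
  exact Finset.sum_congr rfl fun c _ => by ring

/-- the flat form is the metric form: `E (Dip + Ric) = E ee` for `al` locally Lipschitz, `be` LCF -/
theorem form_ee (h : TF V t) (hinv : ∀ x, t x * (t x)⁻¹ = 1) {al be : E n → Fin n → ℝ}
    (hal : LCF al) (hbe : LCF be) :
    I V (fun x => Dip t al be x + Ric V t al be x) = I V (ee t al be) := by
  have hald : ∀ᵐ x, ∀ a, DifferentiableAt ℝ (fun y => al y a) x := by
    rw [ae_all_iff]
    exact fun a => (hal a).ae_diff
  rw [flat_form h hinv (fun a => (hal a).1) hald hbe]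
  exact I_congr (Eventually.of_forall fun x => (ee_eq t al be x).symm)

/-- row W -/
theorem stmtW : StmtW := by
  intro n V t c C hB f hf β hβ
  rw [W1 hB.toTF hf hβ]
  exact I_congr (Eventually.of_forall fun x => (ee_eq t (fun x a => pd a f x) β x).symm)

end Vale.Agent.P245.K
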