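import Vale.Agent.P245.K.Iface

/-!
P245, KLS: `StmtStep0`, the common core of `StmtStep` and of the first step in `StmtBase0` (helper875).
-/

set_option linter.all false

open MeasureTheory Filter Topology Set
open scoped NNReal ENNReal ContDiff
open Vale.Agent.P227.M Vale.Agent.P227.M.K814 Vale.Agent.P254.SN

namespace Vale.Agent.P245.K

open Vale.Agent.P245.H464 (TE Lt)

variable {n : ℕ}

/-- `S_G ≤ Sg` -/
def CSM (t : E n → Matrix (Fin n) (Fin n) ℝ) (G : E n → Matrix (Fin n) (Fin n) ℝ)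
    (DG : Fin n → E n → Matrix (Fin n) (Fin n) ℝ) (Sg : E n → Matrix (Fin n) (Fin n) ℝ) : Prop :=
  ∀ᵐ x, ∀ (z : Fin n → ℝ) (ζ : Fin n → Fin n → ℝ),
    (∑ a, ∑ b, t x a b * ∑ k, ∑ l, DG a x k l * z l * ζ b k) ^ 2 ≤
      (∑ k, ∑ l, Sg x k l * z k * z l) * ∑ a, ∑ b, t x a b * ∑ k, ∑ l, G x k l * ζ a k * ζ b l

/-- STEP0 (386 / 132) -/
def StmtStep0 : Prop := ∀ (n : ℕ) (V : E n → ℝ) (t : E n → Matrix (Fin n) (Fin n) ℝ) (c C : ℝ), Base V t c C →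
  ∀ s : ℝ, 0 < s → ∀ (δ B : ℝ) (H AH Sg : E n → Matrix (Fin n) (Fin n) ℝ)
    (DH : Fin n → E n → Matrix (Fin n) (Fin n) ℝ), MF V H DH δ B →
    (∀ i j, Dom V t (fun x => H x i j) (fun a x => DH a x i j) (fun x => AH x i j)) →
    Mle AH H →
    (∀ i j, Measurable (fun x => Sg x i j)) → (∀ x i j, Sg x i j = Sg x j i) →
    (∀ᵐ x, ∀ i j, |Sg x i j| ≤ B) → CSM t H DH Sg →
  ∀ (G AG : E n → Matrix (Fin n) (Fin n) ℝ) (DG : Fin n → E n → Matrix (Fin n) (Fin n) ℝ),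
    (∀ i j, Dom V t (fun x => G x i j) (fun a x => DG a x i j) (fun x => AG x i j)) →
    (∀ x i j, G x i j = G x j i) → (∀ a x i j, DG a x i j = DG a x j i) →
    (∀ᵐ x, ∀ i j, G x i j + s * AG x i j = H x i j) →
  ∀ (W AW : E n → Matrix (Fin n) (Fin n) ℝ) (DW : Fin n → E n → Matrix (Fin n) (Fin n) ℝ),
    (∀ i j, Dom V t (fun x => W x i j) (fun a x => DW a x i j) (fun x => AW x i j)) →
    (∀ᵐ x, ∀ i j, (1 + s / 2) * W x i j + s * AW x i j = Sg x i j) →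
    (∃ B', MF V G DG δ B') ∧ Mle AG G ∧ CSM t G DG (fun x => ((1 + s) / (1 + 3 * s / 2)) • W x)

end Vale.Agent.P245.K
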