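import Vale.Agent.P245.K.Iface
import Vale.Agent.P245.H924.AbsRes

/-!
P245, row ABS (helper924): `StmtAbs` from the abstract resolvent layer `AbsRes.Fr.main`.
-/

set_option linter.all false

open Filter Topology Set
open scoped RealInnerProductSpace

namespace Vale.Agent.P245.K

section
variable {H : Type} [NormedAddCommGroup H] [InnerProductSpace ℝ H] [CompleteSpace H]
  {J : ℝ → H →L[ℝ] H} {B : ℕ → H →L[ℝ] H →L[ℝ] ℝ} {H₀ : Submodule ℝ H}

/-- uniqueness of `A z` -/
theorem Abs.uniq (h : Abs J B H₀) {z y y' : H} (h1 : J 1 (z + y) = z) (h2 : J 1 (z + y') = z) : y = y' := by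
  have h3 : ∀ m : ℕ, J (1 / ((m : ℝ) + 1)) (y - y') = 0 := by
    intro m
    have hs : (0 : ℝ) < 1 / ((m : ℝ) + 1) := by positivity
    have e1 := h.r1 _ hs z y h1
    have e2 := h.r1 _ hs z y' h2
    have e3 : J (1 / ((m : ℝ) + 1)) ((1 / ((m : ℝ) + 1)) • (y - y')) = 0 := by
      have e4 : (1 / ((m : ℝ) + 1)) • (y - y') =
          (z + (1 / ((m : ℝ) + 1)) • y) - (z + (1 / ((m : ℝ) + 1)) • y') := by
        rw [smul_sub]; abel
      rw [e4, map_sub, e1, e2, sub_self]
    rw [map_smul] at e3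
    exact (smul_eq_zero.1 e3).resolve_left hs.ne'
  have h4 := h.dense (y - y')
  have h5 := tendsto_nhds_unique h4 (tendsto_const_nhds.congr fun m => (h3 m).symm)
  exact sub_eq_zero.1 h5

/-- the domain -/
def dom (J : ℝ → H →L[ℝ] H) : Submodule ℝ H where
  carrier := {z | ∃ y, J 1 (z + y) = z}
  zero_mem' := ⟨0, by simp⟩
  add_mem' := by
    rintro a b ⟨y, hy⟩ ⟨y', hy'⟩
    refine ⟨y + y', ?_⟩
    have e : a + b + (y + y') = (a + y) + (b + y') := by abel
    rw [e, map_add, hy, hy']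
  smul_mem' := by
    rintro c a ⟨y, hy⟩
    refine ⟨c • y, ?_⟩
    rw [← smul_add, map_smul, hy]

/-- `A` -/
noncomputable def opA (h : Abs J B H₀) : dom J →ₗ[ℝ] H where
  toFun z := z.2.choose
  map_add' := by
    intro a b
    refine h.uniq (z := ((a + b : dom J) : H)) (a + b).2.choose_spec ?_
    have e : ((a + b : dom J) : H) + (a.2.choose + b.2.choose) =
        ((a : H) + a.2.choose) + ((b : H) + b.2.choose) := by
      rw [Submodule.coe_add]; abel
    rw [e, map_add, a.2.choose_spec, b.2.choose_spec, Submodule.coe_add]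
  map_smul' := by
    intro c a
    refine h.uniq (z := ((c • a : dom J) : H)) (c • a).2.choose_spec ?_
    have e : ((c • a : dom J) : H) + (RingHom.id ℝ) c • a.2.choose = c • ((a : H) + a.2.choose) := by
      rw [Submodule.coe_smul, smul_add]; rfl
    rw [e, map_smul, a.2.choose_spec, Submodule.coe_smul]

theorem opA_spec (h : Abs J B H₀) (z : dom J) : J 1 ((z : H) + opA h z) = z := z.2.choose_spec

theorem opA_eq (h : Abs J B H₀) (z : dom J) {y : H} (hy : J 1 ((z : H) + y) = z) : opA h z = y :=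
  h.uniq (opA_spec h z) hy

/-- Riesz -/
noncomputable def opG (B : ℕ → H →L[ℝ] H →L[ℝ] ℝ) (k : ℕ) : H →ₗ[ℝ] H :=
  (InnerProductSpace.continuousLinearMapOfBilin (𝕜 := ℝ) (B k)).toLinearMap

theorem opG_apply (B : ℕ → H →L[ℝ] H →L[ℝ] ℝ) (k : ℕ) (v w : H) : ⟪opG B k v, w⟫ = B k v w :=
  InnerProductSpace.continuousLinearMapOfBilin_apply (𝕜 := ℝ) (B k) v w

/-- the forms `K_k` as bilinear forms on the domain -/
noncomputable def formK (h : Abs J B H₀) (k : ℕ) : dom J →ₗ[ℝ] dom J →ₗ[ℝ] ℝ :=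
  LinearMap.mk₂ ℝ (fun z e => 1 / 2 * (B k z (opA h e) + B k (opA h z) e +
      (k : ℝ) * (B k z e - B (k - 1) z e)))
    (by intro a b c; simp only [Submodule.coe_add, map_add, ContinuousLinearMap.add_apply]; ring)
    (by intro r a c; simp only [Submodule.coe_smul, map_smul, ContinuousLinearMap.smul_apply, smul_eq_mul]; ring)
    (by intro a b c; simp only [Submodule.coe_add, map_add]; ring)
    (by intro r a c; simp only [Submodule.coe_smul, map_smul, smul_eq_mul]; ring)

theorem formK_apply (h : Abs J B H₀) (k : ℕ) (z e : dom J) : formK h k z e =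
    1 / 2 * (B k z (opA h e) + B k (opA h z) e + (k : ℝ) * (B k z e - B (k - 1) z e)) := rfl

/-- Cauchy-Schwarz for `B k` -/
theorem Abs.bcs (h : Abs J B H₀) {M : ℝ} (hM0 : 0 ≤ M) (hM : ∀ k x, B k x x ≤ M * ‖x‖ ^ 2) (k : ℕ) (x y : H) :
    B k x y ≤ M * (‖x‖ * ‖y‖) := by
  have key : B k x y ^ 2 ≤ B k x x * B k y y := by
    have hq : ∀ s : ℝ, 0 ≤ B k x x * (s * s) + (2 * B k x y) * s + B k y y := by
      intro s
      have h1 := h.bpos k (s • x + y)
      simp only [map_add, map_smul, ContinuousLinearMap.add_apply, ContinuousLinearMap.smul_apply,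
        smul_eq_mul] at h1
      rw [h.bsym k y x] at h1
      nlinarith
    have h4 := discrim_le_zero hq
    rw [discrim] at h4
    nlinarith
  have h2 : B k x x * B k y y ≤ (M * (‖x‖ * ‖y‖)) ^ 2 := by
    calc B k x x * B k y y ≤ (M * ‖x‖ ^ 2) * (M * ‖y‖ ^ 2) :=
          mul_le_mul (hM k x) (hM k y) (h.bpos k y) (by positivity)
      _ = _ := by ring
  exact (le_abs_self _).trans (abs_le_of_sq_le_sq (key.trans h2) (by positivity))

/-- the frame -/
noncomputable def frame (h : Abs J B H₀) {M : ℝ} (hM1 : 1 ≤ M) (hM : ∀ k x, B k x x ≤ M * ‖x‖ ^ 2) :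
    AbsRes.Fr H where
  D := dom J
  A := opA h
  J := fun j => (J ((2 : ℝ) ^ j)⁻¹).toLinearMap
  G := opG B
  d := formK h
  M := M
  M1 := hM1
  memD := by
    intro j u
    have hs : (0 : ℝ) < ((2 : ℝ) ^ j)⁻¹ := by positivity
    exact ⟨_, h.r2 _ hs u⟩
  AJ := by
    intro j u
    have hs : (0 : ℝ) < ((2 : ℝ) ^ j)⁻¹ := by positivity
    refine opA_eq h _ ?_
    have := h.r2 _ hs u
    rw [inv_inv] at this
    exact this
  JA := by
    intro j w
    have hs : (0 : ℝ) < ((2 : ℝ) ^ j)⁻¹ := by positivity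
    have h1 := h.r1 _ hs w (opA h w) (opA_spec h w)
    rw [map_add, map_smul] at h1
    have h2 : (2 : ℝ) ^ j ≠ 0 := by positivity
    have h3 : ((2 : ℝ) ^ j)⁻¹ • J ((2 : ℝ) ^ j)⁻¹ (opA h w) = (w : H) - J ((2 : ℝ) ^ j)⁻¹ w := by
      rw [eq_sub_iff_add_eq, add_comm]; exact h1
    show J ((2 : ℝ) ^ j)⁻¹ (opA h w) = (2 : ℝ) ^ j • ((w : H) - J ((2 : ℝ) ^ j)⁻¹ w)
    rw [← h3, smul_smul, mul_inv_cancel₀ h2, one_smul]
  Apos := fun w => h.pos _ _ (opA_spec h w)
  dense := by
    intro x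
    refine mem_closure_of_tendsto (h.dense x) (Eventually.of_forall fun m => ?_)
    have hs : (0 : ℝ) < 1 / ((m : ℝ) + 1) := by positivity
    exact ⟨_, h.r2 _ hs x⟩
  Gsymm := by
    intro k u v
    rw [opG_apply, real_inner_comm, opG_apply, h.bsym]
  Gpos := by
    intro k u
    rw [opG_apply]; exact h.bpos k u
  Gle := by
    intro k u
    rw [opG_apply]; exact hM k u
  Gmono := by
    intro k u
    rw [opG_apply, opG_apply]
    have := h.h1 (k + 1) (by omega) u
    simpa using this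
  Glim := by
    intro u
    simp only [opG_apply]
    exact h.h4 u
  dsymm := by
    intro w w'
    rw [formK_apply, formK_apply, h.bsym 1 w (opA h w'), h.bsym 1 (opA h w) w', h.bsym 1 w w',
      h.bsym (1 - 1) w w']
    ring
  dpos := by
    intro k w
    rw [formK_apply]
    have := h.hK (k + 1) (by omega) w (opA h w) (opA_spec h w)
    rw [h.bsym (k + 1) (opA h w) w]
    refine this.trans (le_of_eq ?_)
    ring
  dle := by
    intro w
    have hM0 : 0 ≤ M := by linarith
    rw [formK_apply]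
    have h1 := h.bcs hM0 hM 1 w (opA h w)
    have h2 := h.bcs hM0 hM 1 w w
    have h3 := h.bpos (1 - 1) (w : H)
    rw [h.bsym 1 (opA h w) w]
    simp only [Nat.cast_one, one_mul]
    have h4 : M * (‖(w : H)‖ * ‖(w : H)‖) = M * ‖(w : H)‖ ^ 2 := by ring
    rw [h4] at h2
    have h5 : 0 ≤ M * ‖(w : H)‖ ^ 2 := by positivity
    rw [mul_add]
    linarith
  cs := by
    intro k w w'
    have h1 := h.h2 (k + 1) (by omega) w (opA h w) w' (opA h w') (opA_spec h w) (opA_spec h w')
    have h2 : ⟪opA h w, opG B (k + 1) (w' : H)⟫ = B (k + 1) (opA h w) w' := by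
      rw [real_inner_comm, opG_apply, h.bsym]
    have h3 : formK h (k + 1) w w = B (k + 1) w (opA h w) +
        ((k + 1 : ℕ) : ℝ) / 2 * (B (k + 1) w w - B (k + 1 - 1) w w) := by
      rw [formK_apply, h.bsym (k + 1) (opA h w) w]; ring
    rw [h2, opG_apply, h3, formK_apply]
    have h4 : 0 ≤ B (k + 1) (w : H) (opA h w) +
        ((k + 1 : ℕ) : ℝ) / 2 * (B (k + 1) w w - B (k + 1 - 1) w w) :=
      h.hK (k + 1) (by omega) w (opA h w) (opA_spec h w)
    have h5 := h.bpos (k + 1) (w' : H)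
    have h6 : (6 : ℝ) / (((k + 1 : ℕ) : ℝ) + 2) ≤ 9 / ((k : ℝ) + 1) := by
      push_cast
      rw [div_le_div_iff₀ (by positivity) (by positivity)]
      have : (0 : ℝ) ≤ k := Nat.cast_nonneg k
      linarith
    exact h1.trans (mul_le_mul_of_nonneg_right (mul_le_mul_of_nonneg_right h6 h4) h5)
  step := by
    intro k w
    have h2 : ⟪opA h w, opG B (k + 1) (w : H)⟫ = B (k + 1) w (opA h w) := by
      rw [real_inner_comm, opG_apply]
    rw [h2, opG_apply, opG_apply, formK_apply, h.bsym (k + 1) (opA h w) w]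
    have hk : (0 : ℝ) < (k : ℝ) + 1 := by positivity
    push_cast
    field_simp
    ring

end

/-- **row ABS** -/
theorem stmtAbs : StmtAbs := by
  refine ⟨5900 ^ 2, by norm_num, ?_⟩
  intro H _ _ _ J B H₀ h z y hz hz0
  obtain ⟨M, hM⟩ := h.bdd
  have hM' : ∀ k x, B k x x ≤ (max M 1) * ‖x‖ ^ 2 := fun k x =>
    (hM k x).trans (mul_le_mul_of_nonneg_right (le_max_left _ _) (by positivity))
  set F := frame h (le_max_right M 1) hM' with hF
  set w : dom J := ⟨z, y, hz⟩ with hw
  have hA : opA h w = y := opA_eq h w hz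
  have hgap : ‖z‖ ≤ ‖y‖ := by
    have h1 := h.gap z y hz hz0
    have h2 := real_inner_le_norm y z
    rcases eq_or_lt_of_le (norm_nonneg z) with h0 | h0
    · rw [← h0]; exact norm_nonneg _
    · nlinarith
  have h1 := AbsRes.Fr.main F w (by show ‖z‖ ≤ ‖opA h w‖; rw [hA]; exact hgap)
  have h2 : F.d 1 w w = B 1 z y + 1 / 2 * (B 1 z z - B 0 z z) := by
    show formK h 1 w w = _
    rw [formK_apply, hA, h.bsym 1 y (w : H)]
    simp only [hw, Nat.cast_one, Nat.sub_self]
    ring
  have h3 : F.A w = y := hA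
  rw [h2, h3] at h1
  exact h1

end Vale.Agent.P245.K

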