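import Vale.Agent.P245.K.CommDiv
import Vale.Agent.P245.K.Iface

/-!
# P245, row COMM (helper72): `∇ (1 + s A)⁻¹ = R1 ∇`
-/

set_option linter.all false

open MeasureTheory Filter Topology Set Metric
open scoped NNReal ENNReal ContDiff
open Vale.Agent.P227.M Vale.Agent.P227.M.K814 Vale.Agent.P254.SN Vale.Agent.P245.Q895 Vale.Agent.P245.K
open Vale.Agent.P245.H464 (TE Lt)

namespace Vale.Agent.P245.K.Comm

open Vale.Agent.P245.K.H72

variable {n : ℕ} {V : E n → ℝ} {c1 C1 c C : ℝ} {t : E n → Matrix (Fin n) (Fin n) ℝ}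

theorem l2c {f : E n → ℝ} (hf : K.L2 V f) : L2c V f := ⟨hf.1.aestronglyMeasurable, hf.2⟩

theorem I_addi {f g : E n → ℝ} (hf : Integrable (fun x => f x * Real.exp (-V x)))
    (hg : Integrable (fun x => g x * Real.exp (-V x))) :
    I V (fun x => f x + g x) = I V f + I V g := by
  unfold I
  rw [← integral_add hf hg]
  refine integral_congr_ae (Eventually.of_forall fun x => ?_)
  simp only
  ring

theorem I_subi {f g : E n → ℝ} (hf : Integrable (fun x => f x * Real.exp (-V x)))
    (hg : Integrable (fun x => g x * Real.exp (-V x))) :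
    I V (fun x => f x - g x) = I V f - I V g := by
  unfold I
  rw [← integral_sub hf hg]
  refine integral_congr_ae (Eventually.of_forall fun x => ?_)
  simp only
  ring

/-- products pass to the limit -/
theorem tends_mul (hVc : Continuous V) {g : ℕ → E n → ℝ} {f p : E n → ℝ} (hg : ∀ m, L2c V (g m))
    (hf : L2c V f) (hp : L2c V p) (h : Tends V g f) :
    Tendsto (fun m => I V (fun x => g m x * p x)) atTop (𝓝 (I V (fun x => f x * p x))) := by
  rw [tendsto_iff_norm_sub_tendsto_zero]
  have h1 : Tendsto (fun m => Real.sqrt (I V (fun x => (g m x - f x) ^ 2)) *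
      Real.sqrt (I V (fun x => p x ^ 2))) atTop (𝓝 0) := by
    have h2 : Tendsto (fun m => Real.sqrt (I V (fun x => (g m x - f x) ^ 2))) atTop (𝓝 0) := by
      have := (Real.continuous_sqrt.tendsto 0).comp h
      rw [Real.sqrt_zero] at this
      exact this
    simpa using h2.mul_const _
  refine squeeze_zero (fun m => norm_nonneg _) (fun m => ?_) h1
  have e : I V (fun x => g m x * p x) - I V (fun x => f x * p x) = I V (fun x => (g m x - f x) * p x) := by
    unfold I
    rw [← integral_sub ((hg m).mul hVc hp) (hf.mul hVc hp)]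
    refine integral_congr_ae (Eventually.of_forall fun x => ?_)
    simp only
    ring
  rw [Real.norm_eq_abs, e]
  exact I_cs_abs hVc ((hg m).sub hVc hf) hp

theorem ip_split (hV : Reg V c1 C1) (h : TB V t) {α β : E n → Fin n → ℝ} (hα : ∀ a, L2c V (fun x => α x a))
    (hβ : ∀ b, PB (fun x => β x b)) :
    I V (ip t α β) = ∑ a, ∑ b, I V (fun x => α x a * (t x a b * β x b)) := by
  have hVc : Continuous V := hV.cont
  have hi : ∀ a b, Integrable (fun x => α x a * (t x a b * β x b) * Real.exp (-V x)) := fun a b =>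
    (hα a).mul hVc (L2c.of_pb hV ((PB.of_gb (gb_t h a b)).mul (hβ b)))
  unfold I
  have e : ∀ x, ip t α β x * Real.exp (-V x) =
      ∑ a, ∑ b, α x a * (t x a b * β x b) * Real.exp (-V x) := by
    intro x
    unfold ip
    rw [Finset.sum_mul]
    refine Finset.sum_congr rfl fun a _ => ?_
    rw [Finset.sum_mul]
    exact Finset.sum_congr rfl fun b _ => by ring
  simp only [e]
  rw [integral_finsetSum _ fun a _ => integrable_finsetSum _ fun b _ => hi a b]
  refine Finset.sum_congr rfl fun a _ => ?_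
  rw [integral_finsetSum _ fun b _ => hi a b]

/-- weak gradient of an `H¹` function against fields -/
theorem h1_field (hV : Reg V c1 C1) (h : TB V t) {f : E n → ℝ} {Df : Fin n → E n → ℝ} (hf : H1 V f Df)
    {β : E n → Fin n → ℝ} (hβ : LCF β) :
    I V (ip t (fun x a => Df a x) β) = - I V (fun x => f x * dvg t β x) := by
  have hVc : Continuous V := hV.cont
  obtain ⟨g, hg, hgf, hgD⟩ := hf.core
  have hd : L2c V (dvg t β) := L2c.of_pb hV (pb_dvg h hβ)
  have l1 : Tendsto (fun m => - I V (fun x => g m x * dvg t β x)) atTop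
      (𝓝 (- I V (fun x => f x * dvg t β x))) :=
    (tends_mul hVc (fun m => L2c.of_pb hV (lc_pb (hg m))) (l2c hf.u2) hd hgf).neg
  have hb : ∀ b, PB (fun x => β x b) := fun b => lc_pb (hβ b)
  have l2 : Tendsto (fun m => I V (ip t (fun x a => pd a (g m) x) β)) atTop
      (𝓝 (I V (ip t (fun x a => Df a x) β))) := by
    rw [ip_split hV h (fun a => l2c (hf.D2 a)) hb]
    have e : (fun m => I V (ip t (fun x a => pd a (g m) x) β)) = fun m =>
        ∑ a, ∑ b, I V (fun x => pd a (g m) x * (t x a b * β x b)) := by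
      funext m
      exact ip_split hV h (fun a => L2c.of_pb hV (lc_pd (hg m) a)) hb
    rw [e]
    refine tendsto_finsetSum _ fun a _ => tendsto_finsetSum _ fun b _ => ?_
    exact tends_mul hVc (fun m => L2c.of_pb hV (lc_pd (hg m) a)) (l2c (hf.D2 a))
      (L2c.of_pb hV ((PB.of_gb (gb_t h a b)).mul (hb b))) (hgD a)
  have e : (fun m => I V (ip t (fun x a => pd a (g m) x) β)) =
      fun m => - I V (fun x => g m x * dvg t β x) := by
    funext m
    exact ibp_field hV h (hg m).1 (hg m).ae_diff (lc_pb (hg m)) (fun b => lc_pd (hg m) b) hβ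
  rw [e] at l2
  exact tendsto_nhds_unique l2 l1

/-- the divergence is controlled by the flat form -/
theorem dvg_NN (hV : Reg V c1 C1) (h : TE V t c C) {s : ℝ} (hs : 0 < s) :
    ∃ B : ℝ, 0 ≤ B ∧ ∀ β : E n → Fin n → ℝ, LCF β → I V (fun x => dvg t β x ^ 2) ≤ B * NN V t s β β := by
  obtain ⟨A, hA0, hA⟩ := dvg_flat hV h.toTB
  have hc := h.lam_pos
  refine ⟨A * (((c ^ 2)⁻¹ + c⁻¹) * s⁻¹), by positivity, fun β hβ => ?_⟩
  have p0 : ∀ b, PB (fun x => β x b) := fun b => lc_pb (hβ b)
  have p1 : ∀ k b, PB (pd k (fun x => β x b)) := fun k b => lc_pd (hβ b) k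
  have pI : PB (ip t β β) := pb_ip h.toTB p0 p0
  have pE1 : PB (fun x => ∑ i, ∑ j, ∑ a, ∑ c', t x i j * t x a c' * pd i (fun y => β y a) x *
      pd j (fun y => β y c') x) :=
    PB.sum _ fun i _ => PB.sum _ fun j _ => PB.sum _ fun a _ => PB.sum _ fun b _ =>
      (((PB.of_gb (gb_t h.toTB i j)).mul (PB.of_gb (gb_t h.toTB a b))).mul (p1 i a)).mul (p1 j b)
  have pE : PB (ee t β β) := pE1.add pI
  have pF : PB (fun x => (∑ k, ∑ a, (pd k (fun y => β y a) x) ^ 2) + ∑ a, β x a ^ 2) :=
    (PB.sum _ fun k _ => PB.sum _ fun a _ => pbsq (p1 k a)).add (PB.sum _ fun a _ => pbsq (p0 a))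
  have n1 : 0 ≤ I V (ip t β β) := by
    refine I_nonneg' (Eventually.of_forall fun x => ?_)
    exact le_trans (mul_nonneg hc.le (Finset.sum_nonneg fun _ _ => sq_nonneg _)) (te_low h x (β x))
  have hpt : ∀ x, (∑ k, ∑ a, (pd k (fun y => β y a) x) ^ 2) + ∑ a, β x a ^ 2 ≤
      ((c ^ 2)⁻¹ + c⁻¹) * ee t β β x := by
    intro x
    have h1 := kron_low h x fun k a => pd k (fun y => β y a) x
    have h2 : c * ∑ a, β x a ^ 2 ≤ ip t β β x := te_low h x (β x)
    have e1 : ∑ i, ∑ j, ∑ a, ∑ c', t x i j * t x a c' * pd i (fun y => β y a) x *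
      pd j (fun y => β y c') x = ∑ k, ∑ l, t x k l * ∑ a, ∑ b, t x a b * pd k (fun y => β y a) x *
        pd l (fun y => β y b) x := by
      refine Finset.sum_congr rfl fun i _ => Finset.sum_congr rfl fun j _ => ?_
      rw [Finset.mul_sum]
      refine Finset.sum_congr rfl fun a _ => ?_
      rw [Finset.mul_sum]
      exact Finset.sum_congr rfl fun b _ => by ring
    unfold ee
    rw [e1]
    set P := ∑ k, ∑ a, (pd k (fun y => β y a) x) ^ 2 with hP
    set Q := ∑ k, ∑ l, t x k l * ∑ a, ∑ b, t x a b * pd k (fun y => β y a) x *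
        pd l (fun y => β y b) x with hQ
    have hP0 : 0 ≤ P := by positivity
    have hs0 : 0 ≤ ∑ a, β x a ^ 2 := by positivity
    have h1' : P ≤ (c ^ 2)⁻¹ * Q := by
      have := mul_le_mul_of_nonneg_left h1 (by positivity : (0:ℝ) ≤ (c ^ 2)⁻¹)
      rwa [← mul_assoc, inv_mul_cancel₀ (by positivity), one_mul] at this
    have h2' : ∑ a, β x a ^ 2 ≤ c⁻¹ * ip t β β x := by
      have := mul_le_mul_of_nonneg_left h2 (inv_nonneg.2 hc.le)
      rwa [← mul_assoc, inv_mul_cancel₀ hc.ne', one_mul] at this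
    have hQ0 : 0 ≤ Q := le_trans (by positivity) h1
    have hI0 : 0 ≤ ip t β β x := le_trans (by positivity) h2
    have r1 : 0 ≤ (c ^ 2)⁻¹ * ip t β β x := by positivity
    have r2 : 0 ≤ c⁻¹ * Q := by positivity
    nlinarith
  have i1 : I V (fun x => (∑ k, ∑ a, (pd k (fun y => β y a) x) ^ 2) + ∑ a, β x a ^ 2) ≤
      ((c ^ 2)⁻¹ + c⁻¹) * I V (ee t β β) := by
    rw [← I_const_mul']
    exact I_mono' hV pF ((PB.const _).mul pE) (Eventually.of_forall hpt)
  have i2 : I V (ee t β β) ≤ s⁻¹ * NN V t s β β := by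
    unfold NN
    rw [mul_add, ← mul_assoc, inv_mul_cancel₀ hs.ne', one_mul]
    have := mul_nonneg (inv_nonneg.2 hs.le) n1
    linarith
  calc I V (fun x => dvg t β x ^ 2) ≤ A * _ := hA β hβ
    _ ≤ A * (((c ^ 2)⁻¹ + c⁻¹) * (s⁻¹ * NN V t s β β)) := by
        refine mul_le_mul_of_nonneg_left (i1.trans ?_) hA0
        exact mul_le_mul_of_nonneg_left i2 (by positivity)
    _ = _ := by ring

theorem lcf_grad {f : E n → ℝ} (hf : Test f) : LCF (fun x a => pd a f x) := fun a =>
  Test.lc (Vale.Agent.P245.H464.test_pd' hf a)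

theorem dvg_grad (f : E n → ℝ) (x : E n) : dvg t (fun x a => pd a f x) x = Lt t f x := by
  unfold dvg Lt
  rfl

/-- **row COMM** -/
theorem comm (hW : StmtW) : StmtComm := by
  intro n V t c C hB s hs f Df hf u Au Du hu he
  obtain ⟨c1, C1, hV⟩ := hB.reg
  have hTE : TE V t c C := hB.toTE
  have hVc : Continuous V := hV.cont
  obtain ⟨g, hg⟩ := hu
  obtain ⟨B, hB0, hBd⟩ := dvg_NN hV hTE hs
  have hub : ∀ m, L2c V (fun x => g m x) := fun m => L2c.of_pb hV (lc_pb (Test.lc (hg.test m)))
  have hLb : ∀ m, PB (Lt t (g m)) := by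
    intro m
    have := pb_dvg hTE.toTB (be := fun x a => pd a (g m) x) (lcf_grad (hg.test m))
    have e : dvg t (fun x a => pd a (g m) x) = Lt t (g m) := funext fun x => dvg_grad (g m) x
    rwa [e] at this
  have hL2 : ∀ m, L2c V (Lt t (g m)) := fun m => L2c.of_pb hV (hLb m)
  have huc : L2c V u := ⟨hg.mu.aestronglyMeasurable, hg.iu⟩
  have hAc : L2c V Au := ⟨hg.mA.aestronglyMeasurable, hg.iA⟩
  have hfc : L2c V f := l2c hf.u2
  set r : ℕ → E n → ℝ := fun m x => g m x - s * Lt t (g m) x - f x with hr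
  have hrc : ∀ m, L2c V (r m) := fun m => ((hub m).sub hVc ((hL2 m).smul s)).sub hVc hfc
  -- the residual tends to zero
  have hr0 : Tendsto (fun m => I V (fun x => r m x ^ 2)) atTop (𝓝 0) := by
    have hlim : Tendsto (fun m => 2 * I V (fun x => (g m x - u x) ^ 2) +
        2 * s ^ 2 * I V (fun x => (-(Lt t (g m) x) - Au x) ^ 2)) atTop (𝓝 0) := by
      have := (hg.lu.const_mul 2).add (hg.lA.const_mul (2 * s ^ 2))
      simpa using this
    refine squeeze_zero (fun m => I_sq_nonneg _) (fun m => ?_) hlim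
    have a1 : L2c V (fun x => g m x - u x) := (hub m).sub hVc huc
    have a2 : L2c V (fun x => -(Lt t (g m) x) - Au x) := by
      have := ((hL2 m).smul (-1)).sub hVc hAc
      simpa using this
    have e1 : 2 * I V (fun x => (g m x - u x) ^ 2) + 2 * s ^ 2 * I V (fun x => (-(Lt t (g m) x) - Au x) ^ 2)
        = I V (fun x => 2 * (g m x - u x) ^ 2 + 2 * s ^ 2 * (-(Lt t (g m) x) - Au x) ^ 2) := by
      unfold I
      have i1 := a1.2.const_mul 2
      have i2 := a2.2.const_mul (2 * s ^ 2)
      rw [← integral_const_mul, ← integral_const_mul, ← integral_add i1 i2]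
      refine integral_congr_ae (Eventually.of_forall fun x => ?_)
      simp only
      ring
    rw [e1]
    unfold I
    refine integral_mono_ae (hrc m).2 ?_ ?_
    · have := (a1.2.const_mul 2).add (a2.2.const_mul (2 * s ^ 2))
      refine this.congr (Eventually.of_forall fun x => ?_)
      simp only [Pi.add_apply]
      ring
    · filter_upwards [he] with x hx
      refine mul_le_mul_of_nonneg_right ?_ (Real.exp_pos _).le
      have e2 : r m x = (g m x - u x) + s * (-(Lt t (g m) x) - Au x) := by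
        simp only [hr]
        rw [← hx]; ring
      rw [e2]
      nlinarith [sq_nonneg ((g m x - u x) - s * (-(Lt t (g m) x) - Au x))]
  -- the basic identity
  have hid : ∀ m, ∀ β : E n → Fin n → ℝ, LCF β →
      NN V t s (fun x a => pd a (g m) x) β = - I V (fun x => (g m x - s * Lt t (g m) x) * dvg t β x) := by
    intro m β hβ
    have hd : L2c V (dvg t β) := L2c.of_pb hV (pb_dvg hTE.toTB hβ)
    have w1 := hW n V t c C hB (g m) (hg.test m) β hβ
    have w2 := ibp_field hV hTE.toTB (Test.lc (hg.test m)).1 (Test.lc (hg.test m)).ae_diff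
      (lc_pb (Test.lc (hg.test m))) (fun b => lc_pd (Test.lc (hg.test m)) b) hβ
    unfold NN
    rw [w2, ← w1]
    have i1 := (hub m).mul hVc hd
    have i2 := ((hL2 m).mul hVc hd)
    have i3 : Integrable (fun x => (s * (Lt t (g m) x * dvg t β x)) * Real.exp (-V x)) := by
      refine (i2.const_mul s).congr (Eventually.of_forall fun x => ?_)
      simp only
      ring
    have e : I V (fun x => (g m x - s * Lt t (g m) x) * dvg t β x) =
        I V (fun x => g m x * dvg t β x) - s * I V (fun x => Lt t (g m) x * dvg t β x) := by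
      rw [← I_const_mul', ← I_subi i1 i3]
      congr 1
      funext x
      ring
    rw [e]
    ring
  refine ⟨hf.D2, fun a => ⟨hg.mD a, hg.iD a⟩, fun m x a => pd a (g m) x,
    fun m => Real.sqrt (I V (fun x => r m x ^ 2)) * Real.sqrt B, fun m => lcf_grad (hg.test m),
    fun a => hg.lD a, ?_, fun m => by positivity, ?_, ?_⟩
  · -- boundedness
    have hb1 : Tendsto (fun m => I V (fun x => r m x ^ 2)) atTop (𝓝 0) := hr0
    obtain ⟨R, hR⟩ := hb1.bddAbove_range
    obtain ⟨Q, hQ⟩ := hg.lA.bddAbove_range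
    have hR' : ∀ m, I V (fun x => r m x ^ 2) ≤ R := fun m => hR ⟨m, rfl⟩
    have hQ' : ∀ m, I V (fun x => (-(Lt t (g m) x) - Au x) ^ 2) ≤ Q := fun m => hQ ⟨m, rfl⟩
    refine ⟨(R + I V (fun x => f x ^ 2)) + (Q + I V (fun x => Au x ^ 2)), fun m => ?_⟩
    rw [hid m _ (lcf_grad (hg.test m))]
    have e : (fun x => (g m x - s * Lt t (g m) x) * dvg t (fun x a => pd a (g m) x) x) =
        fun x => (r m x + f x) * Lt t (g m) x := by
      funext x
      rw [dvg_grad]
      simp only [hr]
      ring
    rw [e]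
    have a3 : L2c V (fun x => r m x + f x) := (hrc m).add hVc hfc
    have a2 : L2c V (fun x => -(Lt t (g m) x) - Au x) := by
      have := ((hL2 m).smul (-1)).sub hVc hAc
      simpa using this
    have k1 : - I V (fun x => (r m x + f x) * Lt t (g m) x) ≤
        I V (fun x => (r m x ^ 2 + f x ^ 2) + ((-(Lt t (g m) x) - Au x) ^ 2 + Au x ^ 2)) := by
      unfold I
      rw [← integral_neg]
      refine integral_mono_ae (a3.mul hVc (hL2 m)).neg ?_ (Eventually.of_forall fun x => ?_)
      · have := ((hrc m).2.add hfc.2).add (a2.2.add hAc.2)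
        refine this.congr (Eventually.of_forall fun x => ?_)
        simp only [Pi.add_apply]
        ring
      · have hp := Real.exp_pos (-V x)
        simp only
        rw [← neg_mul]
        refine mul_le_mul_of_nonneg_right ?_ hp.le
        nlinarith [sq_nonneg (r m x + f x + Lt t (g m) x), sq_nonneg (r m x - f x),
          sq_nonneg ((-(Lt t (g m) x) - Au x) - Au x), sq_nonneg (Lt t (g m) x)]
    refine k1.trans ?_
    have e4 : I V (fun x => (r m x ^ 2 + f x ^ 2) + ((-(Lt t (g m) x) - Au x) ^ 2 + Au x ^ 2)) =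
        (I V (fun x => r m x ^ 2) + I V (fun x => f x ^ 2)) +
          (I V (fun x => (-(Lt t (g m) x) - Au x) ^ 2) + I V (fun x => Au x ^ 2)) := by
      have j1 : Integrable (fun x => (r m x ^ 2 + f x ^ 2) * Real.exp (-V x)) := by
        refine ((hrc m).2.add hfc.2).congr (Eventually.of_forall fun x => ?_)
        simp only [Pi.add_apply]
        ring
      have j2 : Integrable (fun x => ((-(Lt t (g m) x) - Au x) ^ 2 + Au x ^ 2) * Real.exp (-V x)) := by
        refine (a2.2.add hAc.2).congr (Eventually.of_forall fun x => ?_)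
        simp only [Pi.add_apply]
        ring
      rw [I_addi j1 j2, I_addi (hrc m).2 hfc.2, I_addi a2.2 hAc.2]
    rw [e4]
    have := hR' m
    have := hQ' m
    linarith
  · have h2 : Tendsto (fun m => Real.sqrt (I V (fun x => r m x ^ 2))) atTop (𝓝 0) := by
      have := (Real.continuous_sqrt.tendsto 0).comp hr0
      rw [Real.sqrt_zero] at this
      exact this
    simpa using h2.mul_const _
  · intro m β hβ
    have hd : L2c V (dvg t β) := L2c.of_pb hV (pb_dvg hTE.toTB hβ)
    rw [hid m β hβ, h1_field hV hTE.toTB hf hβ]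
    have e : -I V (fun x => (g m x - s * Lt t (g m) x) * dvg t β x) - -I V (fun x => f x * dvg t β x) =
        - I V (fun x => r m x * dvg t β x) := by
      unfold I
      have i1 := ((hub m).sub hVc ((hL2 m).smul s)).mul hVc hd
      have i2 := hfc.mul hVc hd
      rw [neg_sub_neg, ← integral_sub i2 i1, ← integral_neg]
      refine integral_congr_ae (Eventually.of_forall fun x => ?_)
      simp only [hr]
      ring
    rw [e, abs_neg]
    refine (I_cs_abs hVc (hrc m) hd).trans ?_
    rw [mul_assoc]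
    refine mul_le_mul_of_nonneg_left ?_ (Real.sqrt_nonneg _)
    rw [← Real.sqrt_mul hB0]
    exact Real.sqrt_le_sqrt (hBd β hβ)

end Vale.Agent.P245.K.Comm
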