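import Vale.Agent.P245.K.Iface
import Vale.Agent.P245.H866.E2

/-!
P245, row E2 (helper425; the identity is helper866's `H866.e2_second`): second Bochner formula on the regular class.
-/

set_option linter.all false

open MeasureTheory Filter Topology Set
open scoped NNReal ENNReal ContDiff
open Vale.Agent.P227.M Vale.Agent.P227.M.K814 Vale.Agent.P254.SN

namespace Vale.Agent.P245.K.E2

theorem e2 : StmtE2 := by
  intro n V t c C hB U hU
  obtain ⟨c1, C1, hR⟩ := hB.reg
  have hconv : ∀ x (v : Fin n → ℝ), 0 ≤ ∑ a, ∑ b, pd a (pd b V) x * v a * v b := by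
    intro x v
    have h1 := hR.lower x (WithLp.toLp 2 v)
    have h2 : 0 ≤ c1 * ‖(WithLp.toLp 2 v : E n)‖ ^ 2 := mul_nonneg hR.c_pos.le (by positivity)
    exact h2.trans h1
  have h1 := Vale.Agent.P245.H866.e2_le hB.toTE.toTB.toTF hU hconv
  have e1 : (fun x => (Vale.Agent.P245.H464.Lt t U x) ^ 2) =
      fun x => Vale.Agent.P245.H866.Lt t U x * Vale.Agent.P245.H866.Lt t U x := by
    funext x
    rw [pow_two]
    rfl
  have e2 : (fun x => ∑ a, ∑ b, pd a (fun y => Dt t b U y) x * pd b (fun y => Dt t a U y) x) =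
      fun x => ∑ j, ∑ k, pd k (Dt t j U) x * pd j (Dt t k U) x := by
    funext x
    refine Finset.sum_congr rfl fun a _ => Finset.sum_congr rfl fun b _ => ?_
    rw [mul_comm]
  rw [e1, e2]
  exact h1

end Vale.Agent.P245.K.E2
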