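import Vale.Agent.P245.K.Final
import Vale.Agent.P245.H464.Ops
import Vale.Agent.P245.K.W
import Vale.Agent.P245.K.Comm
import Vale.Agent.P245.K2.Kid
import Vale.Agent.P245.K.R1S
import Vale.Agent.P245.K2.R1E
import Vale.Agent.P245.K3.Chain
import Vale.Agent.P245.K.E2
import Vale.Agent.P245.K.Iface2
import Vale.Agent.P245.H866.HP
import Vale.Agent.P245.K2.Ident
import Vale.Agent.P245.K2.Kato
import Vale.Agent.P245.K3.Gap717
import Vale.Agent.P245.K.Abs
import Vale.Agent.P245.K2.StepInst
import Vale.Agent.P245.K3.Inst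
import Vale.Agent.P245.H464.Base0

/-! P245, KLS: assembly (helper875) -/

namespace Vale.Agent.P245.K.All

theorem form : StmtForm := Vale.Agent.P245.H464.stmtForm
theorem lin : StmtLin := Vale.Agent.P245.H464.stmtLin
theorem pos : StmtPos := Vale.Agent.P245.H464.stmtPos
theorem w : StmtW := stmtW
theorem kid : StmtKID := Vale.Agent.P245.K2.KID.kid
theorem comm : StmtComm := Vale.Agent.P245.K.Comm.comm w
theorem r1s : StmtR1S := Vale.Agent.P245.K.R1S.r1s
theorem r1e : StmtR1E := Vale.Agent.P245.K2.R1E.r1e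
theorem e2 : StmtE2 := Vale.Agent.P245.K.E2.e2
theorem chain (hStep : StmtStep) (hBase0 : StmtBase0) (hGap : StmtGap) : StmtChain :=
  Vale.Agent.P245.K3.Chain.chain hStep hBase0 hGap
theorem ident : StmtIdent := Vale.Agent.P245.K.Ident522.ident
theorem preg (hK : StmtK) (hGap : StmtGap) : StmtPreg := Vale.Agent.P245.HPR.preg hK lin hGap
theorem kato : StmtKato := Vale.Agent.P245.K2.Kato.kato
theorem gap : StmtGap := Vale.Agent.P245.K3.Gap717.gap
theorem abs : StmtAbs := stmtAbs
theorem step0 : StmtStep0 := Vale.Agent.P245.K2.StepInst.step0 kato r1e comm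
theorem step : StmtStep := Vale.Agent.P245.K2.StepInst.step kato r1e comm
theorem base0 : StmtBase0 := Vale.Agent.P245.H464.base0 step0
theorem chain' : StmtChain := chain step base0 gap
theorem stmtK : StmtK := Vale.Agent.P245.K3.inst abs chain' ident lin gap

/-- the regular isotropic Poincaré inequality with an absolute constant -/
theorem preg' : StmtPreg := preg stmtK gap

end Vale.Agent.P245.K.All

open MeasureTheory
open scoped ContDiff

/-- **KLS** (helper13's theorem): there is an absolute constant `C` such that every log-concave probability measure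
on `ℝⁿ` with covariance matrix `K` satisfies `Var f ≤ C ∫ ⟨K ∇f, ∇f⟩`. -/
theorem Vale.Agent.P245.K.kls_final :
    ∃ C : ℝ, 0 < C ∧ ∀ (n : ℕ) (μ : Measure (EuclideanSpace ℝ (Fin n))) [IsProbabilityMeasure μ],
      Vale.Agent.P245.HasLogConcaveDensity μ → ∀ (b : Fin n → ℝ) (K : Matrix (Fin n) (Fin n) ℝ),
      (∀ i, ∫ x, x i ∂μ = b i) → (∀ i j, ∫ x, (x i - b i) * (x j - b j) ∂μ = K i j) →
      ∀ f : EuclideanSpace ℝ (Fin n) → ℝ, ContDiff ℝ ∞ f → HasCompactSupport f →
        (∫ x, f x ^ 2 ∂μ) - (∫ x, f x ∂μ) ^ 2 ≤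
          C * ∫ x, ∑ i, ∑ j, K i j * (gradient f x i * gradient f x j) ∂μ :=
  Vale.Agent.P245.K.Final.kls_final Vale.Agent.P245.K.All.preg'
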