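import Vale.Agent.P245.K.FldAlg
import Vale.Agent.P245.H895.QuadA
import Vale.Agent.P245.H464.ESA

/-!
# P245, covector fields: pointwise calculus (helper979)

`DD` is a metric connection; Kato's inequality; the lower bound of the curvature term.
-/

set_option linter.all false

open MeasureTheory Filter Topology Set Metric
open scoped NNReal ENNReal ContDiff
open Vale.Agent.P227.M Vale.Agent.P227.M.K814 Vale.Agent.P254 Vale.Agent.P254.SN
open Vale.Agent.P245.H464

namespace Vale.Agent.P245.K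

variable {n : ℕ} {V : E n → ℝ} {t : E n → Matrix (Fin n) (Fin n) ℝ} {lam Lam : ℝ}

/-- the entries of `t` are differentiable at `x` -/
def Dt1 (t : E n → Matrix (Fin n) (Fin n) ℝ) (x : E n) : Prop :=
  ∀ i j, DifferentiableAt ℝ (fun y => t y i j) x

/-- the components of `u` are differentiable at `x` -/
def Du1 (u : E n → Fin n → ℝ) (x : E n) : Prop := ∀ a, DifferentiableAt ℝ (fun y => u y a) x

theorem TE.posDef (h : TE V t lam Lam) (x : E n) : (t x).PosDef := by
  refine Matrix.PosDef.of_dotProduct_mulVec_pos ?_ fun v hv => ?_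
  · ext i j
    simp [h.symm x i j]
  · have h1 := h.low x (WithLp.toLp 2 v)
    have e : qf (t x) (WithLp.toLp 2 v) = q2 (t x) v v := rfl
    have h2 : 0 < ‖(WithLp.toLp 2 v : E n)‖ := by
      rw [norm_pos_iff]
      intro h0
      apply hv
      have := congrArg WithLp.ofLp h0
      simpa using this
    have h3 : 0 < lam * ‖(WithLp.toLp 2 v : E n)‖ ^ 2 := mul_pos h.lam_pos (pow_pos h2 2)
    rw [e, q2_dot] at h1
    simpa using lt_of_lt_of_le h3 h1

/-- matrix form of the connection -/
theorem DD_eq (t : E n → Matrix (Fin n) (Fin n) ℝ) (al : E n → Fin n → ℝ) (k a : Fin n) (x : E n) :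
    DD t al k a x = pd k (fun y => al y a) x + 1 / 2 *
      (((t x)⁻¹ * Matrix.of fun b c => pd k (fun y => t y b c) x).mulVec (al x)) a := rfl

theorem q2_inv {T P : Matrix (Fin n) (Fin n) ℝ} (hT : T.PosDef) (u v : Fin n → ℝ) :
    q2 T ((T⁻¹ * P).mulVec u) v = q2 P.transpose u v := by
  have hu : IsUnit T.det := (Matrix.isUnit_iff_isUnit_det T).1 hT.isUnit
  rw [q2_symm T hT.posSemidef, q2_dot, Matrix.mulVec_mulVec, ← Matrix.mul_assoc,
    Matrix.mul_nonsing_inv T hu, Matrix.one_mul, q2_dot, Matrix.dotProduct_mulVec,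
    Matrix.mulVec_transpose, dotProduct_comm]

theorem dif_ip {al be : E n → Fin n → ℝ} {x : E n} (ht : Dt1 t x)
    (ha : Du1 al x) (hb : Du1 be x) : DifferentiableAt ℝ (ip t al be) x :=
  DifferentiableAt.fun_sum fun a _ => DifferentiableAt.fun_sum fun b _ =>
    ((ht a b).mul (ha a)).mul (hb b)

theorem pd_ip0 {al be : E n → Fin n → ℝ} {x : E n} (ht : Dt1 t x)
    (ha : Du1 al x) (hb : Du1 be x) (k : Fin n) :
    pd k (ip t al be) x = q2 (Matrix.of fun b c => pd k (fun y => t y b c) x) (al x) (be x) +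
      q2 (t x) (fun a => pd k (fun y => al y a) x) (be x) +
      q2 (t x) (al x) (fun a => pd k (fun y => be y a) x) := by
  have d2 : ∀ a b, DifferentiableAt ℝ (fun y => t y a b * al y a) x := fun a b =>
    (ht a b).fun_mul (ha a)
  have d3 : ∀ a b, DifferentiableAt ℝ (fun y => t y a b * al y a * be y b) x := fun a b =>
    (d2 a b).fun_mul (hb b)
  have e0 : pd k (ip t al be) x = ∑ a, pd k (fun y => ∑ b, t y a b * al y a * be y b) x :=
    rpd_sum (f := fun a y => ∑ b, t y a b * al y a * be y b)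
      fun a _ => DifferentiableAt.fun_sum fun b _ => d3 a b
  rw [e0]
  have e1 : ∀ a, pd k (fun y => ∑ b, t y a b * al y a * be y b) x =
      ∑ b, ((pd k (fun y => t y a b) x * al x a + t x a b * pd k (fun y => al y a) x) * be x b +
        t x a b * al x a * pd k (fun y => be y b) x) := by
    intro a
    rw [rpd_sum (f := fun b y => t y a b * al y a * be y b) fun b _ => d3 a b]
    refine Finset.sum_congr rfl fun b _ => ?_
    rw [rpd_mul (d2 a b) (hb b), rpd_mul (ht a b) (ha a)]
  simp only [e1]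
  unfold q2
  simp only [← Finset.sum_add_distrib, Matrix.of_apply]
  exact Finset.sum_congr rfl fun a _ => Finset.sum_congr rfl fun b _ => by ring

/-- **the connection is metric** -/
theorem pd_ip {al be : E n → Fin n → ℝ} {x : E n} (hT : (t x).PosDef)
    (hs : ∀ y i j, t y i j = t y j i) (ht : Dt1 t x)
    (ha : Du1 al x) (hb : Du1 be x) (k : Fin n) :
    pd k (ip t al be) x = q2 (t x) (fun a => DD t al k a x) (be x) +
      q2 (t x) (al x) (fun a => DD t be k a x) := by
  set P : Matrix (Fin n) (Fin n) ℝ := Matrix.of fun b c => pd k (fun y => t y b c) x with hP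
  have hPs : P.transpose = P := by
    ext i j
    rw [Matrix.transpose_apply, hP, Matrix.of_apply, Matrix.of_apply]
    congr 1
    funext y
    exact hs y j i
  have e1 : ∀ (u : E n → Fin n → ℝ) (v : Fin n → ℝ), q2 (t x) (fun a => DD t u k a x) v =
      q2 (t x) (fun a => pd k (fun y => u y a) x) v + 1 / 2 * q2 P (u x) v := by
    intro u v
    simp only [DD_eq, ← hP]
    rw [q2_add_left, q2_smul_left, q2_inv hT, hPs]
  have e2 : q2 P (be x) (al x) = q2 P (al x) (be x) :=
    q2_comm P (fun i j => by rw [← hPs, Matrix.transpose_apply, hPs]) _ _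
  rw [pd_ip0 ht ha hb k, ← hP, q2_symm (t x) hT.posSemidef (al x) (fun a => DD t be k a x), e1, e1,
    e2, q2_symm (t x) hT.posSemidef (al x)]
  ring

/-- Leibniz rule -/
theorem DD_smul {φ : E n → ℝ} {u : E n → Fin n → ℝ} {x : E n} (hφ : DifferentiableAt ℝ φ x)
    (hu : Du1 u x) (k a : Fin n) :
    DD t (fun y b => φ y * u y b) k a x = pd k φ x * u x a + φ x * DD t u k a x := by
  unfold DD
  rw [rpd_mul hφ (hu a)]
  have e1 : ∑ c, (∑ b, (t x)⁻¹ a b * pd k (fun y => t y b c) x) * (φ x * u x c) =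
      φ x * ∑ c, (∑ b, (t x)⁻¹ a b * pd k (fun y => t y b c) x) * u x c := by
    rw [Finset.mul_sum]
    exact Finset.sum_congr rfl fun c _ => by ring
  rw [e1]
  ring

theorem DD_add {u v : E n → Fin n → ℝ} {x : E n} (hu : Du1 u x) (hv : Du1 v x) (k a : Fin n) :
    DD t (fun y b => u y b + v y b) k a x = DD t u k a x + DD t v k a x := by
  unfold DD
  rw [rpd_add (hu a) (hv a)]
  simp only [mul_add, Finset.sum_add_distrib]
  ring

theorem DD_cmul {u : E n → Fin n → ℝ} {x : E n} (c : ℝ) (hu : Du1 u x) (k a : Fin n) :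
    DD t (fun y b => c * u y b) k a x = c * DD t u k a x := by
  have := DD_smul (t := t) (φ := fun _ => c) (differentiableAt_const c) hu k a
  rw [rpd_const] at this
  rw [this]
  ring

/-! ### nonnegativity -/

theorem ip_nonneg {x : E n} (hT : (t x).PosDef) (u : E n → Fin n → ℝ) : 0 ≤ ip t u u x :=
  q2_nonneg (t x) hT.posSemidef _

theorem Dip_nonneg {x : E n} (hT : (t x).PosDef) (u : E n → Fin n → ℝ) : 0 ≤ Dip t u u x :=
  Q2_nonneg (t x) hT.posSemidef _

theorem Gam_nonneg {x : E n} (hT : (t x).PosDef) (f : E n → ℝ) : 0 ≤ Gam t f f x :=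
  q2_nonneg (t x) hT.posSemidef _

theorem ip_symm {x : E n} (hT : (t x).PosDef) (u v : E n → Fin n → ℝ) : ip t u v x = ip t v u x :=
  q2_symm (t x) hT.posSemidef _ _

theorem Dip_symm {x : E n} (hT : (t x).PosDef) (u v : E n → Fin n → ℝ) : Dip t u v x = Dip t v u x :=
  Q2_symm (t x) hT.posSemidef _ _

theorem Gam_symm {x : E n} (hT : (t x).PosDef) (f g : E n → ℝ) : Gam t f g x = Gam t g f x :=
  q2_symm (t x) hT.posSemidef _ _

theorem ip_cs {x : E n} (hT : (t x).PosDef) (u v : E n → Fin n → ℝ) :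
    (ip t u v x) ^ 2 ≤ ip t u u x * ip t v v x := q2_cs (t x) hT.posSemidef _ _

theorem Dip_cs {x : E n} (hT : (t x).PosDef) (u v : E n → Fin n → ℝ) :
    (Dip t u v x) ^ 2 ≤ Dip t u u x * Dip t v v x := Q2_cs (t x) hT.posSemidef _ _

/-! ### Kato -/

section kato
variable {e : ℝ} {u : E n → Fin n → ℝ} {x : E n} (he : 0 < e) (hT : (t x).PosDef)
include he hT

theorem nrm_pos : 0 < nrm t e u x :=
  Real.sqrt_pos.2 (by have := ip_nonneg hT u; positivity)

theorem nrm_sq : nrm t e u x ^ 2 = ip t u u x + e ^ 2 :=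
  Real.sq_sqrt (by have := ip_nonneg hT u; positivity)

theorem ip_le_nrm_sq : ip t u u x ≤ nrm t e u x ^ 2 := by
  rw [nrm_sq he hT]
  nlinarith [sq_nonneg e]

theorem e_le_nrm : e ≤ nrm t e u x := by
  refine Real.le_sqrt_of_sq_le ?_
  have := ip_nonneg hT u
  linarith

/-- `|u|² / |u|_e ≥ |u|_e - e` -/
theorem ip_div_nrm : nrm t e u x - e ≤ ip t u u x / nrm t e u x := by
  rw [le_div_iff₀ (nrm_pos he hT)]
  have h1 := nrm_sq he hT (u := u)
  have h2 := e_le_nrm he hT (u := u)
  nlinarith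

variable (hs : ∀ y i j, t y i j = t y j i) (ht : Dt1 t x) (hu : Du1 u x)
include ht hu

theorem dif_nrm : DifferentiableAt ℝ (nrm t e u) x := by
  have h0 : ip t u u x + e ^ 2 ≠ 0 := by
    have := ip_nonneg hT u
    positivity
  exact ((dif_ip ht hu hu).add (differentiableAt_const (e ^ 2))).sqrt h0

include hs

theorem pd_nrm (k : Fin n) : nrm t e u x * pd k (nrm t e u) x =
    q2 (t x) (fun a => DD t u k a x) (u x) := by
  have h0 : ip t u u x + e ^ 2 ≠ 0 := by
    have := ip_nonneg hT u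
    positivity
  have h1 : HasFDerivAt (nrm t e u) ((1 / (2 * Real.sqrt (ip t u u x + e ^ 2))) •
      fderiv ℝ (ip t u u) x) x :=
    ((dif_ip ht hu hu).hasFDerivAt.add_const (e ^ 2)).sqrt h0
  have h2 : pd k (nrm t e u) x = (1 / (2 * nrm t e u x)) * pd k (ip t u u) x := by
    unfold pd
    rw [h1.fderiv]
    rfl
  have h3 := nrm_pos he hT (u := u)
  have h4 := pd_ip hT hs ht hu hu k
  rw [q2_symm (t x) hT.posSemidef (u x)] at h4
  rw [h2, h4]
  field_simp
  ring

/-- **Kato's inequality** -/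
theorem kato : Gam t (nrm t e u) (nrm t e u) x * nrm t e u x ^ 2 ≤ Dip t u u x * ip t u u x := by
  have h1 := q2_kato (t x) hT.posSemidef (fun k a => DD t u k a x) (u x)
  have h2 : (fun k => q2 (t x) (fun a => DD t u k a x) (u x)) =
      fun k => nrm t e u x * pd k (nrm t e u) x := funext fun k =>
    (pd_nrm he hT hs ht hu k).symm
  rw [h2, q2_smul_left, q2_smul_right] at h1
  rw [Gam_eq, Dip_eq, ip_eq]
  linarith [h1, sq (nrm t e u x)]

theorem kato' : Gam t (nrm t e u) (nrm t e u) x ≤ Dip t u u x := by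
  have h1 := kato he hT hs ht hu
  have h2 := ip_le_nrm_sq he hT (u := u)
  have h3 := Dip_nonneg hT u
  have h4 := nrm_pos he hT (u := u)
  have h5 : Dip t u u x * ip t u u x ≤ Dip t u u x * nrm t e u x ^ 2 := mul_le_mul_of_nonneg_left h2 h3
  exact le_of_mul_le_mul_right (h1.trans h5) (pow_pos h4 2)

/-- derivative of `w / |u|_e` -/
theorem pd_div {w : E n → ℝ} (hw : DifferentiableAt ℝ w x) (k : Fin n) :
    pd k (fun y => w y / nrm t e u y) x =
      pd k w x / nrm t e u x - w x * pd k (nrm t e u) x / nrm t e u x ^ 2 := by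
  have h3 := nrm_pos he hT (u := u)
  have h1 : DifferentiableAt ℝ (fun y => w y / nrm t e u y) x := by
    simp only [div_eq_mul_inv]
    exact hw.fun_mul ((dif_nrm he hT ht hu).fun_inv h3.ne')
  have h2 : (fun y => w y / nrm t e u y * nrm t e u y) =ᶠ[𝓝 x] w := by
    have h5 : ∀ᶠ y in 𝓝 x, nrm t e u y ≠ 0 :=
      (dif_nrm he hT ht hu).continuousAt.eventually_ne h3.ne'
    filter_upwards [h5] with y hy
    exact div_mul_cancel₀ _ hy
  have h4 : pd k (fun y => w y / nrm t e u y * nrm t e u y) x = pd k w x := by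
    unfold pd
    rw [h2.fderiv_eq]
  rw [rpd_mul h1 (dif_nrm he hT ht hu)] at h4
  field_simp
  field_simp at h4
  linarith

theorem dif_div {w : E n → ℝ} (hw : DifferentiableAt ℝ w x) :
    DifferentiableAt ℝ (fun y => w y / nrm t e u y) x := by
  simp only [div_eq_mul_inv]
  exact hw.fun_mul ((dif_nrm he hT ht hu).fun_inv (nrm_pos he hT (u := u)).ne')

/-- the exact formula for `<D u, D (w u / |u|_e)>` -/
theorem Dip_test {w : E n → ℝ} (hw : DifferentiableAt ℝ w x) :
    Dip t u (fun y a => w y / nrm t e u y * u y a) x =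
      Gam t w (nrm t e u) x + w x / nrm t e u x *
        (Dip t u u x - Gam t (nrm t e u) (nrm t e u) x) := by
  have h3 := nrm_pos he hT (u := u)
  have h1 : (fun k a => DD t (fun y b => w y / nrm t e u y * u y b) k a x) =
      fun k a => pd k (fun y => w y / nrm t e u y) x * u x a +
        w x / nrm t e u x * DD t u k a x :=
    funext fun k => funext fun a => DD_smul (dif_div he hT hs ht hu hw) hu k a
  have h2 : (fun k => q2 (t x) (fun a => DD t u k a x) (u x)) =
      fun k => nrm t e u x * pd k (nrm t e u) x := funext fun k =>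
    (pd_nrm he hT hs ht hu k).symm
  rw [Dip_eq, h1, Q2_add_right, Q2_tens, Q2_smul_right, h2, q2_smul_left, ← Dip_eq]
  have h4 : (fun k => pd k (fun y => w y / nrm t e u y) x) =
      fun k => (nrm t e u x)⁻¹ * pd k w x +
        (-(w x / nrm t e u x ^ 2)) * pd k (nrm t e u) x := by
    funext k
    rw [pd_div he hT hs ht hu hw]
    ring
  rw [h4, q2_add_right, q2_smul_right, q2_smul_right, ← Gam_eq, ← Gam_eq,
    Gam_symm hT (nrm t e u) w]
  field_simp
  ring

/-- **the test field in Kato's argument** -/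
theorem Dip_test_le {w : E n → ℝ} (hw : DifferentiableAt ℝ w x) (hw0 : 0 ≤ w x) :
    Gam t w (nrm t e u) x ≤ Dip t u (fun y a => w y / nrm t e u y * u y a) x := by
  rw [Dip_test he hT hs ht hu hw]
  have h1 := kato' he hT hs ht hu
  have h2 : 0 ≤ w x / nrm t e u x := div_nonneg hw0 (nrm_pos he hT (u := u)).le
  have := mul_nonneg h2 (sub_nonneg.2 h1)
  linarith

/-- bound of the test field -/
theorem Dip_test_bound {w : E n → ℝ} (hw : DifferentiableAt ℝ w x) (hw0 : 0 ≤ w x)
    (hw1 : w x ≤ nrm t e u x) :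
    Dip t (fun y a => w y / nrm t e u y * u y a) (fun y a => w y / nrm t e u y * u y a) x ≤
      2 * Gam t w w x + 2 * Dip t u u x := by
  obtain ⟨r, hr⟩ : ∃ r, r = nrm t e u x := ⟨_, rfl⟩
  have h3 : 0 < r := by rw [hr]; exact nrm_pos he hT (u := u)
  have h1 : (fun k a => DD t (fun y b => w y / nrm t e u y * u y b) k a x) =
      fun k a => (r⁻¹ * pd k w x) * u x a + (w x / r) * (DD t u k a x +
        (-r⁻¹ * pd k (nrm t e u) x) * u x a) := by
    funext k a
    rw [DD_smul (dif_div he hT hs ht hu hw) hu k a, pd_div he hT hs ht hu hw, ← hr]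
    ring
  rw [Dip_eq, h1]
  refine (Q2_add_le (t x) hT.posSemidef _ _).trans ?_
  have h5 : ip t u u x ≤ r ^ 2 := by rw [hr]; exact ip_le_nrm_sq he hT
  have hip := ip_nonneg hT u
  have hg := Gam_nonneg hT w
  have hgr := Gam_nonneg hT (nrm t e u)
  -- first term
  have h6 : Q2 (t x) (fun k a => (r⁻¹ * pd k w x) * u x a) (fun k a => (r⁻¹ * pd k w x) * u x a) ≤
      Gam t w w x := by
    rw [Q2_tens_tens, q2_smul_left, q2_smul_right, ← Gam_eq, ← ip_eq]
    have e1 : r⁻¹ * (r⁻¹ * Gam t w w x) * ip t u u x = Gam t w w x * (ip t u u x / r ^ 2) := by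
      field_simp
    rw [e1]
    refine mul_le_of_le_one_right hg ?_
    rw [div_le_one (by positivity)]
    exact h5
  -- second term
  have h7 : Q2 (t x) (fun k a => DD t u k a x + (-r⁻¹ * pd k (nrm t e u) x) * u x a)
      (fun k a => DD t u k a x + (-r⁻¹ * pd k (nrm t e u) x) * u x a) ≤ Dip t u u x := by
    have h2 : (fun k => q2 (t x) (fun a => DD t u k a x) (u x)) =
        fun k => r * pd k (nrm t e u) x := by
      funext k
      rw [hr]
      exact (pd_nrm he hT hs ht hu k).symm
    rw [Q2_add_right, Q2_add_left, Q2_add_left, Q2_tens_tens,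
      Q2_symm (t x) hT.posSemidef (fun k a => (-r⁻¹ * pd k (nrm t e u) x) * u x a), Q2_tens, h2,
      q2_smul_left, q2_smul_right, q2_smul_left, q2_smul_right, ← Gam_eq, ← ip_eq, ← Dip_eq]
    have e1 : r * (-r⁻¹ * Gam t (nrm t e u) (nrm t e u) x) = - Gam t (nrm t e u) (nrm t e u) x := by
      field_simp
    have e2 : -r⁻¹ * (-r⁻¹ * Gam t (nrm t e u) (nrm t e u) x) * ip t u u x =
        Gam t (nrm t e u) (nrm t e u) x * (ip t u u x / r ^ 2) := by
      field_simp
    rw [e1, e2]
    have e3 : Gam t (nrm t e u) (nrm t e u) x * (ip t u u x / r ^ 2) ≤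
        Gam t (nrm t e u) (nrm t e u) x :=
      mul_le_of_le_one_right hgr (by rw [div_le_one (by positivity)]; exact h5)
    linarith
  have h8 : Q2 (t x) (fun k a => (w x / r) * (DD t u k a x + (-r⁻¹ * pd k (nrm t e u) x) * u x a))
      (fun k a => (w x / r) * (DD t u k a x + (-r⁻¹ * pd k (nrm t e u) x) * u x a)) ≤
      Dip t u u x := by
    rw [Q2_smul_left, Q2_smul_right, ← mul_assoc]
    have e1 : 0 ≤ w x / r := div_nonneg hw0 h3.le
    have e2 : w x / r ≤ 1 := by rw [div_le_one h3, hr]; exact hw1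
    have e3 : w x / r * (w x / r) ≤ 1 := by nlinarith
    have e4 := Dip_nonneg hT u
    have e5 := Q2_nonneg (t x) hT.posSemidef (fun k a => DD t u k a x +
      (-r⁻¹ * pd k (nrm t e u) x) * u x a)
    calc _ ≤ 1 * Q2 (t x) (fun k a => DD t u k a x + (-r⁻¹ * pd k (nrm t e u) x) * u x a)
          (fun k a => DD t u k a x + (-r⁻¹ * pd k (nrm t e u) x) * u x a) :=
          mul_le_mul_of_nonneg_right e3 e5
      _ ≤ _ := by rw [one_mul]; exact h7
  linarith

end kato

/-! ### the curvature term -/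

theorem Sm_nonneg {x : E n} (hT : (t x).PosDef) (hs : ∀ y i j, t y i j = t y j i)
    (htot : ∀ d b k, ∑ e, t x d e * pd e (fun z => t z b k) x =
      ∑ e, t x b e * pd e (fun z => t z d k) x) (w : Fin n → ℝ) :
    0 ≤ ∑ a, ∑ i, Sm t x a i * w a * w i := by
  have h1 := Q895.s_nonneg hT (P := fun e b c => pd e (fun z => t z b c) x)
    (fun e b c => by
      have : (fun z => t z b c) = fun z => t z c b := funext fun z => hs z b c
      simp only [this])
    (fun a b c => htot a b c) w
  have e : ∑ a, ∑ i, w a * w i * (∑ b, ∑ e, pd b (fun z => t z i e) x * pd e (fun z => t z a b) x) =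
      ∑ a, ∑ i, Sm t x a i * w a * w i :=
    Finset.sum_congr rfl fun a _ => Finset.sum_congr rfl fun i _ => by unfold Sm; ring
  rw [← e]
  exact h1

theorem Vt_eq {x : E n} (hs : ∀ y i j, t y i j = t y j i) (w : Fin n → ℝ) :
    ∑ a, ∑ i, (∑ b, ∑ e, t x i e * pd e (pd b V) x * t x a b) * w a * w i =
      qf (hess V x) (WithLp.toLp 2 ((t x).mulVec w)) := by
  have e1 : qf (hess V x) (WithLp.toLp 2 ((t x).mulVec w)) =
      ∑ e, ∑ b, pd e (pd b V) x * (∑ i, t x e i * w i) * (∑ a, t x b a * w a) := rfl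
  rw [e1]
  simp only [Finset.sum_mul, Finset.mul_sum]
  calc ∑ a, ∑ i, ∑ b, ∑ e, t x i e * pd e (pd b V) x * t x a b * w a * w i
      = ∑ a, ∑ b, ∑ i, ∑ e, t x i e * pd e (pd b V) x * t x a b * w a * w i :=
        Finset.sum_congr rfl fun a _ => Finset.sum_comm
    _ = ∑ a, ∑ b, ∑ e, ∑ i, t x i e * pd e (pd b V) x * t x a b * w a * w i :=
        Finset.sum_congr rfl fun a _ => Finset.sum_congr rfl fun b _ => Finset.sum_comm
    _ = ∑ b, ∑ a, ∑ e, ∑ i, t x i e * pd e (pd b V) x * t x a b * w a * w i := Finset.sum_comm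
    _ = ∑ b, ∑ e, ∑ a, ∑ i, t x i e * pd e (pd b V) x * t x a b * w a * w i :=
        Finset.sum_congr rfl fun b _ => Finset.sum_comm
    _ = ∑ e, ∑ b, ∑ a, ∑ i, t x i e * pd e (pd b V) x * t x a b * w a * w i := Finset.sum_comm
    _ = _ := by
      refine Finset.sum_congr rfl fun e _ => Finset.sum_congr rfl fun b _ =>
        Finset.sum_congr rfl fun a _ => Finset.sum_congr rfl fun i _ => ?_
      rw [hs x e i, hs x b a]
      ring

/-- splitting of the curvature term -/
theorem Ric_split (x : E n) (al be : E n → Fin n → ℝ) : Ric V t al be x =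
    1 / 4 * (∑ a, ∑ i, Sm t x a i * al x a * be x i) +
    1 / 2 * (∑ a, ∑ i, t x i a * al x a * be x i) +
    1 / 2 * (∑ a, ∑ i, (∑ b, ∑ e, t x i e * pd e (pd b V) x * t x a b) * al x a * be x i) := by
  unfold Ric
  rw [Finset.mul_sum, Finset.mul_sum, Finset.mul_sum, ← Finset.sum_add_distrib,
    ← Finset.sum_add_distrib]
  refine Finset.sum_congr rfl fun a _ => ?_
  rw [Finset.mul_sum, Finset.mul_sum, Finset.mul_sum, ← Finset.sum_add_distrib,
    ← Finset.sum_add_distrib]
  refine Finset.sum_congr rfl fun i _ => ?_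
  ring

theorem Ric_smul (x : E n) (φ : E n → ℝ) (al be : E n → Fin n → ℝ) :
    Ric V t al (fun y a => φ y * be y a) x = φ x * Ric V t al be x := by
  unfold Ric
  simp only [Finset.mul_sum]
  exact Finset.sum_congr rfl fun a _ => Finset.sum_congr rfl fun i _ => by ring

theorem Ric_add (x : E n) (al be be' : E n → Fin n → ℝ) :
    Ric V t al (fun y a => be y a + be' y a) x = Ric V t al be x + Ric V t al be' x := by
  unfold Ric
  simp only [mul_add, Finset.sum_add_distrib]

/-- **lower bound of the curvature term** -/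
theorem Ric_ge {x : E n} (hT : (t x).PosDef) (hs : ∀ y i j, t y i j = t y j i)
    (htot : ∀ d b k, ∑ e, t x d e * pd e (fun z => t z b k) x =
      ∑ e, t x b e * pd e (fun z => t z d k) x)
    (hV : ∀ v : E n, 0 ≤ qf (hess V x) v) (al : E n → Fin n → ℝ) :
    1 / 2 * ip t al al x ≤ Ric V t al al x := by
  rw [Ric_split, Vt_eq hs]
  have h1 := Sm_nonneg hT hs htot (al x)
  have h2 := hV (WithLp.toLp 2 ((t x).mulVec (al x)))
  have h3 : ∑ a, ∑ i, t x i a * al x a * al x i = ip t al al x := by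
    unfold ip
    exact Finset.sum_congr rfl fun a _ => Finset.sum_congr rfl fun i _ => by rw [hs x i a]
  rw [h3]
  linarith

end Vale.Agent.P245.K
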