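import Mathlib

/-!
# P245, row ABS-B (helper294): the implicit Euler path

Pure real Hilbert space layer.  `J` are the resolvents, `B k z e` stands for
`<G_k z, e>` where `G 0 = g`, `G 1 = J_1 g`, `G (k+1) = J_{1/(k+1)} (G k)`,
`A` is the graph of the (nonnegative) generator.
Final statements: `absB` (constant `1168 / t` for `0 < t ≤ 1`).
-/

namespace P245K.AbsB

open Filter Topology

section reals

/-- one step, real numbers only -/
theorem step_real {Y X D Q P s t σ : ℝ} (ht : 0 < t) (hts : t ≤ s) (hσ : 0 ≤ σ)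
    (hD : 0 ≤ D) (hP0 : 0 ≤ P) (hX : X ^ 2 ≤ 4 * σ * Y * D)
    (hQ : Y + 2 * t * D - t * X ≤ Q) (hP : P = Y - s * X) :
    (1 - σ * s ^ 2 / (2 * t)) * P ≤ Q := by
  have hs : 0 < s := lt_of_lt_of_le ht hts
  have hε : 0 ≤ σ * s ^ 2 / (2 * t) := by positivity
  rcases le_or_gt 0 X with h | h
  · have h1 := mul_nonneg (sub_nonneg.2 hts) h
    have h2 := mul_nonneg ht.le hD
    have h3 := mul_nonneg hε hP0
    nlinarith
  · have hYP : Y ≤ P := by
      have := mul_pos hs (neg_pos.2 h)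
      nlinarith
    have hX2 : X ^ 2 ≤ 4 * σ * P * D := by
      refine le_trans hX ?_
      have := mul_le_mul_of_nonneg_left hYP (mul_nonneg hσ hD)
      nlinarith
    set e : ℝ := σ * s ^ 2 / (2 * t) with he
    have hprod : (2 * t * D) * (e * P) = σ * s ^ 2 * (D * P) := by
      rw [he]; field_simp
    have key : s * (-X) ≤ 2 * t * D + e * P := by
      by_contra hcon
      push Not at hcon
      have hB : 0 ≤ 2 * t * D + e * P :=
        add_nonneg (by positivity) (mul_nonneg hε hP0)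
      have h4 : (2 * t * D + e * P) ^ 2 < (s * (-X)) ^ 2 := by
        exact pow_lt_pow_left₀ hcon hB two_ne_zero
      have h5 : (s * (-X)) ^ 2 ≤ 4 * (σ * s ^ 2 * (D * P)) := by
        have := mul_le_mul_of_nonneg_left hX2 (sq_nonneg s)
        nlinarith
      have h6 : 4 * (σ * s ^ 2 * (D * P)) ≤ (2 * t * D + e * P) ^ 2 := by
        rw [← hprod]; nlinarith [sq_nonneg (2 * t * D - e * P)]
      linarith
    have h7 : (s - t) * (-X) ≤ s * (-X) := by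
      have := mul_pos ht (neg_pos.2 h)
      nlinarith
    nlinarith

/-- fourth root of `k` -/
noncomputable def q4 (x : ℝ) : ℝ := √(√x)

theorem q4_pos {x : ℝ} (hx : 0 < x) : 0 < q4 x := Real.sqrt_pos.2 (Real.sqrt_pos.2 hx)

theorem q4_sq {x : ℝ} : q4 x ^ 2 = √x := Real.sq_sqrt (Real.sqrt_nonneg _)

theorem q4_four {x : ℝ} (hx : 0 ≤ x) : q4 x ^ 4 = x := by
  rw [show (4 : ℕ) = 2 * 2 from rfl, pow_mul, q4_sq, Real.sq_sqrt hx]

theorem q4_mono {x y : ℝ} (h : x ≤ y) : q4 x ≤ q4 y :=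
  Real.sqrt_le_sqrt (Real.sqrt_le_sqrt h)

/-- the increments of the path -/
noncomputable def dl (k : ℕ) : ℝ := 1 / q4 (k : ℝ) - 1 / q4 ((k : ℝ) + 1)

theorem dl_eq {k : ℕ} (hk : 1 ≤ k) :
    dl k = 1 / (q4 (k : ℝ) * q4 ((k : ℝ) + 1) * (q4 (k : ℝ) + q4 ((k : ℝ) + 1)) *
      (q4 (k : ℝ) ^ 2 + q4 ((k : ℝ) + 1) ^ 2)) := by
  have hk0 : (0 : ℝ) < k := by exact_mod_cast hk
  have hu : 0 < q4 (k : ℝ) := q4_pos hk0
  have hv : 0 < q4 ((k : ℝ) + 1) := q4_pos (by linarith)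
  have hu4 : q4 (k : ℝ) ^ 4 = k := q4_four hk0.le
  have hv4 : q4 ((k : ℝ) + 1) ^ 4 = k + 1 := q4_four (by linarith)
  unfold dl
  set u := q4 (k : ℝ)
  set v := q4 ((k : ℝ) + 1)
  rw [div_sub_div _ _ hu.ne' hv.ne', div_eq_div_iff (by positivity) (by positivity)]
  have h1 : (v - u) * (u + v) * (u ^ 2 + v ^ 2) = 1 := by
    have : (v - u) * (u + v) * (u ^ 2 + v ^ 2) = v ^ 4 - u ^ 4 := by ring
    rw [this, hu4, hv4]; ring
  calc (1 * v - u * 1) * (u * v * (u + v) * (u ^ 2 + v ^ 2))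
      = ((v - u) * (u + v) * (u ^ 2 + v ^ 2)) * (u * v) := by ring
    _ = 1 * (u * v) := by rw [h1]

theorem dl_pos {k : ℕ} (hk : 1 ≤ k) : 0 < dl k := by
  have hk0 : (0 : ℝ) < k := by exact_mod_cast hk
  have hu : 0 < q4 (k : ℝ) := q4_pos hk0
  have hv : 0 < q4 ((k : ℝ) + 1) := q4_pos (by linarith)
  rw [dl_eq hk]; positivity

theorem dl_low {k : ℕ} (hk : 1 ≤ k) :
    1 / (4 * q4 (k : ℝ) * q4 ((k : ℝ) + 1) ^ 4) ≤ dl k := by
  have hk0 : (0 : ℝ) < k := by exact_mod_cast hk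
  rw [dl_eq hk]
  have hu : 0 < q4 (k : ℝ) := q4_pos hk0
  have hv : 0 < q4 ((k : ℝ) + 1) := q4_pos (by linarith)
  have huv : q4 (k : ℝ) ≤ q4 ((k : ℝ) + 1) := q4_mono (by linarith)
  set u := q4 (k : ℝ)
  set v := q4 ((k : ℝ) + 1)
  apply one_div_le_one_div_of_le (by positivity)
  calc u * v * (u + v) * (u ^ 2 + v ^ 2)
      ≤ u * v * (v + v) * (v ^ 2 + v ^ 2) := by gcongr
    _ = 4 * u * v ^ 4 := by ring

theorem dl_up {k : ℕ} (hk : 1 ≤ k) :
    dl k ≤ 1 / (4 * q4 (k : ℝ) ^ 4 * q4 ((k : ℝ) + 1)) := by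
  have hk0 : (0 : ℝ) < k := by exact_mod_cast hk
  rw [dl_eq hk]
  have hu : 0 < q4 (k : ℝ) := q4_pos hk0
  have hv : 0 < q4 ((k : ℝ) + 1) := q4_pos (by linarith)
  have huv : q4 (k : ℝ) ≤ q4 ((k : ℝ) + 1) := q4_mono (by linarith)
  set u := q4 (k : ℝ)
  set v := q4 ((k : ℝ) + 1)
  apply one_div_le_one_div_of_le (by positivity)
  calc 4 * u ^ 4 * v = u * v * (u + u) * (u ^ 2 + u ^ 2) := by ring
    _ ≤ u * v * (u + v) * (u ^ 2 + v ^ 2) := by gcongr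

theorem sum_dl (N n : ℕ) :
    ∑ j ∈ Finset.range n, dl (N + j) = 1 / q4 (N : ℝ) - 1 / q4 ((N : ℝ) + n) := by
  induction n with
  | zero => simp
  | succ n ih =>
    rw [Finset.sum_range_succ, ih]
    unfold dl
    push_cast
    rw [add_assoc]
    ring

theorem sum_dl_le (N n : ℕ) : ∑ j ∈ Finset.range n, dl (N + j) ≤ 1 / q4 (N : ℝ) := by
  rw [sum_dl]
  have : 0 ≤ 1 / q4 ((N : ℝ) + n) := by unfold q4; positivity
  linarith

variable {N : ℕ} {t : ℝ}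

/-- relative step size -/
noncomputable def aa (N k : ℕ) : ℝ := q4 (N : ℝ) ^ 3 * dl k / q4 ((k : ℝ) + 1) ^ 2

theorem aa_pos (hN : 1 ≤ N) {k : ℕ} (hk : N ≤ k) : 0 < aa N k := by
  have hN0 : (0 : ℝ) < N := by exact_mod_cast hN
  have hk0 : (0 : ℝ) < k := by exact_mod_cast (le_trans hN hk)
  have h1 := q4_pos hN0
  have h2 := dl_pos (le_trans hN hk)
  have h3 : 0 < q4 ((k : ℝ) + 1) := q4_pos (by linarith)
  unfold aa; positivity

theorem aa_le (hN : 1 ≤ N) {k : ℕ} (hk : N ≤ k) : aa N k ≤ 1 / ((k : ℝ) + 1) := by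
  have hN0 : (0 : ℝ) < N := by exact_mod_cast hN
  have hk1 : (1 : ℝ) ≤ k := by exact_mod_cast (le_trans hN hk)
  have hk0 : (0 : ℝ) < k := by linarith
  have hU := q4_pos hN0
  have hd := dl_up (le_trans hN hk)
  have hd0 := dl_pos (le_trans hN hk)
  have hu : 0 < q4 (k : ℝ) := q4_pos hk0
  have hv : 0 < q4 ((k : ℝ) + 1) := q4_pos (by linarith)
  have hUu : q4 (N : ℝ) ≤ q4 (k : ℝ) := q4_mono (by exact_mod_cast hk)
  have hu4 : q4 (k : ℝ) ^ 4 = k := q4_four hk0.le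
  have hv4 : q4 ((k : ℝ) + 1) ^ 4 = k + 1 := q4_four (by linarith)
  unfold aa
  have e1 : 1 / ((k : ℝ) + 1) = 1 / q4 ((k : ℝ) + 1) ^ 4 := by rw [hv4]
  rw [e1]
  set u := q4 (k : ℝ)
  set v := q4 ((k : ℝ) + 1)
  have hvu : v ≤ 4 * u := by
    by_contra hcon
    push Not at hcon
    have h1 : (4 * u) ^ 4 < v ^ 4 := pow_lt_pow_left₀ hcon (by positivity) (by norm_num)
    have h2 : (4 * u) ^ 4 = 256 * k := by rw [mul_pow, hu4]; norm_num
    rw [h2, hv4] at h1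
    linarith
  calc q4 (N : ℝ) ^ 3 * dl k / v ^ 2
      ≤ u ^ 3 * (1 / (4 * u ^ 4 * v)) / v ^ 2 := by gcongr
    _ = 1 / (4 * u * v ^ 3) := by field_simp
    _ ≤ 1 / (v * v ^ 3) := by
        apply one_div_le_one_div_of_le (by positivity)
        gcongr
    _ = 1 / v ^ 4 := by ring

theorem eps_le (hN : 1 ≤ N) (ht : 0 < t) {k : ℕ} (hk : N ≤ k) :
    9 / ((k : ℝ) + 3) * (1 / ((k : ℝ) + 1)) ^ 2 / (2 * (t * aa N k))
      ≤ 72 / (t * q4 (N : ℝ) ^ 3) * dl k := by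
  have hN0 : (0 : ℝ) < N := by exact_mod_cast hN
  have hk1 : (1 : ℝ) ≤ k := by exact_mod_cast (le_trans hN hk)
  have hk0 : (0 : ℝ) < k := by linarith
  have hU := q4_pos hN0
  have hd := dl_low (le_trans hN hk)
  have hd0 := dl_pos (le_trans hN hk)
  have ha0 := aa_pos hN hk
  have hu : 0 < q4 (k : ℝ) := q4_pos hk0
  have hv : 0 < q4 ((k : ℝ) + 1) := q4_pos (by linarith)
  have huv : q4 (k : ℝ) ≤ q4 ((k : ℝ) + 1) := q4_mono (by linarith)
  have hv4 : q4 ((k : ℝ) + 1) ^ 4 = k + 1 := q4_four (by linarith)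
  rw [div_le_iff₀ (by positivity)]
  have e1 : 72 / (t * q4 (N : ℝ) ^ 3) * dl k * (2 * (t * aa N k))
      = 144 * dl k ^ 2 / q4 ((k : ℝ) + 1) ^ 2 := by
    unfold aa; field_simp; ring
  rw [e1]
  have e2 : 9 / ((k : ℝ) + 3) * (1 / ((k : ℝ) + 1)) ^ 2
      = 9 / ((k : ℝ) + 3) * (1 / q4 ((k : ℝ) + 1) ^ 4) ^ 2 := by rw [hv4]
  rw [e2]
  have e3 : 9 / ((k : ℝ) + 3) ≤ 9 / q4 ((k : ℝ) + 1) ^ 4 := by
    rw [hv4]; gcongr; linarith
  set u := q4 (k : ℝ)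
  set v := q4 ((k : ℝ) + 1)
  calc 9 / ((k : ℝ) + 3) * (1 / v ^ 4) ^ 2 ≤ 9 / v ^ 4 * (1 / v ^ 4) ^ 2 := by gcongr
    _ = 144 * (1 / (4 * v * v ^ 4)) ^ 2 / v ^ 2 := by field_simp; norm_num
    _ ≤ 144 * (1 / (4 * u * v ^ 4)) ^ 2 / v ^ 2 := by gcongr
    _ ≤ 144 * dl k ^ 2 / v ^ 2 := by gcongr

/-- weights -/
noncomputable def th (N : ℕ) (t : ℝ) (n : ℕ) : ℝ :=
  1 - 72 / (t * q4 (N : ℝ) ^ 3) * ∑ j ∈ Finset.range n, dl (N + j)

theorem th_le (hN : 1 ≤ N) (ht : 0 < t) (n : ℕ) : th N t n ≤ 1 := by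
  have hN0 : (0 : ℝ) < N := by exact_mod_cast hN
  have hU := q4_pos hN0
  have : 0 ≤ ∑ j ∈ Finset.range n, dl (N + j) :=
    Finset.sum_nonneg fun j _ => (dl_pos (by omega)).le
  unfold th
  have h2 : 0 ≤ 72 / (t * q4 (N : ℝ) ^ 3) * ∑ j ∈ Finset.range n, dl (N + j) := by positivity
  linarith

theorem th_ge (hN : 1 ≤ N) (ht : 0 < t) (hNt : 144 ≤ N * t) (n : ℕ) : 1 / 2 ≤ th N t n := by
  have hN0 : (0 : ℝ) < N := by exact_mod_cast hN
  have hU := q4_pos hN0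
  have hU4 : q4 (N : ℝ) ^ 4 = N := q4_four hN0.le
  unfold th
  have h1 : 72 / (t * q4 (N : ℝ) ^ 3) * ∑ j ∈ Finset.range n, dl (N + j) ≤
      72 / (t * q4 (N : ℝ) ^ 3) * (1 / q4 (N : ℝ)) := by
    gcongr; exact sum_dl_le N n
  have h2 : 72 / (t * q4 (N : ℝ) ^ 3) * (1 / q4 (N : ℝ)) = 72 / (N * t) := by
    rw [div_mul_div_comm, mul_one]
    congr 1
    calc t * q4 (N : ℝ) ^ 3 * q4 (N : ℝ) = q4 (N : ℝ) ^ 4 * t := by ring
      _ = N * t := by rw [hU4]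
  have h3 : 72 / (N * t) ≤ 1 / 2 := by
    rw [div_le_div_iff₀ (by positivity) (by norm_num)]; linarith
  linarith

theorem th_succ (N : ℕ) (t : ℝ) (n : ℕ) :
    th N t (n + 1) = th N t n - 72 / (t * q4 (N : ℝ) ^ 3) * dl (N + n) := by
  unfold th; rw [Finset.sum_range_succ]; ring

end reals

section hilbert

variable {H : Type*} [NormedAddCommGroup H] [InnerProductSpace ℝ H]

/-- `K_{k+1}(z, z)` for `(z, a)` in the graph of `A` -/
noncomputable def Kf (B : ℕ → LinearMap.BilinForm ℝ H) (k : ℕ) (z a : H) : ℝ :=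
  B (k + 1) z a + ((k : ℝ) + 1) * (B (k + 1) z z - B k z z) / 2

/-- the step lemma for forms -/
theorem step_form {B : ℕ → LinearMap.BilinForm ℝ H} (hsym : ∀ k x y, B k x y = B k y x)
    (hpos : ∀ k x, 0 ≤ B k x x) {k : ℕ} {om a w : H} {t : ℝ} (ht : 0 < t)
    (hts : t ≤ 1 / ((k : ℝ) + 1)) (hw : w = om + t • a)
    (h3 : 0 ≤ Kf B k om a)
    (h2 : (((k : ℝ) + 1) * (B (k + 1) om om - B k om om) / 2) ^ 2
      ≤ 9 / ((k : ℝ) + 3) * Kf B k om a * B (k + 1) om om) :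
    (1 - 9 / ((k : ℝ) + 3) * (1 / ((k : ℝ) + 1)) ^ 2 / (2 * t)) * B k om om
      ≤ B (k + 1) w w := by
  have hk : (0 : ℝ) < (k : ℝ) + 1 := by positivity
  have e1 : B (k + 1) w w = B (k + 1) om om + 2 * t * B (k + 1) om a
      + t ^ 2 * B (k + 1) a a := by
    rw [hw]
    simp only [map_add, map_smul, LinearMap.add_apply, LinearMap.smul_apply, smul_eq_mul]
    rw [hsym (k + 1) a om]; ring
  refine step_real (Y := B (k + 1) om om)
    (X := ((k : ℝ) + 1) * (B (k + 1) om om - B k om om)) (D := Kf B k om a)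
    (s := 1 / ((k : ℝ) + 1)) ht hts (by positivity) h3 (hpos k om) ?_ ?_ ?_
  · nlinarith
  · rw [e1]
    have h4 := mul_nonneg (sq_nonneg t) (hpos (k + 1) a)
    unfold Kf
    nlinarith
  · field_simp; ring

theorem tri {Q : LinearMap.BilinForm ℝ H} (hsym : ∀ x y, Q x y = Q y x)
    (hpos : ∀ x, 0 ≤ Q x x) (x y : H) :
    √(Q (x + y) (x + y)) ≤ √(Q x x) + √(Q y y) := by
  rw [Real.sqrt_le_left (by positivity)]
  have h1 := LinearMap.BilinForm.apply_mul_apply_le_of_forall_zero_le Q hpos x y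
  rw [hsym y x] at h1
  have hx := Real.sq_sqrt (hpos x)
  have hy := Real.sq_sqrt (hpos y)
  have h2 : Q x y ≤ √(Q x x) * √(Q y y) := by
    rw [← Real.sqrt_mul (hpos x)]
    apply Real.le_sqrt_of_sq_le
    rw [sq]; exact h1
  simp only [map_add, LinearMap.add_apply]
  rw [hsym y x]
  nlinarith

theorem sqrt_smul {Q : LinearMap.BilinForm ℝ H} {c : ℝ} (hc : 0 ≤ c) (x : H) :
    √(Q (c • x) (c • x)) = c * √(Q x x) := by
  simp only [map_smul, LinearMap.smul_apply, smul_eq_mul]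
  rw [← mul_assoc, Real.sqrt_mul (by positivity), Real.sqrt_mul_self hc]

/-- resolvents commute (from the resolvent identity) -/
theorem comm_J {J : ℝ → H →L[ℝ] H}
    (hres : ∀ s : ℝ, 0 < s → ∀ r : ℝ, 0 < r → ∀ x, J r (J s x + (r / s) • (x - J s x)) = J s x)
    {s r : ℝ} (hs : 0 < s) (hr : 0 < r) (x : H) : J s (J r x) = J r (J s x) := by
  rcases eq_or_ne s r with h | h
  · rw [h]
  have h1 := hres s hs r hr x
  have h2 := hres r hr s hs x
  rw [map_add, map_smul, map_sub] at h1 h2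
  have h3 : (1 - r / s) ≠ 0 := by
    intro h4
    apply h
    field_simp at h4
    linarith
  have h5 : (r / s) * (s / r) = 1 := by field_simp
  have h6 : (1 - r / s) • (J s (J r x) - J r (J s x)) = 0 := by
    have e1 : (r / s) • (J s (J r x) + (s / r) • (J s x - J s (J r x))) = (r / s) • J r x := by
      rw [h2]
    rw [smul_add, smul_smul, h5, one_smul] at e1
    have e3 : J s (J r x) - (r / s) • J s (J r x) = J s x - (r / s) • J r x := by
      rw [← e1]; abel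
    have e4 : J r (J s x) - (r / s) • J r (J s x) = J s x - (r / s) • J r x := by
      rw [smul_sub] at h1
      nth_rewrite 3 [← h1]
      abel
    calc (1 - r / s) • (J s (J r x) - J r (J s x))
        = (J s (J r x) - (r / s) • J s (J r x)) - (J r (J s x) - (r / s) • J r (J s x)) := by
          rw [sub_smul, one_smul, smul_sub]; abel
      _ = 0 := by rw [e3, e4, sub_self]
  have h7 := (smul_eq_zero.1 h6).resolve_left h3
  exact sub_eq_zero.1 h7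

/-- one step with weights -/
theorem stepF {A : H → H → Prop} {J : ℝ → H →L[ℝ] H} {B : ℕ → LinearMap.BilinForm ℝ H}
    (hA : ∀ t : ℝ, 0 < t → ∀ w, A (J t w) ((1 / t) • (w - J t w)))
    (hsym : ∀ k x y, B k x y = B k y x)
    (hpos : ∀ k x, 0 ≤ B k x x)
    (h3 : ∀ k z a, A z a → 0 ≤ Kf B k z a)
    (h2 : ∀ (k : ℕ) z a, A z a → (((k : ℝ) + 1) * (B (k + 1) z z - B k z z) / 2) ^ 2
      ≤ 9 / ((k : ℝ) + 3) * Kf B k z a * B (k + 1) z z)
    {N : ℕ} {t : ℝ} (hN : 1 ≤ N) (ht : 0 < t) (ht1 : t ≤ 1) (hNt : 144 ≤ N * t)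
    (n : ℕ) (x : H) :
    B (N + n) (J (t * aa N (N + n)) x) (J (t * aa N (N + n)) x) / th N t n
      ≤ B (N + (n + 1)) x x / th N t (n + 1) := by
  have hk := Nat.le_add_right N n
  have ha := aa_pos hN hk
  have hh : 0 < t * aa N (N + n) := by positivity
  have hhl : t * aa N (N + n) ≤ 1 / (((N + n : ℕ) : ℝ) + 1) := by
    calc t * aa N (N + n) ≤ 1 * aa N (N + n) := by gcongr
      _ = aa N (N + n) := one_mul _
      _ ≤ _ := aa_le hN hk
  have hAx := hA _ hh x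
  have hs := step_form hsym hpos (k := N + n) (w := x) hh hhl
    (by rw [smul_smul, mul_one_div_cancel hh.ne', one_smul]; abel) (h3 _ _ _ hAx)
    (h2 _ _ _ hAx)
  have he := eps_le hN ht hk
  set om := J (t * aa N (N + n)) x with hom
  have hb := hpos (N + n) om
  have hθ := th_ge hN ht hNt n
  have hθ1 := th_le hN ht n
  have hθ' := th_ge hN ht hNt (n + 1)
  have hθs := th_succ N t n
  set θ := th N t n
  set θ' := th N t (n + 1)
  set ε := 9 / (((N + n : ℕ) : ℝ) + 3) * (1 / (((N + n : ℕ) : ℝ) + 1)) ^ 2 /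
    (2 * (t * aa N (N + n))) with hε
  have hε0 : 0 ≤ ε := by positivity
  rw [div_le_div_iff₀ (by linarith) (by linarith)]
  have h5 : θ' ≤ θ * (1 - ε) := by
    have : ε * θ ≤ ε := by nlinarith
    rw [hθs]; linarith
  calc B (N + n) om om * θ' ≤ B (N + n) om om * (θ * (1 - ε)) := by gcongr
    _ = θ * ((1 - ε) * B (N + n) om om) := by ring
    _ ≤ θ * B (N + n + 1) x x := by
        apply mul_le_mul_of_nonneg_left hs (by linarith)
    _ = B (N + (n + 1)) x x * θ := by rw [mul_comm, add_assoc]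

theorem fin_real {T a R S c Qx Qjx F1 F1' F2 F2' : ℝ} (ha : 0 ≤ a) (hR : 0 ≤ R) (hS : 0 ≤ S)
    (hc : 0 ≤ c) (h : T ≤ a * Qx + Qjx) (h1 : Qx ≤ R * F1) (h2 : Qjx ≤ S * F1 + c * F2)
    (h3 : F1 ≤ F1') (h4 : F2 ≤ F2') : T ≤ (S + a * R) * F1' + c * F2' := by
  calc T ≤ a * Qx + Qjx := h
    _ ≤ a * (R * F1) + (S * F1 + c * F2) := by gcongr
    _ ≤ a * (R * F1') + (S * F1' + c * F2') := by gcongr
    _ = _ := by ring

/-- induction over the number of steps -/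
theorem main_ind {A : H → H → Prop} {J : ℝ → H →L[ℝ] H} {B : ℕ → LinearMap.BilinForm ℝ H}
    {Q : LinearMap.BilinForm ℝ H}
    (hres : ∀ s : ℝ, 0 < s → ∀ r : ℝ, 0 < r → ∀ x, J r (J s x + (r / s) • (x - J s x)) = J s x)
    (hA : ∀ t : ℝ, 0 < t → ∀ w, A (J t w) ((1 / t) • (w - J t w)))
    (hsym : ∀ k x y, B k x y = B k y x)
    (hpos : ∀ k x, 0 ≤ B k x x)
    (h3 : ∀ k z a, A z a → 0 ≤ Kf B k z a)
    (h2 : ∀ (k : ℕ) z a, A z a → (((k : ℝ) + 1) * (B (k + 1) z z - B k z z) / 2) ^ 2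
      ≤ 9 / ((k : ℝ) + 3) * Kf B k z a * B (k + 1) z z)
    (hQsym : ∀ x y, Q x y = Q y x) (hQpos : ∀ x, 0 ≤ Q x x)
    (hQ : ∀ k : ℕ, 1 ≤ k → ∀ z, Q z z ≤ ((k : ℝ) + 1) * B k z z)
    {N : ℕ} {t : ℝ} (hN : 1 ≤ N) (ht : 0 < t) (ht1 : t ≤ 1) (hNt : 144 ≤ N * t) (n : ℕ) :
    ∀ q : H, √(Q (J t q) (J t q)) ≤
      (∑ j ∈ Finset.range n, aa N (N + j) * √(((N + j : ℕ) : ℝ) + 1)) *
        √(B (N + n) q q / th N t n)
      + √((N : ℝ) + 1) * √(B (N + n) (J t q) (J t q) / th N t n) := by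
  induction n with
  | zero =>
    intro q
    simp only [Finset.range_zero, Finset.sum_empty, zero_mul, zero_add, add_zero]
    have : th N t 0 = 1 := by simp [th]
    rw [this, div_one, ← Real.sqrt_mul (by positivity)]
    exact Real.sqrt_le_sqrt (hQ N hN _)
  | succ n ih =>
    intro q
    have hk := Nat.le_add_right N n
    have ha := aa_pos hN hk
    have hN0 : (0 : ℝ) < N := by exact_mod_cast hN
    have ha1 : aa N (N + n) ≤ 1 := by
      refine le_trans (aa_le hN hk) ?_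
      rw [div_le_one (by positivity)]
      have : (0 : ℝ) ≤ ((N + n : ℕ) : ℝ) := by positivity
      linarith
    have hh : 0 < t * aa N (N + n) := by positivity
    have hs1 := stepF hA hsym hpos h3 h2 hN ht ht1 hNt n q
    have hs2 := stepF hA hsym hpos h3 h2 hN ht ht1 hNt n (J t q)
    rw [comm_J hres hh ht] at hs2
    have hi := ih (J (t * aa N (N + n)) q)
    -- the resolvent identity
    have hid : J t q = aa N (N + n) • J (t * aa N (N + n)) q +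
        (1 - aa N (N + n)) • J t (J (t * aa N (N + n)) q) := by
      have h5 := hres t ht _ hh q
      rw [map_add, map_smul, map_sub, comm_J hres hh ht,
        mul_div_cancel_left₀ _ ht.ne'] at h5
      nth_rewrite 1 [← h5]
      rw [sub_smul, one_smul, smul_sub]
      abel
    have hT : √(Q (J t q) (J t q)) ≤
        aa N (N + n) * √(Q (J (t * aa N (N + n)) q) (J (t * aa N (N + n)) q)) +
        √(Q (J t (J (t * aa N (N + n)) q)) (J t (J (t * aa N (N + n)) q))) := by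
      conv_lhs => rw [hid]
      refine le_trans (tri hQsym hQpos _ _) ?_
      rw [sqrt_smul ha.le, sqrt_smul (by linarith)]
      have : 0 ≤ √(Q (J t (J (t * aa N (N + n)) q)) (J t (J (t * aa N (N + n)) q))) :=
        Real.sqrt_nonneg _
      nlinarith
    set x := J (t * aa N (N + n)) q with hx
    have hθ := th_ge hN ht hNt n
    have hθ1 := th_le hN ht n
    have hq1 : √(Q x x) ≤ √(((N + n : ℕ) : ℝ) + 1) * √(B (N + n) x x / th N t n) := by
      rw [← Real.sqrt_mul (by positivity)]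
      apply Real.sqrt_le_sqrt
      refine le_trans (hQ (N + n) (by omega) x) ?_
      have hb := hpos (N + n) x
      apply mul_le_mul_of_nonneg_left _ (by positivity)
      rw [le_div_iff₀ (by linarith)]
      nlinarith
    have hs1' := Real.sqrt_le_sqrt hs1
    have hs2' := Real.sqrt_le_sqrt hs2
    have hS0 : 0 ≤ ∑ j ∈ Finset.range n, aa N (N + j) * √(((N + j : ℕ) : ℝ) + 1) :=
      Finset.sum_nonneg fun j _ => mul_nonneg (aa_pos hN (Nat.le_add_right N j)).le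
        (Real.sqrt_nonneg _)
    rw [Finset.sum_range_succ]
    exact fin_real ha.le (Real.sqrt_nonneg _) hS0 (Real.sqrt_nonneg _) hT hq1 hi hs1' hs2'

theorem sum_aa_le {N : ℕ} (hN : 1 ≤ N) (n : ℕ) :
    ∑ j ∈ Finset.range n, aa N (N + j) * √(((N + j : ℕ) : ℝ) + 1) ≤ √(N : ℝ) := by
  have hN0 : (0 : ℝ) < N := by exact_mod_cast hN
  have hU := q4_pos hN0
  have h1 : ∀ j ∈ Finset.range n, aa N (N + j) * √(((N + j : ℕ) : ℝ) + 1)
      = q4 (N : ℝ) ^ 3 * dl (N + j) := by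
    intro j _
    have hk0 : (0 : ℝ) < ((N + j : ℕ) : ℝ) + 1 := by positivity
    have hv := q4_pos hk0
    unfold aa
    rw [← q4_sq]
    field_simp
  rw [Finset.sum_congr rfl h1, ← Finset.mul_sum, ← q4_sq]
  calc q4 (N : ℝ) ^ 3 * ∑ j ∈ Finset.range n, dl (N + j)
      ≤ q4 (N : ℝ) ^ 3 * (1 / q4 (N : ℝ)) := by gcongr; exact sum_dl_le N n
    _ = q4 (N : ℝ) ^ 2 := by field_simp

/-- **ABS-B, resolvent form, with the integer `N`** -/
theorem absB_N {A : H → H → Prop} {J : ℝ → H →L[ℝ] H} {B : ℕ → LinearMap.BilinForm ℝ H}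
    {Q : LinearMap.BilinForm ℝ H}
    (hres : ∀ s : ℝ, 0 < s → ∀ r : ℝ, 0 < r → ∀ x, J r (J s x + (r / s) • (x - J s x)) = J s x)
    (hcon : ∀ s : ℝ, 0 < s → ∀ x, ‖J s x‖ ≤ ‖x‖)
    (hA : ∀ t : ℝ, 0 < t → ∀ w, A (J t w) ((1 / t) • (w - J t w)))
    (hsym : ∀ k x y, B k x y = B k y x)
    (hpos : ∀ k x, 0 ≤ B k x x)
    (h3 : ∀ k z a, A z a → 0 ≤ Kf B k z a)
    (h2 : ∀ (k : ℕ) z a, A z a → (((k : ℝ) + 1) * (B (k + 1) z z - B k z z) / 2) ^ 2
      ≤ 9 / ((k : ℝ) + 3) * Kf B k z a * B (k + 1) z z)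
    (h4 : ∀ z, Tendsto (fun k => B k z z) atTop (𝓝 (‖z‖ ^ 2)))
    (hQsym : ∀ x y, Q x y = Q y x) (hQpos : ∀ x, 0 ≤ Q x x)
    (hQ : ∀ k : ℕ, 1 ≤ k → ∀ z, Q z z ≤ ((k : ℝ) + 1) * B k z z)
    {N : ℕ} {t : ℝ} (hN : 1 ≤ N) (ht : 0 < t) (ht1 : t ≤ 1) (hNt : 144 ≤ N * t) (q : H) :
    Q (J t q) (J t q) ≤ 8 * ((N : ℝ) + 1) * ‖q‖ ^ 2 := by
  have hN0 : (0 : ℝ) < N := by exact_mod_cast hN
  have hbound : ∀ n, √(Q (J t q) (J t q)) ≤ √(N : ℝ) * √(2 * B (N + n) q q)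
      + √((N : ℝ) + 1) * √(2 * B (N + n) (J t q) (J t q)) := by
    intro n
    have hθ := th_ge hN ht hNt n
    have hdiv : ∀ x : H, B (N + n) x x / th N t n ≤ 2 * B (N + n) x x := by
      intro x
      rw [div_le_iff₀ (by linarith)]
      have := hpos (N + n) x
      nlinarith
    refine le_trans (main_ind hres hA hsym hpos h3 h2 hQsym hQpos hQ hN ht ht1 hNt n q) ?_
    have h5 := sum_aa_le hN n
    have h6 := Real.sqrt_le_sqrt (hdiv q)
    have h7 := Real.sqrt_le_sqrt (hdiv (J t q))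
    gcongr
  have hlim : ∀ x : H, Tendsto (fun n => √(2 * B (N + n) x x)) atTop (𝓝 √(2 * ‖x‖ ^ 2)) := by
    intro x
    have h5 : Tendsto (fun n => B (N + n) x x) atTop (𝓝 (‖x‖ ^ 2)) :=
      (h4 x).comp (tendsto_atTop_mono (fun n => Nat.le_add_left n N) tendsto_id)
    exact (h5.const_mul 2).sqrt
  have h8 := ge_of_tendsto' (((hlim q).const_mul √(N : ℝ)).add
    ((hlim (J t q)).const_mul √((N : ℝ) + 1))) hbound
  have e1 : ∀ x : H, √(2 * ‖x‖ ^ 2) = √2 * ‖x‖ := by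
    intro x
    rw [Real.sqrt_mul (by norm_num), Real.sqrt_sq (norm_nonneg _)]
  rw [e1, e1] at h8
  have h9 : √(Q (J t q) (J t q)) ≤ 2 * √2 * √((N : ℝ) + 1) * ‖q‖ := by
    have h10 := hcon t ht q
    have h11 : √(N : ℝ) ≤ √((N : ℝ) + 1) := Real.sqrt_le_sqrt (by linarith)
    calc √(Q (J t q) (J t q)) ≤ _ := h8
      _ ≤ √((N : ℝ) + 1) * (√2 * ‖q‖) + √((N : ℝ) + 1) * (√2 * ‖q‖) := by gcongr
      _ = _ := by ring
  have h12 : Q (J t q) (J t q) ≤ (2 * √2 * √((N : ℝ) + 1) * ‖q‖) ^ 2 := by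
    rw [← Real.sqrt_le_left (by positivity)]
    exact h9
  refine le_trans h12 (le_of_eq ?_)
  rw [mul_pow, mul_pow, mul_pow, Real.sq_sqrt (by norm_num), Real.sq_sqrt (by positivity)]
  ring

/-- **ABS-B** -/
theorem absB {A : H → H → Prop} {J : ℝ → H →L[ℝ] H} {B : ℕ → LinearMap.BilinForm ℝ H}
    {Q : LinearMap.BilinForm ℝ H}
    (hres : ∀ s : ℝ, 0 < s → ∀ r : ℝ, 0 < r → ∀ x, J r (J s x + (r / s) • (x - J s x)) = J s x)
    (hcon : ∀ s : ℝ, 0 < s → ∀ x, ‖J s x‖ ≤ ‖x‖)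
    (hA : ∀ t : ℝ, 0 < t → ∀ w, A (J t w) ((1 / t) • (w - J t w)))
    (hsym : ∀ k x y, B k x y = B k y x)
    (hpos : ∀ k x, 0 ≤ B k x x)
    (h3 : ∀ k z a, A z a → 0 ≤ Kf B k z a)
    (h2 : ∀ (k : ℕ) z a, A z a → (((k : ℝ) + 1) * (B (k + 1) z z - B k z z) / 2) ^ 2
      ≤ 9 / ((k : ℝ) + 3) * Kf B k z a * B (k + 1) z z)
    (h4 : ∀ z, Tendsto (fun k => B k z z) atTop (𝓝 (‖z‖ ^ 2)))
    (hQsym : ∀ x y, Q x y = Q y x) (hQpos : ∀ x, 0 ≤ Q x x)
    (hQ : ∀ k : ℕ, 1 ≤ k → ∀ z, Q z z ≤ ((k : ℝ) + 1) * B k z z)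
    {t : ℝ} (ht : 0 < t) (ht1 : t ≤ 1) (q : H) :
    Q (J t q) (J t q) ≤ 1168 / t * ‖q‖ ^ 2 := by
  have hpos' : 0 < 144 / t := by positivity
  have h5 := Nat.ceil_lt_add_one hpos'.le
  have h6 := Nat.le_ceil (144 / t)
  have hN : 1 ≤ ⌈144 / t⌉₊ := Nat.ceil_pos.2 hpos'
  have hNt : 144 ≤ (⌈144 / t⌉₊ : ℝ) * t := by
    rw [div_le_iff₀ ht] at h6; exact h6
  refine le_trans (absB_N hres hcon hA hsym hpos h3 h2 h4 hQsym hQpos hQ hN ht ht1 hNt q) ?_
  have h7 : 8 * ((⌈144 / t⌉₊ : ℝ) + 1) ≤ 1168 / t := by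
    have : (1 : ℝ) ≤ 1 / t := by rw [le_div_iff₀ ht]; linarith
    calc 8 * ((⌈144 / t⌉₊ : ℝ) + 1) ≤ 8 * (144 / t + 1 + 1) := by gcongr
      _ = 1152 / t + 16 * 1 := by ring
      _ ≤ 1152 / t + 16 * (1 / t) := by gcongr
      _ = 1168 / t := by ring
  gcongr

end hilbert

end P245K.AbsB
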