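import Vale.Agent.P245.K.AbsB
import Vale.Agent.P245.K.Iface

/-!
# P245, row ABS-B (helper294): adapter from the literal structure `K.Abs`
-/

namespace P245K.AbsB

open Filter Topology Vale.Agent.P245.K

variable {H : Type} [NormedAddCommGroup H] [InnerProductSpace ℝ H] [CompleteSpace H]
  {J : ℝ → H →L[ℝ] H} {B : ℕ → H →L[ℝ] H →L[ℝ] ℝ} {H₀ : Submodule ℝ H}

/-- the form as a plain bilinear form -/
noncomputable def bf (b : H →L[ℝ] H →L[ℝ] ℝ) : LinearMap.BilinForm ℝ H :=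
  LinearMap.mk₂ ℝ (fun x y => b x y) (fun _ _ _ => by simp) (fun _ _ _ => by simp)
    (fun _ _ _ => by simp) (fun _ _ _ => by simp)

@[simp] theorem bf_apply (b : H →L[ℝ] H →L[ℝ] ℝ) (x y : H) : bf b x y = b x y := rfl

theorem abs_gr (h : Abs J B H₀) {s : ℝ} (hs : 0 < s) (x : H) :
    J 1 (J s x + s⁻¹ • (x - J s x)) = J s x := h.r2 s hs x

theorem abs_res (h : Abs J B H₀) (s : ℝ) (hs : 0 < s) (r : ℝ) (hr : 0 < r) (x : H) :
    J r (J s x + (r / s) • (x - J s x)) = J s x := by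
  have h1 := h.r1 r hr _ _ (h.r2 s hs x)
  rw [smul_smul, ← div_eq_mul_inv] at h1
  exact h1

theorem abs_norm (h : Abs J B H₀) (s : ℝ) (hs : 0 < s) (x : H) : ‖J s x‖ ≤ ‖x‖ := by
  have h1 := h.pos _ _ (h.r2 s hs x)
  rw [real_inner_smul_left] at h1
  have h2 : 0 ≤ inner ℝ (x - J s x) (J s x) := by
    have := mul_nonneg hs.le h1
    rwa [← mul_assoc, mul_inv_cancel₀ hs.ne', one_mul] at this
  rw [inner_sub_left, real_inner_self_eq_norm_sq] at h2
  have h3 := real_inner_le_norm x (J s x)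
  by_contra hcon
  push Not at hcon
  nlinarith [norm_nonneg x, norm_nonneg (J s x)]

theorem abs_comm (h : Abs J B H₀) {s r : ℝ} (hs : 0 < s) (hr : 0 < r) (x : H) :
    J s (J r x) = J r (J s x) := comm_J (abs_res h) hs hr x

theorem abs_Kf (h : Abs J B H₀) (k : ℕ) (z a : H) (hz : J 1 (z + a) = z) :
    0 ≤ Kf (fun k => bf (B k)) k z a := by
  have h1 := h.hK (k + 1) (by omega) z a hz
  simp only [Nat.add_sub_cancel] at h1
  push_cast at h1
  unfold Kf
  simp only [bf_apply]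
  linarith

theorem abs_h2 (h : Abs J B H₀) (k : ℕ) (z a : H) (hz : J 1 (z + a) = z) :
    (((k : ℝ) + 1) * (bf (B (k + 1)) z z - bf (B k) z z) / 2) ^ 2
      ≤ 9 / ((k : ℝ) + 3) * Kf (fun k => bf (B k)) k z a * bf (B (k + 1)) z z := by
  have h1 := h.h2 (k + 1) (by omega) z a z a hz hz
  have h3 := abs_Kf h k z a hz
  have h5 := h.bpos (k + 1) z
  simp only [Nat.add_sub_cancel] at h1
  push_cast at h1
  rw [h.bsym (k + 1) a z] at h1
  have e1 : (B (k + 1)) z a + ((k : ℝ) + 1) / 2 * ((B (k + 1)) z z - (B k) z z)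
      = Kf (fun k => bf (B k)) k z a := by
    unfold Kf
    simp only [bf_apply]
    ring
  rw [e1] at h1
  simp only [bf_apply]
  have e2 : (((k : ℝ) + 1) * ((B (k + 1)) z z - (B k) z z) / 2) ^ 2 =
      ((B (k + 1)) z a - 1 / 2 * ((B (k + 1)) z a + (B (k + 1)) z a +
        ((k : ℝ) + 1) * ((B (k + 1)) z z - (B k) z z))) ^ 2 := by ring
  rw [e2]
  refine le_trans h1 ?_
  have e3 : (6 : ℝ) / ((k : ℝ) + 1 + 2) ≤ 9 / ((k : ℝ) + 3) := by
    rw [show (k : ℝ) + 1 + 2 = k + 3 by ring]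
    gcongr; norm_num
  gcongr

theorem abs_chain (h : Abs J B H₀) {k : ℕ} (hk : 1 ≤ k) (z : H) :
    B 1 z z ≤ ((k : ℝ) + 1) / 2 * B k z z := by
  induction k, hk using Nat.le_induction with
  | base => norm_num
  | succ k hk ih =>
    have h1 := h.h1 (k + 1) (by omega) z
    simp only [Nat.add_sub_cancel] at h1
    push_cast at h1 ⊢
    have hk0 : (0 : ℝ) < (k : ℝ) + 1 := by positivity
    calc B 1 z z ≤ ((k : ℝ) + 1) / 2 * B k z z := ih
      _ ≤ ((k : ℝ) + 1) / 2 * ((1 + 1 / ((k : ℝ) + 1)) * B (k + 1) z z) := by gcongr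
      _ = ((k : ℝ) + 1 + 1) / 2 * B (k + 1) z z := by field_simp

theorem abs_chain0 (h : Abs J B H₀) (k : ℕ) (z : H) :
    B 0 z z ≤ ((k : ℝ) + 1) * B k z z := by
  induction k with
  | zero => simp
  | succ k ih =>
    have h1 := h.h1 (k + 1) (by omega) z
    simp only [Nat.add_sub_cancel] at h1
    push_cast at h1 ⊢
    have hk0 : (0 : ℝ) < (k : ℝ) + 1 := by positivity
    calc B 0 z z ≤ ((k : ℝ) + 1) * B k z z := ih
      _ ≤ ((k : ℝ) + 1) * ((1 + 1 / ((k : ℝ) + 1)) * B (k + 1) z z) := by gcongr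
      _ = ((k : ℝ) + 1 + 1) * B (k + 1) z z := by field_simp

/-- (B) for `B 1` -/
theorem absB1 (h : Abs J B H₀) {t : ℝ} (ht : 0 < t) (ht1 : t ≤ 1) (q : H) :
    B 1 (J t q) (J t q) ≤ 1168 / t * ‖q‖ ^ 2 := by
  have := absB (A := fun z a => J 1 (z + a) = z) (J := J) (B := fun k => bf (B k))
    (Q := bf (B 1)) (abs_res h) (abs_norm h)
    (fun t ht w => by rw [one_div]; exact h.r2 t ht w)
    (fun k x y => h.bsym k x y) (fun k x => h.bpos k x)
    (fun k z a hz => abs_Kf h k z a hz) (fun k z a hz => abs_h2 h k z a hz) h.h4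
    (fun x y => h.bsym 1 x y) (fun x => h.bpos 1 x)
    (fun k hk z => by
      have h1 := abs_chain h hk z
      have h2 := h.bpos k z
      simp only [bf_apply]
      have h3 : 0 ≤ ((k : ℝ) + 1) / 2 * B k z z := by positivity
      linarith) ht ht1 q
  simpa using this

/-- (B) for `B 0` -/
theorem absB0 (h : Abs J B H₀) {t : ℝ} (ht : 0 < t) (ht1 : t ≤ 1) (q : H) :
    B 0 (J t q) (J t q) ≤ 1168 / t * ‖q‖ ^ 2 := by
  have := absB (A := fun z a => J 1 (z + a) = z) (J := J) (B := fun k => bf (B k))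
    (Q := bf (B 0)) (abs_res h) (abs_norm h)
    (fun t ht w => by rw [one_div]; exact h.r2 t ht w)
    (fun k x y => h.bsym k x y) (fun k x => h.bpos k x)
    (fun k z a hz => abs_Kf h k z a hz) (fun k z a hz => abs_h2 h k z a hz) h.h4
    (fun x y => h.bsym 0 x y) (fun x => h.bpos 0 x)
    (fun k _ z => abs_chain0 h k z) ht ht1 q
  simpa using this

end P245K.AbsB
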