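import Vale.Agent.P245.K.Iface
import Vale.Agent.P245.H731.Fin

/-! P245, KLS, row ABS (helper731): the abstract lemma of the interface, by spectral windows (Mathlib's continuous
functional calculus on the complexification). -/

set_option autoImplicit false
set_option linter.all false

open Filter Topology

namespace Vale.Agent.P245.K

theorem absH731 : StmtAbs := by
  refine ⟨4 * 719872, by norm_num, ?_⟩
  intro H _ _ _ J B H₀ h z y hz hz0
  have h1 := H731.hyp_bound (J := J) (B := B) ⟨h.sym, h.r1, h.pos, h.dense, h.bsym, h.bpos, h.h1, h.bdd, h.h4,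
    h.hK, h.h2⟩ hz
  have h2 := h.gap z y hz hz0
  have h3 : ‖z‖ ≤ ‖y‖ := by
    have h4 := real_inner_le_norm y z
    rcases eq_or_lt_of_le (norm_nonneg z) with h5 | h5
    · rw [← h5]; exact norm_nonneg _
    · nlinarith
  have h6 : ‖z + y‖ ≤ 2 * ‖y‖ := (norm_add_le _ _).trans (by linarith)
  have h7 : ‖z + y‖ ^ 2 ≤ (2 * ‖y‖) ^ 2 := by gcongr
  nlinarith

end Vale.Agent.P245.K
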