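import Mathlib

/-!
P245, row ABS-K (helper109).  Abstract Hilbert space layer.
Input  (B'')  `G (J t q) (J t q) ≤ (A0 / t) * ‖q‖ ^ 2` for `0 < t ≤ 1`;
output `K z ξ z ξ ≤ C * (‖ξ‖ ^ 2 + ‖z‖ ^ 2)` on the graph of `A`.
Only resolvents at dyadic times are used.
-/

open Filter Topology
open scoped RealInnerProductSpace

namespace Vale.P245.AbsK

variable {H : Type*} [NormedAddCommGroup H] [InnerProductSpace ℝ H]

/-- A family of resolvents `J s = (1 + s A)⁻¹` of a nonnegative selfadjoint operator. -/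
structure Res (J : ℝ → H →L[ℝ] H) : Prop where
  symm : ∀ s : ℝ, 0 < s → ∀ x y : H, ⟪J s x, y⟫ = ⟪x, J s y⟫
  firm : ∀ s : ℝ, 0 < s → ∀ x : H, ‖J s x‖ ^ 2 ≤ ⟪J s x, x⟫
  res : ∀ s : ℝ, 0 < s → ∀ r : ℝ, 0 < r → ∀ x : H,
    J r (J s x + (r / s) • (x - J s x)) = J s x
  lim : ∀ x : H, Tendsto (fun s => J s x) (𝓝[>] 0) (𝓝 x)

/-- `Gr J z ξ`: `z` is in the domain of `A` and `A z = ξ`. -/
def Gr (J : ℝ → H →L[ℝ] H) (z ξ : H) : Prop :=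
  ∀ s : ℝ, 0 < s → J s (z + s • ξ) = z

/-- The form `K (z, e)`, with `ξ = A z`, `ε = A e`. -/
noncomputable def Kf (G X : H →L[ℝ] H →L[ℝ] ℝ) (z ξ e ε : H) : ℝ :=
  (G z ε + G ξ e + X z e) / 2

section basic

variable {J : ℝ → H →L[ℝ] H}

lemma Res.comm (hJ : Res J) {s r : ℝ} (hs : 0 < s) (hr : 0 < r) (x : H) :
    J r (J s x) = J s (J r x) := by
  rcases eq_or_ne s r with h | h
  · rw [h]
  have h1 := hJ.res s hs r hr x
  have h2 := hJ.res r hr s hs x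
  simp only [map_add, map_smul, map_sub] at h1 h2
  set P := J r (J s x)
  set Q := J s (J r x)
  set u := J s x
  set v := J r x
  have h2' : (r / s) • Q + (u - Q) = (r / s) • v := by
    have := congrArg (fun w => (r / s) • w) h2
    simp only [smul_add, smul_smul] at this
    rw [show r / s * (s / r) = 1 by field_simp] at this
    simpa using this
  have h4 : (1 - r / s) • (P - Q) = 0 := by
    linear_combination (norm := module) h1 + h2'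
  have h5 : (1 - r / s) ≠ 0 := by
    intro h6
    apply h
    field_simp at h6
    linarith
  exact sub_eq_zero.mp ((smul_eq_zero.mp h4).resolve_left h5)

lemma Res.contr (hJ : Res J) {s : ℝ} (hs : 0 < s) (x : H) : ‖J s x‖ ≤ ‖x‖ := by
  have h1 := hJ.firm s hs x
  have h2 : ⟪J s x, x⟫ ≤ ‖J s x‖ * ‖x‖ := real_inner_le_norm _ _
  rcases (norm_nonneg (J s x)).eq_or_lt with h0 | h0
  · rw [← h0]; exact norm_nonneg _
  · have : ‖J s x‖ * ‖J s x‖ ≤ ‖J s x‖ * ‖x‖ := by nlinarith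
    exact le_of_mul_le_mul_left this h0

lemma Res.contr_sq (hJ : Res J) {s : ℝ} (hs : 0 < s) (x : H) : ‖J s x‖ ^ 2 ≤ ‖x‖ ^ 2 := by
  have := hJ.contr hs x
  have h0 := norm_nonneg (J s x)
  nlinarith

lemma Res.gr (hJ : Res J) {s : ℝ} (hs : 0 < s) (x : H) :
    Gr J (J s x) ((1 / s) • (x - J s x)) := by
  intro r hr
  have h := hJ.res s hs r hr x
  have h' : J s x + r • (1 / s) • (x - J s x) = J s x + (r / s) • (x - J s x) := by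
    rw [smul_smul]; congr 2; ring
  rw [h']; exact h

lemma Gr.add {z ξ e ε : H} (h : Gr J z ξ) (h' : Gr J e ε) : Gr J (z + e) (ξ + ε) := by
  intro s hs
  have : z + e + s • (ξ + ε) = (z + s • ξ) + (e + s • ε) := by module
  rw [this, map_add, h s hs, h' s hs]

lemma Gr.smul {z ξ : H} (c : ℝ) (h : Gr J z ξ) : Gr J (c • z) (c • ξ) := by
  intro s hs
  have : c • z + s • c • ξ = c • (z + s • ξ) := by module
  rw [this, map_smul, h s hs]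

lemma Gr.sub {z ξ e ε : H} (h : Gr J z ξ) (h' : Gr J e ε) : Gr J (z - e) (ξ - ε) := by
  have := h.add (h'.smul (-1))
  simpa [sub_eq_add_neg] using this

lemma Res.gr_map (hJ : Res J) {z ξ : H} (h : Gr J z ξ) {s : ℝ} (hs : 0 < s) :
    Gr J (J s z) (J s ξ) := by
  intro r hr
  have : J s z + r • J s ξ = J s (z + r • ξ) := by simp
  rw [this, hJ.comm hs hr, h r hr]

lemma Res.gr_symm (hJ : Res J) {z ξ e ε : H} (h : Gr J z ξ) (h' : Gr J e ε) :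
    ⟪ξ, e⟫ = ⟪z, ε⟫ := by
  have h1 := hJ.symm 1 one_pos (z + (1 : ℝ) • ξ) (e + (1 : ℝ) • ε)
  rw [h 1 one_pos, h' 1 one_pos] at h1
  simp only [one_smul, inner_add_left, inner_add_right] at h1
  linarith

lemma Res.gr_nonneg (hJ : Res J) {z ξ : H} (h : Gr J z ξ) : 0 ≤ ⟪ξ, z⟫ := by
  have h1 := hJ.firm 1 one_pos (z + (1 : ℝ) • ξ)
  rw [h 1 one_pos] at h1
  simp only [one_smul, inner_add_right] at h1
  rw [real_inner_self_eq_norm_sq] at h1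
  rw [real_inner_comm]
  linarith

/-- Key identity at the scale `s = t / 2`. -/
lemma Res.key (hJ : Res J) {s : ℝ} (hs : 0 < s) (w : H) :
    ∃ e α : H, Gr J e α ∧ e = J s (J (2 * s) w) ∧ J (2 * s) w = e + s • α ∧
      J s w = e + (2 * s) • α := by
  have h2s : 0 < 2 * s := by linarith
  set y := J (2 * s) w with hy
  set a := (1 / (2 * s)) • (w - y) with ha
  have hg : Gr J y a := hJ.gr h2s w
  refine ⟨J s y, J s a, hJ.gr_map hg hs, rfl, ?_, ?_⟩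
  · have := hg s hs
    simpa using this.symm
  · have hw : w = y + (2 * s) • a := by
      rw [ha, smul_smul]
      rw [show 2 * s * (1 / (2 * s)) = 1 by field_simp]
      module
    calc J s w = J s y + (2 * s) • J s a := by
          conv_lhs => rw [hw]
          simp
      _ = J s y + (2 * s) • J s a := rfl


lemma Res.gr_unique (hJ : Res J) {z ξ ξ' : H} (h : Gr J z ξ) (h' : Gr J z ξ') : ξ = ξ' := by
  have h1 : Gr J (z - z) (ξ - ξ') := h.sub h'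
  rw [sub_self] at h1
  have h2 : ∀ s : ℝ, 0 < s → J s (ξ - ξ') = 0 := by
    intro s hs
    have h3 := h1 s hs
    rw [zero_add, map_smul] at h3
    exact (smul_eq_zero.mp h3).resolve_left hs.ne'
  have h4 : Tendsto (fun s => J s (ξ - ξ')) (𝓝[>] 0) (𝓝 0) := by
    refine tendsto_const_nhds.congr' ?_
    filter_upwards [self_mem_nhdsWithin] with s hs
    exact (h2 s hs).symm
  exact sub_eq_zero.mp (tendsto_nhds_unique (hJ.lim _) h4)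

lemma Res.sub_sq (hJ : Res J) {s : ℝ} (hs : 0 < s) (x : H) : ‖x - J s x‖ ^ 2 ≤ ‖x‖ ^ 2 := by
  have h1 := hJ.firm s hs x
  have h2 : ‖x - J s x‖ ^ 2 = ‖x‖ ^ 2 - 2 * ⟪x, J s x⟫ + ‖J s x‖ ^ 2 := by
    rw [@norm_sub_sq_real]
  have h3 : ⟪x, J s x⟫ = ⟪J s x, x⟫ := real_inner_comm _ _
  have h4 := sq_nonneg ‖J s x‖
  rw [h2, h3]
  linarith

end basic

/-- Hypotheses on `G = G_1`, `X = X_1`. -/
structure Hyp (J : ℝ → H →L[ℝ] H) (G X : H →L[ℝ] H →L[ℝ] ℝ) (A0 : ℝ) : Prop where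
  Gcomm : ∀ x y : H, G x y = G y x
  Xcomm : ∀ x y : H, X x y = X y x
  Gnn : ∀ x : H, 0 ≤ G x x
  Xle : ∀ x : H, |X x x| ≤ G x x
  h2 : ∀ z ξ e ε : H, Gr J z ξ → Gr J e ε →
    (G ξ e - Kf G X z ξ e ε) ^ 2 ≤ 3 * Kf G X z ξ z ξ * G e e
  h3 : ∀ z ξ : H, Gr J z ξ → 0 ≤ Kf G X z ξ z ξ
  hB : ∀ t : ℝ, 0 < t → t ≤ 1 → ∀ q : H, G (J t q) (J t q) ≤ A0 / t * ‖q‖ ^ 2

namespace Hyp

variable {J : ℝ → H →L[ℝ] H} {G X : H →L[ℝ] H →L[ℝ] ℝ} {A0 : ℝ}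

/-- `K(z) = F(Az, z) + X(z)/2`. -/
lemma Kf_self (hG : Hyp J G X A0) (z ξ : H) :
    Kf G X z ξ z ξ = G ξ z + X z z / 2 := by
  unfold Kf; rw [hG.Gcomm z ξ]; ring

lemma Kf_self_le (hG : Hyp J G X A0) (z ξ : H) :
    Kf G X z ξ z ξ ≤ G ξ z + G z z / 2 := by
  rw [hG.Kf_self]; have := (abs_le.mp (hG.Xle z)).2; linarith

lemma le_Kf_self (hG : Hyp J G X A0) (z ξ : H) :
    G ξ z ≤ Kf G X z ξ z ξ + G z z / 2 := by
  rw [hG.Kf_self]; have := (abs_le.mp (hG.Xle z)).1; linarith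

lemma two_le (hG : Hyp J G X A0) (x y : H) : 2 * G x y ≤ G x x + G y y := by
  have h := hG.Gnn (x - y)
  simp only [map_sub, sub_apply] at h
  rw [hG.Gcomm y x] at h
  linarith

lemma F_sub_le (hG : Hyp J G X A0) (x y : H) :
    G (x - y) (x - y) ≤ 2 * G x x + 2 * G y y := by
  have h := hG.Gnn (x + y)
  simp only [map_sub, map_add, sub_apply,
    add_apply] at h ⊢
  rw [hG.Gcomm y x] at h ⊢
  linarith

/-- `M = K + F`. -/
noncomputable def M (G X : H →L[ℝ] H →L[ℝ] ℝ) (z ξ : H) : ℝ := Kf G X z ξ z ξ + G z z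

lemma M_nonneg (hG : Hyp J G X A0) {z ξ : H} (h : Gr J z ξ) : 0 ≤ M G X z ξ :=
  add_nonneg (hG.h3 _ _ h) (hG.Gnn _)

lemma M_smul (c : ℝ) (z ξ : H) : M G X (c • z) (c • ξ) = c ^ 2 * M G X z ξ := by
  unfold M Kf
  simp only [map_smul, smul_apply, smul_eq_mul]
  ring

lemma M_add_le (hG : Hyp J G X A0) {z ξ e ε : H} (h : Gr J z ξ) (h' : Gr J e ε) :
    M G X (z + e) (ξ + ε) ≤ 3 / 2 * M G X z ξ + 3 * M G X e ε := by
  have h1 := hG.M_nonneg (h.sub (h'.smul 2))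
  unfold M Kf at h1 ⊢
  simp only [map_sub, map_add, map_smul, sub_apply,
    add_apply, smul_apply, smul_eq_mul] at h1 ⊢
  linarith

lemma M_add_le' (hG : Hyp J G X A0) {z ξ e ε : H} (h : Gr J z ξ) (h' : Gr J e ε) :
    M G X (z + e) (ξ + ε) ≤ 2 * M G X z ξ + 2 * M G X e ε := by
  have h1 := hG.M_nonneg (h.sub h')
  unfold M Kf at h1 ⊢
  simp only [map_sub, map_add, map_smul, sub_apply,
    add_apply, smul_apply, smul_eq_mul] at h1 ⊢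
  linarith

/-- (a) -/
lemma M_le (hJ : Res J) (hG : Hyp J G X A0) (hA0 : 0 ≤ A0) {s : ℝ} (hs : 0 < s)
    (hs1 : 2 * s ≤ 1) {q z ξ : H} (hz : z = J (2 * s) (J s q)) (hg : Gr J z ξ) :
    M G X z ξ ≤ A0 / s ^ 2 * ‖q‖ ^ 2 := by
  have h2s : 0 < 2 * s := by linarith
  set a := (1 / s) • (q - J s q) with ha
  have hg' : Gr J z (J (2 * s) a) := by
    rw [hz]; exact hJ.gr_map (hJ.gr hs q) h2s
  have hξ : ξ = J (2 * s) a := hJ.gr_unique hg hg'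
  have h1 : G z z ≤ A0 / (2 * s) * ‖q‖ ^ 2 := by
    rw [hz]
    refine (hG.hB _ h2s hs1 _).trans ?_
    exact mul_le_mul_of_nonneg_left (hJ.contr_sq hs q) (by positivity)
  have h2 : G ξ ξ ≤ A0 / (2 * s) * ((1 / s) ^ 2 * ‖q‖ ^ 2) := by
    rw [hξ]
    refine (hG.hB _ h2s hs1 _).trans ?_
    refine mul_le_mul_of_nonneg_left ?_ (by positivity)
    rw [ha, norm_smul, mul_pow, Real.norm_eq_abs, sq_abs]
    exact mul_le_mul_of_nonneg_left (hJ.sub_sq hs q) (by positivity)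
  have h3 : 2 * G (s • ξ) z ≤ G (s • ξ) (s • ξ) + G z z := hG.two_le _ _
  simp only [map_smul, smul_apply, smul_eq_mul] at h3
  have h4 := hG.Kf_self_le z ξ
  unfold M
  set Q := ‖q‖ ^ 2 with hQ
  have hQ0 : 0 ≤ Q := by positivity
  -- K ≤ F(ξ,z) + F(z)/2
  have h5 : G ξ z ≤ A0 / (2 * s ^ 2) * Q := by
    have h6 : 2 * (s * G ξ z) ≤ s * (s * (A0 / (2 * s) * ((1 / s) ^ 2 * Q))) +
        A0 / (2 * s) * Q := by
      refine h3.trans (add_le_add ?_ h1)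
      exact mul_le_mul_of_nonneg_left (mul_le_mul_of_nonneg_left h2 hs.le) hs.le
    have h7 : s * (s * (A0 / (2 * s) * ((1 / s) ^ 2 * Q))) + A0 / (2 * s) * Q =
        2 * (s * (A0 / (2 * s ^ 2) * Q)) := by
      field_simp
      ring
    rw [h7] at h6
    have h8 : s * G ξ z ≤ s * (A0 / (2 * s ^ 2) * Q) := by linarith
    exact le_of_mul_le_mul_left h8 hs
  have h6 : A0 / (2 * s) * Q ≤ A0 / (4 * s ^ 2) * Q := by
    refine mul_le_mul_of_nonneg_right ?_ hQ0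
    rw [div_le_div_iff₀ h2s (by positivity)]
    nlinarith [mul_nonneg hA0 hs.le]
  have h7 : A0 / s ^ 2 * Q = 4 * (A0 / (4 * s ^ 2) * Q) := by field_simp
  have h8 : A0 / (2 * s ^ 2) * Q = 2 * (A0 / (4 * s ^ 2) * Q) := by
    field_simp; ring
  have h9 : 0 ≤ A0 / (4 * s ^ 2) * Q := by positivity
  rw [h7]
  linarith


/-- `E(t) = ⟪J_t ω, w⟫` increases by at least `(s/2) ‖J_s ω‖²` from `2s` to `s`. -/
lemma E_step (hJ : Res J) {s : ℝ} (hs : 0 < s) {w ω : H} (hw : Gr J w ω) :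
    s / 2 * ‖J s ω‖ ^ 2 ≤ ⟪J s ω, w⟫ - ⟪J (2 * s) ω, w⟫ := by
  obtain ⟨e, α, hg, he, h1, h2⟩ := hJ.key hs ω
  have h3 : ⟪J s ω, w⟫ - ⟪J (2 * s) ω, w⟫ = s * ⟪α, w⟫ := by
    rw [h1, h2]
    simp only [inner_add_left, real_inner_smul_left]
    ring
  have h4 : ⟪α, w⟫ = ⟪e, ω⟫ := hJ.gr_symm hg hw
  have h5 : ⟪e, ω⟫ = ⟪J (2 * s) ω, J s ω⟫ := by
    rw [he, hJ.symm s hs]
  have h6 : 0 ≤ ⟪α, e⟫ := hJ.gr_nonneg hg
  have h7 : ⟪e, α⟫ = ⟪α, e⟫ := real_inner_comm _ _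
  have h8 : 0 ≤ ⟪e, e⟫ := real_inner_self_nonneg
  have h9 : 0 ≤ ⟪α, α⟫ := real_inner_self_nonneg
  have h10 : ‖J s ω‖ ^ 2 = ⟪e, e⟫ + 4 * s * ⟪α, e⟫ + 4 * s ^ 2 * ⟪α, α⟫ := by
    rw [← real_inner_self_eq_norm_sq, h2]
    simp only [inner_add_left, inner_add_right, real_inner_smul_left, real_inner_smul_right, h7]
    ring
  have h11 : ⟪J (2 * s) ω, J s ω⟫ = ⟪e, e⟫ + 3 * s * ⟪α, e⟫ + 2 * s ^ 2 * ⟪α, α⟫ := by
    rw [h1, h2]
    simp only [inner_add_left, inner_add_right, real_inner_smul_left, real_inner_smul_right, h7]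
    ring
  rw [h3, h4, h5, h10, h11]
  have h12 : 0 ≤ s * ⟪e, e⟫ := by positivity
  have h13 : 0 ≤ s * (s * ⟪α, e⟫) := by positivity
  nlinarith

lemma E_le (hJ : Res J) {t : ℝ} (ht : 0 < t) {w ω : H} (hw : Gr J w ω) :
    ⟪J t ω, w⟫ ≤ ⟪ω, w⟫ := by
  have h1 := hJ.gr_symm (hJ.gr ht ω) hw
  have h2 := hJ.firm t ht ω
  have h3 := sq_nonneg ‖J t ω‖
  rw [real_inner_smul_left, inner_sub_left] at h1
  have h4 : 0 ≤ 1 / t * (⟪ω, w⟫ - ⟪J t ω, w⟫) := by rw [h1]; linarith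
  have h5 : 0 < 1 / t := by positivity
  have h6 := nonneg_of_mul_nonneg_right h4 h5
  linarith

lemma E_nonneg (hJ : Res J) {t : ℝ} (ht : 0 < t) {w ω : H} (hw : Gr J w ω) :
    0 ≤ ⟪J t ω, w⟫ := by
  have h1 : w = J t w + t • J t ω := by
    have := hw t ht
    simpa using this.symm
  have h2 := hJ.gr_nonneg (hJ.gr_map hw ht)
  have h3 : ⟪J t ω, w⟫ = ⟪J t ω, J t w⟫ + t * ⟪J t ω, J t ω⟫ := by
    conv_lhs => rw [h1]
    rw [inner_add_right, real_inner_smul_right]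
  have h4 : 0 ≤ ⟪J t ω, J t ω⟫ := real_inner_self_nonneg
  rw [h3]; positivity

/-- the Lyapunov function of step (b), at time `2 s` -/
noncomputable def phi (J : ℝ → H →L[ℝ] H) (G X : H →L[ℝ] H →L[ℝ] ℝ) (A0 : ℝ) (w ω : H)
    (s : ℝ) : ℝ :=
  G (J (2 * s) w) (J (2 * s) w) + 8 * s * M G X (J s (J (2 * s) w)) (J s (J (2 * s) ω)) -
    99 * A0 * ⟪J (2 * s) ω, w⟫

lemma phi_step (hJ : Res J) (hG : Hyp J G X A0) (hA0 : 0 ≤ A0) {w ω : H} (hw : Gr J w ω)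
    {s : ℝ} (hs : 0 < s) (hs1 : 2 * s ≤ 1) :
    phi J G X A0 w ω (s / 2) ≤ phi J G X A0 w ω s := by
  have h2s : 0 < 2 * s := by linarith
  have hs2 : 0 < s / 2 := by linarith
  have h22 : 2 * (s / 2) = s := by ring
  obtain ⟨e, α, hg, he, hy, hy'⟩ := hJ.key hs w
  obtain ⟨e', α', hg', he', hz, hz'⟩ := hJ.key hs2 w
  rw [h22] at he' hz hz'
  have hα : α = J s (J (2 * s) ω) :=
    hJ.gr_unique hg (by rw [he]; exact hJ.gr_map (hJ.gr_map hw h2s) hs)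
  have hα' : α' = J (s / 2) (J s ω) :=
    hJ.gr_unique hg' (by rw [he']; exact hJ.gr_map (hJ.gr_map hw hs) hs2)
  set κ := J s ω with hκ
  set N := ‖κ‖ ^ 2 with hN
  have hN0 : 0 ≤ N := by positivity
  have hα2 : α = J (2 * s) κ := by rw [hα, hκ, hJ.comm h2s hs]
  have hFα : G α α ≤ A0 / (2 * s) * N := by
    rw [hα2]; exact hG.hB _ h2s hs1 _
  -- the increment of `e`
  set p := J s (J (s / 2) κ) with hp
  set q := J (2 * s) (J s κ) with hq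
  obtain ⟨P, hP⟩ : ∃ P, Gr J p P := ⟨_, hJ.gr_map (hJ.gr hs2 κ) hs⟩
  obtain ⟨Q, hQ⟩ : ∃ Q, Gr J q Q := ⟨_, hJ.gr_map (hJ.gr hs κ) h2s⟩
  have hMp : M G X p P ≤ A0 / (s / 2) ^ 2 * N :=
    hG.M_le hJ hA0 hs2 (by linarith) (by rw [h22]) hP
  have hMq : M G X q Q ≤ A0 / s ^ 2 * N :=
    hG.M_le hJ hA0 hs hs1 rfl hQ
  have hee : e' = e + ((s / 2) • p + s • q) := by
    have h1 : J (s / 2) w = J (2 * s) w + s • α + (s / 2) • α' := by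
      have h3 : J s w = J (2 * s) w + s • α := by rw [hy, hy']; module
      rw [hz', ← h3, hz]; module
    have h2 : e' = J s (J (s / 2) w) := by rw [he', hJ.comm hs hs2]
    rw [h2, h1, map_add, map_add, map_smul, map_smul, ← he, hα', hα2,
      hJ.comm h2s hs]
    module
  have hαα : α' = α + ((s / 2) • P + s • Q) := by
    refine hJ.gr_unique hg' ?_
    rw [hee]
    exact hg.add ((hP.smul _).add (hQ.smul _))
  have hMd : M G X ((s / 2) • p + s • q) ((s / 2) • P + s • Q) ≤ 4 * A0 * N := by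
    have h1 := hG.M_add_le' (hP.smul (s / 2)) (hQ.smul s)
    rw [M_smul, M_smul] at h1
    have h2 : (s / 2) ^ 2 * M G X p P ≤ A0 * N := by
      have := mul_le_mul_of_nonneg_left hMp (sq_nonneg (s / 2))
      refine this.trans (le_of_eq ?_)
      field_simp
    have h3 : s ^ 2 * M G X q Q ≤ A0 * N := by
      have := mul_le_mul_of_nonneg_left hMq (sq_nonneg s)
      refine this.trans (le_of_eq ?_)
      field_simp
    linarith
  have hM' : M G X e' α' ≤ 3 / 2 * M G X e α + 12 * A0 * N := by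
    have h1 := hG.M_add_le hg ((hP.smul (s / 2)).add (hQ.smul s))
    rw [← hee, ← hαα] at h1
    linarith
  have hM0 : 0 ≤ M G X e α := hG.M_nonneg hg
  -- the increment of `F`
  have hF : G (J s w) (J s w) - G (J (2 * s) w) (J (2 * s) w) =
      2 * s * G α e + 3 * s ^ 2 * G α α := by
    rw [hy, hy']
    simp only [map_add, map_smul, add_apply, smul_apply, smul_eq_mul]
    rw [hG.Gcomm e α]
    ring
  have hFe : G α e ≤ M G X e α := by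
    have h1 := hG.le_Kf_self e α
    have h2 := hG.Gnn e
    unfold M; linarith
  have hF2 : 3 * s ^ 2 * G α α ≤ 3 / 2 * s * (A0 * N) := by
    have h1 := mul_le_mul_of_nonneg_left hFα (by positivity : 0 ≤ 3 * s ^ 2)
    refine h1.trans (le_of_eq ?_)
    field_simp
  have hE := E_step hJ hs hw
  unfold phi
  rw [h22, ← hκ, ← he, ← hα, ← he', ← hα']
  have h1 : 2 * s * G α e ≤ 2 * s * M G X e α := mul_le_mul_of_nonneg_left hFe h2s.le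
  have h2 : 4 * s * M G X e' α' ≤ 4 * s * (3 / 2 * M G X e α + 12 * A0 * N) :=
    mul_le_mul_of_nonneg_left hM' (by positivity)
  have h3 : 99 * A0 * (s / 2 * N) ≤ 99 * A0 * (⟪κ, w⟫ - ⟪J (2 * s) ω, w⟫) :=
    mul_le_mul_of_nonneg_left hE (by positivity)
  linarith

lemma phi_le (hJ : Res J) (hG : Hyp J G X A0) (hA0 : 0 ≤ A0) {w ω : H} (hw : Gr J w ω)
    (n : ℕ) : phi J G X A0 w ω ((1 / 2) ^ (n + 1)) ≤ phi J G X A0 w ω (1 / 2) := by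
  induction n with
  | zero => simp
  | succ n ih =>
    refine le_trans ?_ ih
    have h1 : ((1 : ℝ) / 2) ^ (n + 1 + 1) = (1 / 2) ^ (n + 1) / 2 := by ring
    rw [h1]
    refine hG.phi_step hJ hA0 hw (by positivity) ?_
    have h2 : ((1 : ℝ) / 2) ^ n ≤ 1 := pow_le_one₀ (by norm_num) (by norm_num)
    rw [pow_succ]; linarith

lemma tendsto_half : Tendsto (fun n : ℕ => ((1 : ℝ) / 2) ^ n) atTop (𝓝[>] 0) := by
  refine tendsto_nhdsWithin_iff.mpr ⟨?_, ?_⟩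
  · exact tendsto_pow_atTop_nhds_zero_of_lt_one (by norm_num) (by norm_num)
  · exact Filter.Eventually.of_forall fun n => by
      show (0 : ℝ) < (1 / 2) ^ n
      positivity

lemma tendsto_J (hJ : Res J) (x : H) :
    Tendsto (fun n : ℕ => J ((1 / 2) ^ n) x) atTop (𝓝 x) :=
  (hJ.lim x).comp tendsto_half

lemma tendsto_form (B : H →L[ℝ] H →L[ℝ] ℝ) {u v : ℕ → H} {x y : H}
    (hu : Tendsto u atTop (𝓝 x)) (hv : Tendsto v atTop (𝓝 y)) :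
    Tendsto (fun n => B (u n) (v n)) atTop (𝓝 (B x y)) :=
  (B.isBoundedBilinearMap.continuous.tendsto (x, y)).comp (hu.prodMk_nhds hv)

/-- (b): `F(w) ≤ A0 (17 ‖w‖² + 99 ⟪A w, w⟫)`. -/
theorem star (hJ : Res J) (hG : Hyp J G X A0) (hA0 : 0 ≤ A0) {w ω : H} (hw : Gr J w ω) :
    G w w ≤ A0 * (17 * ‖w‖ ^ 2 + 99 * ⟪ω, w⟫) := by
  have h1 : ∀ n : ℕ, G (J ((1 / 2) ^ n) w) (J ((1 / 2) ^ n) w) ≤
      A0 * (17 * ‖w‖ ^ 2 + 99 * ⟪ω, w⟫) := by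
    intro n
    have hpos : (0 : ℝ) < (1 / 2) ^ (n + 1) := by positivity
    have h2 : 2 * ((1 : ℝ) / 2) ^ (n + 1) = (1 / 2) ^ n := by ring
    have h3 := hG.phi_le hJ hA0 hw n
    have h4 : phi J G X A0 w ω (1 / 2) ≤ 17 * A0 * ‖w‖ ^ 2 := by
      unfold phi
      have h5 : (2 : ℝ) * (1 / 2) = 1 := by norm_num
      rw [h5]
      have h6 : M G X (J (1 / 2) (J 1 w)) (J (1 / 2) (J 1 ω)) ≤ 4 * A0 * ‖w‖ ^ 2 := by
        have := hG.M_le hJ hA0 (s := 1 / 2) (by norm_num) (by norm_num) (q := w)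
          (z := J (1 / 2) (J 1 w)) (ξ := J (1 / 2) (J 1 ω))
          (by rw [h5, hJ.comm (by norm_num) (by norm_num)])
          (hJ.gr_map (hJ.gr_map hw one_pos) (by norm_num))
        refine this.trans (le_of_eq ?_)
        ring
      have h7 := hG.hB 1 one_pos le_rfl w
      have h8 := E_nonneg hJ one_pos hw
      have h9 : 0 ≤ A0 * ⟪J 1 ω, w⟫ := mul_nonneg hA0 h8
      have h10 : A0 / 1 * ‖w‖ ^ 2 = A0 * ‖w‖ ^ 2 := by rw [div_one]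
      rw [h10] at h7
      linarith
    have h5 : G (J ((1 / 2) ^ n) w) (J ((1 / 2) ^ n) w) ≤
        phi J G X A0 w ω ((1 / 2) ^ (n + 1)) + 99 * A0 * ⟪J ((1 / 2) ^ n) ω, w⟫ := by
      unfold phi
      rw [h2]
      have h6 : 0 ≤ M G X (J ((1 / 2) ^ (n + 1)) (J ((1 / 2) ^ n) w))
          (J ((1 / 2) ^ (n + 1)) (J ((1 / 2) ^ n) ω)) :=
        hG.M_nonneg (hJ.gr_map (hJ.gr_map hw (by positivity)) hpos)
      have h7 : 0 ≤ 8 * ((1 : ℝ) / 2) ^ (n + 1) * M G X (J ((1 / 2) ^ (n + 1)) (J ((1 / 2) ^ n) w))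
          (J ((1 / 2) ^ (n + 1)) (J ((1 / 2) ^ n) ω)) := by positivity
      linarith
    have h6 := E_le hJ (t := (1 / 2) ^ n) (by positivity) hw
    have h7 : A0 * ⟪J ((1 / 2) ^ n) ω, w⟫ ≤ A0 * ⟪ω, w⟫ := mul_le_mul_of_nonneg_left h6 hA0
    linarith
  exact le_of_tendsto (tendsto_form G (tendsto_J hJ w) (tendsto_J hJ w))
    (Filter.Eventually.of_forall h1)

lemma K_step (hJ : Res J) (hG : Hyp J G X A0) (hA0 : 0 ≤ A0) {z ξ : H} (hz : Gr J z ξ)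
    {s : ℝ} (hs : 0 < s) (hs1 : s ≤ 1) :
    Kf G X (J s z) (J s ξ) (J s z) (J s ξ) - Kf G X (J (2 * s) z) (J (2 * s) ξ)
      (J (2 * s) z) (J (2 * s) ξ) ≤
      1337 * A0 * (⟪J s ξ, ξ⟫ - ⟪J (2 * s) ξ, ξ⟫) + 329 * A0 * s * (‖ξ‖ ^ 2 + ‖z‖ ^ 2) := by
  have h2s : 0 < 2 * s := by linarith
  obtain ⟨e, η, hg, he, hy, hy'⟩ := hJ.key hs z
  obtain ⟨η', θ, hg', he', hx, hx'⟩ := hJ.key hs ξ
  have hη : η = J s (J (2 * s) ξ) :=
    hJ.gr_unique hg (by rw [he]; exact hJ.gr_map (hJ.gr_map hz h2s) hs)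
  rw [← hη] at he'
  rw [he'] at hg' hx hx'
  clear he' η'
  set ζ := J (2 * s) ξ with hζ
  -- `ζ = η + s θ`, `J s ξ = η + 2 s θ`, `θ = A η`
  obtain ⟨β, hβ⟩ : ∃ β, β = (1 / (2 * s)) • (ξ - ζ) := ⟨_, rfl⟩
  have hgζ : Gr J ζ β := by rw [hβ]; exact hJ.gr h2s ξ
  have hξ : ξ = ζ + (2 * s) • β := by
    rw [hβ, smul_smul, show 2 * s * (1 / (2 * s)) = 1 by field_simp]
    module
  have hθ : θ = J s β := hJ.gr_unique hg' (by rw [hη]; exact hJ.gr_map hgζ hs)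
  obtain ⟨τ, hτ⟩ : ∃ τ, τ = (1 / s) • (β - J s β) := ⟨_, rfl⟩
  have hgθ : Gr J θ τ := by rw [hτ, hθ]; exact hJ.gr hs β
  have hβ' : β = θ + s • τ := by
    rw [hτ, ← hθ, smul_smul, show s * (1 / s) = 1 by field_simp]
    module
  have hτη : ⟪τ, η⟫ = ⟪θ, θ⟫ := hJ.gr_symm hgθ hg'
  have hτθ : 0 ≤ ⟪τ, θ⟫ := hJ.gr_nonneg hgθ
  have hθη : 0 ≤ ⟪θ, η⟫ := hJ.gr_nonneg hg'
  have hθθ : 0 ≤ ⟪θ, θ⟫ := real_inner_self_nonneg
  set b := ⟪β, ζ⟫ with hb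
  have hb1 : b = ⟪θ, η⟫ + 2 * s * ⟪θ, θ⟫ + s ^ 2 * ⟪τ, θ⟫ := by
    rw [hb, hβ', hx]
    simp only [inner_add_left, inner_add_right, real_inner_smul_left, real_inner_smul_right, hτη]
    ring
  have hbη : ⟪θ, η⟫ ≤ b := by
    rw [hb1]
    have : 0 ≤ 2 * s * ⟪θ, θ⟫ + s ^ 2 * ⟪τ, θ⟫ := by positivity
    linarith
  have hb0 : 0 ≤ b := hθη.trans hbη
  have hE : s * b ≤ ⟪J s ξ, ξ⟫ - ⟪ζ, ξ⟫ := by
    have h1 : ⟪J s ξ, ξ⟫ - ⟪ζ, ξ⟫ = s * ⟪θ, ξ⟫ := by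
      rw [hx, hx']
      simp only [inner_add_left, real_inner_smul_left]
      ring
    have h2 : ⟪θ, ξ⟫ = ⟪θ, η⟫ + 3 * s * ⟪θ, θ⟫ + 2 * s ^ 2 * ⟪τ, θ⟫ := by
      have h3 : ξ = η + s • θ + (2 * s) • (θ + s • τ) := by
        rw [← hβ', ← hx]; exact hξ
      rw [h3]
      simp only [inner_add_right, real_inner_smul_right]
      rw [real_inner_comm τ θ]
      ring
    rw [h1, h2, hb1]
    refine mul_le_mul_of_nonneg_left ?_ hs.le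
    have : 0 ≤ s * ⟪θ, θ⟫ + s ^ 2 * ⟪τ, θ⟫ := by positivity
    linarith
  -- `(*)` on `η`, `ζ`, `e`
  have hN1 : ‖η‖ ^ 2 ≤ ‖ξ‖ ^ 2 := by
    rw [hη]; exact (hJ.contr_sq hs _).trans (hJ.contr_sq h2s _)
  have hN2 : ‖ζ‖ ^ 2 ≤ ‖ξ‖ ^ 2 := hJ.contr_sq h2s _
  have hN3 : ‖e‖ ^ 2 ≤ ‖z‖ ^ 2 := by
    rw [he]; exact (hJ.contr_sq hs _).trans (hJ.contr_sq h2s _)
  have hS1 : G η η ≤ A0 * (17 * ‖ξ‖ ^ 2 + 99 * b) :=
    (hG.star hJ hA0 hg').trans (mul_le_mul_of_nonneg_left (by linarith) hA0)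
  have hS2 : G ζ ζ ≤ A0 * (17 * ‖ξ‖ ^ 2 + 99 * b) :=
    (hG.star hJ hA0 hgζ).trans (mul_le_mul_of_nonneg_left (by linarith) hA0)
  have hηe : 2 * ⟪η, e⟫ ≤ ‖ξ‖ ^ 2 + ‖z‖ ^ 2 := by
    have h1 : ⟪η, e⟫ ≤ ‖η‖ * ‖e‖ := real_inner_le_norm _ _
    nlinarith [sq_nonneg (‖η‖ - ‖e‖)]
  have hS3 : G e e ≤ A0 * (17 * ‖z‖ ^ 2 + 99 / 2 * (‖ξ‖ ^ 2 + ‖z‖ ^ 2)) :=
    (hG.star hJ hA0 hg).trans (mul_le_mul_of_nonneg_left (by linarith) hA0)
  -- bilinear estimate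
  have hKe0 := hG.h3 _ _ hg
  have hKe : Kf G X e η e η ≤ G η η / 2 + G e e := by
    have h1 := hG.Kf_self_le e η
    have h2 := hG.two_le η e
    linarith
  have hF0 := hG.Gnn η
  have hK1 : Kf G X e η η θ ≤ 9 / 4 * G η η + G e e := by
    have h1 := hG.h2 e η η θ hg hg'
    have h2 : |G η η - Kf G X e η η θ| ≤ Kf G X e η e η + 3 / 4 * G η η := by
      refine abs_le_of_sq_le_sq ?_ (by positivity)
      nlinarith [sq_nonneg (Kf G X e η e η - 3 / 4 * G η η)]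
    have h3 := (abs_le.mp h2).1
    linarith
  have hK2 : s * Kf G X η θ η θ ≤ G ζ ζ + 2 * G η η := by
    have h1 := hG.Kf_self_le η θ
    have h2 := hG.two_le (s • θ) η
    have h3 : s • θ = ζ - η := by rw [hx]; module
    have h4 := hG.F_sub_le ζ η
    rw [← h3] at h4
    simp only [map_smul, smul_apply, smul_eq_mul] at h2 h4
    have h5 : s * Kf G X η θ η θ ≤ s * (G θ η + G η η / 2) :=
      mul_le_mul_of_nonneg_left h1 hs.le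
    have h6 : s * G η η ≤ 1 * G η η := mul_le_mul_of_nonneg_right hs1 hF0
    linarith
  have hD : Kf G X (J s z) (J s ξ) (J s z) (J s ξ) - Kf G X (J (2 * s) z) (J (2 * s) ξ)
      (J (2 * s) z) (J (2 * s) ξ) = 2 * s * Kf G X e η η θ + 3 * s * (s * Kf G X η θ η θ) := by
    rw [← hζ, hy, hy', hx, hx']
    unfold Kf
    simp only [map_add, map_smul, add_apply, smul_apply, smul_eq_mul]
    rw [hG.Gcomm η e, hG.Gcomm θ η, hG.Gcomm θ e, hG.Xcomm η e]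
    ring
  rw [hD]
  have h1 : 2 * s * Kf G X e η η θ ≤ 2 * s * (9 / 4 * G η η + G e e) :=
    mul_le_mul_of_nonneg_left hK1 h2s.le
  have h2 : 3 * s * (s * Kf G X η θ η θ) ≤ 3 * s * (G ζ ζ + 2 * G η η) :=
    mul_le_mul_of_nonneg_left hK2 (by positivity)
  have h3 : s * (21 / 2 * G η η + 2 * G e e + 3 * G ζ ζ) ≤
      s * (21 / 2 * (A0 * (17 * ‖ξ‖ ^ 2 + 99 * b)) +
        2 * (A0 * (17 * ‖z‖ ^ 2 + 99 / 2 * (‖ξ‖ ^ 2 + ‖z‖ ^ 2))) +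
        3 * (A0 * (17 * ‖ξ‖ ^ 2 + 99 * b))) := by
    refine mul_le_mul_of_nonneg_left ?_ hs.le
    linarith
  have h4 : 1337 * A0 * (s * b) ≤ 1337 * A0 * (⟪J s ξ, ξ⟫ - ⟪ζ, ξ⟫) :=
    mul_le_mul_of_nonneg_left hE (by positivity)
  have h5 : 0 ≤ A0 * (s * b) := by positivity
  have h6 : 0 ≤ A0 * s * ‖ξ‖ ^ 2 := by positivity
  have h7 : 0 ≤ A0 * s * ‖z‖ ^ 2 := by positivity
  nlinarith

/-- **(K1), first form.**  `K(z,z) ≤ 1667 A0 (‖A z‖² + ‖z‖²)`. -/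
theorem K_le (hJ : Res J) (hG : Hyp J G X A0) (hA0 : 0 ≤ A0) {z ξ : H} (hz : Gr J z ξ) :
    Kf G X z ξ z ξ ≤ 1667 * A0 * (‖ξ‖ ^ 2 + ‖z‖ ^ 2) := by
  set Q := ‖ξ‖ ^ 2 + ‖z‖ ^ 2 with hQ
  have hQ0 : 0 ≤ Q := by positivity
  -- induction
  have h1 : ∀ n : ℕ, Kf G X (J ((1 / 2) ^ n) z) (J ((1 / 2) ^ n) ξ) (J ((1 / 2) ^ n) z)
      (J ((1 / 2) ^ n) ξ) ≤ Kf G X (J 1 z) (J 1 ξ) (J 1 z) (J 1 ξ) +
      1337 * A0 * (⟪J ((1 / 2) ^ n) ξ, ξ⟫ - ⟪J 1 ξ, ξ⟫) +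
      329 * A0 * (1 - (1 / 2) ^ n) * Q := by
    intro n
    induction n with
    | zero => simp
    | succ n ih =>
      have h2 : 2 * ((1 : ℝ) / 2) ^ (n + 1) = (1 / 2) ^ n := by ring
      have h3 := hG.K_step hJ hA0 hz (s := (1 / 2) ^ (n + 1)) (by positivity)
        (pow_le_one₀ (by norm_num) (by norm_num))
      rw [h2] at h3
      rw [← h2] at ih
      rw [h2] at ih
      have h4 : ((1 : ℝ) / 2) ^ n = 2 * (1 / 2) ^ (n + 1) := h2.symm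
      have h5 : 329 * A0 * (1 - (1 / 2) ^ n) * Q + 329 * A0 * (1 / 2) ^ (n + 1) * Q =
          329 * A0 * (1 - (1 / 2) ^ (n + 1)) * Q := by
        rw [h4]; ring
      linarith
  have h2 : Kf G X (J 1 z) (J 1 ξ) (J 1 z) (J 1 ξ) ≤ A0 * Q := by
    have h3 := hG.Kf_self_le (J 1 z) (J 1 ξ)
    have h4 := hG.two_le (J 1 ξ) (J 1 z)
    have h5 := hG.hB 1 one_pos le_rfl z
    have h6 := hG.hB 1 one_pos le_rfl ξ
    rw [div_one] at h5 h6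
    have h7 : 0 ≤ A0 * ‖ξ‖ ^ 2 := by positivity
    have h8 : A0 * Q = A0 * ‖ξ‖ ^ 2 + A0 * ‖z‖ ^ 2 := by rw [hQ]; ring
    linarith
  have h3 : 0 ≤ ⟪J 1 ξ, ξ⟫ := by
    have := hJ.firm 1 one_pos ξ
    have h4 := sq_nonneg ‖J 1 ξ‖
    linarith
  have h4 : ∀ n : ℕ, Kf G X (J ((1 / 2) ^ n) z) (J ((1 / 2) ^ n) ξ) (J ((1 / 2) ^ n) z)
      (J ((1 / 2) ^ n) ξ) ≤ 1667 * A0 * Q := by
    intro n
    have h5 : ⟪J ((1 / 2) ^ n) ξ, ξ⟫ ≤ ‖ξ‖ ^ 2 := by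
      have h6 := hJ.contr (s := (1 / 2) ^ n) (by positivity) ξ
      have h7 : ⟪J ((1 / 2) ^ n) ξ, ξ⟫ ≤ ‖J ((1 / 2) ^ n) ξ‖ * ‖ξ‖ := real_inner_le_norm _ _
      have h8 := mul_le_mul_of_nonneg_right h6 (norm_nonneg ξ)
      nlinarith
    have h6 : 1337 * A0 * (⟪J ((1 / 2) ^ n) ξ, ξ⟫ - ⟪J 1 ξ, ξ⟫) ≤ 1337 * A0 * Q := by
      refine mul_le_mul_of_nonneg_left ?_ (by positivity)
      have h7 := sq_nonneg ‖z‖
      linarith
    have h7 : 329 * A0 * (1 - (1 / 2) ^ n) * Q ≤ 329 * A0 * Q := by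
      have h8 : 0 ≤ A0 * ((1 / 2) ^ n) * Q := by positivity
      linarith
    have := h1 n
    linarith
  have h5 : Tendsto (fun n : ℕ => Kf G X (J ((1 / 2) ^ n) z) (J ((1 / 2) ^ n) ξ)
      (J ((1 / 2) ^ n) z) (J ((1 / 2) ^ n) ξ)) atTop (𝓝 (Kf G X z ξ z ξ)) := by
    unfold Kf
    exact (((tendsto_form G (tendsto_J hJ z) (tendsto_J hJ ξ)).add
      (tendsto_form G (tendsto_J hJ ξ) (tendsto_J hJ z))).add
      (tendsto_form X (tendsto_J hJ z) (tendsto_J hJ z))).div_const 2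
  exact le_of_tendsto h5 (Filter.Eventually.of_forall h4)

/-- **(K1).** -/
theorem K_le_gap (hJ : Res J) (hG : Hyp J G X A0) (hA0 : 0 ≤ A0) {z ξ : H} (hz : Gr J z ξ)
    (hgap : ‖z‖ ^ 2 ≤ ⟪ξ, z⟫) : Kf G X z ξ z ξ ≤ 3334 * A0 * ‖ξ‖ ^ 2 := by
  have h1 := hG.K_le hJ hA0 hz
  have h2 : ‖z‖ ^ 2 ≤ ‖ξ‖ ^ 2 := by
    have h3 : ⟪ξ, z⟫ ≤ ‖ξ‖ * ‖z‖ := real_inner_le_norm _ _
    nlinarith [norm_nonneg ξ, norm_nonneg z, sq_nonneg (‖ξ‖ - ‖z‖)]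
  have h3 : A0 * ‖z‖ ^ 2 ≤ A0 * ‖ξ‖ ^ 2 := mul_le_mul_of_nonneg_left h2 hA0
  linarith

end Hyp

end Vale.P245.AbsK
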