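import Mathlib

/-!
# P245, row ABS-S: the semigroup of a non-negative self-adjoint operator from its resolvents

Real Hilbert space `H`; `J s = (1 + s A)⁻¹`.  Everything is stated with bounded operators, the
operator `A` itself appears only through its graph `Gr J z y` (`z ∈ D(A)` and `A z = y`).
-/

open Filter Topology Set

namespace Vale.Agent.P245.K

variable {H : Type*} [NormedAddCommGroup H] [InnerProductSpace ℝ H]

/-! ## a one-variable helper -/

lemma le_of_hasDerivAt_nonpos {f f' : ℝ → ℝ} {a b : ℝ} (hab : a ≤ b)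
    (hf : ∀ x ∈ Icc a b, HasDerivAt f (f' x) x) (h : ∀ x ∈ Ioo a b, f' x ≤ 0) : f b ≤ f a := by
  have hc : ContinuousOn f (Icc a b) := fun x hx => (hf x hx).continuousAt.continuousWithinAt
  have hanti : AntitoneOn f (Icc a b) := by
    apply antitoneOn_of_deriv_nonpos (convex_Icc a b) hc
    · intro x hx
      rw [interior_Icc] at hx
      exact (hf x (Ioo_subset_Icc_self hx)).differentiableAt.differentiableWithinAt
    · intro x hx
      rw [interior_Icc] at hx
      rw [(hf x (Ioo_subset_Icc_self hx)).deriv]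
      exact h x hx
  exact hanti (left_mem_Icc.mpr hab) (right_mem_Icc.mpr hab) hab

/-! ## bounded generators -/

/-- the semigroup of a bounded operator -/
noncomputable def bexp (B : H →L[ℝ] H) (t : ℝ) : H →L[ℝ] H := NormedSpace.exp (t • (-B))

lemma bexp_zero (B : H →L[ℝ] H) : bexp B 0 = 1 := by
  simp [bexp, NormedSpace.exp_zero]

lemma bexp_comm {B C : H →L[ℝ] H} (h : Commute B C) (t : ℝ) : Commute (bexp B t) C := by
  unfold bexp
  exact ((h.neg_left).smul_left t).exp_left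

lemma bexp_apply_comm {B C : H →L[ℝ] H} (h : ∀ x, B (C x) = C (B x)) (t : ℝ) (z : H) :
    bexp B t (C z) = C (bexp B t z) := by
  have h1 : Commute B C := by
    ext x
    exact h x
  have h2 := bexp_comm h1 t
  have h3 := congrArg (fun T : H →L[ℝ] H => T z) h2.eq
  simpa using h3

section Bounded

variable [CompleteSpace H]

lemma bexp_add (B : H →L[ℝ] H) (s t : ℝ) : bexp B (s + t) = bexp B s * bexp B t := by
  unfold bexp
  let +nondep : NormedAlgebra ℚ (H →L[ℝ] H) := NormedAlgebra.restrictScalars ℚ ℝ (H →L[ℝ] H)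
  rw [add_smul]
  exact NormedSpace.exp_add_of_commute
    (((Commute.refl (-B)).smul_left s).smul_right t)

lemma bexp_hasDerivAt (B : H →L[ℝ] H) (t : ℝ) : HasDerivAt (bexp B) (-(B * bexp B t)) t := by
  have h := hasDerivAt_exp_smul_const' (𝕂 := ℝ) (-B) t
  have e : -(B * bexp B t) = (-B) * NormedSpace.exp (t • (-B)) := by
    simp [bexp]
  rw [e]
  exact h

lemma bexp_hasDerivAt_apply (B : H →L[ℝ] H) (t : ℝ) (z : H) :
    HasDerivAt (fun r => bexp B r z) (-(B (bexp B t z))) t := by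
  have h := (bexp_hasDerivAt B t).clm_apply (hasDerivAt_const t z)
  simpa using h

lemma bexp_symm {B : H →L[ℝ] H} (hs : ∀ x y, inner ℝ (B x) y = inner ℝ x (B y)) (t : ℝ)
    (x y : H) : inner ℝ (bexp B t x) y = inner ℝ x (bexp B t y) := by
  have h1 : IsSelfAdjoint B := by
    rw [ContinuousLinearMap.isSelfAdjoint_iff_isSymmetric]
    exact fun a b => hs a b
  have h2 : IsSelfAdjoint (bexp B t) := by
    unfold bexp
    have h3 : IsSelfAdjoint (t • (-B)) := by
      apply IsSelfAdjoint.smul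
      · exact IsSelfAdjoint.all t
      · exact h1.neg
    exact h3.exp
  rw [ContinuousLinearMap.isSelfAdjoint_iff_isSymmetric] at h2
  exact h2 x y

/-- the master inequality for a bounded generator -/
lemma bexp_master {B : H →L[ℝ] H} (hs : ∀ x y, inner ℝ (B x) y = inner ℝ x (B y))
    (hp : ∀ x, 0 ≤ inner ℝ (B x) x) (z : H) {t : ℝ} (ht : 0 ≤ t) :
    ‖bexp B t z‖ ^ 2 + 2 * t * inner ℝ (B (bexp B t z)) (bexp B t z)
      + 2 * t ^ 2 * ‖B (bexp B t z)‖ ^ 2 ≤ ‖z‖ ^ 2 := by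
  set u : ℝ → H := fun r => bexp B r z with hu
  have du : ∀ r, HasDerivAt u (-(B (u r))) r := fun r => bexp_hasDerivAt_apply B r z
  have dBu : ∀ r, HasDerivAt (fun r => B (u r)) (-(B (B (u r)))) r := by
    intro r
    have h := B.hasFDerivAt.comp_hasDerivAt r (du r)
    rw [map_neg] at h
    exact h
  have d0 : ∀ r, HasDerivAt (fun r => inner ℝ (u r) (u r)) (-2 * inner ℝ (B (u r)) (u r)) r := by
    intro r
    have h := (du r).inner ℝ (du r)
    have e : inner ℝ (u r) (-(B (u r))) + inner ℝ (-(B (u r))) (u r)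
        = -2 * inner ℝ (B (u r)) (u r) := by
      rw [inner_neg_left, inner_neg_right, real_inner_comm (B (u r)) (u r)]
      ring
    rw [e] at h
    exact h
  have d1 : ∀ r, HasDerivAt (fun r => inner ℝ (B (u r)) (u r))
      (-2 * inner ℝ (B (u r)) (B (u r))) r := by
    intro r
    have h := (dBu r).inner ℝ (du r)
    have e : inner ℝ (B (u r)) (-(B (u r))) + inner ℝ (-(B (B (u r)))) (u r)
        = -2 * inner ℝ (B (u r)) (B (u r)) := by
      rw [inner_neg_left, inner_neg_right, hs (B (u r)) (u r)]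
      ring
    rw [e] at h
    exact h
  have d2 : ∀ r, HasDerivAt (fun r => inner ℝ (B (u r)) (B (u r)))
      (-2 * inner ℝ (B (B (u r))) (B (u r))) r := by
    intro r
    have h := (dBu r).inner ℝ (dBu r)
    have e : inner ℝ (B (u r)) (-(B (B (u r)))) + inner ℝ (-(B (B (u r)))) (B (u r))
        = -2 * inner ℝ (B (B (u r))) (B (u r)) := by
      rw [inner_neg_left, inner_neg_right, real_inner_comm (B (B (u r))) (B (u r))]
      ring
    rw [e] at h
    exact h
  have key : ∀ r, HasDerivAt (fun r => inner ℝ (u r) (u r) + 2 * r * inner ℝ (B (u r)) (u r)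
      + 2 * r ^ 2 * inner ℝ (B (u r)) (B (u r)))
      (-4 * r ^ 2 * inner ℝ (B (B (u r))) (B (u r))) r := by
    intro r
    have h1 : HasDerivAt (fun r : ℝ => 2 * r) 2 r := by
      simpa using (hasDerivAt_id r).const_mul 2
    have h2 : HasDerivAt (fun r : ℝ => 2 * r ^ 2) (4 * r) r := by
      have h := (hasDerivAt_pow 2 r).const_mul 2
      have e : (2 : ℝ) * (((2 : ℕ) : ℝ) * r ^ (2 - 1)) = 4 * r := by
        norm_num
        ring
      rw [e] at h
      exact h
    have h := ((d0 r).add (h1.mul (d1 r))).add (h2.mul (d2 r))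
    have e : -2 * inner ℝ (B (u r)) (u r)
        + (2 * inner ℝ (B (u r)) (u r) + 2 * r * (-2 * inner ℝ (B (u r)) (B (u r))))
        + (4 * r * inner ℝ (B (u r)) (B (u r))
          + 2 * r ^ 2 * (-2 * inner ℝ (B (B (u r))) (B (u r))))
        = -4 * r ^ 2 * inner ℝ (B (B (u r))) (B (u r)) := by ring
    rw [e] at h
    exact h
  have hfin := le_of_hasDerivAt_nonpos ht (fun x _ => key x) (fun x _ => by
    have h := hp (B (u x))
    nlinarith [sq_nonneg x, mul_nonneg (sq_nonneg x) h])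
  have e0 : u 0 = z := by simp [hu, bexp_zero]
  simp only [e0, mul_zero, zero_mul, add_zero, real_inner_self_eq_norm_sq] at hfin
  simpa [hu] using hfin

lemma bexp_norm_le {B : H →L[ℝ] H} (hs : ∀ x y, inner ℝ (B x) y = inner ℝ x (B y))
    (hp : ∀ x, 0 ≤ inner ℝ (B x) x) (z : H) {t : ℝ} (ht : 0 ≤ t) : ‖bexp B t z‖ ≤ ‖z‖ := by
  have h := bexp_master hs hp z ht
  have h1 := hp (bexp B t z)
  have h2 : ‖bexp B t z‖ ^ 2 ≤ ‖z‖ ^ 2 := by
    nlinarith [mul_nonneg ht h1, mul_nonneg (sq_nonneg t) (sq_nonneg ‖B (bexp B t z)‖)]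
  exact (sq_le_sq₀ (norm_nonneg _) (norm_nonneg _)).mp h2

lemma bexp_gen_norm_le {B : H →L[ℝ] H} (hs : ∀ x y, inner ℝ (B x) y = inner ℝ x (B y))
    (hp : ∀ x, 0 ≤ inner ℝ (B x) x) (z : H) {t : ℝ} (ht : 0 ≤ t) :
    t * ‖B (bexp B t z)‖ ≤ ‖z‖ := by
  have h := bexp_master hs hp z ht
  have h1 := hp (bexp B t z)
  have h2 : (t * ‖B (bexp B t z)‖) ^ 2 ≤ ‖z‖ ^ 2 := by
    nlinarith [mul_nonneg ht h1, mul_nonneg (sq_nonneg t) (sq_nonneg ‖B (bexp B t z)‖),
      sq_nonneg ‖bexp B t z‖]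
  exact (sq_le_sq₀ (mul_nonneg ht (norm_nonneg _)) (norm_nonneg _)).mp h2

/-- comparison of two commuting bounded generators -/
lemma bexp_sub_le {B C : H →L[ℝ] H} (hBs : ∀ x y, inner ℝ (B x) y = inner ℝ x (B y))
    (hBp : ∀ x, 0 ≤ inner ℝ (B x) x) (hCs : ∀ x y, inner ℝ (C x) y = inner ℝ x (C y))
    (hCp : ∀ x, 0 ≤ inner ℝ (C x) x) (hc : ∀ x, B (C x) = C (B x)) (z : H) {t : ℝ}
    (ht : 0 ≤ t) : ‖bexp B t z - bexp C t z‖ ≤ t * ‖B z - C z‖ := by
  -- `w r = bexp B (t - r) (bexp C r z)`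
  set w : ℝ → H := fun r => bexp B (t - r) (bexp C r z) with hw
  have dw : ∀ r, HasDerivAt w (bexp B (t - r) (bexp C r (B z - C z))) r := by
    intro r
    have h1 : HasDerivAt (fun r => bexp B (t - r)) (B * bexp B (t - r)) r := by
      have h := (bexp_hasDerivAt B (t - r)).scomp r ((hasDerivAt_id r).const_sub t)
      rw [neg_smul, one_smul, neg_neg] at h
      exact h
    have h2 := h1.clm_apply (bexp_hasDerivAt_apply C r z)
    have e : (B * bexp B (t - r)) (bexp C r z) + bexp B (t - r) (-(C (bexp C r z)))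
        = bexp B (t - r) (bexp C r (B z - C z)) := by
      have e1 : (B * bexp B (t - r)) (bexp C r z) = bexp B (t - r) (B (bexp C r z)) := by
        exact (bexp_apply_comm (fun x => rfl) (t - r) (bexp C r z)).symm
      have e2 : B (bexp C r z) = bexp C r (B z) :=
        (bexp_apply_comm (fun x => (hc x).symm) r z).symm
      have e3 : C (bexp C r z) = bexp C r (C z) := (bexp_apply_comm (fun x => rfl) r z).symm
      rw [e1, e2, e3, map_neg, ← sub_eq_add_neg, ← map_sub, ← map_sub]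
    rw [e] at h2
    exact h2
  have hb : ∀ r ∈ Ico (0:ℝ) t, ‖bexp B (t - r) (bexp C r (B z - C z))‖ ≤ ‖B z - C z‖ := by
    intro r hr
    exact (bexp_norm_le hBs hBp _ (by linarith [hr.2])).trans (bexp_norm_le hCs hCp _ hr.1)
  have h := norm_image_sub_le_of_norm_deriv_le_segment' (f := w)
    (fun x _ => (dw x).hasDerivWithinAt) hb t (right_mem_Icc.mpr ht)
  have e1 : w t = bexp C t z := by simp [hw, bexp_zero]
  have e2 : w 0 = bexp B t z := by simp [hw, bexp_zero]
  rw [e1, e2, norm_sub_rev] at h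
  calc _ ≤ ‖B z - C z‖ * (t - 0) := h
    _ = _ := by ring

end Bounded

/-! ## resolvents -/

/-- a family of resolvents `J s = (1 + s A)⁻¹` of a non-negative self-adjoint operator `A` -/
structure Res (J : ℝ → H →L[ℝ] H) : Prop where
  symm : ∀ s, 0 < s → ∀ x y, inner ℝ (J s x) y = inner ℝ x (J s y)
  firm : ∀ s, 0 < s → ∀ x, ‖J s x‖ ^ 2 ≤ inner ℝ (J s x) x
  res : ∀ s r, 0 < s → 0 < r → ∀ x, J r (J s x + (r / s) • (x - J s x)) = J s x
  lim : ∀ x, Tendsto (fun s => J s x) (𝓝[>] 0) (𝓝 x)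

/-- the graph of `A`: `z ∈ D(A)` and `A z = y` -/
def Gr (J : ℝ → H →L[ℝ] H) (z y : H) : Prop := J 1 (z + y) = z

/-- the Yosida approximation `A J s = (1 - J s) / s` -/
noncomputable def yos (J : ℝ → H →L[ℝ] H) (s : ℝ) : H →L[ℝ] H := s⁻¹ • (1 - J s)

lemma yos_apply (J : ℝ → H →L[ℝ] H) (s : ℝ) (x : H) : yos J s x = s⁻¹ • (x - J s x) := rfl

namespace Gr

variable {J : ℝ → H →L[ℝ] H}

lemma add {z y z' y' : H} (h : Gr J z y) (h' : Gr J z' y') : Gr J (z + z') (y + y') := by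
  unfold Gr at *
  have e : z + z' + (y + y') = (z + y) + (z' + y') := by abel
  rw [e, map_add, h, h']

lemma smul {z y : H} (h : Gr J z y) (c : ℝ) : Gr J (c • z) (c • y) := by
  unfold Gr at *
  rw [← smul_add, map_smul, h]

lemma neg {z y : H} (h : Gr J z y) : Gr J (-z) (-y) := by
  have h1 := h.smul (-1)
  simpa using h1

lemma sub {z y z' y' : H} (h : Gr J z y) (h' : Gr J z' y') : Gr J (z - z') (y - y') := by
  rw [sub_eq_add_neg, sub_eq_add_neg]
  exact h.add h'.neg

lemma zero : Gr J (0 : H) 0 := by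
  unfold Gr
  simp

/-- the graph is closed -/
lemma closed {α : Type*} {l : Filter α} [l.NeBot] {z y : α → H} {z' y' : H}
    (h : ∀ᶠ a in l, Gr J (z a) (y a)) (hz : Tendsto z l (𝓝 z')) (hy : Tendsto y l (𝓝 y')) :
    Gr J z' y' := by
  unfold Gr at *
  have h1 : Tendsto (fun a => J 1 (z a + y a)) l (𝓝 (J 1 (z' + y'))) :=
    ((J 1).continuous.tendsto _).comp (hz.add hy)
  have h2 : Tendsto (fun a => J 1 (z a + y a)) l (𝓝 z') :=
    hz.congr' (h.mono fun a ha => ha.symm)
  exact tendsto_nhds_unique h1 h2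

end Gr

namespace Res

variable {J : ℝ → H →L[ℝ] H} (hJ : Res J)

include hJ

lemma gr_iff {s : ℝ} (hs : 0 < s) {z y : H} : Gr J z y ↔ J s (z + s • y) = z := by
  constructor
  · intro h
    have h1 := hJ.res 1 s one_pos hs (z + y)
    unfold Gr at h
    rw [h, div_one, add_sub_cancel_left] at h1
    exact h1
  · intro h
    have h1 := hJ.res s 1 hs one_pos (z + s • y)
    rw [h, add_sub_cancel_left, smul_smul, one_div, inv_mul_cancel₀ hs.ne', one_smul] at h1
    exact h1

lemma gr_J {s : ℝ} (hs : 0 < s) (x : H) : Gr J (J s x) (s⁻¹ • (x - J s x)) := by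
  have h1 := hJ.res s 1 hs one_pos x
  rw [one_div] at h1
  exact h1

lemma gr_yos {s : ℝ} (hs : 0 < s) (x : H) : Gr J (J s x) (yos J s x) := hJ.gr_J hs x

lemma norm_le {s : ℝ} (hs : 0 < s) (x : H) : ‖J s x‖ ≤ ‖x‖ := by
  have h1 := hJ.firm s hs x
  have h2 : inner ℝ (J s x) x ≤ ‖J s x‖ * ‖x‖ := real_inner_le_norm _ _
  by_contra h
  push Not at h
  have h3 : 0 < ‖J s x‖ := lt_of_le_of_lt (norm_nonneg _) h
  nlinarith

lemma comm {s r : ℝ} (hs : 0 < s) (hr : 0 < r) (x : H) : J s (J r x) = J r (J s x) := by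
  rcases eq_or_ne s r with h | h
  · rw [h]
  · have h1 := hJ.res s r hs hr x
    have h2 := hJ.res r s hr hs x
    rw [map_add, map_smul, map_sub] at h1 h2
    -- s • h1 , r • h2
    have e1 : s • J r (J s x) + (r • J r x - r • J r (J s x)) = s • J s x := by
      have h3 := congrArg (fun v => s • v) h1
      simp only [smul_add, smul_smul, smul_sub] at h3
      rw [mul_div_cancel₀ r hs.ne'] at h3
      exact h3
    have e2 : r • J s (J r x) + (s • J s x - s • J s (J r x)) = r • J r x := by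
      have h3 := congrArg (fun v => r • v) h2
      simp only [smul_add, smul_smul, smul_sub] at h3
      rw [mul_div_cancel₀ s hr.ne'] at h3
      exact h3
    have e3 : (s - r) • (J s (J r x) - J r (J s x)) = 0 := by
      rw [smul_sub, sub_smul, sub_smul]
      have e4 : r • J r x = s • J s x - s • J r (J s x) + r • J r (J s x) := by
        rw [← e1]; abel
      rw [e4] at e2
      have e5 : r • J s (J r x) - s • J s (J r x) + s • J r (J s x) - r • J r (J s x) = 0 := by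
        have e6 := sub_eq_zero.mpr e2
        rw [← e6]; abel
      have e7 := congrArg (fun v => -v) e5
      simp only [neg_zero] at e7
      rw [← e7]; abel
    have h4 : s - r ≠ 0 := sub_ne_zero.mpr h
    exact sub_eq_zero.mp ((smul_eq_zero.mp e3).resolve_left h4)

lemma gr_pos {z y : H} (h : Gr J z y) : 0 ≤ inner ℝ y z := by
  have h1 := hJ.firm 1 one_pos (z + y)
  unfold Gr at h
  rw [h, inner_add_right, real_inner_self_eq_norm_sq] at h1
  rw [real_inner_comm]
  linarith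

lemma gr_symm {z y z' y' : H} (h : Gr J z y) (h' : Gr J z' y') :
    inner ℝ y z' = inner ℝ z y' := by
  have h1 := hJ.symm 1 one_pos (z + y) (z' + y')
  unfold Gr at h h'
  rw [h, h', inner_add_right, inner_add_left] at h1
  linarith

lemma gr_unique {z y y' : H} (h : Gr J z y) (h' : Gr J z y') : y = y' := by
  have h1 : ∀ s, 0 < s → J s (y - y') = 0 := by
    intro s hs
    have e1 := (hJ.gr_iff hs).mp h
    have e2 := (hJ.gr_iff hs).mp h'
    have e3 : s • J s (y - y') = 0 := by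
      have e4 : J s (z + s • y) - J s (z + s • y') = 0 := by rw [e1, e2, sub_self]
      rw [← map_sub, add_sub_add_left_eq_sub, ← smul_sub, map_smul] at e4
      exact e4
    exact (smul_eq_zero.mp e3).resolve_left hs.ne'
  have h2 := hJ.lim (y - y')
  have h3 : Tendsto (fun s => J s (y - y')) (𝓝[>] 0) (𝓝 0) := by
    apply tendsto_const_nhds.congr'
    filter_upwards [self_mem_nhdsWithin] with s hs
    exact (h1 s hs).symm
  exact sub_eq_zero.mp (tendsto_nhds_unique h2 h3)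

lemma gr_comm {s : ℝ} (hs : 0 < s) {z y : H} (h : Gr J z y) : Gr J (J s z) (J s y) := by
  unfold Gr at *
  rw [← map_add, hJ.comm one_pos hs, h]

lemma yos_gr {s : ℝ} (hs : 0 < s) {z y : H} (h : Gr J z y) : yos J s z = J s y := by
  have h1 := (hJ.gr_iff hs).mp h
  rw [map_add, map_smul] at h1
  rw [yos_apply]
  have e : z - J s z = s • J s y := sub_eq_of_eq_add' h1.symm
  rw [e, smul_smul, inv_mul_cancel₀ hs.ne', one_smul]

lemma yos_symm {s : ℝ} (hs : 0 < s) (x y : H) :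
    inner ℝ (yos J s x) y = inner ℝ x (yos J s y) := by
  rw [yos_apply, yos_apply, real_inner_smul_left, real_inner_smul_right, inner_sub_left,
    inner_sub_right, hJ.symm s hs]

lemma yos_pos {s : ℝ} (hs : 0 < s) (x : H) : 0 ≤ inner ℝ (yos J s x) x := by
  rw [yos_apply, real_inner_smul_left, inner_sub_left, real_inner_self_eq_norm_sq]
  have h1 := hJ.norm_le hs x
  have h2 : inner ℝ (J s x) x ≤ ‖J s x‖ * ‖x‖ := real_inner_le_norm _ _
  have h3 : ‖J s x‖ * ‖x‖ ≤ ‖x‖ ^ 2 := by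
    nlinarith [norm_nonneg x]
  exact mul_nonneg (inv_nonneg.mpr hs.le) (by linarith)

lemma yos_J_comm {s r : ℝ} (hs : 0 < s) (hr : 0 < r) (x : H) :
    yos J s (J r x) = J r (yos J s x) := by
  rw [yos_apply, yos_apply, map_smul, map_sub, hJ.comm hs hr]

lemma yos_comm {s r : ℝ} (hs : 0 < s) (hr : 0 < r) (x : H) :
    yos J s (yos J r x) = yos J r (yos J s x) := by
  rw [yos_apply J r x, yos_apply J r (yos J s x), map_smul, map_sub, hJ.yos_J_comm hs hr]

lemma dense_dom : Dense {z : H | ∃ y, Gr J z y} := by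
  intro x
  rw [mem_closure_iff_seq_limit]
  have hs : Tendsto (fun n : ℕ => (1 / ((n : ℝ) + 1))) atTop (𝓝[>] 0) := by
    rw [tendsto_nhdsWithin_iff]
    refine ⟨tendsto_one_div_add_atTop_nhds_zero_nat, Eventually.of_forall fun n => ?_⟩
    have h : (0:ℝ) < 1 / ((n : ℝ) + 1) := by positivity
    exact h
  refine ⟨fun n => J (1 / ((n : ℝ) + 1)) x, fun n => ?_, (hJ.lim x).comp hs⟩
  exact ⟨_, hJ.gr_J (by positivity) x⟩

end Res

/-! ## limits of uniformly bounded families -/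

lemma unif_of_dense {T : ℕ → ℝ → H →L[ℝ] H} {S : Set ℝ} {M : ℝ} (hM0 : 0 < M)
    (hM : ∀ n, ∀ t ∈ S, ∀ x, ‖T n t x‖ ≤ M * ‖x‖) {D : Set H} (hD : Dense D)
    (h : ∀ z ∈ D, UniformCauchySeqOn (fun n t => T n t z) atTop S) (z : H) :
    UniformCauchySeqOn (fun n t => T n t z) atTop S := by
  rw [Metric.uniformCauchySeqOn_iff]
  intro ε hε
  obtain ⟨z', hz', hd⟩ := Metric.dense_iff.mp hD z (ε / (4 * M)) (by positivity)
  have h1 := Metric.uniformCauchySeqOn_iff.mp (h z' hd) (ε / 2) (by positivity)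
  obtain ⟨N, hN⟩ := h1
  refine ⟨N, fun m hm n hn t ht => ?_⟩
  have h2 := hN m hm n hn t ht
  have h3 : ∀ k, ‖T k t z - T k t z'‖ ≤ ε / 4 := by
    intro k
    rw [← map_sub]
    refine (hM k t ht _).trans ?_
    have h4 : ‖z - z'‖ ≤ ε / (4 * M) := by
      rw [← dist_eq_norm, dist_comm]
      exact (Metric.mem_ball.mp hz').le
    calc M * ‖z - z'‖ ≤ M * (ε / (4 * M)) := mul_le_mul_of_nonneg_left h4 hM0.le
      _ = ε / 4 := by field_simp
  rw [dist_eq_norm] at h2 ⊢
  have e : T m t z - T n t z = (T m t z - T m t z') + (T m t z' - T n t z')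
      - (T n t z - T n t z') := by abel
  rw [e]
  calc _ ≤ ‖T m t z - T m t z'‖ + ‖T m t z' - T n t z'‖ + ‖T n t z - T n t z'‖ :=
        (norm_sub_le _ _).trans (by gcongr; exact norm_add_le _ _)
    _ < ε := by linarith [h3 m, h3 n]

lemma exists_clm_limit [CompleteSpace H] {T : ℕ → H →L[ℝ] H} {M : ℝ}
    (hM : ∀ n x, ‖T n x‖ ≤ M * ‖x‖) (h : ∀ x, CauchySeq (fun n => T n x)) :
    ∃ P : H →L[ℝ] H, ∀ x, Tendsto (fun n => T n x) atTop (𝓝 (P x)) := by
  choose p hp using fun x => cauchySeq_tendsto_of_complete (h x)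
  have hadd : ∀ x y, p (x + y) = p x + p y := by
    intro x y
    refine tendsto_nhds_unique (hp (x + y)) ?_
    have h1 := (hp x).add (hp y)
    refine h1.congr fun n => ?_
    rw [map_add]
  have hsmul : ∀ (c : ℝ) x, p (c • x) = c • p x := by
    intro c x
    refine tendsto_nhds_unique (hp (c • x)) ?_
    have h1 := (hp x).const_smul c
    refine h1.congr fun n => ?_
    rw [map_smul]
  have hb : ∀ x, ‖p x‖ ≤ M * ‖x‖ := fun x =>
    le_of_tendsto (hp x).norm (Eventually.of_forall fun n => hM n x)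
  exact ⟨LinearMap.mkContinuous ⟨⟨p, hadd⟩, hsmul⟩ M hb, hp⟩

/-- strongly convergent, bounded operators applied to a convergent sequence -/
lemma tendsto_apply_of_bdd {T : ℕ → H →L[ℝ] H} {P : H →L[ℝ] H} {M : ℝ}
    (hM : ∀ n x, ‖T n x‖ ≤ M * ‖x‖) (hT : ∀ x, Tendsto (fun n => T n x) atTop (𝓝 (P x)))
    {x : ℕ → H} {x' : H} (hx : Tendsto x atTop (𝓝 x')) :
    Tendsto (fun n => T n (x n)) atTop (𝓝 (P x')) := by
  have h1 : Tendsto (fun n => T n (x n - x')) atTop (𝓝 0) := by
    have h2 : Tendsto (fun n => M * ‖x n - x'‖) atTop (𝓝 0) := by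
      have h3 : Tendsto (fun n => ‖x n - x'‖) atTop (𝓝 0) := by
        have h4 := (hx.sub_const x').norm
        simpa using h4
      simpa using h3.const_mul M
    exact squeeze_zero_norm (fun n => hM n _) h2
  have h5 := h1.add (hT x')
  rw [zero_add] at h5
  refine h5.congr fun n => ?_
  rw [map_sub, sub_add_cancel]

/-! ## construction of the semigroup -/

lemma step_pos (n : ℕ) : (0:ℝ) < 1 / ((n : ℝ) + 1) := by positivity

lemma step_tendsto : Tendsto (fun n : ℕ => (1 / ((n : ℝ) + 1))) atTop (𝓝[>] 0) := by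
  rw [tendsto_nhdsWithin_iff]
  exact ⟨tendsto_one_div_add_atTop_nhds_zero_nat, Eventually.of_forall fun n => step_pos n⟩

/-- the `n`-th Yosida approximation -/
noncomputable def ygn (J : ℝ → H →L[ℝ] H) (n : ℕ) : H →L[ℝ] H := yos J (1 / ((n : ℝ) + 1))

/-- the `n`-th approximating semigroup -/
noncomputable def esg (J : ℝ → H →L[ℝ] H) (n : ℕ) (t : ℝ) : H →L[ℝ] H := bexp (ygn J n) t

/-- the semigroup `P t = exp (- t A)` and `V t = A exp (- t A)` -/
structure Sg (J P V : ℝ → H →L[ℝ] H) : Prop where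
  zero : ∀ z, P 0 z = z
  add : ∀ s t, 0 ≤ s → 0 ≤ t → ∀ z, P (s + t) z = P s (P t z)
  symm : ∀ t, 0 ≤ t → ∀ x y, inner ℝ (P t x) y = inner ℝ x (P t y)
  V_symm : ∀ t, 0 < t → ∀ x y, inner ℝ (V t x) y = inner ℝ x (V t y)
  comm_J : ∀ s t, 0 < s → 0 ≤ t → ∀ z, P t (J s z) = J s (P t z)
  gr : ∀ t, 0 < t → ∀ z, Gr J (P t z) (V t z)
  master : ∀ t, 0 < t → ∀ z,
    ‖P t z‖ ^ 2 + 2 * t * inner ℝ (V t z) (P t z) + 2 * t ^ 2 * ‖V t z‖ ^ 2 ≤ ‖z‖ ^ 2
  contr : ∀ t, 0 ≤ t → ∀ z, ‖P t z‖ ≤ ‖z‖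
  cont : ∀ z, ContinuousOn (fun t => P t z) (Ici 0)
  deriv : ∀ t, 0 < t → ∀ z, HasDerivAt (fun r => P r z) (-(V t z)) t
  inv : ∀ K0 : Submodule ℝ H, IsClosed (K0 : Set H) →
    (∀ s, 0 < s → ∀ z ∈ K0, J s z ∈ K0) → ∀ t, 0 ≤ t → ∀ z ∈ K0, P t z ∈ K0

lemma bexp_mem [CompleteSpace H] {B : H →L[ℝ] H} {K0 : Submodule ℝ H}
    (hc : IsClosed (K0 : Set H)) (hB : ∀ z ∈ K0, B z ∈ K0) (t : ℝ) :
    ∀ z ∈ K0, bexp B t z ∈ K0 := by
  intro z hz
  have hpow : ∀ (C : H →L[ℝ] H), (∀ z ∈ K0, C z ∈ K0) → ∀ k : ℕ, ∀ z ∈ K0, (C ^ k) z ∈ K0 := by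
    intro C hC k
    induction k with
    | zero => intro z hz; simpa using hz
    | succ k ih =>
      intro z hz
      rw [pow_succ]
      exact ih _ (hC z hz)
  have hC : ∀ z ∈ K0, (t • (-B)) z ∈ K0 := by
    intro z hz
    exact K0.smul_mem _ (K0.neg_mem (hB z hz))
  have h1 := NormedSpace.exp_series_hasSum_exp' (𝕂 := ℝ) (t • (-B))
  have h2 : HasSum (fun k : ℕ => ((k.factorial : ℝ)⁻¹ • (t • (-B)) ^ k) z)
      (NormedSpace.exp (t • (-B)) z) := by
    have h3 := h1.mapL (ContinuousLinearMap.apply ℝ H z)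
    exact h3
  refine hc.mem_of_tendsto h2 (Eventually.of_forall fun F => ?_)
  refine K0.sum_mem fun k _ => ?_
  exact K0.smul_mem _ (hpow _ hC k z hz)

namespace Res

variable [CompleteSpace H] {J : ℝ → H →L[ℝ] H} (hJ : Res J)

include hJ

lemma esg_norm_le (n : ℕ) {t : ℝ} (ht : 0 ≤ t) (x : H) : ‖esg J n t x‖ ≤ ‖x‖ :=
  bexp_norm_le (hJ.yos_symm (step_pos n)) (hJ.yos_pos (step_pos n)) x ht

lemma esg_gen_norm_le (n : ℕ) {t : ℝ} (ht : 0 < t) (x : H) :
    ‖ygn J n (esg J n t x)‖ ≤ t⁻¹ * ‖x‖ := by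
  have h := bexp_gen_norm_le (hJ.yos_symm (step_pos n)) (hJ.yos_pos (step_pos n)) x ht.le
  rw [le_inv_mul_iff₀ ht]
  exact h

lemma esg_sub_le {z y : H} (h : Gr J z y) (m n : ℕ) {t : ℝ} (ht : 0 ≤ t) :
    ‖esg J m t z - esg J n t z‖
      ≤ t * ‖J (1 / ((m : ℝ) + 1)) y - J (1 / ((n : ℝ) + 1)) y‖ := by
  have h1 := bexp_sub_le (hJ.yos_symm (step_pos m)) (hJ.yos_pos (step_pos m))
    (hJ.yos_symm (step_pos n)) (hJ.yos_pos (step_pos n))
    (hJ.yos_comm (step_pos m) (step_pos n)) z ht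
  rw [hJ.yos_gr (step_pos m) h, hJ.yos_gr (step_pos n) h] at h1
  exact h1

omit [CompleteSpace H] in
lemma cauchyJ (y : H) : CauchySeq (fun n : ℕ => J (1 / ((n : ℝ) + 1)) y) :=
  ((hJ.lim y).comp step_tendsto).cauchySeq

lemma cauchyA (T : ℝ) (z : H) :
    UniformCauchySeqOn (fun n t => esg J n t z) atTop (Icc 0 T) := by
  refine unif_of_dense one_pos (fun n t ht x => ?_) hJ.dense_dom ?_ z
  · rw [one_mul]
    exact hJ.esg_norm_le n ht.1 x
  · rintro z ⟨y, hy⟩
    rw [Metric.uniformCauchySeqOn_iff]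
    intro ε hε
    obtain ⟨N, hN⟩ := Metric.cauchySeq_iff.mp (hJ.cauchyJ y) (ε / (|T| + 1)) (by positivity)
    refine ⟨N, fun m hm n hn t ht => ?_⟩
    have h1 := hJ.esg_sub_le hy m n ht.1
    have h2 := hN m hm n hn
    rw [dist_eq_norm] at h2 ⊢
    refine lt_of_le_of_lt h1 ?_
    have h3 : t ≤ |T| := ht.2.trans (le_abs_self T)
    calc t * ‖J (1 / ((m : ℝ) + 1)) y - J (1 / ((n : ℝ) + 1)) y‖
        ≤ |T| * ‖J (1 / ((m : ℝ) + 1)) y - J (1 / ((n : ℝ) + 1)) y‖ :=
          mul_le_mul_of_nonneg_right h3 (norm_nonneg _)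
      _ ≤ |T| * (ε / (|T| + 1)) := mul_le_mul_of_nonneg_left h2.le (abs_nonneg T)
      _ < ε := by
          rw [mul_div_assoc', div_lt_iff₀ (by positivity)]
          nlinarith [abs_nonneg T]

omit [CompleteSpace H] hJ in
lemma esg_ygn (n : ℕ) (t : ℝ) (z : H) : esg J n t (ygn J n z) = ygn J n (esg J n t z) :=
  bexp_apply_comm (fun _ => rfl) t z

lemma cauchyB {z y : H} (h : Gr J z y) (T : ℝ) :
    UniformCauchySeqOn (fun n t => ygn J n (esg J n t z)) atTop (Icc 0 T) := by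
  rw [Metric.uniformCauchySeqOn_iff]
  intro ε hε
  obtain ⟨N1, hN1⟩ := Metric.cauchySeq_iff.mp (hJ.cauchyJ y) (ε / 4) (by positivity)
  have hlim := ((hJ.lim y).comp step_tendsto)
  obtain ⟨N2, hN2⟩ := Metric.tendsto_atTop.mp hlim (ε / 4) (by positivity)
  obtain ⟨N3, hN3⟩ := Metric.uniformCauchySeqOn_iff.mp (hJ.cauchyA T y) (ε / 4) (by positivity)
  refine ⟨max N1 (max N2 N3), fun m hm n hn t ht => ?_⟩
  have hm2 := hN2 m (le_trans (le_trans (le_max_left _ _) (le_max_right _ _)) hm)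
  have hn2 := hN2 n (le_trans (le_trans (le_max_left _ _) (le_max_right _ _)) hn)
  have h3 := hN3 m (le_trans (le_trans (le_max_right _ _) (le_max_right _ _)) hm) n
    (le_trans (le_trans (le_max_right _ _) (le_max_right _ _)) hn) t ht
  have e1 : ∀ k : ℕ, ygn J k (esg J k t z) = esg J k t (J (1 / ((k : ℝ) + 1)) y) := by
    intro k
    rw [← esg_ygn k t z]
    unfold ygn
    rw [hJ.yos_gr (step_pos k) h]
  simp only [e1]
  rw [dist_eq_norm] at *
  simp only [Function.comp_apply] at hm2 hn2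
  have e2 : esg J m t (J (1 / ((m : ℝ) + 1)) y) - esg J n t (J (1 / ((n : ℝ) + 1)) y)
      = esg J m t (J (1 / ((m : ℝ) + 1)) y - y) + (esg J m t y - esg J n t y)
        - esg J n t (J (1 / ((n : ℝ) + 1)) y - y) := by
    rw [map_sub, map_sub]; abel
  rw [e2]
  have h4 := hJ.esg_norm_le m ht.1 (J (1 / ((m : ℝ) + 1)) y - y)
  have h5 := hJ.esg_norm_le n ht.1 (J (1 / ((n : ℝ) + 1)) y - y)
  calc _ ≤ ‖esg J m t (J (1 / ((m : ℝ) + 1)) y - y)‖ + ‖esg J m t y - esg J n t y‖
        + ‖esg J n t (J (1 / ((n : ℝ) + 1)) y - y)‖ :=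
        (norm_sub_le _ _).trans (by gcongr; exact norm_add_le _ _)
    _ < ε := by linarith

lemma cauchyC {δ : ℝ} (hδ : 0 < δ) (T : ℝ) (z : H) :
    UniformCauchySeqOn (fun n t => ygn J n (esg J n t z)) atTop (Icc δ T) := by
  have h := unif_of_dense (T := fun n t => (ygn J n).comp (esg J n t)) (S := Icc δ T)
    (M := δ⁻¹) (inv_pos.mpr hδ) (fun n t ht x => ?_) hJ.dense_dom ?_ z
  · exact h
  · have ht0 : 0 < t := lt_of_lt_of_le hδ ht.1
    refine (hJ.esg_gen_norm_le n ht0 x).trans ?_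
    exact mul_le_mul_of_nonneg_right (inv_anti₀ hδ ht.1) (norm_nonneg _)
  · rintro z ⟨y, hy⟩
    exact (hJ.cauchyB hy T).mono (Icc_subset_Icc_left hδ.le)

theorem exists_sg : ∃ P V : ℝ → H →L[ℝ] H, Sg J P V := by
  have hP1 : ∀ t : ℝ, ∃ P : H →L[ℝ] H, 0 ≤ t →
      ∀ x, Tendsto (fun n => esg J n t x) atTop (𝓝 (P x)) := by
    intro t
    by_cases ht : 0 ≤ t
    · obtain ⟨P, hP⟩ := exists_clm_limit (T := fun n => esg J n t) (M := 1)
        (fun n x => by rw [one_mul]; exact hJ.esg_norm_le n ht x)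
        (fun x => (hJ.cauchyA t x).cauchySeq (right_mem_Icc.mpr ht))
      exact ⟨P, fun _ => hP⟩
    · exact ⟨0, fun h => absurd h ht⟩
  have hV1 : ∀ t : ℝ, ∃ V : H →L[ℝ] H, 0 < t →
      ∀ x, Tendsto (fun n => ygn J n (esg J n t x)) atTop (𝓝 (V x)) := by
    intro t
    by_cases ht : 0 < t
    · obtain ⟨P, hP⟩ := exists_clm_limit (T := fun n => (ygn J n).comp (esg J n t)) (M := t⁻¹)
        (fun n x => hJ.esg_gen_norm_le n ht x)
        (fun x => (hJ.cauchyC ht t x).cauchySeq (right_mem_Icc.mpr le_rfl))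
      exact ⟨P, fun _ => hP⟩
    · exact ⟨0, fun h => absurd h ht⟩
  choose P hP using hP1
  choose V hV using hV1
  have hunif : ∀ (T : ℝ) (z : H),
      TendstoUniformlyOn (fun n t => esg J n t z) (fun t => P t z) atTop (Icc 0 T) := by
    intro T z
    exact (hJ.cauchyA T z).tendstoUniformlyOn_of_tendsto (fun t ht => hP t ht.1 z)
  have hunifV : ∀ (δ T : ℝ), 0 < δ → ∀ z : H,
      TendstoUniformlyOn (fun n t => ygn J n (esg J n t z)) (fun t => V t z) atTop
        (Icc δ T) := by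
    intro δ T hδ z
    exact (hJ.cauchyC hδ T z).tendstoUniformlyOn_of_tendsto
      (fun t ht => hV t (lt_of_lt_of_le hδ ht.1) z)
  refine ⟨P, V, ?_, ?_, ?_, ?_, ?_, ?_, ?_, ?_, ?_, ?_, ?_⟩
  · -- zero
    intro z
    refine tendsto_nhds_unique (hP 0 le_rfl z) ?_
    refine tendsto_const_nhds.congr fun n => ?_
    simp [esg, bexp_zero]
  · -- add
    intro s t hs ht z
    refine tendsto_nhds_unique (hP (s + t) (add_nonneg hs ht) z) ?_
    have h1 := tendsto_apply_of_bdd (T := fun n => esg J n s) (M := 1)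
      (fun n x => by rw [one_mul]; exact hJ.esg_norm_le n hs x) (hP s hs) (hP t ht z)
    refine h1.congr fun n => ?_
    unfold esg
    rw [bexp_add]
    rfl
  · -- symm
    intro t ht x y
    have h1 : Tendsto (fun n => inner ℝ (esg J n t x) y) atTop (𝓝 (inner ℝ (P t x) y)) :=
      (hP t ht x).inner tendsto_const_nhds
    have h2 : Tendsto (fun n => inner ℝ x (esg J n t y)) atTop (𝓝 (inner ℝ x (P t y))) :=
      Tendsto.inner tendsto_const_nhds (hP t ht y)
    refine tendsto_nhds_unique h1 (h2.congr fun n => ?_)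
    exact (bexp_symm (hJ.yos_symm (step_pos n)) t x y).symm
  · -- V_symm
    intro t ht x y
    have h1 : Tendsto (fun n => inner ℝ (ygn J n (esg J n t x)) y) atTop
        (𝓝 (inner ℝ (V t x) y)) := (hV t ht x).inner tendsto_const_nhds
    have h2 : Tendsto (fun n => inner ℝ x (ygn J n (esg J n t y))) atTop
        (𝓝 (inner ℝ x (V t y))) := Tendsto.inner tendsto_const_nhds (hV t ht y)
    refine tendsto_nhds_unique h1 (h2.congr fun n => ?_)
    rw [← esg_ygn n t y]
    have h3 : inner ℝ (ygn J n (esg J n t x)) y = inner ℝ (esg J n t x) (ygn J n y) :=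
      hJ.yos_symm (step_pos n) _ _
    have h4 : inner ℝ (esg J n t x) (ygn J n y) = inner ℝ x (esg J n t (ygn J n y)) :=
      bexp_symm (hJ.yos_symm (step_pos n)) t _ _
    rw [h3, h4]
  · -- comm_J
    intro s t hs ht z
    refine tendsto_nhds_unique (hP t ht (J s z)) ?_
    have h1 := ((J s).continuous.tendsto _).comp (hP t ht z)
    refine h1.congr fun n => ?_
    exact (bexp_apply_comm (fun x => hJ.yos_J_comm (step_pos n) hs x) t z).symm
  · -- gr
    intro t ht z
    have h1 := tendsto_apply_of_bdd (T := fun n : ℕ => J (1 / ((n : ℝ) + 1))) (P := 1) (M := 1)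
      (fun n x => by rw [one_mul]; exact hJ.norm_le (step_pos n) x)
      (fun x => (hJ.lim x).comp step_tendsto) (hP t ht.le z)
    exact Gr.closed (Eventually.of_forall fun n => hJ.gr_yos (step_pos n) (esg J n t z)) h1
      (hV t ht z)
  · -- master
    intro t ht z
    have h1 : Tendsto (fun n => ‖esg J n t z‖ ^ 2
        + 2 * t * inner ℝ (ygn J n (esg J n t z)) (esg J n t z)
        + 2 * t ^ 2 * ‖ygn J n (esg J n t z)‖ ^ 2) atTop
        (𝓝 (‖P t z‖ ^ 2 + 2 * t * inner ℝ (V t z) (P t z) + 2 * t ^ 2 * ‖V t z‖ ^ 2)) :=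
      (((hP t ht.le z).norm.pow 2).add (((hV t ht z).inner (hP t ht.le z)).const_mul _)).add
        (((hV t ht z).norm.pow 2).const_mul _)
    exact le_of_tendsto h1 (Eventually.of_forall fun n =>
      bexp_master (hJ.yos_symm (step_pos n)) (hJ.yos_pos (step_pos n)) z ht.le)
  · -- contr
    intro t ht z
    exact le_of_tendsto (hP t ht z).norm (Eventually.of_forall fun n => hJ.esg_norm_le n ht z)
  · -- cont
    intro z t ht
    have h1 : ContinuousOn (fun t => P t z) (Icc 0 (t + 1)) := by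
      refine (hunif (t + 1) z).continuousOn (Frequently.of_forall fun n => ?_)
      intro r _
      exact (bexp_hasDerivAt_apply (ygn J n) r z).continuousAt.continuousWithinAt
    have h2 : ContinuousWithinAt (fun t => P t z) (Icc 0 (t + 1)) t := h1 t ⟨ht, by linarith⟩
    refine h2.mono_of_mem_nhdsWithin ?_
    rw [mem_nhdsWithin]
    refine ⟨Iio (t + 1), isOpen_Iio, by simp, ?_⟩
    rintro r ⟨hr1, hr2⟩
    exact ⟨hr2, le_of_lt hr1⟩
  · -- deriv
    intro t ht z
    have h1 : TendstoUniformlyOn (fun n t => -(ygn J n (esg J n t z))) (fun t => -(V t z)) atTop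
        (Ioo (t / 2) (t + 1)) := by
      have h2 := ((hunifV (t / 2) (t + 1) (by positivity) z).mono Ioo_subset_Icc_self).neg
      exact h2
    refine hasDerivAt_of_tendstoUniformlyOn isOpen_Ioo h1
      (Eventually.of_forall fun n x _ => bexp_hasDerivAt_apply (ygn J n) x z)
      (fun x hx => hP x (by linarith [hx.1]) z) ⟨by linarith, by linarith⟩
  · -- inv
    intro K0 hc hinv t ht z hz
    refine hc.mem_of_tendsto (hP t ht z) (Eventually.of_forall fun n => ?_)
    refine bexp_mem hc (fun x hx => ?_) t z hz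
    exact K0.smul_mem _ (K0.sub_mem hx (hinv _ (step_pos n) x hx))

end Res

end Vale.Agent.P245.K
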