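import Vale.Agent.P245.K.AbsS

/-!
# P245, row ABS-S, second file: consequences for the semigroup `P t = exp (- t A)`
-/

open Filter Topology Set

namespace Vale.Agent.P245.K

variable {H : Type*} [NormedAddCommGroup H] [InnerProductSpace ℝ H]

lemma le_of_hasDerivAt_nonpos' {f f' : ℝ → ℝ} {a b : ℝ} (hab : a ≤ b)
    (hc : ContinuousOn f (Icc a b)) (hf : ∀ x ∈ Ioo a b, HasDerivAt f (f' x) x)
    (h : ∀ x ∈ Ioo a b, f' x ≤ 0) : f b ≤ f a := by
  have hanti : AntitoneOn f (Icc a b) := by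
    apply antitoneOn_of_deriv_nonpos (convex_Icc a b) hc
    · intro x hx
      rw [interior_Icc] at hx
      exact (hf x hx).differentiableAt.differentiableWithinAt
    · intro x hx
      rw [interior_Icc] at hx
      rw [(hf x hx).deriv]
      exact h x hx
  exact hanti (left_mem_Icc.mpr hab) (right_mem_Icc.mpr hab) hab

/-- `Res` from the literal hypotheses of the interface file -/
lemma Res.mk' {J : ℝ → H →L[ℝ] H}
    (sym : ∀ s, 0 < s → ∀ x y, inner ℝ (J s x) y = inner ℝ x (J s y))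
    (r1 : ∀ s, 0 < s → ∀ z y, J 1 (z + y) = z → J s (z + s • y) = z)
    (r2 : ∀ s, 0 < s → ∀ x, J 1 (J s x + s⁻¹ • (x - J s x)) = J s x)
    (pos : ∀ z y, J 1 (z + y) = z → 0 ≤ inner ℝ y z)
    (dense : ∀ x, Tendsto (fun m : ℕ => J (1 / ((m : ℝ) + 1)) x) atTop (𝓝 x)) : Res J := by
  have firm : ∀ s, 0 < s → ∀ x, ‖J s x‖ ^ 2 ≤ inner ℝ (J s x) x := by
    intro s hs x
    have h1 := pos _ _ (r2 s hs x)
    rw [real_inner_smul_left, inner_sub_left, real_inner_self_eq_norm_sq] at h1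
    have h2 : 0 ≤ inner ℝ x (J s x) - ‖J s x‖ ^ 2 := by
      by_contra h3
      push Not at h3
      have h4 := mul_neg_of_pos_of_neg (inv_pos.mpr hs) h3
      linarith
    rw [real_inner_comm] at h2
    linarith
  have hn : ∀ s, 0 < s → ∀ x, ‖J s x‖ ≤ ‖x‖ := by
    intro s hs x
    have h1 := firm s hs x
    have h2 : inner ℝ (J s x) x ≤ ‖J s x‖ * ‖x‖ := real_inner_le_norm _ _
    by_contra h
    push Not at h
    have h3 : 0 < ‖J s x‖ := lt_of_le_of_lt (norm_nonneg _) h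
    nlinarith
  refine ⟨sym, firm, ?_, ?_⟩
  · intro s r hs hr x
    have h1 := r1 r hr _ _ (r2 s hs x)
    rw [smul_smul, ← div_eq_mul_inv] at h1
    exact h1
  · intro x
    rw [Metric.tendsto_nhdsWithin_nhds]
    intro ε hε
    obtain ⟨m, hm⟩ := Metric.tendsto_atTop.mp (dense x) (ε / 3) (by positivity)
    have hm1 := hm m le_rfl
    set z := J (1 / ((m : ℝ) + 1)) x with hz
    obtain ⟨y, hy⟩ : ∃ y, J 1 (z + y) = z := ⟨_, r2 _ (step_pos m) x⟩
    refine ⟨ε / (3 * (‖y‖ + 1)), by positivity, fun s hs hd => ?_⟩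
    have hs0 : 0 < s := hs
    have hs1 : s < ε / (3 * (‖y‖ + 1)) := by
      rw [Real.dist_eq, sub_zero, abs_of_pos hs0] at hd
      exact hd
    have e1 := r1 s hs0 z y hy
    rw [map_add, map_smul] at e1
    have e2 : J s x - x = J s (x - z) - s • J s y + (z - x) := by
      rw [map_sub]
      have e3 : s • J s y = z - J s z := eq_sub_of_add_eq' e1
      rw [e3]; abel
    rw [dist_eq_norm, e2]
    have h1 : ‖J s (x - z)‖ < ε / 3 := by
      refine (hn s hs0 _).trans_lt ?_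
      rw [norm_sub_rev, ← dist_eq_norm]
      exact hm1
    have h2 : ‖s • J s y‖ ≤ ε / 3 := by
      rw [norm_smul, Real.norm_eq_abs, abs_of_pos hs0]
      have h3 := hn s hs0 y
      have h4 : s * ‖J s y‖ ≤ s * ‖y‖ := mul_le_mul_of_nonneg_left h3 hs0.le
      have h5 : s * (3 * (‖y‖ + 1)) < ε := (lt_div_iff₀ (by positivity)).mp hs1
      nlinarith [norm_nonneg y]
    have h3 : ‖z - x‖ < ε / 3 := by
      rw [← dist_eq_norm]
      exact hm1
    calc _ ≤ ‖J s (x - z)‖ + ‖s • J s y‖ + ‖z - x‖ :=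
          (norm_add_le _ _).trans (by gcongr; exact norm_sub_le _ _)
      _ < ε := by linarith

namespace Sg

variable {J P V : ℝ → H →L[ℝ] H} (hJ : Res J) (h : Sg J P V)

include h

lemma P_comm {s t : ℝ} (hs : 0 ≤ s) (ht : 0 ≤ t) (z : H) : P s (P t z) = P t (P s z) := by
  rw [← h.add s t hs ht, ← h.add t s ht hs, add_comm]

lemma gr_gr {t : ℝ} (ht : 0 ≤ t) {z y : H} (hz : Gr J z y) : Gr J (P t z) (P t y) := by
  unfold Gr at *
  rw [← map_add, ← h.comm_J 1 t one_pos ht, hz]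

include hJ

lemma inner_nonneg {t : ℝ} (ht : 0 < t) (z : H) : 0 ≤ inner ℝ (V t z) (P t z) :=
  hJ.gr_pos (h.gr t ht z)

lemma V_norm_le {t : ℝ} (ht : 0 < t) (z : H) : ‖V t z‖ ≤ ‖z‖ / t := by
  have h1 := h.master t ht z
  have h2 := h.inner_nonneg hJ ht z
  have h3 : (t * ‖V t z‖) ^ 2 ≤ ‖z‖ ^ 2 := by
    nlinarith [mul_nonneg ht.le h2, mul_nonneg (sq_nonneg t) (sq_nonneg ‖V t z‖),
      sq_nonneg ‖P t z‖]
  have h4 := (sq_le_sq₀ (mul_nonneg ht.le (norm_nonneg _)) (norm_nonneg _)).mp h3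
  rw [le_div_iff₀ ht]
  linarith

lemma of_gr {t : ℝ} (ht : 0 < t) {z y : H} (hz : Gr J z y) : V t z = P t y :=
  hJ.gr_unique (h.gr t ht z) (h.gr_gr ht.le hz)

lemma V_add {s t : ℝ} (hs : 0 ≤ s) (ht : 0 < t) (z : H) : V (s + t) z = P s (V t z) := by
  have h1 := h.gr (s + t) (by linarith) z
  have h2 := h.gr_gr hs (h.gr t ht z)
  rw [← h.add s t hs ht.le] at h2
  exact hJ.gr_unique h1 h2

lemma V_comm {s t : ℝ} (hs : 0 ≤ s) (ht : 0 < t) (z : H) : P s (V t z) = V t (P s z) := by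
  have h1 := h.gr_gr hs (h.gr t ht z)
  have h2 := h.gr t ht (P s z)
  rw [h.P_comm hs ht.le] at h1
  exact hJ.gr_unique h1 h2

lemma V_comm_J {s t : ℝ} (hs : 0 < s) (ht : 0 < t) (z : H) : V t (J s z) = J s (V t z) := by
  have h1 := h.gr t ht (J s z)
  have h2 := hJ.gr_comm hs (h.gr t ht z)
  rw [h.comm_J s t hs ht.le] at h1
  exact hJ.gr_unique h1 h2

lemma V_gr {t : ℝ} (ht : 0 < t) {z y : H} (hz : Gr J z y) : Gr J (V t z) (V t y) := by
  unfold Gr at *
  rw [← map_add, ← h.V_comm_J hJ one_pos ht, hz]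

lemma V_comm_V {s t : ℝ} (hs : 0 < s) (ht : 0 < t) (z : H) : V s (V t z) = V t (V s z) := by
  have h1 := h.V_gr hJ ht (h.gr s hs z)
  have h2 := h.gr s hs (V t z)
  rw [h.V_comm hJ hs.le ht] at h2
  exact hJ.gr_unique h2 h1

lemma gr_V {s t : ℝ} (hs : 0 < s) (ht : 0 < t) (z : H) :
    Gr J (V (s + t) z) (V s (V t z)) := by
  rw [h.V_add hJ hs.le ht]
  exact h.gr s hs (V t z)

lemma gr_V_half {t : ℝ} (ht : 0 < t) (z : H) :
    Gr J (V t z) (V (t / 2) (V (t / 2) z)) := by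
  have h1 := h.gr_V hJ (half_pos ht) (half_pos ht) z
  rw [add_halves] at h1
  exact h1

lemma deriv_V {t : ℝ} (ht : 0 < t) (z : H) :
    HasDerivAt (fun r => V r z) (-(V (t / 2) (V (t / 2) z))) t := by
  have h1 : HasDerivAt (fun r => P (r - t / 2) (V (t / 2) z)) (-(V (t / 2) (V (t / 2) z))) t := by
    have h2 : HasDerivAt (fun r => P r (V (t / 2) z)) (-(V (t / 2) (V (t / 2) z)))
        (t - t / 2) := by
      have e : t - t / 2 = t / 2 := by ring
      rw [e]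
      exact h.deriv (t / 2) (half_pos ht) (V (t / 2) z)
    exact h2.comp_sub_const t (t / 2)
  refine h1.congr_of_eventuallyEq ?_
  filter_upwards [lt_mem_nhds (half_lt_self ht)] with r hr
  have h3 := h.V_add hJ (s := r - t / 2) (by linarith) (half_pos ht) z
  rw [sub_add_cancel] at h3
  exact h3

lemma V_continuousOn (z : H) : ContinuousOn (fun t => V t z) (Ioi 0) := fun _ ht =>
  (h.deriv_V hJ ht z).continuousAt.continuousWithinAt

/-- `⟨A² P_t z, P_t z⟩ = |A P_t z|²` -/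
lemma inner_V_V {t : ℝ} (ht : 0 < t) (z : H) :
    inner ℝ (V (t / 2) (V (t / 2) z)) (P t z) = ‖V t z‖ ^ 2 := by
  rw [hJ.gr_symm (h.gr_V_half hJ ht z) (h.gr t ht z), real_inner_self_eq_norm_sq]

/-- the contraction `(1 + t A) P_t` -/
lemma C_norm_le {t : ℝ} (ht : 0 < t) (z : H) : ‖P t z + t • V t z‖ ≤ ‖z‖ := by
  have h1 := h.master t ht z
  have h2 : ‖P t z + t • V t z‖ ^ 2 ≤ ‖z‖ ^ 2 := by
    rw [norm_add_sq_real, real_inner_smul_right, norm_smul, Real.norm_eq_abs, abs_of_pos ht,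
      mul_pow, real_inner_comm]
    nlinarith [mul_nonneg (sq_nonneg t) (sq_nonneg ‖V t z‖)]
  exact (sq_le_sq₀ (norm_nonneg _) (norm_nonneg _)).mp h2

lemma J_C {t : ℝ} (ht : 0 < t) (z : H) : J t (P t z + t • V t z) = P t z :=
  (hJ.gr_iff ht).mp (h.gr t ht z)

/-- `(1 + t A) P_τ` for `t ≤ τ` -/
lemma C_norm_le' {t τ : ℝ} (ht : 0 < t) (htτ : t ≤ τ) (z : H) :
    ‖P τ z + t • V τ z‖ ≤ ‖P (τ - t) z‖ := by
  have e1 : P τ z = P t (P (τ - t) z) := by
    rw [← h.add t (τ - t) ht.le (by linarith)]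
    congr 2
    ring
  have e2 : V τ z = V t (P (τ - t) z) := by
    rw [← h.V_comm hJ (by linarith) ht, ← h.V_add hJ (by linarith) ht]
    congr 2
    ring
  rw [e1, e2]
  exact h.C_norm_le hJ ht _

/-! ### decay under a gap -/

lemma deriv_norm_sq {t : ℝ} (ht : 0 < t) (z : H) :
    HasDerivAt (fun r => ‖P r z‖ ^ 2) (-2 * inner ℝ (V t z) (P t z)) t := by
  have h1 := (h.deriv t ht z).inner ℝ (h.deriv t ht z)
  have e : inner ℝ (P t z) (-(V t z)) + inner ℝ (-(V t z)) (P t z)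
      = -2 * inner ℝ (V t z) (P t z) := by
    rw [inner_neg_left, inner_neg_right, real_inner_comm (V t z) (P t z)]
    ring
  rw [e] at h1
  refine h1.congr_of_eventuallyEq (Eventually.of_forall fun r => ?_)
  exact (real_inner_self_eq_norm_sq _).symm

lemma deriv_inner {t : ℝ} (ht : 0 < t) (z : H) :
    HasDerivAt (fun r => inner ℝ (V r z) (P r z)) (-2 * ‖V t z‖ ^ 2) t := by
  have h1 := (h.deriv_V hJ ht z).inner ℝ (h.deriv t ht z)
  have e : inner ℝ (V t z) (-(V t z)) + inner ℝ (-(V (t / 2) (V (t / 2) z))) (P t z)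
      = -2 * ‖V t z‖ ^ 2 := by
    rw [inner_neg_left, inner_neg_right, h.inner_V_V hJ ht, real_inner_self_eq_norm_sq]
    ring
  rw [e] at h1
  exact h1

lemma decay {K0 : Submodule ℝ H} (hc : IsClosed (K0 : Set H))
    (hinv : ∀ s, 0 < s → ∀ z ∈ K0, J s z ∈ K0)
    (hgap : ∀ z y, Gr J z y → z ∈ K0 → ‖z‖ ^ 2 ≤ inner ℝ y z) {t : ℝ} (ht : 0 ≤ t) {z : H}
    (hz : z ∈ K0) : ‖P t z‖ ^ 2 ≤ Real.exp (-(2 * t)) * ‖z‖ ^ 2 := by
  have hK : ∀ r, 0 ≤ r → P r z ∈ K0 := fun r hr => h.inv K0 hc hinv r hr z hz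
  have hcont : ContinuousOn (fun r => Real.exp (2 * r) * ‖P r z‖ ^ 2) (Icc 0 t) := by
    refine ContinuousOn.mul (by fun_prop) ?_
    exact (((h.cont z).mono Icc_subset_Ici_self).norm).pow 2
  have hd : ∀ r ∈ Ioo (0:ℝ) t, HasDerivAt (fun r => Real.exp (2 * r) * ‖P r z‖ ^ 2)
      (Real.exp (2 * r) * (2 * ‖P r z‖ ^ 2 - 2 * inner ℝ (V r z) (P r z))) r := by
    intro r hr
    have h1 : HasDerivAt (fun r : ℝ => Real.exp (2 * r)) (Real.exp (2 * r) * 2) r := by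
      have h2 : HasDerivAt (fun r : ℝ => 2 * r) 2 r := by
        simpa using (hasDerivAt_id r).const_mul 2
      exact h2.exp
    have h3 := h1.mul (h.deriv_norm_sq hJ hr.1 z)
    have e : Real.exp (2 * r) * 2 * ‖P r z‖ ^ 2
        + Real.exp (2 * r) * (-2 * inner ℝ (V r z) (P r z))
        = Real.exp (2 * r) * (2 * ‖P r z‖ ^ 2 - 2 * inner ℝ (V r z) (P r z)) := by ring
    rw [e] at h3
    exact h3
  have hfin := le_of_hasDerivAt_nonpos' ht hcont hd (fun r hr => by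
    have h1 := hgap _ _ (h.gr r hr.1 z) (hK r hr.1.le)
    exact mul_nonpos_of_nonneg_of_nonpos (Real.exp_pos _).le (by linarith))
  simp only [mul_zero, Real.exp_zero, one_mul, h.zero] at hfin
  have e1 : Real.exp (-(2 * t)) * Real.exp (2 * t) = 1 := by
    rw [← Real.exp_add]; simp
  calc ‖P t z‖ ^ 2 = Real.exp (-(2 * t)) * (Real.exp (2 * t) * ‖P t z‖ ^ 2) := by
        rw [← mul_assoc, e1, one_mul]
    _ ≤ Real.exp (-(2 * t)) * ‖z‖ ^ 2 := mul_le_mul_of_nonneg_left hfin (Real.exp_pos _).le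

/-! ### integrals of squares -/

lemma cont_V_sq (z : H) : ContinuousOn (fun t => ‖V t z‖ ^ 2) (Ioi 0) :=
  ((h.V_continuousOn hJ z).norm).pow 2

lemma sq_int_eq {a b : ℝ} (ha : 0 < a) (hab : a ≤ b) (z : H) :
    ∫ t in a..b, t * ‖V t z‖ ^ 2 = (‖P a z‖ ^ 2 + 2 * a * inner ℝ (V a z) (P a z)) / 4
      - (‖P b z‖ ^ 2 + 2 * b * inner ℝ (V b z) (P b z)) / 4 := by
  have hsub : uIcc a b ⊆ Ioi 0 := by
    rw [uIcc_of_le hab]
    exact fun x hx => lt_of_lt_of_le ha hx.1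
  have hd : ∀ t ∈ uIcc a b, HasDerivAt
      (fun t => -((‖P t z‖ ^ 2 + 2 * t * inner ℝ (V t z) (P t z)) / 4)) (t * ‖V t z‖ ^ 2) t := by
    intro t ht
    have ht0 : 0 < t := hsub ht
    have h2 : HasDerivAt (fun r : ℝ => 2 * r) 2 t := by
      simpa using (hasDerivAt_id t).const_mul 2
    have h3 := (((h.deriv_norm_sq hJ ht0 z).add (h2.mul (h.deriv_inner hJ ht0 z))).div_const 4).neg
    have e : -((-2 * inner ℝ (V t z) (P t z)
        + (2 * inner ℝ (V t z) (P t z) + 2 * t * (-2 * ‖V t z‖ ^ 2))) / 4)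
        = t * ‖V t z‖ ^ 2 := by ring
    rw [e] at h3
    exact h3
  have hi : IntervalIntegrable (fun t => t * ‖V t z‖ ^ 2) MeasureTheory.volume a b := by
    apply ContinuousOn.intervalIntegrable
    exact ContinuousOn.mul continuousOn_id ((h.cont_V_sq hJ z).mono hsub)
  rw [intervalIntegral.integral_eq_sub_of_hasDerivAt hd hi]
  ring

lemma sq_int_le {a b : ℝ} (ha : 0 < a) (hab : a ≤ b) (z : H) :
    ∫ t in a..b, t * ‖V t z‖ ^ 2 ≤ ‖z‖ ^ 2 / 4 := by
  rw [h.sq_int_eq hJ ha hab z]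
  have h1 := h.master a ha z
  have h2 := h.inner_nonneg hJ (lt_of_lt_of_le ha hab) z
  have h3 : 0 ≤ 2 * b * inner ℝ (V b z) (P b z) :=
    mul_nonneg (by linarith) h2
  nlinarith [sq_nonneg ‖P b z‖, mul_nonneg (sq_nonneg a) (sq_nonneg ‖V a z‖)]

end Sg

end Vale.Agent.P245.K
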