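import Vale.Agent.P245.K.StepCore

/-!
P245, row BASE0 (helper845), part 1: the pointwise Cauchy-Schwarz inequality
`(∑ t_ab (∂_a t_kl) z_l ζ_bk)² ≤ ⟨S z, z⟩ ∑ t_ab t_kl ζ_ak ζ_bl`.
-/

set_option linter.all false

namespace Vale.Agent.P245.K.Base0

open Matrix
open scoped BigOperators

variable {n : ℕ}

/-- Cauchy-Schwarz for the form `X ↦ tr (X t Xᵀ t)` -/
theorem cs_t {t A : Matrix (Fin n) (Fin n) ℝ} (ht : t.PosDef) (hA : (t * A)ᵀ = t * A)
    (ζ : Matrix (Fin n) (Fin n) ℝ) :
    ((t * A) * ζᵀ).trace ^ 2 ≤ (A * A).trace * (t * (ζ * t * ζᵀ)).trace := by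
  have htt : tᵀ = t := by simpa using ht.isHermitian.eq
  have hu : IsUnit t.det := (Matrix.isUnit_iff_isUnit_det _).mp ht.isUnit
  have hti : t * t⁻¹ = 1 := Matrix.mul_nonsing_inv _ hu
  have hit : t⁻¹ * t = 1 := Matrix.nonsing_inv_mul _ hu
  have hitt : (t⁻¹)ᵀ = t⁻¹ := by rw [Matrix.transpose_nonsing_inv, htt]
  have key : ∀ r : ℝ, 0 ≤ (t * (ζ * t * ζᵀ)).trace * (r * r) + (-2 * ((t * A) * ζᵀ).trace) * r
      + (A * A).trace := by
    intro r
    set X : Matrix (Fin n) (Fin n) ℝ := A * t⁻¹ - r • ζ with hX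
    have h0 : 0 ≤ (t * (X * t * Xᵀ)).trace :=
      Step.trace_mul_nonneg ht.posSemidef (Step.gram_psd ht.posSemidef X)
    have e1 : X * t = A - r • (ζ * t) := by
      rw [hX, Matrix.sub_mul, Matrix.mul_assoc, hit, Matrix.mul_one, Matrix.smul_mul]
    have e2 : Xᵀ = t⁻¹ * Aᵀ - r • ζᵀ := by
      rw [hX, Matrix.transpose_sub, Matrix.transpose_mul, hitt, Matrix.transpose_smul]
    have e3 : (t * (X * t * Xᵀ)).trace = (A * A).trace - 2 * r * ((t * A) * ζᵀ).trace
        + r ^ 2 * (t * (ζ * t * ζᵀ)).trace := by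
      rw [e1, e2]
      have f1 : t * A * t⁻¹ * Aᵀ = A.transpose.transpose.transpose * Aᵀ ∨ True := Or.inr trivial
      have g1 : Aᵀ * t = t * A := by
        have := hA
        rw [Matrix.transpose_mul, htt] at this
        exact this
      -- the four terms
      have t1 : (t * (A * (t⁻¹ * Aᵀ))).trace = (A * A).trace := by
        have : (t * (A * (t⁻¹ * Aᵀ))).trace = (A * (t⁻¹ * (Aᵀ * t))).trace := by
          rw [Matrix.trace_mul_comm]
          simp only [Matrix.mul_assoc]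
        rw [this, g1, ← Matrix.mul_assoc t⁻¹, hit, Matrix.one_mul]
      have t2 : (t * (A * ζᵀ)).trace = ((t * A) * ζᵀ).trace := by
        rw [Matrix.mul_assoc]
      have t3 : (t * (ζ * t * (t⁻¹ * Aᵀ))).trace = ((t * A) * ζᵀ).trace := by
        have h1 : ζ * t * (t⁻¹ * Aᵀ) = ζ * Aᵀ := by
          rw [Matrix.mul_assoc, ← Matrix.mul_assoc t, hti, Matrix.one_mul]
        rw [h1, ← Matrix.trace_transpose, Matrix.transpose_mul, Matrix.transpose_mul,
          Matrix.transpose_transpose, htt, Matrix.trace_mul_comm]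
        simp only [Matrix.mul_assoc]
      have t4 : (t * (ζ * t * ζᵀ)).trace = (t * (ζ * t * ζᵀ)).trace := rfl
      simp only [Matrix.sub_mul, Matrix.mul_sub, Matrix.smul_mul, Matrix.mul_smul,
        Matrix.trace_sub, Matrix.trace_smul, smul_eq_mul]
      rw [t1, t2, t3]
      ring
    rw [e3] at h0
    nlinarith [h0]
  have := discrim_le_zero key
  rw [discrim] at this
  nlinarith [this]

/-- the same in coordinates: `P b k l = ∂_b t_kl` -/
theorem cs_idx {t : Matrix (Fin n) (Fin n) ℝ} (ht : t.PosDef)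
    {P : Fin n → Fin n → Fin n → ℝ} (hP : ∀ e b c, P e b c = P e c b)
    (hS : ∀ a b c, ∑ e, t a e * P e b c = ∑ e, t b e * P e a c) (z : Fin n → ℝ)
    (ζ : Fin n → Fin n → ℝ) :
    (∑ a, ∑ b, t a b * ∑ k, ∑ l, P a k l * z l * ζ b k) ^ 2 ≤
      (∑ a, ∑ i, z a * z i * (∑ b, ∑ e, P b i e * P e a b)) *
        ∑ a, ∑ b, t a b * ∑ k, ∑ l, t k l * ζ a k * ζ b l := by
  have htt : ∀ i j, t i j = t j i := fun i j => by
    have := ht.isHermitian.apply i j
    simpa using this.symm
  set A : Matrix (Fin n) (Fin n) ℝ := Matrix.of fun b e => ∑ i, z i * P b i e with hA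
  set Z : Matrix (Fin n) (Fin n) ℝ := Matrix.of ζ with hZ
  have hB : (t * A).transpose = t * A := by
    ext c e
    rw [Matrix.transpose_apply, Matrix.mul_apply, Matrix.mul_apply]
    have h1 : ∀ c e, ∑ b, t c b * A b e = ∑ i, z i * ∑ b, t c b * P b i e := by
      intro c e
      simp only [hA, Matrix.of_apply, Finset.mul_sum]
      rw [Finset.sum_comm]
      exact Finset.sum_congr rfl fun i _ => Finset.sum_congr rfl fun b _ => by ring
    rw [h1, h1]
    refine Finset.sum_congr rfl fun i _ => ?_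
    congr 1
    have h2 : ∑ b, t e b * P b i c = ∑ b, t i b * P b e c := hS e i c
    have h3 : ∑ b, t c b * P b i e = ∑ b, t i b * P b c e := hS c i e
    rw [h2, h3]
    exact Finset.sum_congr rfl fun b _ => by rw [hP b e c]
  have hcs := cs_t ht hB Z
  have e1 : ∑ a, ∑ b, t a b * ∑ k, ∑ l, P a k l * z l * ζ b k = ((t * A) * Zᵀ).trace := by
    have f1 : ((t * A) * Zᵀ).trace = ∑ b, ∑ k, (∑ a, t b a * ∑ l, z l * P a l k) * ζ b k := rfl
    rw [f1]
    rw [Finset.sum_comm]
    refine Finset.sum_congr rfl fun b _ => ?_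
    simp only [Finset.mul_sum, Finset.sum_mul]
    rw [Finset.sum_comm]
    refine Finset.sum_congr rfl fun k _ => ?_
    refine Finset.sum_congr rfl fun a _ => ?_
    refine Finset.sum_congr rfl fun l _ => ?_
    rw [htt a b, hP a k l]
    ring
  have e2 : ∑ a, ∑ i, z a * z i * (∑ b, ∑ e, P b i e * P e a b) = (A * A).trace := by
    have e2 : (A * A).trace = ∑ b, ∑ e, (∑ i, z i * P b i e) * (∑ a, z a * P e a b) := rfl
    rw [e2]
    simp only [Finset.mul_sum, Finset.sum_mul]
    calc ∑ a, ∑ i, ∑ b, ∑ e, z a * z i * (P b i e * P e a b)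
        = ∑ b, ∑ a, ∑ i, ∑ e, z a * z i * (P b i e * P e a b) := by
          rw [Finset.sum_congr rfl fun a _ => Finset.sum_comm, Finset.sum_comm]
      _ = ∑ b, ∑ e, ∑ a, ∑ i, z a * z i * (P b i e * P e a b) := by
          refine Finset.sum_congr rfl fun b _ => ?_
          rw [Finset.sum_congr rfl fun a _ => Finset.sum_comm, Finset.sum_comm]
      _ = _ := by
          refine Finset.sum_congr rfl fun b _ => Finset.sum_congr rfl fun e _ => ?_
          refine Finset.sum_congr rfl fun a _ => Finset.sum_congr rfl fun i _ => ?_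
          ring
  have e3 : ∑ a, ∑ b, t a b * ∑ k, ∑ l, t k l * ζ a k * ζ b l = (t * (Z * t * Zᵀ)).trace := by
    have f1 : (t * (Z * t * Zᵀ)).trace = ∑ a, ∑ b, t a b * ∑ l, (∑ k, ζ b k * t k l) * ζ a l := rfl
    rw [f1, Finset.sum_comm]
    refine Finset.sum_congr rfl fun b _ => Finset.sum_congr rfl fun a _ => ?_
    rw [htt a b]
    congr 1
    simp only [Finset.sum_mul]
    refine Finset.sum_comm.trans ?_
    refine Finset.sum_congr rfl fun l _ => Finset.sum_congr rfl fun k _ => ?_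
    ring
  rw [e1, e2, e3]
  exact hcs

end Vale.Agent.P245.K.Base0
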