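import Vale.Agent.P245.H895.QuadA
import Vale.Agent.P245.K.FldDef

set_option linter.all false

open MeasureTheory Filter Topology Set Metric
open scoped NNReal ENNReal ContDiff
open Vale.Agent.P227.M Vale.Agent.P227.M.K814 Vale.Agent.P254.SN Vale.Agent.P245.Q895 Vale.Agent.P245.K

namespace Vale.Agent.P245.K.H72

variable {n : ℕ} {V : E n → ℝ} {c1 C1 : ℝ} {t : E n → Matrix (Fin n) (Fin n) ℝ}

/-- square integrable with respect to `e^{-V}` -/
def L2c (V : E n → ℝ) (f : E n → ℝ) : Prop :=
  AEStronglyMeasurable f volume ∧ Integrable (fun x => f x ^ 2 * Real.exp (-V x))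

theorem L2c.mul (hVc : Continuous V) {f g : E n → ℝ} (hf : L2c V f) (hg : L2c V g) :
    Integrable (fun x => f x * g x * Real.exp (-V x)) := by
  refine Integrable.mono' (hf.2.add hg.2) ?_ (Eventually.of_forall fun x => ?_)
  · exact (hf.1.mul hg.1).mul (by fun_prop : Continuous fun x => Real.exp (-V x)).aestronglyMeasurable
  · have h1 := Real.exp_pos (-V x)
    rw [norm_mul, Real.norm_eq_abs, Real.norm_eq_abs, Real.abs_exp, Pi.add_apply, ← add_mul]
    refine mul_le_mul_of_nonneg_right ?_ h1.le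
    rw [abs_mul]
    nlinarith [sq_nonneg (|f x| - |g x|), sq_abs (f x), sq_abs (g x), abs_nonneg (f x), abs_nonneg (g x)]

theorem L2c.of_pb (hV : Reg V c1 C1) {f : E n → ℝ} (hf : PB f) : L2c V f := by
  refine ⟨hf.1.aestronglyMeasurable, ?_⟩
  have := (hf.mul hf).int hV
  simpa [pow_two] using this

theorem L2c.add (hVc : Continuous V) {f g : E n → ℝ} (hf : L2c V f) (hg : L2c V g) :
    L2c V (fun x => f x + g x) := by
  refine ⟨hf.1.add hg.1, ?_⟩
  have h := ((hf.2.add hg.2).add ((hf.mul hVc hg).const_mul 2))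
  refine h.congr (Eventually.of_forall fun x => ?_)
  simp only [Pi.add_apply]
  ring

theorem L2c.smul {f : E n → ℝ} (hf : L2c V f) (c : ℝ) : L2c V (fun x => c * f x) := by
  refine ⟨hf.1.const_mul c, ?_⟩
  refine (hf.2.const_mul (c ^ 2)).congr (Eventually.of_forall fun x => ?_)
  simp only
  ring

theorem L2c.sub (hVc : Continuous V) {f g : E n → ℝ} (hf : L2c V f) (hg : L2c V g) :
    L2c V (fun x => f x - g x) := by
  have h := hf.add hVc (hg.smul (-1))
  simpa [sub_eq_add_neg] using h

theorem I_sq_nonneg (f : E n → ℝ) : 0 ≤ I V (fun x => f x ^ 2) := by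
  unfold I
  exact integral_nonneg fun x => mul_nonneg (sq_nonneg _) (Real.exp_pos _).le

/-- Cauchy-Schwarz -/
theorem I_cs (hVc : Continuous V) {f g : E n → ℝ} (hf : L2c V f) (hg : L2c V g) :
    (I V (fun x => f x * g x)) ^ 2 ≤ I V (fun x => f x ^ 2) * I V (fun x => g x ^ 2) := by
  have key : ∀ s : ℝ, 0 ≤ I V (fun x => f x ^ 2) - 2 * s * I V (fun x => f x * g x)
      + s ^ 2 * I V (fun x => g x ^ 2) := by
    intro s
    have e : I V (fun x => f x ^ 2) - 2 * s * I V (fun x => f x * g x)
      + s ^ 2 * I V (fun x => g x ^ 2) = I V (fun x => (f x - s * g x) ^ 2) := by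
      unfold I
      have i1 := hf.2
      have i2 := (hf.mul hVc hg).const_mul (2 * s)
      have i3 := hg.2.const_mul (s ^ 2)
      have e1 : ∫ x, (f x - s * g x) ^ 2 * Real.exp (-V x) =
          ∫ x, ((f x ^ 2 * Real.exp (-V x) - 2 * s * (f x * g x * Real.exp (-V x)))
            + s ^ 2 * (g x ^ 2 * Real.exp (-V x))) :=
        integral_congr_ae (Eventually.of_forall fun x => by simp only; ring)
      have e2 : ∫ x, ((f x ^ 2 * Real.exp (-V x) - 2 * s * (f x * g x * Real.exp (-V x)))
            + s ^ 2 * (g x ^ 2 * Real.exp (-V x))) =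
          (∫ x, (f x ^ 2 * Real.exp (-V x) - 2 * s * (f x * g x * Real.exp (-V x))))
            + (∫ x, s ^ 2 * (g x ^ 2 * Real.exp (-V x))) := integral_add (i1.sub i2) i3
      have e3 : ∫ x, (f x ^ 2 * Real.exp (-V x) - 2 * s * (f x * g x * Real.exp (-V x))) =
          (∫ x, f x ^ 2 * Real.exp (-V x)) - (∫ x, 2 * s * (f x * g x * Real.exp (-V x))) :=
        integral_sub i1 i2
      rw [e1, e2, e3, integral_const_mul, integral_const_mul]
    rw [e]
    exact I_sq_nonneg _
  have hg0 := I_sq_nonneg (V := V) g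
  rcases hg0.eq_or_lt with h0 | h0
  · have h1 : I V (fun x => f x * g x) = 0 := by
      by_contra hne
      have := key ((I V (fun x => f x ^ 2) + 1) / (2 * I V (fun x => f x * g x)))
      rw [← h0] at this
      have e2 : 2 * ((I V (fun x => f x ^ 2) + 1) / (2 * I V (fun x => f x * g x))) *
        I V (fun x => f x * g x) = I V (fun x => f x ^ 2) + 1 := by
        field_simp
      rw [e2] at this
      linarith
    rw [h1, ← h0]; simp
  · have := key (I V (fun x => f x * g x) / I V (fun x => g x ^ 2))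
    have e2 : I V (fun x => f x ^ 2) - 2 * (I V (fun x => f x * g x) / I V (fun x => g x ^ 2)) *
        I V (fun x => f x * g x) + (I V (fun x => f x * g x) / I V (fun x => g x ^ 2)) ^ 2 *
        I V (fun x => g x ^ 2) = I V (fun x => f x ^ 2) -
        (I V (fun x => f x * g x)) ^ 2 / I V (fun x => g x ^ 2) := by
      field_simp
      ring
    rw [e2, sub_nonneg, div_le_iff₀ h0] at this
    exact this

theorem I_cs_abs (hVc : Continuous V) {f g : E n → ℝ} (hf : L2c V f) (hg : L2c V g) :
    |I V (fun x => f x * g x)| ≤ Real.sqrt (I V (fun x => f x ^ 2)) * Real.sqrt (I V (fun x => g x ^ 2)) := by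
  rw [← Real.sqrt_mul (I_sq_nonneg f)]
  exact Real.abs_le_sqrt (I_cs hVc hf hg)

theorem lc_pb {f : E n → ℝ} (hf : LC f) : PB f := by
  obtain ⟨M, hM⟩ := hf.2.exists_bound_of_continuous hf.1.continuous
  exact PB.of_gb ⟨hf.1.continuous.measurable, M, fun x => hM x⟩

theorem lc_pd {f : E n → ℝ} (hf : LC f) (i : Fin n) : PB (pd i f) := by
  obtain ⟨K, hK⟩ := hf.lip
  exact PB.of_gb (GB.pd hK i)

theorem pb_Dt (h : TB V t) {f : E n → ℝ} (h1 : ∀ b, PB (pd b f)) (a : Fin n) : PB (Dt t a f) :=
  PB.sum _ fun b _ => (PB.of_gb (gb_t h a b)).mul (h1 b)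

theorem pb_dvg (h : TB V t) {be : E n → Fin n → ℝ} (hb : ∀ b, LC (fun x => be x b)) : PB (dvg t be) :=
  (PB.sum _ fun a _ => PB.sum _ fun b _ => (PB.of_gb (gb_t h a b)).mul (lc_pd (hb b) a)).sub
    (PB.sum _ fun b _ => (PB.coord b).mul (lc_pb (hb b)))

theorem pb_ip (h : TB V t) {al be : E n → Fin n → ℝ} (ha : ∀ b, PB (fun x => al x b))
    (hb : ∀ b, PB (fun x => be x b)) : PB (ip t al be) :=
  PB.sum _ fun a _ => PB.sum _ fun b _ => ((PB.of_gb (gb_t h a b)).mul (ha a)).mul (hb b)

/-- Stein for a field: `E <df, be> = - E f div be`, `f` locally Lipschitz of polynomial growth -/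
theorem ibp_field (hV : Reg V c1 C1) (h : TB V t) {f : E n → ℝ} (hf : LocallyLipschitz f)
    (hfd : ∀ᵐ x, DifferentiableAt ℝ f x) (h0 : PB f) (h1 : ∀ b, PB (pd b f))
    {be : E n → Fin n → ℝ} (hb : ∀ b, LC (fun x => be x b)) :
    I V (ip t (fun x a => pd a f x) be) = - I V (fun x => f x * dvg t be x) := by
  have hfb : ∀ b, LC (fun x => f x * be x b) := fun b => LC.mul_left hf (hb b)
  have hz : ∀ b, I V (fun x => Dt t b (fun y => f y * be y b) x - x b * (f x * be x b)) = 0 :=
    fun b => core' hV h (hfb b).1 (hfb b).ae_diff (lc_pb (hfb b)) (fun c => lc_pd (hfb b) c) b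
  have hPB : ∀ b, PB (fun x => Dt t b (fun y => f y * be y b) x - x b * (f x * be x b)) :=
    fun b => (pb_Dt h (fun c => lc_pd (hfb b) c) b).sub ((PB.coord b).mul (lc_pb (hfb b)))
  have hs : I V (fun x => ∑ b, (Dt t b (fun y => f y * be y b) x - x b * (f x * be x b))) = 0 := by
    rw [I_sum' _ hV fun b _ => hPB b]
    exact Finset.sum_eq_zero fun b _ => hz b
  have hA : PB (ip t (fun x a => pd a f x) be) := pb_ip h h1 fun b => lc_pb (hb b)
  have hB : PB (fun x => f x * dvg t be x) := h0.mul (pb_dvg h hb)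
  have e : I V (fun x => ∑ b, (Dt t b (fun y => f y * be y b) x - x b * (f x * be x b))) =
      I V (ip t (fun x a => pd a f x) be) + I V (fun x => f x * dvg t be x) := by
    rw [← I_add' hV hA hB]
    refine I_congr ?_
    have hbd : ∀ᵐ x, ∀ b, DifferentiableAt ℝ (fun y => be y b) x := by
      rw [ae_all_iff]; exact fun b => (hb b).ae_diff
    filter_upwards [hfd, hbd] with x hx hx2
    have e1 : ∀ b c, pd c (fun y => f y * be y b) x =
        pd c f x * be x b + f x * pd c (fun y => be y b) x := fun b c => rpd_mul hx (hx2 b)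
    unfold ip dvg Dt
    simp only [e1]
    rw [mul_sub, Finset.mul_sum, Finset.mul_sum, Finset.sum_sub_distrib]
    have e2 : ∑ b, ∑ c, t x b c * (pd c f x * be x b + f x * pd c (fun y => be y b) x) =
        (∑ a, ∑ b, t x a b * pd a f x * be x b) +
          ∑ a, f x * ∑ b, t x a b * pd a (fun y => be y b) x := by
      rw [Finset.sum_comm, ← Finset.sum_add_distrib]
      refine Finset.sum_congr rfl fun a _ => ?_
      rw [Finset.mul_sum, ← Finset.sum_add_distrib]
      refine Finset.sum_congr rfl fun b _ => ?_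
      rw [h.symm x b a]; ring
    rw [e2]
    have e3 : ∑ b, x b * (f x * be x b) = ∑ b, f x * (x b * be x b) :=
      Finset.sum_congr rfl fun b _ => by ring
    rw [e3]; ring
  rw [hs] at e
  linarith

/-- `E x_b^2 p^2 ≤ 2 K E p^2 + 4 E (D_b p)^2` for Lipschitz compactly supported `p` -/
theorem xsq_bound (hV : Reg V c1 C1) (h : TB V t) {K : ℝ} (hK : ∀ x i j, |t x i j| ≤ K)
    {p : E n → ℝ} (hp : LC p) (b : Fin n) :
    I V (fun x => (x b * p x) ^ 2) ≤ 2 * K * I V (fun x => p x ^ 2) + 4 * I V (fun x => (Dt t b p x) ^ 2) := by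
  have hf : LC (fun x => (x b * p x) * p x) := (LC.mul_left (ll_coord b) hp).mul_right hp.1
  have hz := core' hV h hf.1 hf.ae_diff (lc_pb hf) (fun c => lc_pd hf c) b
  have pb1 : PB (fun x => p x ^ 2) := by simpa [pow_two] using (lc_pb hp).mul (lc_pb hp)
  have pbD : PB (Dt t b p) := pb_Dt h (fun c => lc_pd hp c) b
  have pb2 : PB (fun x => (Dt t b p x) ^ 2) := by simpa [pow_two] using pbD.mul pbD
  have pb3 : PB (fun x => (x b * p x) ^ 2) := by
    have := ((PB.coord b).mul (lc_pb hp))
    simpa [pow_two] using this.mul this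
  have pb4 : PB (fun x => Dt t b (fun y => (y b * p y) * p y) x - x b * ((x b * p x) * p x)) :=
    (pb_Dt h (fun c => lc_pd hf c) b).sub ((PB.coord b).mul (lc_pb hf))
  have hle : I V (fun x => (1/2) * (x b * p x) ^ 2 + (Dt t b (fun y => (y b * p y) * p y) x -
      x b * ((x b * p x) * p x))) ≤ I V (fun x => K * p x ^ 2 + 2 * (Dt t b p x) ^ 2) := by
    have hi1 : PB (fun x => (1/2) * (x b * p x) ^ 2 + (Dt t b (fun y => (y b * p y) * p y) x -
      x b * ((x b * p x) * p x))) := ((PB.const _).mul pb3).add pb4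
    have hi2 : PB (fun x => K * p x ^ 2 + 2 * (Dt t b p x) ^ 2) :=
      ((PB.const _).mul pb1).add ((PB.const _).mul pb2)
    unfold I
    refine integral_mono_ae (hi1.int hV) (hi2.int hV) ?_
    filter_upwards [hp.ae_diff] with x hx
    refine mul_le_mul_of_nonneg_right ?_ (Real.exp_pos _).le
    have hcd : DifferentiableAt ℝ (fun y : E n => y b) x := by fun_prop
    have hcp : DifferentiableAt ℝ (fun y : E n => y b * p y) x := hcd.mul hx
    have e1 : ∀ c, pd c (fun y => (y b * p y) * p y) x = (pd c (fun y : E n => y b) x * p x + x b * pd c p x) * p x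
        + (x b * p x) * pd c p x := by
      intro c
      rw [rpd_mul hcp hx, rpd_mul hcd hx]
    have e2 : Dt t b (fun y => (y b * p y) * p y) x = (∑ c, t x b c * pd c (fun y : E n => y b) x) * p x ^ 2
        + 2 * (x b * p x) * Dt t b p x := by
      unfold Dt
      simp only [e1]
      rw [Finset.sum_mul, Finset.mul_sum, ← Finset.sum_add_distrib]
      refine Finset.sum_congr rfl fun c _ => ?_
      ring
    have e3 : ∑ c, t x b c * pd c (fun y : E n => y b) x = t x b b := by
      have : ∀ c, pd c (fun y : E n => y b) x = if c = b then 1 else 0 := by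
        intro c
        unfold pd
        have : fderiv ℝ (fun y : E n => y b) x = (EuclideanSpace.proj b : E n →L[ℝ] ℝ) := by
          have hh : (fun y : E n => y b) = (EuclideanSpace.proj b : E n →L[ℝ] ℝ) := rfl
          rw [hh]; exact ContinuousLinearMap.fderiv _
        rw [this]
        have h2 : (EuclideanSpace.proj b : E n →L[ℝ] ℝ) (ei c) = (ei c : E n) b := rfl
        rw [h2]
        unfold ei
        simp only [EuclideanSpace.single_apply]
        by_cases hcb : c = b
        · simp [hcb]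
        · simp [hcb, Ne.symm hcb]
      simp [this]
    rw [e2, e3]
    have hKb := (abs_le.1 (hK x b b)).2
    nlinarith [sq_nonneg (x b * p x - 2 * Dt t b p x), sq_nonneg (p x)]
  rw [I_add' hV ((PB.const _).mul pb3) pb4, hz, I_add' hV ((PB.const _).mul pb1) ((PB.const _).mul pb2),
    I_const_mul', I_const_mul', I_const_mul'] at hle
  linarith

end Vale.Agent.P245.K.H72
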