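import Vale.Agent.P245.K.CommLow

set_option linter.all false

open MeasureTheory Filter Topology Set Metric
open scoped NNReal ENNReal ContDiff
open Vale.Agent.P227.M Vale.Agent.P227.M.K814 Vale.Agent.P254.SN Vale.Agent.P245.Q895 Vale.Agent.P245.K
open Vale.Agent.P245.H464

namespace Vale.Agent.P245.K.H72

variable {n : ℕ} {V : E n → ℝ} {c1 C1 lam Lam : ℝ} {t : E n → Matrix (Fin n) (Fin n) ℝ}

theorem gb_inv (h : TE V t lam Lam) (a b : Fin n) : GB (fun x => (t x)⁻¹ a b) := by
  refine ⟨?_, lam⁻¹, fun x => inv_bound h x a b⟩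
  have ht : Continuous t := by
    refine continuous_pi fun i => continuous_pi fun j => ?_
    obtain ⟨K, hK⟩ := h.lip i j
    exact hK.continuous
  have hd : ∀ x, (t x).det ≠ 0 := fun x => (te_pos h x).det_pos.ne'
  have e : (fun x => (t x)⁻¹ a b) = fun x => ((t x).det)⁻¹ * (t x).adjugate a b := by
    ext x
    rw [Matrix.inv_def, Matrix.smul_apply, smul_eq_mul, Ring.inverse_eq_inv']
  rw [e]
  have h1 : Continuous fun x => (t x).det := ht.matrix_det
  have h2 : Continuous fun x => (t x).adjugate a b := (ht.matrix_adjugate).matrix_elem a b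
  exact ((h1.inv₀ hd).mul h2).measurable

theorem pb_DD (h : TE V t lam Lam) {al : E n → Fin n → ℝ} (h0 : ∀ b, PB (fun x => al x b))
    (h1 : ∀ k b, PB (pd k (fun x => al x b))) (k a : Fin n) : PB (DD t al k a) := by
  have h2 : PB (fun x => ∑ c, (∑ b, (t x)⁻¹ a b * pd k (fun y => t y b c) x) * al x c) :=
    PB.sum _ fun c _ => (PB.sum _ fun b _ => (PB.of_gb (gb_inv h a b)).mul
      (PB.of_gb (gb_pt h.toTB k b c))).mul (h0 c)
  exact (h1 k a).add ((PB.const (1 / 2)).mul h2)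

theorem pb_Dip (h : TE V t lam Lam) {al be : E n → Fin n → ℝ} (a0 : ∀ b, PB (fun x => al x b))
    (a1 : ∀ k b, PB (pd k (fun x => al x b))) (b0 : ∀ b, PB (fun x => be x b))
    (b1 : ∀ k b, PB (pd k (fun x => be x b))) : PB (Dip t al be) :=
  PB.sum _ fun k _ => PB.sum _ fun l _ => (PB.of_gb (gb_t h.toTB k l)).mul
    (PB.sum _ fun a _ => PB.sum _ fun b _ => ((PB.of_gb (gb_t h.toTB a b)).mul
      (pb_DD h a0 a1 k a)).mul (pb_DD h b0 b1 l b))

theorem pb_Ric (h : TB V t) {al be : E n → Fin n → ℝ} (a0 : ∀ b, PB (fun x => al x b))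
    (b0 : ∀ b, PB (fun x => be x b)) : PB (Ric V t al be) := by
  refine PB.sum _ fun a _ => PB.sum _ fun i _ => (PB.mul (PB.mul (PB.add ?_ ?_) (a0 a)) (b0 i))
  · exact (PB.const _).mul (PB.sum _ fun b _ => PB.sum _ fun e _ =>
      (PB.of_gb (gb_pt h b i e)).mul (PB.of_gb (gb_pt h e a b)))
  · exact (PB.const _).mul ((PB.of_gb (gb_t h i a)).add (PB.sum _ fun b _ => PB.sum _ fun e _ =>
      ((PB.of_gb (gb_t h i e)).mul (PB.of_gb (gb_V h e b))).mul (PB.of_gb (gb_t h a b))))

/-- the form `E <al, be> + s (E <D al, D be> + E Ric (al, be))` -/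
noncomputable def NF (V : E n → ℝ) (t : E n → Matrix (Fin n) (Fin n) ℝ) (s : ℝ)
    (al be : E n → Fin n → ℝ) : ℝ :=
  I V (ip t al be) + s * I V (fun x => Dip t al be x + Ric V t al be x)

theorem I_mono' (hV : Reg V c1 C1) {f g : E n → ℝ} (hf : PB f) (hg : PB g) (h : ∀ᵐ x, f x ≤ g x) :
    I V f ≤ I V g := by
  unfold I
  refine integral_mono_ae (hf.int hV) (hg.int hV) ?_
  filter_upwards [h] with x hx
  exact mul_le_mul_of_nonneg_right hx (Real.exp_pos _).le

theorem I_const_mulc (c : ℝ) (f : E n → ℝ) : I V (fun x => c * f x) = c * I V f := I_const_mul' c f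

theorem pbsq {f : E n → ℝ} (hf : PB f) : PB (fun x => f x ^ 2) := by
  simpa [pow_two] using hf.mul hf

/-- the divergence is controlled by the flat Dirichlet integral -/
theorem dvg_flat (hV : Reg V c1 C1) (h : TB V t) : ∃ C : ℝ, 0 ≤ C ∧ ∀ be : E n → Fin n → ℝ,
    (∀ b, LC (fun x => be x b)) → I V (fun x => dvg t be x ^ 2) ≤
      C * I V (fun x => (∑ k, ∑ a, (pd k (fun y => be y a) x) ^ 2) + ∑ a, be x a ^ 2) := by
  obtain ⟨K, hK⟩ := h.bt
  have hK0 : 0 ≤ |K| := abs_nonneg _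
  have hK' : ∀ x i j, |t x i j| ≤ |K| := fun x i j => (hK x i j).trans (le_abs_self _)
  refine ⟨2 * (n * n * |K| ^ 2) + 2 * n * (2 * |K|) + 2 * n * (4 * (n * |K| ^ 2)), by positivity,
    fun be hb => ?_⟩
  have p0 : ∀ b, PB (fun x => be x b) := fun b => lc_pb (hb b)
  have p1 : ∀ k b, PB (pd k (fun x => be x b)) := fun k b => lc_pd (hb b) k
  have pP : PB (fun x => ∑ k, ∑ a, (pd k (fun y => be y a) x) ^ 2) :=
    PB.sum _ fun k _ => PB.sum _ fun a _ => pbsq (p1 k a)
  have pB : PB (fun x => ∑ a, be x a ^ 2) := PB.sum _ fun a _ => pbsq (p0 a)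
  have pX : PB (fun x => ∑ b, (x b * be x b) ^ 2) :=
    PB.sum _ fun b _ => pbsq ((PB.coord b).mul (p0 b))
  set P : ℝ := I V (fun x => ∑ k, ∑ a, (pd k (fun y => be y a) x) ^ 2) with hP
  set Bb : ℝ := I V (fun x => ∑ a, be x a ^ 2) with hBb
  have hP0 : 0 ≤ P := I_nonneg' (Eventually.of_forall fun x => by positivity)
  have hB0 : 0 ≤ Bb := I_nonneg' (Eventually.of_forall fun x => by positivity)
  have s1 : I V (fun x => dvg t be x ^ 2) ≤ I V (fun x => 2 * (n * n * |K| ^ 2) *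
      (∑ k, ∑ a, (pd k (fun y => be y a) x) ^ 2) + 2 * n * ∑ b, (x b * be x b) ^ 2) := by
    refine I_mono' hV (pbsq (pb_dvg h hb)) (((PB.const _).mul pP).add ((PB.const _).mul pX))
      (Eventually.of_forall fun x => ?_)
    have q1 : (∑ a, ∑ b, t x a b * pd a (fun y => be y b) x) ^ 2 ≤
        (n * n * |K| ^ 2) * ∑ k, ∑ a, (pd k (fun y => be y a) x) ^ 2 := by
      have e1 : ∑ a, ∑ b, t x a b * pd a (fun y => be y b) x =
          ∑ p : Fin n × Fin n, t x p.1 p.2 * pd p.1 (fun y => be y p.2) x :=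
        (Fintype.sum_prod_type' fun a b => t x a b * pd a (fun y => be y b) x).symm
      have e2 : ∑ k, ∑ a, (pd k (fun y => be y a) x) ^ 2 =
          ∑ p : Fin n × Fin n, (pd p.1 (fun y => be y p.2) x) ^ 2 :=
        (Fintype.sum_prod_type' fun a b => (pd a (fun y => be y b) x) ^ 2).symm
      rw [e1, e2]
      refine (Finset.sum_mul_sq_le_sq_mul_sq _ _ _).trans ?_
      refine mul_le_mul_of_nonneg_right ?_ (Finset.sum_nonneg fun _ _ => sq_nonneg _)
      have : ∀ p ∈ (Finset.univ : Finset (Fin n × Fin n)), t x p.1 p.2 ^ 2 ≤ |K| ^ 2 := fun p _ => by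
        rw [← sq_abs (t x p.1 p.2)]; exact pow_le_pow_left₀ (abs_nonneg _) (hK' x p.1 p.2) 2
      refine (Finset.sum_le_sum this).trans ?_
      simp
    have q2 : (∑ b, x b * be x b) ^ 2 ≤ n * ∑ b, (x b * be x b) ^ 2 := by
      have := Finset.sum_mul_sq_le_sq_mul_sq Finset.univ (fun _ : Fin n => (1:ℝ)) (fun b => x b * be x b)
      simpa using this
    unfold dvg
    nlinarith [sq_nonneg ((∑ a, ∑ b, t x a b * pd a (fun y => be y b) x) + ∑ b, x b * be x b)]
  have s2 : I V (fun x => ∑ b, (x b * be x b) ^ 2) ≤ 2 * |K| * Bb + 4 * (n * |K| ^ 2) * P := by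
    rw [I_sum' _ hV fun b _ => pbsq ((PB.coord b).mul (p0 b))]
    have q : ∀ b ∈ (Finset.univ : Finset (Fin n)), I V (fun x => (x b * be x b) ^ 2) ≤
        2 * |K| * I V (fun x => be x b ^ 2) + 4 * I V (fun x => (Dt t b (fun y => be y b) x) ^ 2) :=
      fun b _ => xsq_bound hV h hK' (hb b) b
    refine (Finset.sum_le_sum q).trans ?_
    rw [Finset.sum_add_distrib, ← Finset.mul_sum, ← Finset.mul_sum,
      ← I_sum' _ hV fun b _ => pbsq (p0 b),
      ← I_sum' _ hV fun b _ => pbsq (pb_Dt h (fun c => p1 c b) b)]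
    have q3 : I V (fun x => ∑ b, (Dt t b (fun y => be y b) x) ^ 2) ≤ n * |K| ^ 2 * P := by
      rw [hP, ← I_const_mul']
      refine I_mono' hV (PB.sum _ fun b _ => pbsq (pb_Dt h (fun c => p1 c b) b))
        ((PB.const _).mul pP) (Eventually.of_forall fun x => ?_)
      have q4 : ∀ b, (Dt t b (fun y => be y b) x) ^ 2 ≤
          n * |K| ^ 2 * ∑ k, (pd k (fun y => be y b) x) ^ 2 := by
        intro b
        unfold Dt
        refine (Finset.sum_mul_sq_le_sq_mul_sq _ _ _).trans ?_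
        refine mul_le_mul_of_nonneg_right ?_ (Finset.sum_nonneg fun _ _ => sq_nonneg _)
        have : ∀ p ∈ (Finset.univ : Finset (Fin n)), t x b p ^ 2 ≤ |K| ^ 2 := fun p _ => by
          rw [← sq_abs (t x b p)]; exact pow_le_pow_left₀ (abs_nonneg _) (hK' x b p) 2
        refine (Finset.sum_le_sum this).trans ?_
        simp
      refine (Finset.sum_le_sum fun b _ => q4 b).trans ?_
      rw [← Finset.mul_sum, Finset.sum_comm]
    nlinarith
  rw [I_add' hV ((PB.const _).mul pP) ((PB.const _).mul pX), I_const_mul', I_const_mul'] at s1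
  rw [I_add' hV pP pB]
  have s3 := mul_le_mul_of_nonneg_left s2 (by positivity : (0:ℝ) ≤ 2 * n)
  have hn : (0:ℝ) ≤ n := Nat.cast_nonneg n
  have r1 : 0 ≤ (2 * (n * n * |K| ^ 2) + 2 * n * (4 * (n * |K| ^ 2))) * Bb := by positivity
  have r2 : 0 ≤ (2 * n * (2 * |K|)) * P := by positivity
  nlinarith

/-- **the divergence is controlled by the form** -/
theorem dvg_bound (hV : Reg V c1 C1) (h : TE V t lam Lam) {s : ℝ} (hs : 0 < s)
    (hR : ∀ be : E n → Fin n → ℝ, (∀ b, LC (fun x => be x b)) → ∀ᵐ x, 0 ≤ Ric V t be be x) :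
    ∃ C : ℝ, 0 ≤ C ∧ ∀ be : E n → Fin n → ℝ, (∀ b, LC (fun x => be x b)) →
      I V (fun x => dvg t be x ^ 2) ≤ C * NF V t s be be := by
  obtain ⟨A, hA0, hA⟩ := dvg_flat hV h.toTB
  obtain ⟨B, hB0, hB⟩ := flat_le h
  refine ⟨A * (B * (1 + s⁻¹)), by positivity, fun be hb => ?_⟩
  have p0 : ∀ b, PB (fun x => be x b) := fun b => lc_pb (hb b)
  have p1 : ∀ k b, PB (pd k (fun x => be x b)) := fun k b => lc_pd (hb b) k
  have pI : PB (ip t be be) := pb_ip h.toTB p0 p0
  have pD : PB (Dip t be be) := pb_Dip h p0 p1 p0 p1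
  have pR : PB (Ric V t be be) := pb_Ric h.toTB p0 p0
  have pF : PB (fun x => (∑ k, ∑ a, (pd k (fun y => be y a) x) ^ 2) + ∑ a, be x a ^ 2) :=
    (PB.sum _ fun k _ => PB.sum _ fun a _ => pbsq (p1 k a)).add (PB.sum _ fun a _ => pbsq (p0 a))
  have i1 : I V (fun x => (∑ k, ∑ a, (pd k (fun y => be y a) x) ^ 2) + ∑ a, be x a ^ 2) ≤
      B * (I V (ip t be be) + I V (fun x => Dip t be be x + Ric V t be be x)) := by
    have e : B * (I V (ip t be be) + I V (fun x => Dip t be be x + Ric V t be be x)) =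
        I V (fun x => B * (ip t be be x + (Dip t be be x + Ric V t be be x))) := by
      rw [I_const_mul', I_add' hV pI (pD.add pR)]
    rw [e]
    refine I_mono' hV pF ((PB.const _).mul (pI.add (pD.add pR))) ?_
    filter_upwards [hR be hb] with x hx
    refine (hB be x).trans ?_
    have := mul_nonneg hB0 hx
    nlinarith
  have n1 : 0 ≤ I V (ip t be be) := by
    refine I_nonneg' (Eventually.of_forall fun x => ?_)
    exact le_trans (mul_nonneg h.lam_pos.le (Finset.sum_nonneg fun _ _ => sq_nonneg _)) (te_low h x (be x))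
  have n2 : 0 ≤ I V (fun x => Dip t be be x + Ric V t be be x) := by
    refine I_nonneg' ?_
    filter_upwards [hR be hb] with x hx
    have := kron_low h x fun k a => DD t be k a x
    have h2 : 0 ≤ lam ^ 2 * ∑ k, ∑ a, (DD t be k a x) ^ 2 := by positivity
    exact add_nonneg (h2.trans this) hx
  have i2 : I V (ip t be be) + I V (fun x => Dip t be be x + Ric V t be be x) ≤
      (1 + s⁻¹) * NF V t s be be := by
    unfold NF
    have hsi : 0 < s⁻¹ := inv_pos.2 hs
    have e1 : (1 + s⁻¹) * (I V (ip t be be) + s * I V (fun x => Dip t be be x + Ric V t be be x)) =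
        I V (ip t be be) + s⁻¹ * I V (ip t be be) + s * I V (fun x => Dip t be be x + Ric V t be be x)
        + I V (fun x => Dip t be be x + Ric V t be be x) := by
      field_simp
      ring
    rw [e1]
    have := mul_nonneg hsi.le n1
    have := mul_nonneg hs.le n2
    linarith
  calc I V (fun x => dvg t be x ^ 2) ≤ A * _ := hA be hb
    _ ≤ A * (B * ((1 + s⁻¹) * NF V t s be be)) := by
        refine mul_le_mul_of_nonneg_left (i1.trans ?_) hA0
        exact mul_le_mul_of_nonneg_left i2 hB0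
    _ = _ := by ring

end Vale.Agent.P245.K.H72
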