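import Vale.Agent.P245.K.CommCore
import Vale.Agent.P245.H464.ESA

set_option linter.all false

open MeasureTheory Filter Topology Set Metric
open scoped NNReal ENNReal ContDiff
open Vale.Agent.P227.M Vale.Agent.P227.M.K814 Vale.Agent.P254.SN Vale.Agent.P245.Q895 Vale.Agent.P245.K
open Vale.Agent.P245.H464

namespace Vale.Agent.P245.K.H72

variable {n : ℕ} {V : E n → ℝ} {c1 C1 lam Lam : ℝ} {t : E n → Matrix (Fin n) (Fin n) ℝ}

/-- ellipticity for a plain vector -/
theorem te_low (h : TE V t lam Lam) (x : E n) (v : Fin n → ℝ) :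
    lam * ∑ i, v i ^ 2 ≤ ∑ i, ∑ j, t x i j * v i * v j := by
  have h1 := h.low x (WithLp.toLp 2 v)
  rw [← sum_sq_eq] at h1
  exact h1

theorem te_pos (h : TE V t lam Lam) (x : E n) : (t x).PosDef := by
  refine Matrix.PosDef.of_dotProduct_mulVec_pos ?_ fun v hv => ?_
  · ext i j
    simp only [Matrix.conjTranspose_apply, star_trivial]
    exact h.symm x j i
  · have h1 := te_low h x v
    have h2 : 0 < ∑ i, v i ^ 2 := by
      obtain ⟨i, hi⟩ := Function.ne_iff.1 hv
      exact Finset.sum_pos' (fun _ _ => sq_nonneg _) ⟨i, Finset.mem_univ _, pow_pos_of_ne hi⟩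
    have h3 : star v ⬝ᵥ (t x).mulVec v = ∑ i, ∑ j, t x i j * v i * v j := by
      simp only [dotProduct, Matrix.mulVec, Pi.star_apply, star_trivial, Finset.mul_sum]
      refine Finset.sum_congr rfl fun i _ => Finset.sum_congr rfl fun j _ => by ring
    rw [h3]
    exact lt_of_lt_of_le (mul_pos h.lam_pos h2) h1
where
  pow_pos_of_ne {a : ℝ} (ha : a ≠ 0) : 0 < a ^ 2 := by positivity

theorem inv_bound (h : TE V t lam Lam) (x : E n) (a b : Fin n) : |(t x)⁻¹ a b| ≤ lam⁻¹ := by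
  have hl := h.lam_pos
  have hu : IsUnit (t x).det := (Matrix.isUnit_iff_isUnit_det (t x)).1 (te_pos h x).isUnit
  have hm : t x * (t x)⁻¹ = 1 := Matrix.mul_nonsing_inv (t x) hu
  set w : Fin n → ℝ := fun i => (t x)⁻¹ i b with hw
  have h1 : ∀ i, ∑ j, t x i j * w j = if i = b then 1 else 0 := by
    intro i
    have := congrFun (congrFun hm i) b
    rw [Matrix.mul_apply, Matrix.one_apply] at this
    exact this
  have h2 := te_low h x w
  have h3 : ∑ i, ∑ j, t x i j * w i * w j = w b := by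
    have : ∀ i, ∑ j, t x i j * w i * w j = w i * (if i = b then 1 else 0) := by
      intro i
      rw [← h1 i, Finset.mul_sum]
      exact Finset.sum_congr rfl fun j _ => by ring
    simp [this]
  rw [h3] at h2
  have hb : w b ^ 2 ≤ ∑ i, w i ^ 2 := Finset.single_le_sum (f := fun i => w i ^ 2)
    (fun i _ => sq_nonneg _) (Finset.mem_univ b)
  have ha : w a ^ 2 ≤ ∑ i, w i ^ 2 := Finset.single_le_sum (f := fun i => w i ^ 2)
    (fun i _ => sq_nonneg _) (Finset.mem_univ a)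
  have h4 : lam * w b ^ 2 ≤ w b := (mul_le_mul_of_nonneg_left hb hl.le).trans h2
  have h5 : lam * w a ^ 2 ≤ w b := (mul_le_mul_of_nonneg_left ha hl.le).trans h2
  have h6 : w b ≤ lam⁻¹ := by
    rw [le_inv_comm₀' hl]
    by_contra hcon
    push Not at hcon
    nlinarith
  have h7 : w a ^ 2 ≤ lam⁻¹ ^ 2 := by
    have h8 : lam * w a ^ 2 ≤ lam⁻¹ := h5.trans h6
    have h9 : lam⁻¹ * (lam * w a ^ 2) ≤ lam⁻¹ * lam⁻¹ :=
      mul_le_mul_of_nonneg_left h8 (inv_nonneg.2 hl.le)
    rw [← mul_assoc, inv_mul_cancel₀ hl.ne', one_mul] at h9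
    nlinarith
  exact abs_le_of_sq_le_sq h7 (inv_nonneg.2 hl.le)
where
  le_inv_comm₀' {w l : ℝ} (hl : 0 < l) : (w ≤ l⁻¹) = (l * w ≤ 1) := by
    rw [eq_iff_iff]
    constructor
    · intro hh
      have := mul_le_mul_of_nonneg_left hh hl.le
      rwa [mul_inv_cancel₀ hl.ne'] at this
    · intro hh
      have := mul_le_mul_of_nonneg_left hh (inv_nonneg.2 hl.le)
      rwa [← mul_assoc, inv_mul_cancel₀ hl.ne', one_mul, mul_one] at this

theorem pt_bound (h : TB V t) : ∃ M : ℝ, 0 ≤ M ∧ ∀ x k i j, |pd k (fun y => t y i j) x| ≤ M := by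
  have h1 : ∀ k i j, ∃ C, ∀ x, |pd k (fun y => t y i j) x| ≤ C := fun k i j => (gb_pt h k i j).2
  choose C hC using h1
  refine ⟨∑ k, ∑ i, ∑ j, |C k i j|, by positivity, fun x k i j => ?_⟩
  refine ((hC k i j x).trans (le_abs_self _)).trans ?_
  refine le_trans ?_ (Finset.single_le_sum (f := fun k => ∑ i, ∑ j, |C k i j|) (fun _ _ => by positivity)
    (Finset.mem_univ k))
  refine le_trans ?_ (Finset.single_le_sum (f := fun i => ∑ j, |C k i j|) (fun _ _ => by positivity)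
    (Finset.mem_univ i))
  exact Finset.single_le_sum (f := fun j => |C k i j|) (fun _ _ => by positivity) (Finset.mem_univ j)

/-- `lam² |D|² ≤ <D, D>` for an arbitrary array -/
theorem kron_low (h : TE V t lam Lam) (x : E n) (u : Fin n → Fin n → ℝ) :
    lam ^ 2 * ∑ k, ∑ a, u k a ^ 2 ≤ ∑ k, ∑ l, t x k l * ∑ a, ∑ b, t x a b * u k a * u l b := by
  have hl := h.lam_pos
  obtain ⟨S, hS⟩ := Vale.Agent.P254.S2.pw_fact (te_pos h x).posSemidef
  have hab : ∀ a b, t x a b = ∑ m, S m a * S m b := by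
    intro a b
    conv_lhs => rw [hS]
    rw [Matrix.mul_apply]
    rfl
  set w : Fin n → Fin n → ℝ := fun m k => ∑ a, S m a * u k a with hw
  have h1 : ∀ k l, ∑ a, ∑ b, t x a b * u k a * u l b = ∑ m, w m k * w m l := by
    intro k l
    simp only [hw, hab, Finset.sum_mul, Finset.mul_sum]
    calc ∑ a, ∑ b, ∑ m, S m a * S m b * u k a * u l b
        = ∑ a, ∑ m, ∑ b, S m a * S m b * u k a * u l b := by
          exact Finset.sum_congr rfl fun a _ => Finset.sum_comm
      _ = ∑ m, ∑ a, ∑ b, S m a * S m b * u k a * u l b := Finset.sum_comm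
      _ = ∑ m, ∑ b, ∑ a, S m a * S m b * u k a * u l b := by
          exact Finset.sum_congr rfl fun a _ => Finset.sum_comm
      _ = _ := Finset.sum_congr rfl fun m _ => Finset.sum_congr rfl fun b _ =>
          Finset.sum_congr rfl fun a _ => by ring
  have h2 : ∑ k, ∑ l, t x k l * ∑ a, ∑ b, t x a b * u k a * u l b =
      ∑ m, ∑ k, ∑ l, t x k l * w m k * w m l := by
    simp only [h1, Finset.mul_sum]
    calc ∑ k, ∑ l, ∑ m, t x k l * (w m k * w m l)
        = ∑ k, ∑ m, ∑ l, t x k l * (w m k * w m l) := Finset.sum_congr rfl fun k _ => Finset.sum_comm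
      _ = ∑ m, ∑ k, ∑ l, t x k l * (w m k * w m l) := Finset.sum_comm
      _ = _ := Finset.sum_congr rfl fun m _ => Finset.sum_congr rfl fun k _ =>
          Finset.sum_congr rfl fun l _ => by ring
  rw [h2]
  have h3 : lam * ∑ m, ∑ k, w m k ^ 2 ≤ ∑ m, ∑ k, ∑ l, t x k l * w m k * w m l := by
    rw [Finset.mul_sum]
    exact Finset.sum_le_sum fun m _ => te_low h x (w m)
  refine le_trans ?_ h3
  have h4 : ∑ m, ∑ k, w m k ^ 2 = ∑ k, ∑ a, ∑ b, t x a b * u k a * u k b := by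
    rw [Finset.sum_comm]
    refine Finset.sum_congr rfl fun k _ => ?_
    rw [h1]
    exact Finset.sum_congr rfl fun m _ => by ring
  rw [h4, pow_two, mul_assoc]
  refine mul_le_mul_of_nonneg_left ?_ hl.le
  rw [Finset.mul_sum]
  exact Finset.sum_le_sum fun k _ => te_low h x (u k)

/-- the flat Dirichlet integrand is controlled -/
theorem flat_le (h : TE V t lam Lam) : ∃ C : ℝ, 0 ≤ C ∧ ∀ (be : E n → Fin n → ℝ) (x : E n),
    (∑ k, ∑ a, (pd k (fun y => be y a) x) ^ 2) + ∑ a, be x a ^ 2 ≤ C * (ip t be be x + Dip t be be x) := by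
  have hl := h.lam_pos
  obtain ⟨M, hM0, hM⟩ := pt_bound h.toTB
  set B : ℝ := n * (lam⁻¹ * M) with hB
  have hB0 : 0 ≤ B := by positivity
  refine ⟨(n * n * (1 / 2 * (n * B ^ 2)) + 1) * lam⁻¹ + 2 * (lam ^ 2)⁻¹, by positivity, fun be x => ?_⟩
  set G : Fin n → Fin n → Fin n → ℝ := fun k a c => ∑ b, (t x)⁻¹ a b * pd k (fun y => t y b c) x with hG
  have hGb : ∀ k a c, |G k a c| ≤ B := by
    intro k a c
    refine (Finset.abs_sum_le_sum_abs _ _).trans ?_
    have : ∀ b ∈ Finset.univ, |(t x)⁻¹ a b * pd k (fun y => t y b c) x| ≤ lam⁻¹ * M := by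
      intro b _
      rw [abs_mul]
      exact mul_le_mul (inv_bound h x a b) (hM x k b c) (abs_nonneg _) (inv_nonneg.2 hl.le)
    refine (Finset.sum_le_sum this).trans ?_
    simp [hB]
  set s : ℝ := ∑ c, be x c ^ 2 with hs
  have hs0 : 0 ≤ s := Finset.sum_nonneg fun _ _ => sq_nonneg _
  have hcs : ∀ k a, (∑ c, G k a c * be x c) ^ 2 ≤ n * B ^ 2 * s := by
    intro k a
    refine (Finset.sum_mul_sq_le_sq_mul_sq _ _ _).trans ?_
    refine mul_le_mul_of_nonneg_right ?_ hs0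
    have : ∀ c ∈ Finset.univ, G k a c ^ 2 ≤ B ^ 2 := fun c _ => by
      rw [← sq_abs]; exact pow_le_pow_left₀ (abs_nonneg _) (hGb k a c) 2
    refine (Finset.sum_le_sum this).trans ?_
    simp
  have hpt : ∀ k a, (pd k (fun y => be y a) x) ^ 2 ≤ 2 * (DD t be k a x) ^ 2 + 1 / 2 * (n * B ^ 2) * s := by
    intro k a
    have e : pd k (fun y => be y a) x = DD t be k a x - 1 / 2 * ∑ c, G k a c * be x c := by
      unfold DD; ring
    rw [e]
    have := hcs k a
    nlinarith [sq_nonneg (DD t be k a x + 1 / 2 * ∑ c, G k a c * be x c)]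
  have h1 : ∑ k, ∑ a, (pd k (fun y => be y a) x) ^ 2 ≤
      2 * ∑ k, ∑ a, (DD t be k a x) ^ 2 + n * n * (1 / 2 * (n * B ^ 2)) * s := by
    refine (Finset.sum_le_sum fun k _ => Finset.sum_le_sum fun a _ => hpt k a).trans ?_
    simp only [Finset.sum_add_distrib, ← Finset.mul_sum, Finset.sum_const, Finset.card_univ,
      Fintype.card_fin, nsmul_eq_mul]
    refine le_of_eq ?_
    ring
  have h2 : lam ^ 2 * ∑ k, ∑ a, (DD t be k a x) ^ 2 ≤ Dip t be be x := kron_low h x fun k a => DD t be k a x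
  have h3 : lam * s ≤ ip t be be x := te_low h x (be x)
  have h2' : ∑ k, ∑ a, (DD t be k a x) ^ 2 ≤ (lam ^ 2)⁻¹ * Dip t be be x := by
    have := mul_le_mul_of_nonneg_left h2 (by positivity : (0:ℝ) ≤ (lam ^ 2)⁻¹)
    rwa [← mul_assoc, inv_mul_cancel₀ (by positivity), one_mul] at this
  have h3' : s ≤ lam⁻¹ * ip t be be x := by
    have := mul_le_mul_of_nonneg_left h3 (inv_nonneg.2 hl.le)
    rwa [← mul_assoc, inv_mul_cancel₀ hl.ne', one_mul] at this
  have hD0 : 0 ≤ Dip t be be x := le_trans (by positivity) h2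
  have hi0 : 0 ≤ ip t be be x := le_trans (by positivity) h3
  have h4 : (∑ k, ∑ a, (pd k (fun y => be y a) x) ^ 2) + s ≤
      2 * ((lam ^ 2)⁻¹ * Dip t be be x) + (n * n * (1 / 2 * (n * B ^ 2)) + 1) * (lam⁻¹ * ip t be be x) := by
    have h5 := mul_le_mul_of_nonneg_left h3' (by positivity : (0:ℝ) ≤ n * n * (1 / 2 * (n * B ^ 2)) + 1)
    nlinarith
  refine h4.trans ?_
  have h6 : 0 ≤ 2 * (lam ^ 2)⁻¹ * ip t be be x := by positivity
  have h7 : 0 ≤ (n * n * (1 / 2 * (n * B ^ 2)) + 1) * lam⁻¹ * Dip t be be x := by positivity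
  nlinarith

end Vale.Agent.P245.K.H72
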