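import Vale.Agent.P245.K.Iface
import Vale.Agent.P245.H235.Target

/-!
P245, KLS: from `StmtPreg` (regular isotropic Poincaré inequality for `Base`) to the final statements (helper875).
-/

set_option linter.all false

open MeasureTheory Filter Topology Set
open scoped NNReal ENNReal ContDiff
open Vale.Agent.P227.M Vale.Agent.P227.M.K814 Vale.Agent.P254.SN Vale.Agent.P254

namespace Vale.Agent.P245.K.Final

open Vale.Agent.P245.K2.Norm (PoincIso)

variable {n : ℕ}

theorem base_of {V : E n → ℝ} {c1 C1 : ℝ} (hV : Reg V c1 C1)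
    (hcen : ∀ i, Ex V (fun x => x i) = 0) : ∃ (ψ : E n → ℝ) (lam Lam : ℝ), Base V (tau ψ) lam Lam := by
  have hc : MC.Centred V := by
    intro i
    have h1 := hcen i
    unfold Ex at h1
    rcases div_eq_zero_iff.1 h1 with h2 | h2
    · exact h2
    · exact absurd h2 hV.Z_pos.ne'
  obtain ⟨ψ, M, h⟩ := MC.stmtMMc_of_sc (HL.stmtSC_of_heat SC.stmtHeat) n V c1 C1 hV hc
  have h' : MC.MMc ψ V c1 (max C1 1) M :=
    { c_pos := h.c_pos
      C2 := h.C2
      lower := h.lower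
      upper := fun x v => (h.upper x v).trans (mul_le_mul_of_nonneg_right (le_max_left _ _) (sq_nonneg _))
      lip := h.lip
      ma := h.ma }
  exact ⟨ψ, _, _, { toTE := Vale.Agent.P245.H464.te_tau hV h' (lt_of_lt_of_le one_pos (le_max_right _ _))
                    reg := ⟨c1, C1, hV⟩ }⟩

theorem poincIso_of (h : StmtPreg) : ∃ C : ℝ, PoincIso C := by
  obtain ⟨C₀, h0, hP⟩ := h
  refine ⟨C₀, fun n V c1 C1 hV hm hc f hf => ?_⟩
  obtain ⟨ψ, lam, Lam, hB⟩ := base_of hV hm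
  exact hP n V (tau ψ) lam Lam hB ⟨hm, hc⟩ f hf

/-- 847's target -/
theorem kls_final (h : StmtPreg) :
    ∃ C : ℝ, 0 < C ∧ ∀ (n : ℕ) (μ : Measure (EuclideanSpace ℝ (Fin n))) [IsProbabilityMeasure μ],
      HasLogConcaveDensity μ → ∀ (b : Fin n → ℝ) (K : Matrix (Fin n) (Fin n) ℝ),
      (∀ i, ∫ x, x i ∂μ = b i) → (∀ i j, ∫ x, (x i - b i) * (x j - b j) ∂μ = K i j) →
      ∀ f : EuclideanSpace ℝ (Fin n) → ℝ, ContDiff ℝ ∞ f → HasCompactSupport f →
        (∫ x, f x ^ 2 ∂μ) - (∫ x, f x ∂μ) ^ 2 ≤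
          C * ∫ x, ∑ i, ∑ j, K i j * (gradient f x i * gradient f x j) ∂μ :=
  Vale.Agent.P245.K2.Norm.kls_final_of (poincIso_of h)

end Vale.Agent.P245.K.Final
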