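import Vale.Agent.P245.K.Iface

/-!
# P245, row IDENT (helper19): the product identity for `K_G` and the Cauchy-Schwarz inequality (h2)
-/

set_option linter.all false

open MeasureTheory Filter Topology Set
open scoped NNReal ENNReal ContDiff
open Vale.Agent.P227.M Vale.Agent.P227.M.K814 Vale.Agent.P254.SN

namespace Vale.Agent.P245.K.Ident

open Vale.Agent.P245.H464 (TE Lt mu integral_mu integrable_mu mu_ac ac_mu memLp_iff inner_toLp)

/-! ## `L²` convergence, general measure -/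

section gen
variable {α : Type*} [MeasurableSpace α] {μ : Measure α}

/-- `f m → u` in `L²(μ)` -/
structure L2to (μ : Measure α) (f : ℕ → α → ℝ) (u : α → ℝ) : Prop where
  mem : ∀ m, MemLp (f m) 2 μ
  lim : MemLp u 2 μ
  conv : Tendsto (fun m => ∫ x, (f m x - u x) ^ 2 ∂μ) atTop (𝓝 0)

theorem inner_toLp1 {f g : α → ℝ} (hf : MemLp f 2 μ) (hg : MemLp g 2 μ) :
    inner ℝ (hf.toLp f) (hg.toLp g) = ∫ x, f x * g x ∂μ := by
  rw [L2.inner_def]
  refine integral_congr_ae ?_
  filter_upwards [hf.coeFn_toLp, hg.coeFn_toLp] with x h1 h2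
  rw [h1, h2]
  simp [mul_comm]

theorem norm_toLp1 {f : α → ℝ} (hf : MemLp f 2 μ) : ‖hf.toLp f‖ = Real.sqrt (∫ x, f x ^ 2 ∂μ) := by
  rw [norm_eq_sqrt_real_inner, inner_toLp1 hf hf]
  simp only [sq]

variable {f g : ℕ → α → ℝ} {u v : α → ℝ}

theorem L2to.tendsto (hf : L2to μ f u) :
    Tendsto (fun m => (hf.mem m).toLp (f m)) atTop (𝓝 (hf.lim.toLp u)) := by
  rw [tendsto_iff_norm_sub_tendsto_zero]
  have h1 : ∀ m, ‖(hf.mem m).toLp (f m) - hf.lim.toLp u‖ =
      Real.sqrt (∫ x, (f m x - u x) ^ 2 ∂μ) := by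
    intro m
    rw [← MemLp.toLp_sub (hf.mem m) hf.lim, norm_toLp1 ((hf.mem m).sub hf.lim)]
    rfl
  simp only [h1]
  have h2 := (Real.continuous_sqrt.tendsto 0).comp hf.conv
  rwa [Real.sqrt_zero] at h2

theorem L2to.mul (hf : L2to μ f u) (hg : L2to μ g v) :
    Tendsto (fun m => ∫ x, f m x * g m x ∂μ) atTop (𝓝 (∫ x, u x * v x ∂μ)) := by
  have h1 := hf.tendsto.inner (𝕜 := ℝ) hg.tendsto
  rw [inner_toLp1 hf.lim hg.lim] at h1
  refine h1.congr fun m => ?_
  rw [inner_toLp1 (hf.mem m) (hg.mem m)]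

theorem int_mul {f g : α → ℝ} (hf : MemLp f 2 μ) (hg : MemLp g 2 μ) :
    Integrable (fun x => f x * g x) μ := hf.integrable_mul hg

theorem int_sq {f : α → ℝ} (hf : MemLp f 2 μ) : Integrable (fun x => f x ^ 2) μ := hf.integrable_sq

/-- squeeze -/
theorem L2to.of_le (hm : ∀ m, MemLp (f m) 2 μ) (hl : MemLp u 2 μ) {r : ℕ → ℝ}
    (hr : Tendsto r atTop (𝓝 0)) (hle : ∀ m, ∫ x, (f m x - u x) ^ 2 ∂μ ≤ r m) : L2to μ f u :=
  ⟨hm, hl, squeeze_zero (fun m => integral_nonneg fun x => sq_nonneg _) hle hr⟩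

theorem L2to.add (hf : L2to μ f u) (hg : L2to μ g v) :
    L2to μ (fun m x => f m x + g m x) (fun x => u x + v x) := by
  have h0 : Tendsto (fun m => 2 * ∫ x, (f m x - u x) ^ 2 ∂μ + 2 * ∫ x, (g m x - v x) ^ 2 ∂μ) atTop
      (𝓝 0) := by
    simpa using (hf.conv.const_mul 2).add (hg.conv.const_mul 2)
  refine L2to.of_le (fun m => (hf.mem m).add (hg.mem m)) (hf.lim.add hg.lim) h0 fun m => ?_
  have i1 : Integrable (fun x => (f m x - u x) ^ 2) μ := int_sq ((hf.mem m).sub hf.lim)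
  have i2 : Integrable (fun x => (g m x - v x) ^ 2) μ := int_sq ((hg.mem m).sub hg.lim)
  rw [← integral_const_mul, ← integral_const_mul, ← integral_add (i1.const_mul 2) (i2.const_mul 2)]
  refine integral_mono_of_nonneg (Eventually.of_forall fun x => sq_nonneg _)
    ((i1.const_mul 2).add (i2.const_mul 2)) (Eventually.of_forall fun x => ?_)
  show (f m x + g m x - (u x + v x)) ^ 2 ≤ 2 * (f m x - u x) ^ 2 + 2 * (g m x - v x) ^ 2
  nlinarith [sq_nonneg ((f m x - u x) - (g m x - v x))]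

theorem memLp_bmul {b w : α → ℝ} (hb : AEStronglyMeasurable b μ) {B : ℝ} (hB : ∀ᵐ x ∂μ, |b x| ≤ B)
    (hw : MemLp w 2 μ) : MemLp (fun x => b x * w x) 2 μ := by
  refine MemLp.of_le_mul (c := B) hw (hb.mul hw.1) ?_
  filter_upwards [hB] with x hx
  rw [norm_mul]
  exact mul_le_mul_of_nonneg_right hx (norm_nonneg _)

/-- multiplication by an a.e. bounded function -/
theorem L2to.bmul {b : α → ℝ} (hb : AEStronglyMeasurable b μ) {B : ℝ} (hB : ∀ᵐ x ∂μ, |b x| ≤ B)
    (hf : L2to μ f u) : L2to μ (fun m x => b x * f m x) (fun x => b x * u x) := by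
  have h0 : Tendsto (fun m => B ^ 2 * ∫ x, (f m x - u x) ^ 2 ∂μ) atTop (𝓝 0) := by
    simpa using hf.conv.const_mul (B ^ 2)
  refine L2to.of_le (fun m => memLp_bmul hb hB (hf.mem m)) (memLp_bmul hb hB hf.lim) h0 fun m => ?_
  have i1 : Integrable (fun x => (f m x - u x) ^ 2) μ := int_sq ((hf.mem m).sub hf.lim)
  rw [← integral_const_mul]
  refine integral_mono_of_nonneg (Eventually.of_forall fun x => sq_nonneg _)
    (i1.const_mul _) ?_
  filter_upwards [hB] with x hx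
  show (b x * f m x - b x * u x) ^ 2 ≤ B ^ 2 * (f m x - u x) ^ 2
  have h1 : (b x * f m x - b x * u x) ^ 2 = (b x) ^ 2 * (f m x - u x) ^ 2 := by ring
  rw [h1]
  have h2 : (b x) ^ 2 ≤ B ^ 2 := by
    rw [← sq_abs (b x)]
    exact pow_le_pow_left₀ (abs_nonneg _) hx 2
  exact mul_le_mul_of_nonneg_right h2 (sq_nonneg _)

theorem L2to.const (hu : MemLp u 2 μ) : L2to μ (fun _ => u) u :=
  ⟨fun _ => hu, hu, by simp⟩

/-- diagonal argument for finitely many components -/
theorem diag {ι : Type*} [Fintype ι] {v : ι → ℕ → α → ℝ} {w : ι → α → ℝ} (hv : ∀ i, L2to μ (v i) (w i))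
    {X : Type*} {F : ι → X → α → ℝ} (φ : ℕ → ℕ → X)
    (hφ : ∀ i m, L2to μ (fun k => F i (φ m k)) (v i m)) :
    ∃ k : ℕ → ℕ, ∀ i, L2to μ (fun m => F i (φ m (k m))) (w i) := by
  have h1 : ∀ m : ℕ, ∃ k : ℕ, ∀ i, ∫ x, (F i (φ m k) x - v i m x) ^ 2 ∂μ ≤ 1 / ((m : ℝ) + 1) := by
    intro m
    have h2 : ∀ i, ∀ᶠ k in atTop, ∫ x, (F i (φ m k) x - v i m x) ^ 2 ∂μ < 1 / ((m : ℝ) + 1) := fun i =>
      (hφ i m).conv.eventually (gt_mem_nhds (by positivity))
    obtain ⟨k, hk⟩ := (eventually_all.2 h2).exists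
    exact ⟨k, fun i => (hk i).le⟩
  choose k hk using h1
  refine ⟨k, fun i => ?_⟩
  have h0 : Tendsto (fun m : ℕ => 2 * (1 / ((m : ℝ) + 1)) + 2 * ∫ x, (v i m x - w i x) ^ 2 ∂μ) atTop
      (𝓝 0) := by
    simpa using (tendsto_one_div_add_atTop_nhds_zero_nat.const_mul 2).add ((hv i).conv.const_mul 2)
  refine L2to.of_le (fun m => (hφ i m).mem _) (hv i).lim h0 fun m => ?_
  have i1 : Integrable (fun x => (F i (φ m (k m)) x - v i m x) ^ 2) μ :=
    int_sq (((hφ i m).mem _).sub (hφ i m).lim)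
  have i2 : Integrable (fun x => (v i m x - w i x) ^ 2) μ := int_sq (((hv i).mem m).sub (hv i).lim)
  have h3 : ∫ x, (F i (φ m (k m)) x - w i x) ^ 2 ∂μ ≤
      2 * ∫ x, (F i (φ m (k m)) x - v i m x) ^ 2 ∂μ + 2 * ∫ x, (v i m x - w i x) ^ 2 ∂μ := by
    rw [← integral_const_mul, ← integral_const_mul,
      ← integral_add (i1.const_mul 2) (i2.const_mul 2)]
    refine integral_mono_of_nonneg (Eventually.of_forall fun x => sq_nonneg _)
      ((i1.const_mul 2).add (i2.const_mul 2)) (Eventually.of_forall fun x => ?_)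
    show (F i (φ m (k m)) x - w i x) ^ 2 ≤
      2 * (F i (φ m (k m)) x - v i m x) ^ 2 + 2 * (v i m x - w i x) ^ 2
    nlinarith [sq_nonneg ((F i (φ m (k m)) x - v i m x) - (v i m x - w i x))]
  have h4 := hk m i
  linarith

end gen

/-! ## elementary inequalities -/

/-- Cauchy-Schwarz for integrals of three functions -/
theorem cs_int {α : Type*} [MeasurableSpace α] {μ : Measure α} {X P Q : α → ℝ} {σ : ℝ} (hσ : 0 ≤ σ)
    (hX : Integrable X μ) (hP : Integrable P μ) (hQ : Integrable Q μ)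
    (h : ∀ᵐ x ∂μ, X x ^ 2 ≤ σ * P x * Q x) (hP0 : ∀ᵐ x ∂μ, 0 ≤ P x) (hQ0 : ∀ᵐ x ∂μ, 0 ≤ Q x) :
    (∫ x, X x ∂μ) ^ 2 ≤ σ * (∫ x, Q x ∂μ) * ∫ x, P x ∂μ := by
  have iP : 0 ≤ ∫ x, P x ∂μ := integral_nonneg_of_ae hP0
  have iQ : 0 ≤ ∫ x, Q x ∂μ := integral_nonneg_of_ae hQ0
  have key : ∀ r : ℝ, 0 < r → 2 * |∫ x, X x ∂μ| ≤ r * (σ * ∫ x, P x ∂μ) + (∫ x, Q x ∂μ) / r := by
    intro r hr
    have h1 : |∫ x, X x ∂μ| ≤ ∫ x, |X x| ∂μ := abs_integral_le_integral_abs
    have h2 : 2 * ∫ x, |X x| ∂μ ≤ ∫ x, (r * (σ * P x) + Q x / r) ∂μ := by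
      rw [← integral_const_mul]
      refine integral_mono_ae (hX.abs.const_mul 2)
        (((hP.const_mul σ).const_mul r).add (hQ.div_const r)) ?_
      filter_upwards [h, hP0, hQ0] with x hx hp hq
      show 2 * |X x| ≤ r * (σ * P x) + Q x / r
      have h3 : 0 ≤ r * (σ * P x) + Q x / r := by positivity
      refine abs_le_of_sq_le_sq' ?_ h3 |>.2
      have h4 : (2 * |X x|) ^ 2 = 4 * X x ^ 2 := by rw [mul_pow, sq_abs]; norm_num
      have h5 : (r * (σ * P x) + Q x / r) ^ 2 = (r * (σ * P x) - Q x / r) ^ 2 + 4 * (σ * P x * Q x) := by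
        field_simp
        ring
      rw [h4, h5]
      nlinarith [sq_nonneg (r * (σ * P x) - Q x / r)]
    rw [integral_add ((hP.const_mul σ).const_mul r) (hQ.div_const r), integral_const_mul,
      integral_const_mul, integral_div] at h2
    linarith
  have h1 : ∀ r : ℝ, 0 ≤ (σ * ∫ x, P x ∂μ) * (r * r) + (-(2 * |∫ x, X x ∂μ|)) * r + ∫ x, Q x ∂μ := by
    intro r
    have hx := abs_nonneg (∫ x, X x ∂μ)
    rcases le_or_gt r 0 with hr | hr
    · have : 0 ≤ (σ * ∫ x, P x ∂μ) * (r * r) := mul_nonneg (by positivity) (mul_self_nonneg r)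
      nlinarith
    · have h2 := key r hr
      have h3 := mul_le_mul_of_nonneg_left h2 hr.le
      have h4 : r * (r * (σ * ∫ x, P x ∂μ) + (∫ x, Q x ∂μ) / r) =
          (σ * ∫ x, P x ∂μ) * (r * r) + ∫ x, Q x ∂μ := by
        field_simp
      rw [h4] at h3
      nlinarith
  have h2 := discrim_le_zero h1
  unfold discrim at h2
  have h3 : |∫ x, X x ∂μ| ^ 2 = (∫ x, X x ∂μ) ^ 2 := sq_abs _
  nlinarith

open scoped MatrixOrder in
/-- positivity of `t ⊗ G` -/
theorem kron_nonneg {n m : ℕ} {t : Matrix (Fin n) (Fin n) ℝ} {G : Matrix (Fin m) (Fin m) ℝ}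
    (hs : ∀ i j, t i j = t j i) (ht : ∀ v : Fin n → ℝ, 0 ≤ ∑ i, ∑ j, t i j * v i * v j)
    (hG : ∀ v : Fin m → ℝ, 0 ≤ ∑ i, ∑ j, G i j * v i * v j) (ζ : Fin n → Fin m → ℝ) :
    0 ≤ ∑ a, ∑ b, t a b * ∑ k, ∑ l, G k l * ζ a k * ζ b l := by
  have hps : t.PosSemidef := by
    refine Matrix.PosSemidef.of_dotProduct_mulVec_nonneg ?_ fun v => ?_
    · ext i j
      simp [hs j i]
    · have := ht v
      simp only [star_trivial, dotProduct, Matrix.mulVec, Finset.mul_sum]
      refine this.trans_eq (Finset.sum_congr rfl fun i _ => Finset.sum_congr rfl fun j _ => by ring)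
  obtain ⟨B, hB⟩ := CStarAlgebra.nonneg_iff_eq_star_mul_self.mp hps.nonneg
  have hB' : ∀ a b, t a b = ∑ m, B m a * B m b := by
    intro a b
    rw [hB, Matrix.mul_apply]
    simp [Matrix.star_eq_conjTranspose]
  have e : ∑ a, ∑ b, t a b * ∑ k, ∑ l, G k l * ζ a k * ζ b l =
      ∑ m, ∑ k, ∑ l, G k l * (∑ a, B m a * ζ a k) * (∑ b, B m b * ζ b l) := by
    have e1 : ∀ m, ∑ k, ∑ l, G k l * (∑ a, B m a * ζ a k) * (∑ b, B m b * ζ b l) =
        ∑ a, ∑ b, B m a * B m b * ∑ k, ∑ l, G k l * ζ a k * ζ b l := by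
      intro m
      simp only [Finset.mul_sum, Finset.sum_mul]
      have s1 : ∀ k, ∑ l, ∑ b, ∑ a, G k l * (B m a * ζ a k) * (B m b * ζ b l) =
          ∑ b, ∑ a, ∑ l, G k l * (B m a * ζ a k) * (B m b * ζ b l) := by
        intro k
        rw [Finset.sum_comm]
        exact Finset.sum_congr rfl fun b _ => Finset.sum_comm
      simp only [s1]
      rw [Finset.sum_comm]
      simp only [fun b : Fin n => Finset.sum_comm (s := Finset.univ) (t := Finset.univ)
        (f := fun k a => ∑ l, G k l * (B m a * ζ a k) * (B m b * ζ b l))]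
      rw [Finset.sum_comm]
      refine Finset.sum_congr rfl fun a _ => Finset.sum_congr rfl fun b _ =>
        Finset.sum_congr rfl fun k _ => Finset.sum_congr rfl fun l _ => by ring
    have e2 : ∀ a, ∑ b, t a b * ∑ k, ∑ l, G k l * ζ a k * ζ b l =
        ∑ m, ∑ b, B m a * B m b * ∑ k, ∑ l, G k l * ζ a k * ζ b l := by
      intro a
      rw [Finset.sum_comm]
      refine Finset.sum_congr rfl fun b _ => ?_
      rw [hB' a b, Finset.sum_mul]
    simp only [e1, e2]
    rw [Finset.sum_comm]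
  rw [e]
  exact Finset.sum_nonneg fun m _ => hG _


/-! ## function level -/

section fn

variable {α : Type*} [MeasurableSpace α] {μ : Measure α} {f f' g : ℕ → α → ℝ} {u u' v : α → ℝ}

theorem L2to.congr_ae (hf : L2to μ f u) (h : ∀ m, f m =ᵐ[μ] f' m) (hu : u =ᵐ[μ] u') : L2to μ f' u' := by
  refine ⟨fun m => (memLp_congr_ae (h m)).1 (hf.mem m), (memLp_congr_ae hu).1 hf.lim,
    hf.conv.congr fun m => integral_congr_ae ?_⟩
  filter_upwards [h m, hu] with x h1 h2
  rw [h1, h2]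

end fn

variable {n : ℕ} {V : E n → ℝ} {t : E n → Matrix (Fin n) (Fin n) ℝ} {c C : ℝ}

theorem memLp_of_L2 (hV : Continuous V) {f : E n → ℝ} (h : L2 V f) : MemLp f 2 (mu V) :=
  (memLp_iff hV h.1.aestronglyMeasurable).2 h.2

theorem L2_of_memLp (hV : Continuous V) {f : E n → ℝ} (hm : Measurable f) (h : MemLp f 2 (mu V)) :
    L2 V f := ⟨hm, (memLp_iff hV hm.aestronglyMeasurable).1 h⟩

theorem I_eq (hV : Continuous V) (g : E n → ℝ) : I V g = ∫ x, g x ∂(mu V) := (integral_mu hV g).symm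

theorem L2to_of_tends (hV : Continuous V) {f : ℕ → E n → ℝ} {u : E n → ℝ}
    (hf : ∀ m, MemLp (f m) 2 (mu V)) (hu : MemLp u 2 (mu V)) (h : Tends V f u) :
    L2to (mu V) f u :=
  ⟨hf, hu, h.congr fun m => I_eq hV _⟩

theorem tends_of_L2to (hV : Continuous V) {f : ℕ → E n → ℝ} {u : E n → ℝ}
    (h : L2to (mu V) f u) : Tends V f u := h.conv.congr fun m => (I_eq hV _).symm

theorem memLp_lc (hV : Continuous V) {f : E n → ℝ} (hf : LC f) : MemLp f 2 (mu V) :=
  Vale.Agent.P245.H464.memLp_ci hV (CI.of_lc hf)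

theorem memLp_pd_lc (hV : Continuous V) {f : E n → ℝ} (hf : LC f) (a : Fin n) :
    MemLp (pd a f) 2 (mu V) := Vale.Agent.P245.H464.memLp_ci hV (CI.pd hf a)

theorem ae_mu {p : E n → Prop} (h : ∀ᵐ x, p x) : ∀ᵐ x ∂(mu V), p x := (mu_ac V).ae_le h

theorem H1.seq (hV : Continuous V) {u : E n → ℝ} {Du : Fin n → E n → ℝ} (h : H1 V u Du) :
    ∃ f : ℕ → E n → ℝ, (∀ m, LC (f m)) ∧ L2to (mu V) f u ∧
      ∀ a, L2to (mu V) (fun m => pd a (f m)) (Du a) := by
  obtain ⟨f, h1, h2, h3⟩ := h.core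
  exact ⟨f, h1, L2to_of_tends hV (fun m => memLp_lc hV (h1 m)) (memLp_of_L2 hV h.u2) h2,
    fun a => L2to_of_tends hV (fun m => memLp_pd_lc hV (h1 m) a) (memLp_of_L2 hV (h.D2 a)) (h3 a)⟩

theorem H1.of_seq (hV : Continuous V) {u : E n → ℝ} {Du : Fin n → E n → ℝ} (hu : Measurable u)
    (hDu : ∀ a, Measurable (Du a)) {f : ℕ → E n → ℝ} (h1 : ∀ m, LC (f m)) (h2 : L2to (mu V) f u)
    (h3 : ∀ a, L2to (mu V) (fun m => pd a (f m)) (Du a)) : H1 V u Du :=
  ⟨L2_of_memLp hV hu h2.lim, fun a => L2_of_memLp hV (hDu a) (h3 a).lim, f, h1, tends_of_L2to hV h2,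
    fun a => tends_of_L2to hV (h3 a)⟩

theorem H1.of_lim (hV : Continuous V) {u : E n → ℝ} {Du : Fin n → E n → ℝ} (hu : Measurable u)
    (hDu : ∀ a, Measurable (Du a)) {v : ℕ → E n → ℝ} {Dv : ℕ → Fin n → E n → ℝ}
    (hv : ∀ m, H1 V (v m) (Dv m)) (h0 : L2to (mu V) v u)
    (hD : ∀ a, L2to (mu V) (fun m => Dv m a) (Du a)) : H1 V u Du := by
  choose f h1 h2 h3 using fun m => H1.seq hV (hv m)
  obtain ⟨k, hk⟩ := diag (μ := mu V) (ι := Option (Fin n))
    (v := fun i m => match i with | none => v m | some a => Dv m a)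
    (w := fun i => match i with | none => u | some a => Du a)
    (fun i => by
      cases i with
      | none => exact h0
      | some a => exact hD a)
    (F := fun i (φ : E n → ℝ) => match i with | none => φ | some a => pd a φ)
    (fun m k => f m k)
    (fun i m => by
      cases i with
      | none => exact h2 m
      | some a => exact h3 m a)
  exact H1.of_seq hV hu hDu (f := fun m => f m (k m)) (fun m => h1 m _) (hk none) fun a => hk (some a)

theorem H1.of_lc (hV : Continuous V) {f : E n → ℝ} (hf : LC f) : H1 V f (fun a => pd a f) :=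
  H1.of_seq hV hf.1.continuous.measurable (fun a => (Bd.pd hf.1 a).1) (f := fun _ => f) (fun _ => hf)
    (L2to.const (memLp_lc hV hf)) fun a => L2to.const (memLp_pd_lc hV hf a)

/-- `H¹` times a Lipschitz function of compact support -/
theorem H1.mul_lc (hV : Continuous V) {g : E n → ℝ} {Dg : Fin n → E n → ℝ} (hg : H1 V g Dg)
    {ψ : E n → ℝ} (hψ : LC ψ) :
    H1 V (fun x => g x * ψ x) (fun a x => g x * pd a ψ x + Dg a x * ψ x) := by
  obtain ⟨f, h1, h2, h3⟩ := H1.seq hV hg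
  obtain ⟨B, hB⟩ := hψ.2.exists_bound_of_continuous hψ.1.continuous
  obtain ⟨K, hK⟩ := hψ.lip
  have hmψ : AEStronglyMeasurable ψ (mu V) := hψ.1.continuous.aestronglyMeasurable
  have hBψ : ∀ᵐ x ∂(mu V), |ψ x| ≤ B := Eventually.of_forall fun x => hB x
  have hpd : ∀ a, GB (pd a ψ) := fun a => GB.pd hK a
  have hpm : ∀ a, AEStronglyMeasurable (pd a ψ) (mu V) := fun a => (hpd a).1.aestronglyMeasurable
  have e0 : L2to (mu V) (fun m x => f m x * ψ x) (fun x => g x * ψ x) :=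
    (h2.bmul hmψ hBψ).congr_ae (fun m => Eventually.of_forall fun x => mul_comm _ _)
      (Eventually.of_forall fun x => mul_comm _ _)
  have e1 : ∀ a, L2to (mu V) (fun m => pd a (fun x => f m x * ψ x))
      (fun x => g x * pd a ψ x + Dg a x * ψ x) := by
    intro a
    obtain ⟨B', hB'⟩ := (hpd a).2
    have k1 := h2.bmul (hpm a) (B := B') (Eventually.of_forall fun x => hB' x)
    have k2 := (h3 a).bmul hmψ hBψ
    refine (k1.add k2).congr_ae (fun m => ?_) (Eventually.of_forall fun x => by ring)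
    filter_upwards [ae_mu (V := V) (h1 m).ae_diff, ae_mu (V := V) hψ.ae_diff] with x hx hy
    rw [rpd_mul hx hy]
    ring
  exact H1.of_seq hV (hg.u2.1.mul hψ.1.continuous.measurable)
    (fun a => (hg.u2.1.mul (hpd a).1).add ((hg.D2 a).1.mul hψ.1.continuous.measurable))
    (fun m => (h1 m).mul_right hψ.1) e0 e1

/-- bounded `H¹` function with bounded gradient times an `H¹` function -/
theorem H1.bmul (hV : Continuous V) {g : E n → ℝ} {Dg : Fin n → E n → ℝ} (hg : H1 V g Dg) {B : ℝ}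
    (hB : ∀ᵐ x, |g x| ≤ B) (hD : ∀ a, ∀ᵐ x, |Dg a x| ≤ B) {e : E n → ℝ} {De : Fin n → E n → ℝ}
    (he : H1 V e De) : H1 V (fun x => g x * e x) (fun a x => g x * De a x + Dg a x * e x) := by
  obtain ⟨f, h1, h2, h3⟩ := H1.seq hV he
  have gm : AEStronglyMeasurable g (mu V) := hg.u2.1.aestronglyMeasurable
  have Dm : ∀ a, AEStronglyMeasurable (Dg a) (mu V) := fun a => (hg.D2 a).1.aestronglyMeasurable
  refine H1.of_lim hV (hg.u2.1.mul he.u2.1)
    (fun a => (hg.u2.1.mul (he.D2 a).1).add ((hg.D2 a).1.mul he.u2.1))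
    (fun m => H1.mul_lc hV hg (h1 m)) (h2.bmul gm (ae_mu hB)) fun a => ?_
  exact ((h3 a).bmul gm (ae_mu hB)).add (h2.bmul (Dm a) (ae_mu (hD a)))

theorem H1.of_dom (hV : Continuous V) {u Au : E n → ℝ} {Du : Fin n → E n → ℝ}
    (h : Dom V t u Du Au) : H1 V u Du := by
  obtain ⟨f, hf⟩ := h
  exact ⟨⟨hf.mu, hf.iu⟩, fun a => ⟨hf.mD a, hf.iD a⟩, f, fun m => Test.lc (hf.test m), hf.lu, hf.lD⟩


/-! ## the scalar identities -/

section scal

theorem ip_comm (hs : ∀ x i j, t x i j = t x j i) (al be : E n → Fin n → ℝ) (x : E n) :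
    ip t al be x = ip t be al x := by
  unfold ip
  rw [Finset.sum_comm]
  refine Finset.sum_congr rfl fun a _ => Finset.sum_congr rfl fun b _ => ?_
  rw [hs x b a]; ring

/-- integrability of `b ⟨α, β⟩` -/
theorem int_bip (hT : TE V t c C) {b : E n → ℝ} (hbm : Measurable b) {B : ℝ} (hb : ∀ᵐ x, |b x| ≤ B)
    {al be : E n → Fin n → ℝ} (ha : ∀ a, MemLp (fun x => al x a) 2 (mu V))
    (hb' : ∀ a, MemLp (fun x => be x a) 2 (mu V)) :
    Integrable (fun x => b x * ip t al be x) (mu V) := by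
  obtain ⟨T, hTb⟩ := hT.bt
  have e : (fun x => b x * ip t al be x) =
      fun x => ∑ i, ∑ j, (b x * (t x i j * al x i)) * be x j := by
    funext x
    unfold ip
    rw [Finset.mul_sum]
    refine Finset.sum_congr rfl fun i _ => ?_
    rw [Finset.mul_sum]
    exact Finset.sum_congr rfl fun j _ => by ring
  rw [e]
  refine integrable_finset_sum _ fun i _ => integrable_finset_sum _ fun j _ => ?_
  refine int_mul (memLp_bmul hbm.aestronglyMeasurable (ae_mu hb) ?_) (hb' j)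
  exact memLp_bmul (gb_t hT.toTB i j).1.aestronglyMeasurable
    (Eventually.of_forall fun x => hTb x i j) (ha i)

theorem int_bmul {b u v : E n → ℝ} (hbm : Measurable b) {B : ℝ} (hb : ∀ᵐ x, |b x| ≤ B)
    (hu : MemLp u 2 (mu V)) (hv : MemLp v 2 (mu V)) :
    Integrable (fun x => b x * (u x * v x)) (mu V) := by
  have h1 := int_mul (memLp_bmul hbm.aestronglyMeasurable (ae_mu hb) hu) hv
  refine h1.congr (Eventually.of_forall fun x => ?_)
  show b x * u x * v x = b x * (u x * v x)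
  ring

/-- `(t Dg)_b` -/
noncomputable def Wt (t : E n → Matrix (Fin n) (Fin n) ℝ) (Dg : Fin n → E n → ℝ) (b : Fin n)
    (x : E n) : ℝ := ∑ a, t x a b * Dg a x

theorem ip_Wt (Dg : Fin n → E n → ℝ) (be : E n → Fin n → ℝ) (x : E n) :
    ip t (fun y a => Dg a y) be x = ∑ b, Wt t Dg b x * be x b := by
  unfold ip Wt
  rw [Finset.sum_comm]
  refine Finset.sum_congr rfl fun b _ => ?_
  rw [Finset.sum_mul]

theorem Wt_meas (hT : TE V t c C) {Dg : Fin n → E n → ℝ} (hm : ∀ a, Measurable (Dg a)) (b : Fin n) :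
    Measurable (Wt t Dg b) := by
  unfold Wt
  exact Finset.measurable_sum _ fun a _ => (gb_t hT.toTB a b).1.mul (hm a)

theorem Wt_bdd (hT : TE V t c C) {Dg : Fin n → E n → ℝ} {B : ℝ} (hB : ∀ a, ∀ᵐ x, |Dg a x| ≤ B) :
    ∃ B', ∀ b, ∀ᵐ x, |Wt t Dg b x| ≤ B' := by
  obtain ⟨T, hTb⟩ := hT.bt
  refine ⟨∑ _a : Fin n, T * B, fun b => ?_⟩
  filter_upwards [eventually_all.2 hB] with x hx
  unfold Wt
  refine (Finset.abs_sum_le_sum_abs _ _).trans (Finset.sum_le_sum fun a _ => ?_)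
  rw [abs_mul]
  exact mul_le_mul (hTb x a b) (hx a) (abs_nonneg _) ((abs_nonneg _).trans (hTb x a b))

variable (hF : StmtForm) (hBa : Base V t c C)
include hF hBa

/-- first identity -/
theorem S1 {g : E n → ℝ} {Dg : Fin n → E n → ℝ} (hg : H1 V g Dg) {B : ℝ} (hB : ∀ᵐ x, |g x| ≤ B)
    (hD : ∀ a, ∀ᵐ x, |Dg a x| ≤ B) {z Az : E n → ℝ} {Dz : Fin n → E n → ℝ} (hz : Dom V t z Dz Az)
    {e : E n → ℝ} {De : Fin n → E n → ℝ} (he : H1 V e De) :
    ∫ x, g x * (Az x * e x) ∂(mu V) =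
      (∫ x, g x * ip t (fun y a => Dz a y) (fun y a => De a y) x ∂(mu V)) +
      ∫ x, e x * ip t (fun y a => Dg a y) (fun y a => Dz a y) x ∂(mu V) := by
  have hV : Continuous V := hBa.V2.continuous
  have hzH := H1.of_dom hV hz
  have h1 := hF n V t c C hBa z Az Dz hz _ _ (H1.bmul hV hg hB hD he)
  rw [I_eq hV, I_eq hV] at h1
  have e1 : ∫ x, g x * (Az x * e x) ∂(mu V) = ∫ x, Az x * (g x * e x) ∂(mu V) :=
    integral_congr_ae (Eventually.of_forall fun x => by ring)
  rw [e1, h1]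
  obtain ⟨B', hB'⟩ := Wt_bdd hBa.toTE hD
  have i1 := int_bip hBa.toTE hg.u2.1 hB (al := fun y a => Dz a y) (be := fun y a => De a y)
    (fun a => memLp_of_L2 hV (hzH.D2 a)) (fun a => memLp_of_L2 hV (he.D2 a))
  have i2 : Integrable (fun x => e x * ip t (fun y a => Dg a y) (fun y a => Dz a y) x) (mu V) := by
    have h2 : (fun x => e x * ip t (fun y a => Dg a y) (fun y a => Dz a y) x) =
        fun x => ∑ b, Wt t Dg b x * (e x * Dz b x) := by
      funext x
      rw [ip_Wt, Finset.mul_sum]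
      exact Finset.sum_congr rfl fun b _ => by ring
    rw [h2]
    exact integrable_finset_sum _ fun b _ =>
      int_bmul (Wt_meas hBa.toTE (fun a => (hg.D2 a).1) b) (hB' b) (memLp_of_L2 hV he.u2)
        (memLp_of_L2 hV (hzH.D2 b))
  rw [← integral_add i1 i2]
  refine integral_congr_ae (Eventually.of_forall fun x => ?_)
  show ip t (fun x a => Dz a x) (fun x a => g x * De a x + Dg a x * e x) x =
    g x * ip t (fun y a => Dz a y) (fun y a => De a y) x +
      e x * ip t (fun y a => Dg a y) (fun y a => Dz a y) x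
  rw [ip_comm hBa.symm (fun y a => Dg a y)]
  unfold ip
  rw [Finset.mul_sum, Finset.mul_sum, ← Finset.sum_add_distrib]
  refine Finset.sum_congr rfl fun a _ => ?_
  rw [Finset.mul_sum, Finset.mul_sum, ← Finset.sum_add_distrib]
  exact Finset.sum_congr rfl fun b _ => by ring

/-- second identity -/
theorem S2 {g Ag : E n → ℝ} {Dg : Fin n → E n → ℝ} (hg : Dom V t g Dg Ag) {B : ℝ}
    (hA : ∀ᵐ x, |Ag x| ≤ B) (hD : ∀ a, ∀ᵐ x, |Dg a x| ≤ B) {z : E n → ℝ}
    {Dz : Fin n → E n → ℝ} (hz : H1 V z Dz) {e : E n → ℝ} {De : Fin n → E n → ℝ} (he : H1 V e De) :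
    ∫ x, Ag x * (z x * e x) ∂(mu V) =
      (∫ x, z x * ip t (fun y a => Dg a y) (fun y a => De a y) x ∂(mu V)) +
      ∫ x, e x * ip t (fun y a => Dg a y) (fun y a => Dz a y) x ∂(mu V) := by
  have hV : Continuous V := hBa.V2.continuous
  obtain ⟨Agm, hgH⟩ : Measurable Ag ∧ H1 V g Dg := by
    refine ⟨?_, H1.of_dom hV hg⟩
    obtain ⟨f, hf⟩ := hg
    exact hf.mA
  obtain ⟨B', hB'⟩ := Wt_bdd hBa.toTE hD
  have Wm := fun b => Wt_meas hBa.toTE (fun a => (hgH.D2 a).1) b
  obtain ⟨h, h1, h2, h3⟩ := H1.seq hV he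
  have zm := memLp_of_L2 hV hz.u2
  have Dzm := fun a => memLp_of_L2 hV (hz.D2 a)
  -- the identity for `h m`
  have key : ∀ m, ∫ x, (Ag x * z x) * h m x ∂(mu V) =
      (∑ b, ∫ x, (Wt t Dg b x * z x) * pd b (h m) x ∂(mu V)) +
        ∑ b, ∫ x, (Wt t Dg b x * Dz b x) * h m x ∂(mu V) := by
    intro m
    have k1 := hF n V t c C hBa g Ag Dg hg _ _ (H1.mul_lc hV hz (h1 m))
    rw [I_eq hV, I_eq hV] at k1
    have e1 : ∫ x, (Ag x * z x) * h m x ∂(mu V) = ∫ x, Ag x * (z x * h m x) ∂(mu V) :=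
      integral_congr_ae (Eventually.of_forall fun x => by ring)
    rw [e1, k1]
    have j1 : ∀ b, Integrable (fun x => (Wt t Dg b x * z x) * pd b (h m) x) (mu V) := fun b =>
      int_mul (memLp_bmul (Wm b).aestronglyMeasurable (ae_mu (hB' b)) zm) ((h3 b).mem m)
    have j2 : ∀ b, Integrable (fun x => (Wt t Dg b x * Dz b x) * h m x) (mu V) := fun b =>
      int_mul (memLp_bmul (Wm b).aestronglyMeasurable (ae_mu (hB' b)) (Dzm b)) (h2.mem m)
    rw [← integral_finset_sum _ fun b _ => j1 b, ← integral_finset_sum _ fun b _ => j2 b,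
      ← integral_add (integrable_finset_sum _ fun b _ => j1 b)
        (integrable_finset_sum _ fun b _ => j2 b)]
    refine integral_congr_ae (Eventually.of_forall fun x => ?_)
    show ip t (fun x a => Dg a x) (fun x a => z x * pd a (h m) x + Dz a x * h m x) x =
      ∑ b, Wt t Dg b x * z x * pd b (h m) x + ∑ b, Wt t Dg b x * Dz b x * h m x
    rw [ip_Wt, ← Finset.sum_add_distrib]
    exact Finset.sum_congr rfl fun b _ => by ring
  -- the limits
  have l0 : Tendsto (fun m => ∫ x, (Ag x * z x) * h m x ∂(mu V)) atTop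
      (𝓝 (∫ x, (Ag x * z x) * e x ∂(mu V))) :=
    (L2to.const (memLp_bmul Agm.aestronglyMeasurable (ae_mu hA) zm)).mul h2
  have l1 : ∀ b, Tendsto (fun m => ∫ x, (Wt t Dg b x * z x) * pd b (h m) x ∂(mu V)) atTop
      (𝓝 (∫ x, (Wt t Dg b x * z x) * De b x ∂(mu V))) := fun b =>
    (L2to.const (memLp_bmul (Wm b).aestronglyMeasurable (ae_mu (hB' b)) zm)).mul (h3 b)
  have l2 : ∀ b, Tendsto (fun m => ∫ x, (Wt t Dg b x * Dz b x) * h m x ∂(mu V)) atTop
      (𝓝 (∫ x, (Wt t Dg b x * Dz b x) * e x ∂(mu V))) := fun b =>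
    (L2to.const (memLp_bmul (Wm b).aestronglyMeasurable (ae_mu (hB' b)) (Dzm b))).mul h2
  have l3 := (tendsto_finset_sum Finset.univ fun b _ => l1 b).add
    (tendsto_finset_sum Finset.univ fun b _ => l2 b)
  have l4 := tendsto_nhds_unique (l0.congr fun m => key m) l3
  have e1 : ∫ x, Ag x * (z x * e x) ∂(mu V) = ∫ x, (Ag x * z x) * e x ∂(mu V) :=
    integral_congr_ae (Eventually.of_forall fun x => by ring)
  rw [e1, l4]
  have em := memLp_of_L2 hV he.u2
  have Dem := fun a => memLp_of_L2 hV (he.D2 a)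
  rw [← integral_finset_sum _ fun b _ => int_mul
      (memLp_bmul (Wm b).aestronglyMeasurable (ae_mu (hB' b)) zm) (Dem b),
    ← integral_finset_sum _ fun b _ => int_mul
      (memLp_bmul (Wm b).aestronglyMeasurable (ae_mu (hB' b)) (Dzm b)) em]
  congr 1
  · refine integral_congr_ae (Eventually.of_forall fun x => ?_)
    show ∑ b, Wt t Dg b x * z x * De b x = z x * ip t (fun y a => Dg a y) (fun y a => De a y) x
    rw [ip_Wt, Finset.mul_sum]
    exact Finset.sum_congr rfl fun b _ => by ring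
  · refine integral_congr_ae (Eventually.of_forall fun x => ?_)
    show ∑ b, Wt t Dg b x * Dz b x * e x = e x * ip t (fun y a => Dg a y) (fun y a => Dz a y) x
    rw [ip_Wt, Finset.mul_sum]
    exact Finset.sum_congr rfl fun b _ => by ring


/-- the product identity -/
theorem prodId {g Ag : E n → ℝ} {Dg : Fin n → E n → ℝ} (hg : Dom V t g Dg Ag) {B : ℝ}
    (hB : ∀ᵐ x, |g x| ≤ B) (hA : ∀ᵐ x, |Ag x| ≤ B) (hD : ∀ a, ∀ᵐ x, |Dg a x| ≤ B)
    {z Az : E n → ℝ} {Dz : Fin n → E n → ℝ} (hz : Dom V t z Dz Az)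
    {e Ae : E n → ℝ} {De : Fin n → E n → ℝ} (he : Dom V t e De Ae) :
    2 * ∫ x, g x * ip t (fun y a => Dz a y) (fun y a => De a y) x ∂(mu V) =
      (∫ x, g x * (z x * Ae x) ∂(mu V)) + (∫ x, g x * (Az x * e x) ∂(mu V)) -
        ∫ x, Ag x * (z x * e x) ∂(mu V) := by
  have hV : Continuous V := hBa.V2.continuous
  have hgH := H1.of_dom hV hg
  have h1 := S1 hF hBa hgH hB hD hz (H1.of_dom hV he)
  have h2 := S1 hF hBa hgH hB hD he (H1.of_dom hV hz)
  have h3 := S2 hF hBa hg hA hD (H1.of_dom hV hz) (H1.of_dom hV he)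
  have e1 : ∫ x, g x * (z x * Ae x) ∂(mu V) = ∫ x, g x * (Ae x * z x) ∂(mu V) :=
    integral_congr_ae (Eventually.of_forall fun x => by ring)
  have e2 : ∫ x, g x * ip t (fun y a => De a y) (fun y a => Dz a y) x ∂(mu V) =
      ∫ x, g x * ip t (fun y a => Dz a y) (fun y a => De a y) x ∂(mu V) :=
    integral_congr_ae (Eventually.of_forall fun x => by
      show g x * ip t (fun y a => De a y) (fun y a => Dz a y) x =
        g x * ip t (fun y a => Dz a y) (fun y a => De a y) x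
      rw [ip_comm hBa.symm])
  rw [e2] at h2
  rw [e1]
  linarith

end scal

/-! ## the row -/

/-- StmtIdent -/
theorem ident (hF : StmtForm) : StmtIdent := by
  intro n V t c C hBa δ B G AG DG hM hG hA z Az e Ae Dz De hz he
  have hV : Continuous V := hBa.V2.continuous
  have zH := fun i => H1.of_dom hV (hz i)
  have eH := fun i => H1.of_dom hV (he i)
  have zm := fun i => memLp_of_L2 hV (zH i).u2
  have em := fun i => memLp_of_L2 hV (eH i).u2
  have Dzm := fun i a => memLp_of_L2 hV ((zH i).D2 a)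
  have Dem := fun i a => memLp_of_L2 hV ((eH i).D2 a)
  have Aem : ∀ i, MemLp (Ae i) 2 (mu V) := fun i => by
    obtain ⟨f, hf⟩ := he i
    exact memLp_of_L2 hV ⟨hf.mA, hf.iA⟩
  have Azm : ∀ i, MemLp (Az i) 2 (mu V) := fun i => by
    obtain ⟨f, hf⟩ := hz i
    exact memLp_of_L2 hV ⟨hf.mA, hf.iA⟩
  have AGm : ∀ i j, Measurable (fun x => AG x i j) := fun i j => by
    obtain ⟨f, hf⟩ := hG i j
    exact hf.mA
  have Gm : ∀ i j, Measurable (fun x => G x i j) := fun i j => (hM.h1 i j).u2.1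
  have hBG : ∀ i j, ∀ᵐ x, |G x i j| ≤ B := fun i j => hM.upp.mono fun x hx => hx i j
  have hBA : ∀ i j, ∀ᵐ x, |AG x i j| ≤ B := fun i j => hA.mono fun x hx => hx i j
  have hBD : ∀ i j a, ∀ᵐ x, |DG a x i j| ≤ B := fun i j a => hM.dupp.mono fun x hx => hx a i j
  -- expansions
  have iK : ∀ (Du Dw : Fin n → Fin n → E n → ℝ), (∀ i a, MemLp (Du i a) 2 (mu V)) →
      (∀ i a, MemLp (Dw i a) 2 (mu V)) → ∀ i j,
      Integrable (fun x => G x i j * ip t (fun y a => Du i a y) (fun y a => Dw j a y) x) (mu V) :=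
    fun Du Dw h1 h2 i j => int_bip hBa.toTE (Gm i j) (hBG i j) (fun a => h1 i a) (fun a => h2 j a)
  have eK : ∀ (Du Dw : Fin n → Fin n → E n → ℝ), (∀ i a, MemLp (Du i a) 2 (mu V)) →
      (∀ i a, MemLp (Dw i a) 2 (mu V)) → KG V t G Du Dw =
      ∑ i, ∑ j, ∫ x, G x i j * ip t (fun y a => Du i a y) (fun y a => Dw j a y) x ∂(mu V) := by
    intro Du Dw h1 h2
    unfold KG
    rw [I_eq hV, integral_finset_sum _ fun i _ => integrable_finset_sum _ fun j _ => iK Du Dw h1 h2 i j]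
    exact Finset.sum_congr rfl fun i _ => integral_finset_sum _ fun j _ => iK Du Dw h1 h2 i j
  have iB : ∀ (M : E n → Matrix (Fin n) (Fin n) ℝ) (hMm : ∀ i j, Measurable (fun x => M x i j))
      (hMb : ∀ i j, ∀ᵐ x, |M x i j| ≤ B) (u w : Fin n → E n → ℝ), (∀ i, MemLp (u i) 2 (mu V)) →
      (∀ i, MemLp (w i) 2 (mu V)) → ∀ i j,
      Integrable (fun x => M x i j * (u i x * w j x)) (mu V) :=
    fun M h1 h2 u w h3 h4 i j => int_bmul (h1 i j) (h2 i j) (h3 i) (h4 j)
  have eB : ∀ (M : E n → Matrix (Fin n) (Fin n) ℝ) (hMm : ∀ i j, Measurable (fun x => M x i j))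
      (hMb : ∀ i j, ∀ᵐ x, |M x i j| ≤ B) (u w : Fin n → E n → ℝ), (∀ i, MemLp (u i) 2 (mu V)) →
      (∀ i, MemLp (w i) 2 (mu V)) → BG V M u w =
      ∑ i, ∑ j, ∫ x, M x i j * (u i x * w j x) ∂(mu V) := by
    intro M h1 h2 u w h3 h4
    have k := iB M h1 h2 u w h3 h4
    unfold BG
    rw [I_eq hV]
    have e1 : ∫ x, (∑ i, ∑ j, M x i j * u i x * w j x) ∂(mu V) =
        ∫ x, (∑ i, ∑ j, M x i j * (u i x * w j x)) ∂(mu V) :=
      integral_congr_ae (Eventually.of_forall fun x => by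
        show ∑ i, ∑ j, M x i j * u i x * w j x = ∑ i, ∑ j, M x i j * (u i x * w j x)
        exact Finset.sum_congr rfl fun i _ => Finset.sum_congr rfl fun j _ => by ring)
    rw [e1, integral_finset_sum _ fun i _ => integrable_finset_sum _ fun j _ => k i j]
    exact Finset.sum_congr rfl fun i _ => integral_finset_sum _ fun j _ => k i j
  have eKz := eK Dz De Dzm Dem
  have eB1 := eB G Gm hBG z Ae zm Aem
  have eB2 := eB G Gm hBG Az e Azm em
  have eB3 := eB AG AGm hBA z e zm em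
  refine ⟨?_, fun σ hσ hCS => ?_⟩
  · rw [eKz, eB1, eB2, eB3, Finset.mul_sum, ← Finset.sum_add_distrib, ← Finset.sum_sub_distrib]
    refine Finset.sum_congr rfl fun i _ => ?_
    rw [Finset.mul_sum, ← Finset.sum_add_distrib, ← Finset.sum_sub_distrib]
    refine Finset.sum_congr rfl fun j _ => ?_
    exact prodId hF hBa (hG i j) (hBG i j) (hBA i j) (fun a => hBD i j a) (hz i) (he j)
  · -- the difference is the integral of `X`
    set X : E n → ℝ := fun x => ∑ i, ∑ j, e j x * ip t (fun y a => DG a y i j) (fun y a => Dz i a y) x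
      with hX
    have iX : ∀ i j, Integrable (fun x => e j x * ip t (fun y a => DG a y i j)
        (fun y a => Dz i a y) x) (mu V) := by
      intro i j
      obtain ⟨B', hB'⟩ := Wt_bdd hBa.toTE (Dg := fun a y => DG a y i j) (fun a => hBD i j a)
      have h2 : (fun x => e j x * ip t (fun y a => DG a y i j) (fun y a => Dz i a y) x) =
          fun x => ∑ b, Wt t (fun a y => DG a y i j) b x * (e j x * Dz i b x) := by
        funext x
        rw [ip_Wt (fun a y => DG a y i j), Finset.mul_sum]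
        exact Finset.sum_congr rfl fun b _ => by ring
      rw [h2]
      exact integrable_finset_sum _ fun b _ =>
        int_bmul (Wt_meas hBa.toTE (fun a => ((hM.h1 i j).D2 a).1) b) (hB' b) (em j) (Dzm i b)
    have iXs : Integrable X (mu V) := integrable_finset_sum _ fun i _ =>
      integrable_finset_sum _ fun j _ => iX i j
    have hdiff : BG V G Az e - KG V t G Dz De = ∫ x, X x ∂(mu V) := by
      rw [hX, integral_finset_sum _ fun i _ => integrable_finset_sum _ fun j _ => iX i j, eKz, eB2,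
        ← Finset.sum_sub_distrib]
      refine Finset.sum_congr rfl fun i _ => ?_
      rw [integral_finset_sum _ fun j _ => iX i j, ← Finset.sum_sub_distrib]
      refine Finset.sum_congr rfl fun j _ => ?_
      have h1 := S1 hF hBa (hM.h1 i j) (hBG i j) (fun a => hBD i j a) (hz i) (eH j)
      linarith
    set Q : E n → ℝ := fun x => ∑ i, ∑ j, G x i j * ip t (fun y a => Dz i a y) (fun y a => Dz j a y) x
      with hQ
    set P : E n → ℝ := fun x => ∑ i, ∑ j, G x i j * e i x * e j x with hP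
    have iQ : Integrable Q (mu V) := integrable_finset_sum _ fun i _ =>
      integrable_finset_sum _ fun j _ => iK Dz Dz Dzm Dzm i j
    have iP : Integrable P (mu V) := by
      refine integrable_finset_sum _ fun i _ => integrable_finset_sum _ fun j _ => ?_
      exact (iB G Gm hBG e e em em i j).congr (Eventually.of_forall fun x => by
        show G x i j * (e i x * e j x) = G x i j * e i x * e j x
        ring)
    have hQe : KG V t G Dz Dz = ∫ x, Q x ∂(mu V) := I_eq hV _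
    have hPe : BG V G e e = ∫ x, P x ∂(mu V) := I_eq hV _
    have hGp : ∀ᵐ x, ∀ v : Fin n → ℝ, 0 ≤ ∑ i, ∑ j, G x i j * v i * v j := by
      filter_upwards [hM.low] with x hx v
      refine le_trans ?_ (hx v)
      exact mul_nonneg hM.d_pos.le (Finset.sum_nonneg fun i _ => sq_nonneg _)
    -- `Q` and `X` in the form of `CS`
    have eQ : ∀ x, Q x = ∑ a, ∑ b, t x a b * ∑ k, ∑ l, G x k l * Dz k a x * Dz l b x := by
      intro x
      simp only [hQ, ip, Finset.mul_sum]
      rw [show ∑ i, ∑ j, ∑ a, ∑ b, G x i j * (t x a b * Dz i a x * Dz j b x) =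
          ∑ i, ∑ a, ∑ j, ∑ b, G x i j * (t x a b * Dz i a x * Dz j b x) from
        Finset.sum_congr rfl fun i _ => Finset.sum_comm]
      rw [Finset.sum_comm]
      refine Finset.sum_congr rfl fun a _ => ?_
      rw [show ∑ i, ∑ j, ∑ b, G x i j * (t x a b * Dz i a x * Dz j b x) =
          ∑ i, ∑ b, ∑ j, G x i j * (t x a b * Dz i a x * Dz j b x) from
        Finset.sum_congr rfl fun i _ => Finset.sum_comm]
      rw [Finset.sum_comm]
      exact Finset.sum_congr rfl fun b _ => Finset.sum_congr rfl fun i _ =>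
        Finset.sum_congr rfl fun j _ => by ring
    have eX : ∀ x, X x = ∑ a, ∑ b, t x a b * ∑ k, ∑ l, DG a x k l * e l x * Dz k b x := by
      intro x
      simp only [hX, ip, Finset.mul_sum]
      rw [show ∑ i, ∑ j, ∑ a, ∑ b, e j x * (t x a b * DG a x i j * Dz i b x) =
          ∑ i, ∑ a, ∑ j, ∑ b, e j x * (t x a b * DG a x i j * Dz i b x) from
        Finset.sum_congr rfl fun i _ => Finset.sum_comm]
      rw [Finset.sum_comm]
      refine Finset.sum_congr rfl fun a _ => ?_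
      rw [show ∑ i, ∑ j, ∑ b, e j x * (t x a b * DG a x i j * Dz i b x) =
          ∑ i, ∑ b, ∑ j, e j x * (t x a b * DG a x i j * Dz i b x) from
        Finset.sum_congr rfl fun i _ => Finset.sum_comm]
      rw [Finset.sum_comm]
      exact Finset.sum_congr rfl fun b _ => Finset.sum_congr rfl fun i _ =>
        Finset.sum_congr rfl fun j _ => by ring
    have tpos : ∀ x (v : Fin n → ℝ), 0 ≤ ∑ i, ∑ j, t x i j * v i * v j := by
      intro x v
      have h1 := hBa.low x (WithLp.toLp 2 v)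
      have h2 : 0 ≤ c * ‖(WithLp.toLp 2 v : E n)‖ ^ 2 := mul_nonneg hBa.lam_pos.le (sq_nonneg _)
      exact h2.trans h1
    have hQ0 : ∀ᵐ x, 0 ≤ Q x := by
      filter_upwards [hGp] with x hx
      rw [eQ x]
      exact kron_nonneg (hBa.symm x) (tpos x) hx (fun a k => Dz k a x)
    have hXPQ : ∀ᵐ x, X x ^ 2 ≤ σ * P x * Q x := by
      filter_upwards [hCS] with x hx
      have h1 := hx (fun i => e i x) (fun a k => Dz k a x)
      rw [eX x, eQ x]
      exact h1
    have := cs_int (μ := mu V) hσ iXs iP iQ (ae_mu hXPQ)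
      (ae_mu (hGp.mono fun x hx => hx fun i => e i x)) (ae_mu hQ0)
    rw [hdiff, hQe, hPe]
    exact this

end Vale.Agent.P245.K.Ident
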