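import Vale.Agent.P245.K.Iface
import Vale.Agent.P245.K.Ident
import Vale.Agent.P245.K.OP3
import Vale.Agent.P245.H36.InstC

set_option linter.all false

open MeasureTheory Filter Topology Set
open scoped NNReal ENNReal ContDiff InnerProductSpace

namespace Vale.Agent.P245.K.Inst2

open Vale.Agent.P227.M Vale.Agent.P227.M.K814 Vale.Agent.P254.SN
open Vale.Agent.P245.H464 (TE Lt mu)

section gen

variable {X : Type} [MeasurableSpace X] {μ : Measure X}

theorem int2 (u w : Lp ℝ 2 μ) : Integrable (fun x => u x * w x) μ :=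
  (Lp.memLp u).integrable_mul (Lp.memLp w)

theorem int3 {g : X → ℝ} {M : ℝ} (hg : AEStronglyMeasurable g μ) (hb : ∀ᵐ x ∂μ, |g x| ≤ M)
    (u w : Lp ℝ 2 μ) : Integrable (fun x => g x * (u x * w x)) μ :=
  (int2 u w).bdd_mul (c := M) hg hb

theorem int_abs_le (u w : Lp ℝ 2 μ) : ∫ x, |u x * w x| ∂μ ≤ ‖u‖ * ‖w‖ := by
  have h := real_inner_le_norm (|u|) (|w|)
  rw [L2.inner_def, norm_abs_eq_norm, norm_abs_eq_norm] at h
  refine le_trans (le_of_eq ?_) h
  refine integral_congr_ae ?_
  filter_upwards [Lp.coeFn_abs u, Lp.coeFn_abs w] with x h1 h2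
  rw [h1, h2, abs_mul]
  simp [mul_comm]

theorem norm_sq_eq (u : Lp ℝ 2 μ) : ‖u‖ ^ 2 = ∫ x, u x ^ 2 ∂μ := by
  rw [← real_inner_self_eq_norm_sq, L2.inner_def]
  refine integral_congr_ae (Eventually.of_forall fun x => ?_)
  simp [sq]

/-- `⟨g u, w⟩` -/
noncomputable def bil (g : X → ℝ) (M : ℝ) (hg : AEStronglyMeasurable g μ)
    (hb : ∀ᵐ x ∂μ, |g x| ≤ M) : Lp ℝ 2 μ →L[ℝ] Lp ℝ 2 μ →L[ℝ] ℝ :=
  LinearMap.mkContinuous₂ (LinearMap.mk₂ ℝ (fun u w => ∫ x, g x * (u x * w x) ∂μ)
    (fun u u' w => by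
      rw [← integral_add (int3 hg hb u w) (int3 hg hb u' w)]
      refine integral_congr_ae ?_
      filter_upwards [Lp.coeFn_add u u'] with x hx
      rw [hx, Pi.add_apply]; ring)
    (fun c u w => by
      rw [smul_eq_mul, ← integral_const_mul]
      refine integral_congr_ae ?_
      filter_upwards [Lp.coeFn_smul c u] with x hx
      rw [hx, Pi.smul_apply, smul_eq_mul]; ring)
    (fun u w w' => by
      rw [← integral_add (int3 hg hb u w) (int3 hg hb u w')]
      refine integral_congr_ae ?_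
      filter_upwards [Lp.coeFn_add w w'] with x hx
      rw [hx, Pi.add_apply]; ring)
    (fun c u w => by
      rw [smul_eq_mul, ← integral_const_mul]
      refine integral_congr_ae ?_
      filter_upwards [Lp.coeFn_smul c w] with x hx
      rw [hx, Pi.smul_apply, smul_eq_mul]; ring))
    |M| (fun u w => by
      rw [LinearMap.mk₂_apply, Real.norm_eq_abs, mul_assoc]
      refine le_trans (abs_integral_le_integral_abs) ?_
      refine le_trans (integral_mono_ae (g := fun x => |M| * |u x * w x|) (int3 hg hb u w).abs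
        ((int2 u w).abs.const_mul _) ?_) ?_
      · filter_upwards [hb] with x hx
        rw [abs_mul]
        exact mul_le_mul_of_nonneg_right (hx.trans (le_abs_self _)) (abs_nonneg _)
      · rw [integral_const_mul]
        exact mul_le_mul_of_nonneg_left (int_abs_le u w) (abs_nonneg _))

theorem bil_apply (g : X → ℝ) (M : ℝ) (hg : AEStronglyMeasurable g μ)
    (hb : ∀ᵐ x ∂μ, |g x| ≤ M) (u w : Lp ℝ 2 μ) :
    bil g M hg hb u w = ∫ x, g x * (u x * w x) ∂μ := rfl

theorem trunc_tend {φ : X → ℝ} (hφ : Integrable φ μ) :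
    Tendsto (fun N : ℕ => ∫ x, (if |φ x| ≤ (N : ℝ) then 0 else |φ x|) ∂μ) atTop (𝓝 0) := by
  have h := tendsto_integral_of_dominated_convergence (μ := μ)
    (F := fun (N : ℕ) x => if |φ x| ≤ (N : ℝ) then 0 else |φ x|) (f := fun _ => 0) (fun x => |φ x|)
    (fun N => ?_) hφ.abs (fun N => Eventually.of_forall fun x => ?_)
    (Eventually.of_forall fun x => ?_)
  · simpa using h
  · have h1 : AEStronglyMeasurable (fun x => |φ x|) μ := hφ.abs.aestronglyMeasurable
    have h2 : AEMeasurable (fun x => |φ x|) μ := h1.aemeasurable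
    have h3 : Measurable (fun y : ℝ => if y ≤ (N : ℝ) then (0 : ℝ) else y) :=
      Measurable.ite measurableSet_Iic measurable_const measurable_id
    exact (h3.comp_aemeasurable h2).aestronglyMeasurable
  · rw [Real.norm_eq_abs]
    split_ifs with hx
    · simp
    · simp
  · obtain ⟨N, hN⟩ := exists_nat_ge |φ x|
    refine tendsto_const_nhds.congr' ?_
    filter_upwards [eventually_ge_atTop N] with k hk
    rw [if_pos (hN.trans (by exact_mod_cast hk))]

/-- convergence of `∫ G_k φ` for bounded `G_k → g` in `L²` and integrable `φ` (finite measure) -/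
theorem tend_int [IsFiniteMeasure μ] {G : ℕ → X → ℝ} {g M : ℝ} (hG : ∀ k, AEStronglyMeasurable (G k) μ)
    (hb : ∀ k, ∀ᵐ x ∂μ, |G k x| ≤ M)
    (hl : Tendsto (fun k => ∫ x, (G k x - g) ^ 2 ∂μ) atTop (𝓝 0)) {φ : X → ℝ} (hφ : Integrable φ μ) :
    Tendsto (fun k => ∫ x, G k x * φ x ∂μ) atTop (𝓝 (∫ x, g * φ x ∂μ)) := by
  set R : ℝ := |M| + |g| + 1 with hR
  have hRpos : 0 < R := by positivity
  set m : ℝ := ∫ x, (1 : ℝ) ∂μ with hm
  have hm0 : 0 ≤ m := integral_nonneg fun _ => by norm_num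
  have hsq : ∀ k, Integrable (fun x => (G k x - g) ^ 2) μ := by
    intro k
    refine Integrable.of_bound (C := R ^ 2) (((hG k).sub aestronglyMeasurable_const).pow 2) ?_
    filter_upwards [hb k] with x hx
    rw [Real.norm_eq_abs, abs_of_nonneg (sq_nonneg _), ← sq_abs]
    refine pow_le_pow_left₀ (abs_nonneg _) ?_ 2
    have h1 := abs_sub (G k x) g
    have h2 := hx.trans (le_abs_self M)
    linarith
  have key : ∀ (k N : ℕ) (η : ℝ), 0 < η → |∫ x, G k x * φ x ∂μ - ∫ x, g * φ x ∂μ| ≤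
      R * (∫ x, (if |φ x| ≤ (N : ℝ) then 0 else |φ x|) ∂μ) + η * m +
        (N : ℝ) ^ 2 / (4 * η) * ∫ x, (G k x - g) ^ 2 ∂μ := by
    intro k N η hη
    have i1 : Integrable (fun x => G k x * φ x) μ := hφ.bdd_mul (c := M) (hG k) (hb k)
    have i2 : Integrable (fun x => g * φ x) μ := hφ.const_mul g
    have i3 : Integrable (fun x => if |φ x| ≤ (N : ℝ) then 0 else |φ x|) μ := by
      refine hφ.abs.mono' ?_ (Eventually.of_forall fun x => ?_)
      · have h2 : AEMeasurable (fun x => |φ x|) μ := hφ.abs.aestronglyMeasurable.aemeasurable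
        have h3 : Measurable (fun y : ℝ => if y ≤ (N : ℝ) then (0 : ℝ) else y) :=
          Measurable.ite measurableSet_Iic measurable_const measurable_id
        exact (h3.comp_aemeasurable h2).aestronglyMeasurable
      · rw [Real.norm_eq_abs]
        split_ifs with hx
        · simp
        · simp
    have i4 : Integrable (fun _ : X => (1 : ℝ)) μ := integrable_const _
    have i5 : Integrable (fun x => R * (if |φ x| ≤ (N : ℝ) then 0 else |φ x|) + η * 1) μ :=
      (i3.const_mul R).add (i4.const_mul η)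
    have i6 : Integrable (fun x => (N : ℝ) ^ 2 / (4 * η) * (G k x - g) ^ 2) μ := (hsq k).const_mul _
    have i7 : Integrable (fun x => (R * (if |φ x| ≤ (N : ℝ) then 0 else |φ x|) + η * 1) +
      (N : ℝ) ^ 2 / (4 * η) * (G k x - g) ^ 2) μ := i5.add i6
    have i8 : Integrable (fun x => G k x * φ x - g * φ x) μ := i1.sub i2
    rw [← integral_sub i1 i2, ← integral_const_mul, ← integral_const_mul, ← integral_const_mul,
      ← integral_add (i3.const_mul R) (i4.const_mul η), ← integral_add i5 i6]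
    refine (abs_integral_le_integral_abs).trans ?_
    refine integral_mono_ae i8.abs i7 ?_
    filter_upwards [hb k] with x hx
    have e1 : |G k x * φ x - g * φ x| = |G k x - g| * |φ x| := by rw [← sub_mul, abs_mul]
    have h1 : |G k x - g| ≤ R := by
      have h1 := abs_sub (G k x) g
      have h2 := hx.trans (le_abs_self M)
      linarith
    rw [e1]
    have h3 : 0 ≤ (N : ℝ) ^ 2 / (4 * η) * (G k x - g) ^ 2 := by positivity
    split_ifs with hc
    · have h4 : |G k x - g| * |φ x| ≤ |G k x - g| * N := mul_le_mul_of_nonneg_left hc (abs_nonneg _)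
      have h5 : |G k x - g| * N ≤ η + (N : ℝ) ^ 2 / (4 * η) * (G k x - g) ^ 2 := by
        rw [← sq_abs (G k x - g)]
        have h6 : 0 ≤ (2 * η - N * |G k x - g|) ^ 2 / (4 * η) := by positivity
        have h7 : (2 * η - N * |G k x - g|) ^ 2 / (4 * η) =
            η + (N : ℝ) ^ 2 / (4 * η) * |G k x - g| ^ 2 - |G k x - g| * N := by
          field_simp
          ring
        linarith
      linarith
    · have h4 : |G k x - g| * |φ x| ≤ R * |φ x| := mul_le_mul_of_nonneg_right h1 (abs_nonneg _)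
      linarith
  rw [Metric.tendsto_atTop]
  intro ε hε
  have hT := (trunc_tend hφ).const_mul R
  rw [mul_zero, Metric.tendsto_atTop] at hT
  obtain ⟨N, hN⟩ := hT (ε / 3) (by positivity)
  have hN' := hN N le_rfl
  rw [Real.dist_eq, sub_zero] at hN'
  have hN'' := lt_of_le_of_lt (le_abs_self _) hN'
  set η : ℝ := ε / (3 * (m + 1)) with hη
  have hηpos : 0 < η := by positivity
  have hη1 : η * m < ε / 3 := by
    rw [hη, div_mul_eq_mul_div, div_lt_div_iff₀ (by positivity) (by norm_num)]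
    nlinarith
  have hS := hl.const_mul ((N : ℝ) ^ 2 / (4 * η))
  rw [mul_zero, Metric.tendsto_atTop] at hS
  obtain ⟨k0, hk0⟩ := hS (ε / 3) (by positivity)
  refine ⟨k0, fun k hk => ?_⟩
  have h8 := hk0 k hk
  rw [Real.dist_eq, sub_zero] at h8
  have h9 := lt_of_le_of_lt (le_abs_self _) h8
  rw [Real.dist_eq]
  have h10 := key k N η hηpos
  linarith

end gen

section bigB

variable {n : ℕ} {V : E n → ℝ} {t : E n → Matrix (Fin n) (Fin n) ℝ} {c C : ℝ}

/-- `L²(μ; ℝⁿ)` -/
abbrev HV (n : ℕ) (V : E n → ℝ) : Type := PiLp 2 (fun _ : Fin n => Lp ℝ 2 (mu V))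

/-- bounded measurable matrix function -/
structure BM (V : E n → ℝ) (G : E n → Matrix (Fin n) (Fin n) ℝ) (M : ℝ) : Prop where
  meas : ∀ i j, AEStronglyMeasurable (fun x => G x i j) (mu V)
  bdd : ∀ i j, ∀ᵐ x ∂(mu V), |G x i j| ≤ M

/-- form of a bounded matrix function -/
noncomputable def bigB {G : E n → Matrix (Fin n) (Fin n) ℝ} {M : ℝ} (h : BM V G M) :
    HV n V →L[ℝ] HV n V →L[ℝ] ℝ :=
  ∑ i, ∑ j, (bil (fun x => G x i j) M (h.meas i j) (h.bdd i j)).bilinearComp
    (PiLp.proj 2 (fun _ : Fin n => Lp ℝ 2 (mu V)) i) (PiLp.proj 2 (fun _ : Fin n => Lp ℝ 2 (mu V)) j)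

theorem bigB_apply {G : E n → Matrix (Fin n) (Fin n) ℝ} {M : ℝ} (h : BM V G M) (u w : HV n V) :
    bigB h u w = ∑ i, ∑ j, ∫ x, G x i j * (u i x * w j x) ∂(mu V) := by
  unfold bigB
  simp only [ContinuousLinearMap.sum_apply, ContinuousLinearMap.bilinearComp_apply]
  rfl

theorem int_term {G : E n → Matrix (Fin n) (Fin n) ℝ} {M : ℝ} (h : BM V G M) (u w : HV n V)
    (i j : Fin n) : Integrable (fun x => G x i j * (u i x * w j x)) (mu V) :=
  int3 (h.meas i j) (h.bdd i j) (u i) (w j)

theorem int_tot {G : E n → Matrix (Fin n) (Fin n) ℝ} {M : ℝ} (h : BM V G M) (u w : HV n V) :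
    Integrable (fun x => ∑ i, ∑ j, G x i j * (u i x * w j x)) (mu V) :=
  integrable_finsetSum _ fun i _ => integrable_finsetSum _ fun j _ => int_term h u w i j

theorem bigB_int {G : E n → Matrix (Fin n) (Fin n) ℝ} {M : ℝ} (h : BM V G M) (u w : HV n V) :
    bigB h u w = ∫ x, (∑ i, ∑ j, G x i j * (u i x * w j x)) ∂(mu V) := by
  rw [bigB_apply, integral_finsetSum _ fun i _ => integrable_finsetSum _ fun j _ => int_term h u w i j]
  exact Finset.sum_congr rfl fun i _ => (integral_finsetSum _ fun j _ => int_term h u w i j).symm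

theorem bigB_BG (hV : Continuous V) {G : E n → Matrix (Fin n) (Fin n) ℝ} {M : ℝ} (h : BM V G M)
    {u w : HV n V} {z e : Fin n → E n → ℝ} (hu : ∀ i, (u i : E n → ℝ) =ᵐ[volume] z i)
    (hw : ∀ i, (w i : E n → ℝ) =ᵐ[volume] e i) : bigB h u w = BG V G z e := by
  rw [bigB_int]
  unfold BG I
  rw [← Vale.Agent.P245.H464.integral_mu hV]
  refine integral_congr_ae ?_
  filter_upwards [(H464.mu_ac V).ae_le (ae_all_iff.2 hu), (H464.mu_ac V).ae_le (ae_all_iff.2 hw)]
    with x h1 h2
  refine Finset.sum_congr rfl fun i _ => Finset.sum_congr rfl fun j _ => ?_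
  rw [h1 i, h2 j]; ring

theorem bigB_symm {G : E n → Matrix (Fin n) (Fin n) ℝ} {M : ℝ} (h : BM V G M)
    (hs : ∀ x i j, G x i j = G x j i) (u w : HV n V) : bigB h u w = bigB h w u := by
  rw [bigB_apply, bigB_apply, Finset.sum_comm]
  refine Finset.sum_congr rfl fun i _ => Finset.sum_congr rfl fun j _ => ?_
  refine integral_congr_ae (Eventually.of_forall fun x => ?_)
  simp only
  rw [hs x j i]; ring

theorem bigB_mono {G G' : E n → Matrix (Fin n) (Fin n) ℝ} {M M' a : ℝ} (h : BM V G M)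
    (h' : BM V G' M') (hle : ∀ᵐ x ∂(mu V), ∀ v : Fin n → ℝ, ∑ i, ∑ j, G x i j * v i * v j ≤
      a * ∑ i, ∑ j, G' x i j * v i * v j) (u : HV n V) : bigB h u u ≤ a * bigB h' u u := by
  rw [bigB_int, bigB_int, ← integral_const_mul]
  refine integral_mono_ae (int_tot h u u) ((int_tot h' u u).const_mul a) ?_
  filter_upwards [hle] with x hx
  have := hx fun i => u i x
  simpa only [mul_assoc] using this

theorem bigB_nonneg {G : E n → Matrix (Fin n) (Fin n) ℝ} {M : ℝ} (h : BM V G M)
    (hle : ∀ᵐ x ∂(mu V), ∀ v : Fin n → ℝ, 0 ≤ ∑ i, ∑ j, G x i j * v i * v j) (u : HV n V) :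
    0 ≤ bigB h u u := by
  rw [bigB_int]
  refine integral_nonneg_of_ae ?_
  filter_upwards [hle] with x hx
  have := hx fun i => u i x
  show (0 : ℝ) ≤ _
  simpa only [mul_assoc] using this

theorem norm_comp_le (u : HV n V) (i : Fin n) : ‖u i‖ ≤ ‖u‖ := PiLp.norm_apply_le u i

theorem bigB_bdd {G : E n → Matrix (Fin n) (Fin n) ℝ} {M : ℝ} (h : BM V G M) (u : HV n V) :
    bigB h u u ≤ ((n : ℝ) * n * |M|) * ‖u‖ ^ 2 := by
  rw [bigB_apply]
  have h1 : ∀ i j, ∫ x, G x i j * (u i x * u j x) ∂(mu V) ≤ |M| * ‖u‖ ^ 2 := by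
    intro i j
    have h2 : ∫ x, G x i j * (u i x * u j x) ∂(mu V) ≤ ∫ x, |M| * |u i x * u j x| ∂(mu V) := by
      refine integral_mono_ae (int_term h u u i j) ((int2 (u i) (u j)).abs.const_mul _) ?_
      filter_upwards [h.bdd i j] with x hx
      refine (le_abs_self _).trans ?_
      rw [abs_mul]
      exact mul_le_mul_of_nonneg_right (hx.trans (le_abs_self _)) (abs_nonneg _)
    refine h2.trans ?_
    rw [integral_const_mul]
    refine mul_le_mul_of_nonneg_left ((int_abs_le (u i) (u j)).trans ?_) (abs_nonneg _)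
    rw [sq]
    exact mul_le_mul (norm_comp_le u i) (norm_comp_le u j) (norm_nonneg _) (norm_nonneg _)
  calc ∑ i, ∑ j, ∫ x, G x i j * (u i x * u j x) ∂(mu V)
      ≤ ∑ i : Fin n, ∑ j : Fin n, |M| * ‖u‖ ^ 2 :=
        Finset.sum_le_sum fun i _ => Finset.sum_le_sum fun j _ => h1 i j
    _ = ((n : ℝ) * n * |M|) * ‖u‖ ^ 2 := by
        simp only [Finset.sum_const, Finset.card_univ, Fintype.card_fin, nsmul_eq_mul]
        ring

theorem norm_HV (u : HV n V) : ‖u‖ ^ 2 = ∑ i, ∫ x, u i x ^ 2 ∂(mu V) := by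
  rw [PiLp.norm_sq_eq_of_L2]
  exact Finset.sum_congr rfl fun i _ => norm_sq_eq (u i)

/-- convergence to the identity -/
theorem bigB_tend [IsFiniteMeasure (mu V)] {G : ℕ → E n → Matrix (Fin n) (Fin n) ℝ} {M : ℝ}
    (h : ∀ k, BM V (G k) M)
    (hl : ∀ i j, Tendsto (fun k => ∫ x, (G k x i j - if i = j then 1 else 0) ^ 2 ∂(mu V)) atTop (𝓝 0))
    (u : HV n V) : Tendsto (fun k => bigB (h k) u u) atTop (𝓝 (‖u‖ ^ 2)) := by
  have h1 : ∀ i j, Tendsto (fun k => ∫ x, G k x i j * (u i x * u j x) ∂(mu V)) atTop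
      (𝓝 (∫ x, (if i = j then 1 else 0) * (u i x * u j x) ∂(mu V))) := fun i j =>
    tend_int (fun k => (h k).meas i j) (fun k => (h k).bdd i j) (hl i j) (int2 (u i) (u j))
  have h2 : Tendsto (fun k => ∑ i, ∑ j, ∫ x, G k x i j * (u i x * u j x) ∂(mu V)) atTop
      (𝓝 (∑ i, ∑ j, ∫ x, (if i = j then 1 else 0) * (u i x * u j x) ∂(mu V))) :=
    tendsto_finset_sum _ fun i _ => tendsto_finset_sum _ fun j _ => h1 i j
  have e : ∑ i, ∑ j, ∫ x, (if i = j then (1 : ℝ) else 0) * (u i x * u j x) ∂(mu V) = ‖u‖ ^ 2 := by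
    rw [norm_HV]
    refine Finset.sum_congr rfl fun i _ => ?_
    rw [Finset.sum_eq_single i]
    · refine integral_congr_ae (Eventually.of_forall fun x => ?_)
      simp [sq]
    · intro j _ hj
      rw [if_neg (Ne.symm hj)]
      simp
    · intro hi; exact absurd (Finset.mem_univ i) hi
  rw [e] at h2
  simpa only [bigB_apply] using h2

end bigB


section iso

variable {n : ℕ} {V : E n → ℝ} {t : E n → Matrix (Fin n) (Fin n) ℝ} {c C : ℝ}

/-- `E t_ij = E x_i x_j` -/
theorem iso_t (hB : Base V t c C) (i j : Fin n) :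
    I V (fun x => t x i j) = I V (fun x => x i * x j) := by
  obtain ⟨c1, C1, hR⟩ := hB.reg
  have hTF := hB.toTE.toTB.toTF
  obtain ⟨K, χ, hLC, h01, hlim, hpd⟩ := Vale.Agent.P254.SN.cutoffs n
  obtain ⟨T, hT⟩ := hB.toTE.toTB.bt
  have hVc : Continuous V := hTF.V2.continuous
  have htc : ∀ a b, Continuous (fun x => t x a b) := fun a b => (tll hTF a b).continuous
  -- the identity with cut-off
  have key : ∀ k, ∫ x, (χ k x * (t x i j - x i * x j) + x j * ∑ b, t x i b * pd b (χ k) x) *
      Real.exp (-V x) = 0 := by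
    intro k
    have hf : LC (fun x => χ k x * x j) := LC.mul_right (hLC k) (ll_coord j)
    have h1 := tcore hTF hf i (G := fun x => Dt t i (fun x => χ k x * x j) x - x i * (χ k x * x j))
      (Eventually.of_forall fun x => rfl)
    rw [← h1]
    unfold I
    refine integral_congr_ae ?_
    filter_upwards [(hLC k).ae_diff] with x hx
    congr 1
    have e1 : ∀ b, pd b (fun y => χ k y * y j) x = pd b (χ k) x * x j + χ k x * (if j = b then 1 else 0) := by
      intro b
      rw [rpd_mul hx (rad_diff_coord j x), pd_coord b j x]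
    unfold Dt
    simp only [e1, mul_add, Finset.sum_add_distrib]
    have e2 : ∑ b, t x i b * (χ k x * (if j = b then (1 : ℝ) else 0)) = χ k x * t x i j := by
      simp [mul_comm]
    have e3 : ∑ b, t x i b * (pd b (χ k) x * x j) = x j * ∑ b, t x i b * pd b (χ k) x := by
      rw [Finset.mul_sum]
      exact Finset.sum_congr rfl fun b _ => by ring
    rw [e2, e3]
    ring
  have hm : ∀ k b, Measurable (pd b (χ k)) := fun k b => measurable_fderiv_apply_const ℝ _ _
  have hlimit : Tendsto (fun k => ∫ x, (χ k x * (t x i j - x i * x j) +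
      x j * ∑ b, t x i b * pd b (χ k) x) * Real.exp (-V x)) atTop
      (𝓝 (∫ x, (t x i j - x i * x j) * Real.exp (-V x))) := by
    refine tendsto_integral_of_dominated_convergence
      (fun x => (|T| + (x i ^ 2 + x j ^ 2) + (1 + x j ^ 2) * ((n : ℝ) * (|T| * K))) *
        Real.exp (-V x)) (fun k => ?_) ?_ (fun k => Eventually.of_forall fun x => ?_)
      (Eventually.of_forall fun x => ?_)
    · have c1 : Continuous (fun x : E n => x i) := by fun_prop
      have c2 : Continuous (fun x : E n => x j) := by fun_prop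
      refine Measurable.aestronglyMeasurable ?_
      refine Measurable.mul ?_ (by fun_prop)
      refine Measurable.add ?_ ?_
      · exact ((hLC k).1.continuous.mul ((htc i j).sub (c1.mul c2))).measurable
      · refine Measurable.mul c2.measurable ?_
        exact Finset.measurable_sum _ fun b _ => (htc i b).measurable.mul (hm k b)
    · refine hR.integrable_gr ?_
      refine Gr.add (Gr.add (Gr.const _) (Gr.add ((Gr.coord i).pow 2) ((Gr.coord j).pow 2))) ?_
      exact Gr.mul (Gr.add (Gr.const 1) ((Gr.coord j).pow 2)) (Gr.const _)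
    · rw [norm_mul, Real.norm_eq_abs, Real.norm_eq_abs, abs_of_pos (Real.exp_pos _)]
      refine mul_le_mul_of_nonneg_right ?_ (Real.exp_pos _).le
      refine (abs_add_le _ _).trans (add_le_add ?_ ?_)
      · rw [abs_mul, abs_of_nonneg (h01 k x).1]
        have h2 : |t x i j - x i * x j| ≤ |T| + (x i ^ 2 + x j ^ 2) := by
          refine (abs_sub _ _).trans (add_le_add ((hT x i j).trans (le_abs_self _)) ?_)
          rw [abs_mul]
          nlinarith [sq_nonneg (|x i| - |x j|), sq_abs (x i), sq_abs (x j), sq_nonneg (x i),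
            sq_nonneg (x j)]
        calc χ k x * |t x i j - x i * x j| ≤ 1 * |t x i j - x i * x j| :=
              mul_le_mul_of_nonneg_right (h01 k x).2 (abs_nonneg _)
          _ ≤ _ := by rw [one_mul]; exact h2
      · rw [abs_mul]
        refine mul_le_mul ?_ ?_ (abs_nonneg _) (by positivity)
        · nlinarith [sq_nonneg (|x j| - 1), sq_abs (x j)]
        · refine (Finset.abs_sum_le_sum_abs _ _).trans ?_
          calc ∑ b, |t x i b * pd b (χ k) x| ≤ ∑ b : Fin n, |T| * K := by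
                refine Finset.sum_le_sum fun b _ => ?_
                rw [abs_mul]
                refine mul_le_mul ((hT x i b).trans (le_abs_self _)) ?_ (abs_nonneg _) (abs_nonneg _)
                refine (hpd k b x).trans ?_
                have h3 : (1 : ℝ) / ((k : ℝ) + 1) ≤ 1 := by
                  rw [div_le_one (by positivity)]
                  linarith [(Nat.cast_nonneg k : (0 : ℝ) ≤ (k : ℝ))]
                calc (K : ℝ) * (1 / ((k : ℝ) + 1)) ≤ K * 1 := mul_le_mul_of_nonneg_left h3 K.2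
                  _ = K := mul_one _
            _ = (n : ℝ) * (|T| * K) := by
                simp only [Finset.sum_const, Finset.card_univ, Fintype.card_fin, nsmul_eq_mul]
    · have h4 : Tendsto (fun k => ∑ b, t x i b * pd b (χ k) x) atTop (𝓝 (∑ b : Fin n, t x i b * 0)) := by
        refine tendsto_finset_sum _ fun b _ => Tendsto.const_mul _ ?_
        have h5 : Tendsto (fun k : ℕ => (K : ℝ) * (1 / ((k : ℝ) + 1))) atTop (𝓝 0) := by
          have := (tendsto_one_div_add_atTop_nhds_zero_nat (𝕜 := ℝ)).const_mul (K : ℝ)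
          rwa [mul_zero] at this
        exact squeeze_zero_norm (fun k => hpd k b x) h5
      have h6 := (((hlim x).mul_const (t x i j - x i * x j)).add (h4.const_mul (x j))).mul_const
        (Real.exp (-V x))
      simpa using h6
  simp only [key] at hlimit
  have h0 : ∫ x, (t x i j - x i * x j) * Real.exp (-V x) = 0 :=
    (tendsto_nhds_unique hlimit tendsto_const_nhds)
  have i1 : Integrable (fun x => t x i j * Real.exp (-V x)) :=
    hR.integrable_gr (Gr.of_bound (htc i j) fun x => hT x i j)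
  have i2 : Integrable (fun x => x i * x j * Real.exp (-V x)) :=
    hR.integrable_gr ((Gr.coord i).mul (Gr.coord j))
  simp only [sub_mul] at h0
  rw [integral_sub i1 i2] at h0
  unfold I
  linarith

theorem ex_t (hB : Base V t c C) (hI : Iso V) (i j : Fin n) :
    Ex V (fun x => t x i j) = if i = j then 1 else 0 := by
  rw [← hI.2 i j]
  unfold Ex
  have := iso_t hB i j
  unfold I at this
  rw [this]

end iso


section final

variable {n : ℕ} {V : E n → ℝ} {t : E n → Matrix (Fin n) (Fin n) ℝ} {c C : ℝ}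

theorem bm_of_MF {G : E n → Matrix (Fin n) (Fin n) ℝ} {DG : Fin n → E n → Matrix (Fin n) (Fin n) ℝ}
    {δ B B' : ℝ} (h : MF V G DG δ B) (hb : ∀ᵐ x, ∀ i j, |G x i j| ≤ B') : BM V G B' where
  meas i j := ((h.h1 i j).u2.1).aestronglyMeasurable
  bdd i j := (H464.mu_ac V).ae_le (hb.mono fun x hx => hx i j)

theorem bigB_rel {G G' A : E n → Matrix (Fin n) (Fin n) ℝ} {M M' MA a : ℝ} (h : BM V G M)
    (h' : BM V G' M') (hA : BM V A MA)
    (he : ∀ᵐ x ∂(mu V), ∀ i j, A x i j = a * (G' x i j - G x i j)) (u w : HV n V) :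
    bigB hA u w = a * (bigB h' u w - bigB h u w) := by
  rw [bigB_int, bigB_int, bigB_int, ← integral_sub (int_tot h' u w) (int_tot h u w),
    ← integral_const_mul]
  refine integral_congr_ae ?_
  filter_upwards [he] with x hx
  rw [← Finset.sum_sub_distrib, Finset.mul_sum]
  refine Finset.sum_congr rfl fun i _ => ?_
  rw [← Finset.sum_sub_distrib, Finset.mul_sum]
  refine Finset.sum_congr rfl fun j _ => ?_
  rw [hx i j]; ring

theorem swap_ip (G : Matrix (Fin n) (Fin n) ℝ) (z : Fin n → Fin n → E n → ℝ) (x : E n) :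
    ∑ i, ∑ j, G i j * ip t (fun y a => z i a y) (fun y a => z j a y) x =
      ∑ a, ∑ b, t x a b * ∑ k, ∑ l, G k l * (z k a x) * (z l b x) := by
  unfold ip
  simp only [Finset.mul_sum]
  have e1 : ∀ i : Fin n, ∑ j, ∑ a, ∑ b, G i j * (t x a b * z i a x * z j b x) =
      ∑ a, ∑ b, ∑ j, G i j * (t x a b * z i a x * z j b x) := by
    intro i
    rw [Finset.sum_comm]
    exact Finset.sum_congr rfl fun a _ => Finset.sum_comm
  simp only [e1]
  rw [Finset.sum_comm]
  refine Finset.sum_congr rfl fun a _ => ?_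
  rw [Finset.sum_comm]
  refine Finset.sum_congr rfl fun b _ => Finset.sum_congr rfl fun i _ =>
    Finset.sum_congr rfl fun j _ => ?_
  ring

theorem tq_nonneg (hB : Base V t c C) (x : E n) (v : Fin n → ℝ) :
    0 ≤ ∑ i, ∑ j, t x i j * v i * v j := by
  have h := hB.low x (WithLp.toLp 2 v)
  have h1 : qf (t x) (WithLp.toLp 2 v) = ∑ i, ∑ j, t x i j * v i * v j := rfl
  rw [← h1]
  refine le_trans ?_ h
  have := hB.lam_pos
  positivity

/-- pointwise monotonicity -/
theorem pw_mono (hB : Base V t c C) {P Q : Matrix (Fin n) (Fin n) ℝ}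
    (h : ∀ v : Fin n → ℝ, ∑ i, ∑ j, P i j * v i * v j ≤ ∑ i, ∑ j, Q i j * v i * v j)
    (z : Fin n → Fin n → E n → ℝ) (x : E n) :
    ∑ i, ∑ j, P i j * ip t (fun y a => z i a y) (fun y a => z j a y) x ≤
      ∑ i, ∑ j, Q i j * ip t (fun y a => z i a y) (fun y a => z j a y) x := by
  have h1 := Ident.kron_nonneg (t := t x) (G := fun i j => Q i j - P i j)
    (fun i j => hB.symm x i j) (tq_nonneg hB x) (fun v => by
      have := h v
      simp only [sub_mul, Finset.sum_sub_distrib]
      linarith) (fun a k => z k a x)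
  rw [swap_ip, swap_ip]
  simp only [sub_mul, Finset.sum_sub_distrib, mul_sub] at h1
  linarith

theorem int_KG (hB : Base V t c C) {G : E n → Matrix (Fin n) (Fin n) ℝ} {B : ℝ}
    (hm : ∀ i j, Measurable fun x => G x i j) (hb : ∀ᵐ x, ∀ i j, |G x i j| ≤ B)
    {z e : Fin n → Fin n → E n → ℝ} (hz : ∀ i a, MemLp (z i a) 2 (mu V))
    (he : ∀ i a, MemLp (e i a) 2 (mu V)) :
    Integrable (fun x => ∑ i, ∑ j, G x i j * ip t (fun y a => z i a y) (fun y a => e j a y) x)
      (mu V) :=
  integrable_finsetSum _ fun i _ => integrable_finsetSum _ fun j _ =>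
    Ident.int_bip hB.toTE (hm i j) (hb.mono fun x hx => hx i j) (hz i) (he j)

theorem dom_memLp (hV : Continuous V) {u Au : E n → ℝ} {Du : Fin n → E n → ℝ} (h : Dom V t u Du Au)
    (a : Fin n) : MemLp (Du a) 2 (mu V) := by
  obtain ⟨f, hf⟩ := h
  exact (H464.memLp_iff hV (hf.mD a).aestronglyMeasurable).2 (hf.iD a)

theorem dom_memLpu (hV : Continuous V) {u Au : E n → ℝ} {Du : Fin n → E n → ℝ} (h : Dom V t u Du Au) :
    MemLp u 2 (mu V) := by
  obtain ⟨f, hf⟩ := h
  exact (H464.memLp_iff hV hf.mu.aestronglyMeasurable).2 hf.iu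

theorem dom_memLpA (hV : Continuous V) {u Au : E n → ℝ} {Du : Fin n → E n → ℝ} (h : Dom V t u Du Au) :
    MemLp Au 2 (mu V) := by
  obtain ⟨f, hf⟩ := h
  exact (H464.memLp_iff hV hf.mA.aestronglyMeasurable).2 hf.iA

end final


section glue

variable {n : ℕ} {V : E n → ℝ} {t : E n → Matrix (Fin n) (Fin n) ℝ} {c C : ℝ}

/-- the constant vector in direction `i` -/
noncomputable def one1 (V : E n → ℝ) [IsFiniteMeasure (mu V)] : Lp ℝ 2 (mu V) :=
  (memLp_const (1 : ℝ)).toLp (fun _ : E n => (1 : ℝ))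

noncomputable def eI (V : E n → ℝ) [IsFiniteMeasure (mu V)] (i : Fin n) : HV n V :=
  WithLp.toLp 2 (Pi.single i (one1 V))

theorem eI_apply (V : E n → ℝ) [IsFiniteMeasure (mu V)] (i j : Fin n) :
    (eI V i) j = if j = i then one1 V else 0 := by
  unfold eI
  simp [Pi.single_apply]

theorem inner_eI [IsFiniteMeasure (mu V)] (i : Fin n) (z : HV n V) :
    inner ℝ (eI V i) z = ∫ x, z i x ∂(mu V) := by
  rw [PiLp.inner_apply, Finset.sum_eq_single i]
  · rw [eI_apply, if_pos rfl, L2.inner_def]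
    refine integral_congr_ae ?_
    filter_upwards [(memLp_const (1 : ℝ) : MemLp (fun _ : E n => (1 : ℝ)) 2 (mu V)).coeFn_toLp] with x hx
    unfold one1
    rw [hx]
    simp
  · intro j _ hj
    rw [eI_apply, if_neg hj, inner_zero_left]
  · intro hi; exact absurd (Finset.mem_univ i) hi

/-- mean zero -/
noncomputable def H0 (V : E n → ℝ) [IsFiniteMeasure (mu V)] : Submodule ℝ (HV n V) :=
  ⨅ i : Fin n, LinearMap.ker (innerSL ℝ (eI V i)).toLinearMap

theorem mem_H0 [IsFiniteMeasure (mu V)] (z : HV n V) : z ∈ H0 V ↔ ∀ i, inner ℝ (eI V i) z = 0 := by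
  unfold H0
  simp [Submodule.mem_iInf]

theorem closed_H0 [IsFiniteMeasure (mu V)] : IsClosed (H0 V : Set (HV n V)) := by
  have e : (H0 V : Set (HV n V)) = ⋂ i : Fin n, {z | inner ℝ (eI V i) z = 0} := by
    ext z
    simp only [SetLike.mem_coe, mem_H0, Set.mem_iInter, Set.mem_setOf_eq]
  rw [e]
  exact isClosed_iInter fun i => isClosed_eq (by fun_prop) continuous_const

/-- **row INST** -/
theorem inst (hAbs : StmtAbs) (hChain : StmtChain) (hIdent : StmtIdent) (hGap : StmtGap)
    (hForm : StmtForm) (hLin : StmtLin) : StmtK := by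
  obtain ⟨CA, hCA, hAbs⟩ := hAbs
  refine ⟨2 * CA, by positivity, ?_⟩
  intro n V t c C hB hI z Az Dz hz hz0
  obtain ⟨c1, C1, hR⟩ := hB.reg
  haveI : IsFiniteMeasure (mu V) := OP3.finite_mu hR
  have hV : Continuous V := hB.V2.continuous
  obtain ⟨Bk, G, AG, DG, hG0, hMF, hGD, hAb, hres, hMA, hCS, hMle, ⟨B', hB'⟩, hlim⟩ :=
    hChain n V t c C hB
  obtain ⟨J, sym, r1, r2, pos, dense, dom, of_dom⟩ := H36.Inst.i1 hForm hLin hB
  obtain ⟨-, hH1, -, -, -, hone⟩ := hLin n V t c C hB
  obtain ⟨hcomb, -⟩ := hLin n V t c C hB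
  -- the forms
  have hBM : ∀ k, BM V (G k) B' := fun k => bm_of_MF (hMF k) (hB' k)
  have hBA : ∀ k, BM V (AG k) (Bk k) := fun k =>
    ⟨fun i j => by
      obtain ⟨f, hf⟩ := hGD k i j
      exact hf.mA.aestronglyMeasurable, fun i j => (H464.mu_ac V).ae_le ((hAb k).mono fun x hx => hx i j)⟩
  have hsymG : ∀ k x i j, G k x i j = G k x j i := fun k => (hMF k).symm
  have hlowG : ∀ k, ∀ᵐ x, ∀ v : Fin n → ℝ, 0 ≤ ∑ i, ∑ j, G k x i j * v i * v j := by
    intro k
    filter_upwards [(hMF k).low] with x hx v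
    refine le_trans ?_ (hx v)
    have := (hMF k).d_pos
    exact mul_nonneg this.le (Finset.sum_nonneg fun i _ => sq_nonneg _)
  -- the identity
  have key : ∀ m : ℕ, ∀ (Z Y W X : HV n V) (u Au w Aw : Fin n → E n → ℝ)
      (Du Dw : Fin n → Fin n → E n → ℝ), (∀ i, Dom V t (u i) (Du i) (Au i)) →
      (∀ i, Dom V t (w i) (Dw i) (Aw i)) → (∀ i, (Z i : E n → ℝ) =ᵐ[volume] u i) →
      (∀ i, (Y i : E n → ℝ) =ᵐ[volume] Au i) → (∀ i, (W i : E n → ℝ) =ᵐ[volume] w i) →
      (∀ i, (X i : E n → ℝ) =ᵐ[volume] Aw i) →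
      2 * KG V t (G (m + 1)) Du Dw = bigB (hBM (m + 1)) Z X + bigB (hBM (m + 1)) Y W +
        ((m : ℝ) + 1) * (bigB (hBM (m + 1)) Z W - bigB (hBM m) Z W) := by
    intro m Z Y W X u Au w Aw Du Dw hu hw hZ hY hW hX
    have h1 := (hIdent n V t c C hB c (Bk (m + 1)) (G (m + 1)) (AG (m + 1)) (DG (m + 1))
      (hMF (m + 1)) (hGD (m + 1)) (hAb (m + 1)) u Au w Aw Du Dw hu hw).1
    rw [h1, ← bigB_BG hV (hBM (m + 1)) hZ hX, ← bigB_BG hV (hBM (m + 1)) hY hW,
      ← bigB_BG hV (hBA (m + 1)) hZ hW]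
    have h2 := bigB_rel (a := (m : ℝ) + 1) (hBM (m + 1)) (hBM m) (hBA (m + 1)) (by
      refine (H464.mu_ac V).ae_le ?_
      filter_upwards [hres m] with x hx i j
      have h3 := hx i j
      have h4 : (m : ℝ) + 1 ≠ 0 := by positivity
      rw [← h3]
      field_simp
      ring) Z W
    rw [h2]
    ring
  have hKpos : ∀ m : ℕ, ∀ (u Au : Fin n → E n → ℝ) (Du : Fin n → Fin n → E n → ℝ),
      (∀ i, Dom V t (u i) (Du i) (Au i)) → 0 ≤ KG V t (G m) Du Du := by
    intro m u Au Du hu
    unfold KG I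
    refine integral_nonneg_of_ae ?_
    filter_upwards [hlowG m] with x hx
    refine mul_nonneg ?_ (Real.exp_pos _).le
    have h1 := pw_mono hB (P := fun _ _ => 0) (Q := G m x) (fun v => by simpa using hx v) Du x
    simpa using h1
  -- `Abs`
  have habs : Abs J (fun k => bigB (hBM k)) (H0 V) :=
  { sym := sym
    r1 := r1
    r2 := r2
    pos := pos
    dense := dense
    inv := by
      intro s hs x hx
      rw [mem_H0] at hx ⊢
      intro i
      have h1 : J 1 (eI V i + 0) = eI V i := by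
        refine of_dom (fun j _ => if j = i then 1 else 0) (fun _ _ => 0) (fun _ _ _ => 0)
          (fun j => ?_) _ _ (fun j => ?_) (fun j => ?_)
        · have h2 := hcomb _ _ _ _ _ _ hone hone (if j = i then 1 else 0) 0
          have e1 : (fun x : E n => (if j = i then (1 : ℝ) else 0) * 1 + 0 * 1) =
              fun _ => if j = i then (1 : ℝ) else 0 := by funext x; simp
          have e2 : (fun (_ : Fin n) (x : E n) => (if j = i then (1 : ℝ) else 0) * 0 + 0 * 0) =
              fun _ _ => 0 := by funext a x; simp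
          have e3 : (fun x : E n => (if j = i then (1 : ℝ) else 0) * 0 + 0 * 0) =
              fun _ => 0 := by funext x; simp
          rw [e1, e2, e3] at h2
          exact h2
        · rw [eI_apply]
          split_ifs with hji
          · unfold one1
            exact (H464.ac_mu hV).ae_eq ((memLp_const (1 : ℝ)).coeFn_toLp)
          · exact (H464.ac_mu hV).ae_eq (Lp.coeFn_zero ℝ 2 (mu V))
        · exact (H464.ac_mu hV).ae_eq (Lp.coeFn_zero ℝ 2 (mu V))
      have h3 := r1 s hs _ _ h1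
      rw [smul_zero, add_zero] at h3
      rw [← sym s hs, h3]
      exact hx i
    closed := closed_H0
    gap := by
      intro Z Y hZY hZ0
      obtain ⟨u, Au, Du, hu, hZ, hY⟩ := dom Z Y hZY
      rw [mem_H0] at hZ0
      have h1 : ∀ i, I V (u i) = 0 := by
        intro i
        have h2 := hZ0 i
        rw [inner_eI] at h2
        rw [Ident.I_eq hV, ← h2]
        exact integral_congr_ae ((H464.mu_ac V).ae_eq (hZ i).symm)
      have h3 : ∀ i, ∫ x, Z i x ^ 2 ∂(mu V) ≤ inner ℝ (Y i) (Z i) := by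
        intro i
        have h4 := hGap n V t c C hB (u i) (Au i) (Du i) (hu i) (h1 i)
        rw [Ident.I_eq hV, Ident.I_eq hV] at h4
        have e1 : ∫ x, Z i x ^ 2 ∂(mu V) = ∫ x, u i x ^ 2 ∂(mu V) := by
          refine integral_congr_ae ?_
          filter_upwards [(H464.mu_ac V).ae_eq (hZ i)] with x hx
          rw [hx]
        have e2 : inner ℝ (Y i) (Z i) = ∫ x, u i x * Au i x ∂(mu V) := by
          rw [L2.inner_def]
          refine integral_congr_ae ?_
          filter_upwards [(H464.mu_ac V).ae_eq (hZ i), (H464.mu_ac V).ae_eq (hY i)] with x hx hy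
          rw [hx, hy]
          simp
        rw [e1, e2]
        exact h4
      rw [norm_HV, PiLp.inner_apply]
      exact Finset.sum_le_sum fun i _ => h3 i
    bsym := fun k x y => bigB_symm (hBM k) (hsymG k) x y
    bpos := fun k x => bigB_nonneg (hBM k) ((H464.mu_ac V).ae_le (hlowG k)) x
    h1 := by
      intro k hk x
      refine bigB_mono (hBM (k - 1)) (hBM k) ?_ x
      refine (H464.mu_ac V).ae_le ?_
      filter_upwards [hMle k hk] with y hy v
      have := hy v
      simp only [Matrix.smul_apply, smul_eq_mul, mul_assoc, ← Finset.mul_sum] at this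
      simpa only [mul_assoc] using this
    bdd := ⟨(n : ℝ) * n * |B'|, fun k x => bigB_bdd (hBM k) x⟩
    h4 := by
      intro x
      refine bigB_tend hBM (fun i j => ?_) x
      have h1 := hlim i j
      rw [ex_t hB hI i j] at h1
      unfold Tends at h1
      simpa only [Ident.I_eq hV] using h1
    hK := by
      intro k hk Z Y hZY
      obtain ⟨m, rfl⟩ : ∃ m, k = m + 1 := ⟨k - 1, by omega⟩
      obtain ⟨u, Au, Du, hu, hZ, hY⟩ := dom Z Y hZY
      have h1 := key m Z Y Z Y u Au u Au Du Du hu hu hZ hY hZ hY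
      have h2 := hKpos (m + 1) u Au Du hu
      have h3 := bigB_symm (hBM (m + 1)) (hsymG (m + 1)) Z Y
      simp only [Nat.add_sub_cancel]
      push_cast
      linarith
    h2 := by
      intro k hk Z Y W X hZY hWX
      obtain ⟨m, rfl⟩ : ∃ m, k = m + 1 := ⟨k - 1, by omega⟩
      obtain ⟨u, Au, Du, hu, hZ, hY⟩ := dom Z Y hZY
      obtain ⟨w, Aw, Dw, hw, hW, hX⟩ := dom W X hWX
      have h1 := key m Z Y W X u Au w Aw Du Dw hu hw hZ hY hW hX
      have h0 := key m Z Y Z Y u Au u Au Du Du hu hu hZ hY hZ hY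
      have h3 := bigB_symm (hBM (m + 1)) (hsymG (m + 1)) Z Y
      have h4 := (hIdent n V t c C hB c (Bk (m + 1)) (G (m + 1)) (AG (m + 1)) (DG (m + 1))
        (hMF (m + 1)) (hGD (m + 1)) (hAb (m + 1)) u Au w Aw Du Dw hu hw).2
        (6 / (((m + 1 : ℕ) : ℝ) + 2)) (by positivity) (hCS (m + 1) (by omega))
      rw [← bigB_BG hV (hBM (m + 1)) hY hW, ← bigB_BG hV (hBM (m + 1)) hW hW] at h4
      have e1 : KG V t (G (m + 1)) Du Dw = 1 / 2 * (bigB (hBM (m + 1)) Z X + bigB (hBM (m + 1)) Y W +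
        ((m : ℝ) + 1) * (bigB (hBM (m + 1)) Z W - bigB (hBM m) Z W)) := by linarith
      have e2 : KG V t (G (m + 1)) Du Du = bigB (hBM (m + 1)) Z Y +
        ((m : ℝ) + 1) / 2 * (bigB (hBM (m + 1)) Z Z - bigB (hBM m) Z Z) := by linarith
      rw [e1, e2] at h4
      simp only [Nat.add_sub_cancel]
      push_cast at h4 ⊢
      exact h4 }
  -- apply
  have hzM : ∀ i, MemLp (z i) 2 (mu V) := fun i => dom_memLpu hV (hz i)
  have hAM : ∀ i, MemLp (Az i) 2 (mu V) := fun i => dom_memLpA hV (hz i)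
  set Z : HV n V := WithLp.toLp 2 fun i => (hzM i).toLp (z i) with hZdef
  set Y : HV n V := WithLp.toLp 2 fun i => (hAM i).toLp (Az i) with hYdef
  have hZ : ∀ i, (Z i : E n → ℝ) =ᵐ[volume] z i := fun i =>
    (H464.ac_mu hV).ae_eq ((hzM i).coeFn_toLp)
  have hY : ∀ i, (Y i : E n → ℝ) =ᵐ[volume] Az i := fun i =>
    (H464.ac_mu hV).ae_eq ((hAM i).coeFn_toLp)
  have hZY : J 1 (Z + Y) = Z := of_dom z Az Dz hz Z Y hZ hY
  have hZ0 : Z ∈ H0 V := by
    rw [mem_H0]
    intro i
    rw [inner_eI, ← hz0 i, Ident.I_eq hV]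
    exact integral_congr_ae ((H464.mu_ac V).ae_eq (hZ i))
  have hfin := hAbs (HV n V) J _ (H0 V) habs Z Y hZY hZ0
  have h0 := key 0 Z Y Z Y z Az z Az Dz Dz hz hz hZ hY hZ hY
  have h3 := bigB_symm (hBM (0 + 1)) (hsymG (0 + 1)) Z Y
  have e1 : KG V t (G 1) Dz Dz = bigB (hBM 1) Z Y + 1 / 2 * (bigB (hBM 1) Z Z - bigB (hBM 0) Z Z) := by
    simp only [Nat.zero_add, Nat.cast_zero, zero_add] at h0 h3
    linarith
  have e2 : ‖Y‖ ^ 2 = ∑ i, I V (fun x => Az i x ^ 2) := by
    rw [norm_HV]
    refine Finset.sum_congr rfl fun i _ => ?_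
    rw [Ident.I_eq hV]
    refine integral_congr_ae ?_
    filter_upwards [(H464.mu_ac V).ae_eq (hY i)] with x hx
    rw [hx]
  have hDM : ∀ i a, MemLp (Dz i a) 2 (mu V) := fun i a => dom_memLp hV (hz i) a
  have h5 : KG V t t Dz Dz ≤ 2 * KG V t (G 1) Dz Dz := by
    have hmeas : ∀ k i j, Measurable fun x => G k x i j := fun k i j => ((hMF k).h1 i j).u2.1
    have i0 := int_KG hB (hmeas 0) (hB' 0) hDM hDM
    have i1 := int_KG hB (hmeas 1) (hB' 1) hDM hDM
    rw [hG0] at i0
    unfold KG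
    rw [Ident.I_eq hV, Ident.I_eq hV, ← integral_const_mul]
    refine integral_mono_ae i0 (i1.const_mul 2) ?_
    refine (H464.mu_ac V).ae_le ?_
    filter_upwards [hMle 1 le_rfl] with x hx
    have h6 := pw_mono hB (P := t x) (Q := fun i j => 2 * G 1 x i j) (fun v => by
      have := hx v
      rw [show (1 - 1 : ℕ) = 0 from rfl, hG0] at this
      simp only [Matrix.smul_apply, smul_eq_mul, Nat.cast_one] at this
      refine this.trans (le_of_eq ?_)
      refine Finset.sum_congr rfl fun i _ => Finset.sum_congr rfl fun j _ => ?_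
      ring) Dz x
    refine h6.trans (le_of_eq ?_)
    rw [Finset.mul_sum]
    refine Finset.sum_congr rfl fun i _ => ?_
    rw [Finset.mul_sum]
    exact Finset.sum_congr rfl fun j _ => by ring
  rw [e1] at h5
  rw [← e2]
  linarith

end glue

end Vale.Agent.P245.K.Inst2
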