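import Vale.Agent.P245.K.KIDa

/-!
P245 (KLS project), row KID (helper828): the exact formula for `EE(v, ξ v)` and Kato's inequality for the
energy form on covector fields.
-/

set_option linter.all false

open MeasureTheory Filter Topology Set Metric
open scoped NNReal ENNReal ContDiff Matrix
open Vale.Agent.P227.M Vale.Agent.P227.M.K814 Vale.Agent.P254 Vale.Agent.P254.SN
open Vale.Agent.P245.K828 Vale.Agent.P245.K Vale.Agent.P245.H464

namespace Vale.Agent.P245.K.KID

variable {n : ℕ} {V : E n → ℝ} {t : E n → Matrix (Fin n) (Fin n) ℝ} {c C : ℝ}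

/-- the integrand of `stat_pair` with `Q = u_a β_i` -/
noncomputable def SP (V : E n → ℝ) (t : E n → Matrix (Fin n) (Fin n) ℝ) (a i : Fin n) (Q : E n → ℝ)
    (x : E n) : ℝ :=
  (∑ b, ∑ e, t x i e * pd e (pd b V) x * t x a b) * Q x
      + (∑ b, Dt t b (fun y => t y i a) x * pd b Q x)
      + (∑ b, ∑ e, pd b (fun y => t y i e) x * pd e (fun y => t y a b) x) * Q x
      - t x i a * Q x

/-- pointwise: `Dip + Ric = ee + (1/2) ∑ stat` -/
theorem dip_ric {u β : E n → Fin n → ℝ} {x : E n} (hT : (t x).PosDef)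
    (hs : ∀ y i j, t y i j = t y j i) (ht : Dt1 t x)
    (htot : ∀ d b k, ∑ e, t x d e * pd e (fun z => t z b k) x =
      ∑ e, t x b e * pd e (fun z => t z d k) x) (hu : Du1 u x) (hβ : Du1 β x) :
    Dip t u β x + Ric V t u β x =
      ee t u β x + 1 / 2 * ∑ a, ∑ i, SP V t a i (fun y => u y a * β y i) x := by
  have hP : ∀ k b c, pd k (fun y => t y b c) x = pd k (fun y => t y c b) x := by
    intro k b c
    have : (fun z => t z b c) = fun z => t z c b := funext fun z => hs z b c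
    rw [this]
  have h1 := alg_main hT (hs x) (fun k b c => pd k (fun y => t y b c) x) hP
    (fun d b k => htot d b k) (fun k a => pd k (fun y => u y a) x)
    (fun k a => pd k (fun y => β y a) x) (u x) (β x)
  have h0 : Dip t u β x = BT (t x) (fun k a => DD t u k a x) (fun k a => DD t β k a x) := rfl
  have h0' : BT (t x) (fun k a => DD t u k a x) (fun k a => DD t β k a x) =
      BT (t x) (fun k a => pd k (fun y => u y a) x + 1 / 2 * ∑ c, (∑ b, (t x)⁻¹ a b *
        pd k (fun y => t y b c) x) * u x c) (fun k a => pd k (fun y => β y a) x + 1 / 2 *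
        ∑ c, (∑ b, (t x)⁻¹ a b * pd k (fun y => t y b c) x) * β x c) := rfl
  rw [h0, h0', h1, Ric_split]
  have e1 : BT (t x) (fun k a => pd k (fun y => u y a) x) (fun k a => pd k (fun y => β y a) x) =
      ∑ i, ∑ j, ∑ a, ∑ c, t x i j * t x a c * pd i (fun y => u y a) x * pd j (fun y => β y c) x := by
    unfold BT ipT
    refine Finset.sum_congr rfl fun k _ => Finset.sum_congr rfl fun l _ => ?_
    rw [Finset.mul_sum]
    refine Finset.sum_congr rfl fun a _ => ?_
    rw [Finset.mul_sum]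
    exact Finset.sum_congr rfl fun b _ => by ring
  have e2 : ∑ a, ∑ i, t x i a * u x a * β x i = ip t u β x := by
    unfold ip
    exact Finset.sum_congr rfl fun a _ => Finset.sum_congr rfl fun i _ => by rw [hs x i a]
  have e3 : ∑ a, ∑ i, SP V t a i (fun y => u y a * β y i) x =
      (∑ a, ∑ i, (∑ b, ∑ e, t x i e * pd e (pd b V) x * t x a b) * u x a * β x i)
      + (∑ a, ∑ i, ∑ b, (∑ e, t x b e * pd e (fun y => t y i a) x) *
          (pd b (fun y => u y a) x * β x i + u x a * pd b (fun y => β y i) x))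
      + (∑ a, ∑ i, (∑ b, ∑ e, pd b (fun y => t y i e) x * pd e (fun y => t y a b) x)
          * u x a * β x i)
      - ∑ a, ∑ i, t x i a * u x a * β x i := by
    rw [← Finset.sum_add_distrib, ← Finset.sum_add_distrib, ← Finset.sum_sub_distrib]
    refine Finset.sum_congr rfl fun a _ => ?_
    rw [← Finset.sum_add_distrib, ← Finset.sum_add_distrib, ← Finset.sum_sub_distrib]
    refine Finset.sum_congr rfl fun i _ => ?_
    unfold SP Dt
    have e4 : ∀ b, pd b (fun y => u y a * β y i) x =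
        pd b (fun y => u y a) x * β x i + u x a * pd b (fun y => β y i) x := fun b =>
      rpd_mul (hu a) (hβ i)
    simp only [e4]
    ring
  have e5 : ∑ a, ∑ i, Sm t x a i * u x a * β x i =
      ∑ a, ∑ i, (∑ b, ∑ e, pd b (fun y => t y i e) x * pd e (fun y => t y a b) x)
          * u x a * β x i := rfl
  rw [e3, e1, e2, e5]
  unfold ee
  ring

/-! ## local Lipschitz bounds -/

theorem ll_comp {g : ℝ → ℝ} {K : ℝ≥0} (hg : LipschitzWith K g) {f : E n → ℝ}
    (hf : LocallyLipschitz f) : LocallyLipschitz (fun x => g (f x)) :=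
  hg.locallyLipschitz.comp hf

theorem lip_sqrt {e : ℝ} (he : 0 < e) :
    LipschitzWith (Real.toNNReal (1 / (2 * e))) (fun s : ℝ => Real.sqrt (max s 0 + e ^ 2)) := by
  refine LipschitzWith.of_dist_le_mul fun a b => ?_
  rw [Real.dist_eq, Real.dist_eq, Real.coe_toNNReal _ (by positivity)]
  set p := Real.sqrt (max a 0 + e ^ 2) with hp
  set q := Real.sqrt (max b 0 + e ^ 2) with hq
  have ha : 0 ≤ max a 0 := le_max_right _ _
  have hb : 0 ≤ max b 0 := le_max_right _ _
  have hp1 : e ≤ p := Real.le_sqrt_of_sq_le (by linarith)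
  have hq1 : e ≤ q := Real.le_sqrt_of_sq_le (by linarith)
  have hp2 : p ^ 2 = max a 0 + e ^ 2 := Real.sq_sqrt (by positivity)
  have hq2 : q ^ 2 = max b 0 + e ^ 2 := Real.sq_sqrt (by positivity)
  have h1 : |p - q| * (p + q) = |max a 0 - max b 0| := by
    have h2 : (p - q) * (p + q) = max a 0 - max b 0 := by
      have : (p - q) * (p + q) = p ^ 2 - q ^ 2 := by ring
      rw [this, hp2, hq2]; ring
    rw [← h2, abs_mul, abs_of_pos (by linarith : 0 < p + q)]
  have h3 : |max a 0 - max b 0| ≤ |a - b| := abs_max_sub_max_le_abs a b 0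
  have h4 : |p - q| * (2 * e) ≤ |a - b| := by
    refine le_trans ?_ (h1.le.trans h3)
    exact mul_le_mul_of_nonneg_left (by linarith) (abs_nonneg _)
  rw [div_mul_eq_mul_div, one_mul, le_div_iff₀ (by positivity)]
  exact h4

theorem lip_inv {e : ℝ} (he : 0 < e) :
    LipschitzWith (Real.toNNReal (1 / e ^ 2)) (fun s : ℝ => (max s e)⁻¹) := by
  refine LipschitzWith.of_dist_le_mul fun a b => ?_
  rw [Real.dist_eq, Real.dist_eq, Real.coe_toNNReal _ (by positivity)]
  have ha : e ≤ max a e := le_max_right _ _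
  have hb : e ≤ max b e := le_max_right _ _
  have ha0 : 0 < max a e := he.trans_le ha
  have hb0 : 0 < max b e := he.trans_le hb
  have h3 : |max a e - max b e| ≤ |a - b| := abs_max_sub_max_le_abs a b e
  have h1 : (max a e)⁻¹ - (max b e)⁻¹ = - (max a e - max b e) / (max a e * max b e) := by
    field_simp
    ring
  rw [h1, abs_div, abs_neg, abs_of_pos (mul_pos ha0 hb0)]
  rw [div_mul_eq_mul_div, one_mul]
  refine div_le_div₀ (abs_nonneg _) h3 (by positivity) ?_
  nlinarith

theorem ll_ip (h : TB V t) {u v : E n → Fin n → ℝ} (hu : ∀ a, LocallyLipschitz (fun x => u x a))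
    (hv : ∀ a, LocallyLipschitz (fun x => v x a)) : LocallyLipschitz (ip t u v) :=
  ll_sum _ fun a _ => ll_sum _ fun b _ => ll_mul (ll_mul (tll h.toTF a b) (hu a)) (hv b)

theorem lc_ip (h : TB V t) {u v : E n → Fin n → ℝ} (hu : LCF u) (hv : LCF v) : LC (ip t u v) :=
  LC.sum _ fun a _ => LC.sum _ fun b _ => LC.mul_left (ll_mul (tll h.toTF a b) (hu a).1) (hv b)

theorem nrm_eq (h : TE V t c C) {u : E n → Fin n → ℝ} (e : ℝ) :
    nrm t e u = fun x => Real.sqrt (max (ip t u u x) 0 + e ^ 2) := by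
  funext x
  unfold nrm
  rw [max_eq_left (ip_nonneg (TE.posDef h x) u)]

theorem ll_nrm (h : TE V t c C) {u : E n → Fin n → ℝ} (hu : LCF u) {e : ℝ} (he : 0 < e) :
    LocallyLipschitz (nrm t e u) := by
  rw [nrm_eq h]
  exact ll_comp (g := fun s : ℝ => Real.sqrt (max s 0 + e ^ 2)) (lip_sqrt he)
    (lc_ip h.toTB hu hu).1

theorem ll_inv_nrm (h : TE V t c C) {u : E n → Fin n → ℝ} (hu : LCF u) {e : ℝ} (he : 0 < e) :
    LocallyLipschitz (fun x => (nrm t e u x)⁻¹) := by
  have h1 : (fun x => (nrm t e u x)⁻¹) = fun x => (max (nrm t e u x) e)⁻¹ := by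
    funext x
    rw [max_eq_left (e_le_nrm he (TE.posDef h x))]
  rw [h1]
  exact ll_comp (g := fun s : ℝ => (max s e)⁻¹) (lip_inv he) (ll_nrm h hu he)

theorem lc_div (h : TE V t c C) {u : E n → Fin n → ℝ} (hu : LCF u) {e : ℝ} (he : 0 < e)
    {w : E n → ℝ} (hw : LC w) : LC (fun x => w x / nrm t e u x) := by
  simp only [div_eq_mul_inv]
  exact hw.mul_right (ll_inv_nrm h hu he)

theorem lcf_test (h : TE V t c C) {u : E n → Fin n → ℝ} (hu : LCF u) {e : ℝ} (he : 0 < e)
    {w : E n → ℝ} (hw : LC w) : LCF (fun x a => w x / nrm t e u x * u x a) := fun a =>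
  (lc_div h hu he hw).mul_right (hu a).1

theorem ci_gam (h : TE V t c C) {f g : E n → ℝ} (hf : LC f) (hg : LocallyLipschitz g) :
    CI (Gam t f g) :=
  CI.sum _ fun a _ => CI.sum _ fun b _ => CI.mul_right
    (CI.mul_left (Bd.of_ll (tll h.toTB.toTF a b)) (CI.pd hf a)) (Bd.pd hg b)

theorem ci_ee (h : TE V t c C) {u v : E n → Fin n → ℝ} (hu : LCF u) (hv : LCF v) :
    CI (ee t u v) := by
  refine CI.add ?_ (CI.of_lc (lc_ip h.toTB hu hv))
  refine CI.sum _ fun i _ => CI.sum _ fun j _ => CI.sum _ fun a _ => CI.sum _ fun c _ => ?_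
  exact CI.mul_left ((Bd.of_ll (tll h.toTB.toTF i j)).mul (Bd.of_ll (tll h.toTB.toTF a c)) |>.mul
    (Bd.pd (hu a).1 i)) (CI.pd (hv c) j)

theorem ci_sp (h : TE V t c C) {Q : E n → ℝ} (hQ : LC Q) (a i : Fin n) : CI (SP V t a i Q) := by
  have ht : ∀ i j, Bd (fun x => t x i j) := fun i j => Bd.of_ll (tll h.toTB.toTF i j)
  have hVV : ∀ i j, Bd (pd i (pd j V)) := fun i j =>
    Bd.of_cont (FlatB.continuous_hess h.V2 i j)
  refine CI.sub (CI.add (CI.add ?_ ?_) ?_) ?_
  · exact CI.mul_left (Bd.sum _ fun b _ => Bd.sum _ fun e _ => ((ht i e).mul (hVV e b)).mul (ht a b))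
      (CI.of_lc hQ)
  · exact CI.sum _ fun b _ => CI.mul_left (bd_Dt h.toTB.toTF (tll h.toTB.toTF i a) b) (CI.pd hQ b)
  · exact CI.mul_left (Bd.sum _ fun b _ => Bd.sum _ fun e _ =>
      (Bd.pd (tll h.toTB.toTF i e) b).mul (Bd.pd (tll h.toTB.toTF a b) e)) (CI.of_lc hQ)
  · exact CI.mul_left (ht i a) (CI.of_lc hQ)

theorem I_cmul (k : ℝ) (f : E n → ℝ) : I V (fun x => k * f x) = k * I V f := by
  unfold I
  rw [← integral_const_mul]
  congr 1; ext x; ring

/-- the integral of `ee + (1/2) ∑ stat` is the integral of `ee` -/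
theorem int_sp (h : TE V t c C) {u β : E n → Fin n → ℝ} (hu : LCF u) (hβ : LCF β) :
    I V (fun x => ee t u β x + 1 / 2 * ∑ a, ∑ i, SP V t a i (fun y => u y a * β y i) x) =
      I V (ee t u β) := by
  have hVc : Continuous V := h.V2.continuous
  have hQ : ∀ a i, LC (fun y => u y a * β y i) := fun a i => LC.mul_left (hu a).1 (hβ i)
  have h1 : CI (fun x => ∑ a, ∑ i, SP V t a i (fun y => u y a * β y i) x) :=
    CI.sum _ fun a _ => CI.sum _ fun i _ => ci_sp h (hQ a i) a i
  have h2 : CI (fun x => 1 / 2 * ∑ a, ∑ i, SP V t a i (fun y => u y a * β y i) x) :=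
    CI.mul_left (Bd.of_cont continuous_const) h1
  rw [I_add hVc (ci_ee h hu hβ) h2, I_cmul,
    I_sum _ hVc (fun a _ => CI.sum _ fun i _ => ci_sp h (hQ a i) a i)]
  have h3 : ∀ a, I V (fun x => ∑ i, SP V t a i (fun y => u y a * β y i) x) = 0 := by
    intro a
    rw [I_sum _ hVc (fun i _ => ci_sp h (hQ a i) a i)]
    exact Finset.sum_eq_zero fun i _ => stat_pair h.toTB.toTF (hQ a i) a i
  simp only [h3, Finset.sum_const_zero, mul_zero, add_zero]

theorem lcf_ae {u : E n → Fin n → ℝ} (hu : LCF u) : ∀ᵐ x, Du1 u x := by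
  unfold Du1
  exact ae_all_iff.2 fun a => (hu a).ae_diff

/-- `I (Dip + Ric) = I ee` -/
theorem form_eq (h : TE V t c C) {u β : E n → Fin n → ℝ} (hu : LCF u) (hβ : LCF β) :
    I V (fun x => Dip t u β x + Ric V t u β x) = I V (ee t u β) := by
  rw [← int_sp h hu hβ]
  refine I_congr ?_
  filter_upwards [tae h.toTB.toTF, h.tot, lcf_ae hu, lcf_ae hβ] with x h1 h2 h3 h4
  exact dip_ric (TE.posDef h x) h.symm h1 h2 h3 h4

theorem hess_nonneg {c1 C1 : ℝ} (hV : Reg V c1 C1) (x v : E n) : 0 ≤ qf (hess V x) v :=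
  le_trans (mul_nonneg hV.c_pos.le (by positivity)) (hV.lower x v)

theorem kid : StmtKID := by
  intro n V t c C h v hv w hw hw0 δ hδ
  have hVc : Continuous V := h.V2.continuous
  obtain ⟨c1, C1, hR⟩ := h.reg
  have hTE : TE V t c C := h.toTE
  set β : E n → Fin n → ℝ := fun x a => w x / nrm t δ v x * v x a with hβd
  have hβ : LCF β := lcf_test hTE hv hδ hw
  rw [← int_sp hTE hv hβ]
  have hq : LocallyLipschitz (nrm t δ v) := ll_nrm hTE hv hδ
  have hwip : CI (fun x => w x * ip t v v x / nrm t δ v x) := by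
    have : (fun x => w x * ip t v v x / nrm t δ v x) =
        fun x => (w x / nrm t δ v x) * ip t v v x := by
      funext x; ring
    rw [this]
    exact CI.of_lc ((lc_div hTE hv hδ hw).mul_right (lc_ip h.toTB hv hv).1)
  have hQ : ∀ a i, LC (fun y => v y a * β y i) := fun a i => LC.mul_left (hv a).1 (hβ i)
  have h1 : CI (fun x => ee t v β x + 1 / 2 * ∑ a, ∑ i, SP V t a i (fun y => v y a * β y i) x) :=
    (ci_ee hTE hv hβ).add (CI.mul_left (Bd.of_cont continuous_const)
      (CI.sum _ fun a _ => CI.sum _ fun i _ => ci_sp hTE (hQ a i) a i))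
  have h2 : CI (fun x => 1 / 2 * (w x * ip t v v x / nrm t δ v x)) :=
    CI.mul_left (Bd.of_cont continuous_const) hwip
  have h3 : CI (Gam t w (nrm t δ v)) := ci_gam hTE hw hq
  have e1 : I V (Gam t w (nrm t δ v)) + 1 / 2 * I V (fun x => w x * ip t v v x / nrm t δ v x) =
      I V (fun x => Gam t w (nrm t δ v) x + 1 / 2 * (w x * ip t v v x / nrm t δ v x)) := by
    rw [I_add hVc h3 h2, I_cmul]
  rw [e1]
  refine I_mono hVc (h3.add h2) h1 ?_
  filter_upwards [tae h.toTB.toTF, h.tot, lcf_ae hv, lcf_ae hβ, hw.ae_diff] with x g1 g2 g3 g4 g5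
  have hT := TE.posDef hTE x
  rw [← dip_ric hT h.symm g1 g2 g3 g4]
  have k1 := Dip_test_le hδ hT h.symm g1 g3 g5 (hw0 x)
  have k2 := Ric_ge (V := V) hT h.symm g2 (hess_nonneg hR x) v
  have k3 : Ric V t v β x = w x / nrm t δ v x * Ric V t v v x :=
    Ric_smul x (fun y => w y / nrm t δ v y) v v
  have k4 : 0 ≤ w x / nrm t δ v x := div_nonneg (hw0 x) (nrm_pos hδ hT (u := v)).le
  have k5 := mul_le_mul_of_nonneg_left k2 k4
  rw [k3]
  have k6 : w x * ip t v v x / nrm t δ v x = w x / nrm t δ v x * ip t v v x := by ring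
  rw [k6]
  linarith

end Vale.Agent.P245.K.KID
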