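import Vale.Agent.P245.K.Iface
import Vale.Agent.P245.K.Fld
import Vale.Agent.P245.K2.KatoB

/-!
P245 (KLS project), row KID, algebra (helper828).
-/

set_option linter.all false

open MeasureTheory Filter Topology Set Metric
open scoped NNReal ENNReal ContDiff Matrix
open Vale.Agent.P227.M Vale.Agent.P227.M.K814 Vale.Agent.P254 Vale.Agent.P254.SN
open Vale.Agent.P245.K828 Vale.Agent.P245.K

namespace Vale.Agent.P245.K.KID

variable {n : ℕ}

theorem tr_expand2 {T : Matrix (Fin n) (Fin n) ℝ} (hT : T.PosDef)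
    (M K M' K' : Matrix (Fin n) (Fin n) ℝ) (hK : (T * K)ᵀ = T * K) (hK' : (T * K')ᵀ = T * K') :
    ((M * T + (1/2 : ℝ) • K) * T⁻¹ * (M' * T + (1/2 : ℝ) • K')ᵀ * T).trace =
      (M * T * M'ᵀ * T).trace + (1/2) * (T * K * M'ᵀ).trace + (1/2) * (T * K' * Mᵀ).trace
        + (1/4) * (K * K').trace := by
  have hdet : IsUnit T.det := (Matrix.isUnit_iff_isUnit_det T).1 hT.isUnit
  have hTT : T * T⁻¹ = 1 := Matrix.mul_nonsing_inv T hdet
  have hTT' : T⁻¹ * T = 1 := Matrix.nonsing_inv_mul T hdet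
  have hTs : Tᵀ = T := by
    have := hT.isHermitian.eq
    rwa [Matrix.conjTranspose_eq_transpose_of_trivial] at this
  have hKT : K'ᵀ * T = T * K' := by
    rw [Matrix.transpose_mul, hTs] at hK'
    exact hK'
  have e1 : (M * T + (1/2 : ℝ) • K) * T⁻¹ = M + (1/2 : ℝ) • (K * T⁻¹) := by
    rw [Matrix.add_mul, Matrix.mul_assoc, hTT, Matrix.mul_one, Matrix.smul_mul]
  have e2 : (M' * T + (1/2 : ℝ) • K')ᵀ * T = T * M'ᵀ * T + (1/2 : ℝ) • (T * K') := by
    rw [Matrix.transpose_add, Matrix.transpose_mul, hTs, Matrix.transpose_smul, Matrix.add_mul,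
      Matrix.smul_mul, hKT]
  rw [Matrix.mul_assoc, e1, e2]
  have e3 : (M + (1/2 : ℝ) • (K * T⁻¹)) * (T * M'ᵀ * T + (1/2 : ℝ) • (T * K')) =
      M * T * M'ᵀ * T + (1/2 : ℝ) • (M * T * K') + (1/2 : ℝ) • (K * M'ᵀ * T)
        + (1/4 : ℝ) • (K * K') := by
    have h1 : K * T⁻¹ * (T * M'ᵀ * T) = K * M'ᵀ * T := by
      calc K * T⁻¹ * (T * M'ᵀ * T) = K * (T⁻¹ * T) * M'ᵀ * T := by simp only [Matrix.mul_assoc]
        _ = _ := by rw [hTT', Matrix.mul_one]
    have h2 : K * T⁻¹ * (T * K') = K * K' := by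
      calc K * T⁻¹ * (T * K') = K * (T⁻¹ * T) * K' := by simp only [Matrix.mul_assoc]
        _ = _ := by rw [hTT', Matrix.mul_one]
    rw [Matrix.add_mul, Matrix.mul_add, Matrix.mul_add, Matrix.smul_mul, Matrix.smul_mul,
      Matrix.mul_smul, Matrix.mul_smul, h1, h2, smul_smul]
    have h3 : M * (T * M'ᵀ * T) = M * T * M'ᵀ * T := by simp only [Matrix.mul_assoc]
    have h4 : M * (T * K') = M * T * K' := by simp only [Matrix.mul_assoc]
    rw [h3, h4]
    norm_num
    abel
  rw [e3, Matrix.trace_add, Matrix.trace_add, Matrix.trace_add, Matrix.trace_smul,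
    Matrix.trace_smul, Matrix.trace_smul]
  have h5 : (M * T * K').trace = (T * K' * Mᵀ).trace := by
    rw [← Matrix.trace_transpose, Matrix.mul_assoc, Matrix.transpose_mul, hK']
  have h6 : (K * M'ᵀ * T).trace = (T * K * M'ᵀ).trace := by
    rw [Matrix.trace_mul_comm, ← Matrix.mul_assoc]
  rw [h5, h6]
  simp only [smul_eq_mul]
  ring

/-- one-point identity, all objects as arrays: `P k b c = ∂_k t_bc` -/
theorem alg_main {T : Matrix (Fin n) (Fin n) ℝ} (hT : T.PosDef) (hs : ∀ i j, T i j = T j i)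
    (P : Fin n → Fin n → Fin n → ℝ) (hP : ∀ k b c, P k b c = P k c b)
    (htot : ∀ d b k, ∑ e, T d e * P e b k = ∑ e, T b e * P e d k)
    (M M' : Fin n → Fin n → ℝ) (u u' : Fin n → ℝ) :
    BT T (fun k a => M k a + 1 / 2 * ∑ c, (∑ b, T⁻¹ a b * P k b c) * u c)
        (fun k a => M' k a + 1 / 2 * ∑ c, (∑ b, T⁻¹ a b * P k b c) * u' c) =
      BT T M M'
      + 1 / 2 * (∑ a, ∑ i, ∑ b, (∑ e, T b e * P e i a) * (M b a * u' i + u a * M' b i))
      + 1 / 4 * (∑ a, ∑ i, (∑ b, ∑ e, P b i e * P e a b) * u a * u' i) := by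
  have hdet : IsUnit T.det := (Matrix.isUnit_iff_isUnit_det T).1 hT.isUnit
  have hTT : T * T⁻¹ = 1 := Matrix.mul_nonsing_inv T hdet
  have hTs : Tᵀ = T := by ext i j; exact hs j i
  -- the matrix K
  have key : ∀ (M : Fin n → Fin n → ℝ) (u : Fin n → ℝ),
      Matrix.of (fun k a => M k a + 1 / 2 * ∑ c, (∑ b, T⁻¹ a b * P k b c) * u c) * T =
        Matrix.of M * T + (1/2 : ℝ) • Matrix.of (fun k e => ∑ i, u i * P k i e) := by
    intro M u
    ext k e
    rw [Matrix.add_apply, Matrix.mul_apply, Matrix.mul_apply, Matrix.smul_apply, Matrix.of_apply]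
    simp only [Matrix.of_apply, smul_eq_mul]
    simp only [add_mul, Finset.sum_add_distrib]
    congr 1
    have e1 : ∀ a, 1 / 2 * (∑ c, (∑ b, T⁻¹ a b * P k b c) * u c) * T a e =
        1 / 2 * ∑ c, ∑ b, (T e a * T⁻¹ a b) * (P k b c * u c) := by
      intro a
      rw [mul_assoc, Finset.sum_mul]
      congr 1
      refine Finset.sum_congr rfl fun c _ => ?_
      rw [Finset.sum_mul, Finset.sum_mul]
      refine Finset.sum_congr rfl fun b _ => ?_
      rw [hs a e]; ring
    simp only [e1]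
    rw [← Finset.mul_sum]
    congr 1
    rw [Finset.sum_comm]
    refine Finset.sum_congr rfl fun c _ => ?_
    rw [Finset.sum_comm]
    have e2 : ∀ b, ∑ a, T e a * T⁻¹ a b * (P k b c * u c) = (if e = b then 1 else 0) * (P k b c * u c) := by
      intro b
      rw [← Finset.sum_mul]
      have : ∑ a, T e a * T⁻¹ a b = (T * T⁻¹) e b := rfl
      rw [this, hTT, Matrix.one_apply]
    simp only [e2, ite_mul, one_mul, zero_mul, Finset.sum_ite_eq, Finset.mem_univ, if_true]
    rw [hP k e c, mul_comm]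
  have hKs : ∀ u : Fin n → ℝ, (T * Matrix.of (fun k e => ∑ i, u i * P k i e))ᵀ =
      T * Matrix.of (fun k e => ∑ i, u i * P k i e) := by
    intro u
    ext c e
    rw [Matrix.transpose_apply, Matrix.mul_apply, Matrix.mul_apply]
    have h1 : ∀ c e, ∑ b, T c b * Matrix.of (fun k e => ∑ i, u i * P k i e) b e =
        ∑ i, u i * ∑ b, T c b * P b i e := by
      intro c e
      simp only [Matrix.of_apply, Finset.mul_sum]
      rw [Finset.sum_comm]
      exact Finset.sum_congr rfl fun i _ => Finset.sum_congr rfl fun b _ => by ring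
    rw [h1, h1]
    refine Finset.sum_congr rfl fun i _ => ?_
    congr 1
    have h2 : ∑ b, T e b * P b i c = ∑ b, T i b * P b e c := htot e i c
    have h3 : ∑ b, T c b * P b i e = ∑ b, T i b * P b c e := htot c i e
    rw [h2, h3]
    exact Finset.sum_congr rfl fun b _ => by rw [hP b e c]
  set K := Matrix.of (fun k e => ∑ i, u i * P k i e) with hK
  set K' := Matrix.of (fun k e => ∑ i, u' i * P k i e) with hK'
  rw [BT_eq hs]
  have e4 : Matrix.of (fun k a => M k a + 1 / 2 * ∑ c, (∑ b, T⁻¹ a b * P k b c) * u c) * T *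
      (Matrix.of (fun k a => M' k a + 1 / 2 * ∑ c, (∑ b, T⁻¹ a b * P k b c) * u' c))ᵀ * T =
      (Matrix.of M * T + (1/2 : ℝ) • K) * T⁻¹ * (Matrix.of M' * T + (1/2 : ℝ) • K')ᵀ * T := by
    have s1 := key M u
    have s2 := key M' u'
    rw [← s1, ← s2, Matrix.transpose_mul, hTs]
    have s3 : ∀ D D' : Matrix (Fin n) (Fin n) ℝ, D * T * T⁻¹ * (T * D') * T = D * T * D' * T := by
      intro D D'
      rw [Matrix.mul_assoc D T T⁻¹, hTT, Matrix.mul_one]
      simp only [Matrix.mul_assoc]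
    rw [s3]
  rw [e4, tr_expand2 hT _ _ _ _ (hKs u) (hKs u'), ← BT_eq hs]
  -- the two mixed terms
  have h1 : ∀ (M' : Fin n → Fin n → ℝ) (u : Fin n → ℝ),
      (T * Matrix.of (fun k e => ∑ i, u i * P k i e) * (Matrix.of M')ᵀ).trace =
        ∑ b, ∑ e, ∑ i, (∑ k, T b k * P k i e) * (u i * M' b e) := by
    intro M' u
    unfold Matrix.trace
    refine Finset.sum_congr rfl fun b _ => ?_
    rw [Matrix.diag_apply, Matrix.mul_apply]
    refine Finset.sum_congr rfl fun e _ => ?_
    rw [Matrix.mul_apply, Finset.sum_mul]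
    simp only [Matrix.of_apply, Matrix.transpose_apply, Finset.sum_mul, Finset.mul_sum]
    rw [Finset.sum_comm]
    exact Finset.sum_congr rfl fun i _ => Finset.sum_congr rfl fun k _ => by ring
  have h2 : (T * K * (Matrix.of M')ᵀ).trace =
      ∑ a, ∑ i, ∑ b, (∑ e, T b e * P e i a) * (u a * M' b i) := by
    rw [hK, h1]
    calc ∑ b, ∑ e, ∑ i, (∑ k, T b k * P k i e) * (u i * M' b e)
        = ∑ b, ∑ i, ∑ e, (∑ k, T b k * P k i e) * (u i * M' b e) :=
          Finset.sum_congr rfl fun b _ => Finset.sum_comm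
      _ = ∑ i, ∑ b, ∑ e, (∑ k, T b k * P k i e) * (u i * M' b e) := Finset.sum_comm
      _ = ∑ i, ∑ e, ∑ b, (∑ k, T b k * P k i e) * (u i * M' b e) :=
          Finset.sum_congr rfl fun b _ => Finset.sum_comm
      _ = _ := by
        refine Finset.sum_congr rfl fun a _ => Finset.sum_congr rfl fun i _ =>
          Finset.sum_congr rfl fun b _ => ?_
        congr 1
        exact Finset.sum_congr rfl fun e _ => by rw [hP e a i]
  have h3 : (T * K' * (Matrix.of M)ᵀ).trace =
      ∑ a, ∑ i, ∑ b, (∑ e, T b e * P e i a) * (M b a * u' i) := by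
    rw [hK', h1]
    calc ∑ b, ∑ e, ∑ i, (∑ k, T b k * P k i e) * (u' i * M b e)
        = ∑ e, ∑ b, ∑ i, (∑ k, T b k * P k i e) * (u' i * M b e) := Finset.sum_comm
      _ = ∑ e, ∑ i, ∑ b, (∑ k, T b k * P k i e) * (u' i * M b e) :=
          Finset.sum_congr rfl fun b _ => Finset.sum_comm
      _ = _ := by
        refine Finset.sum_congr rfl fun a _ => Finset.sum_congr rfl fun i _ =>
          Finset.sum_congr rfl fun b _ => ?_
        ring
  have h4 : (K * K').trace = ∑ a, ∑ i, (∑ b, ∑ e, P b i e * P e a b) * u a * u' i := by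
    unfold Matrix.trace
    simp only [Matrix.diag_apply, Matrix.mul_apply, hK, hK', Matrix.of_apply]
    simp only [Finset.sum_mul, Finset.mul_sum]
    calc ∑ e, ∑ b, ∑ i, ∑ a, u a * P e a b * (u' i * P b i e)
        = ∑ e, ∑ b, ∑ a, ∑ i, u a * P e a b * (u' i * P b i e) :=
          Finset.sum_congr rfl fun b _ => Finset.sum_congr rfl fun b _ => Finset.sum_comm
      _ = ∑ e, ∑ a, ∑ b, ∑ i, u a * P e a b * (u' i * P b i e) :=
          Finset.sum_congr rfl fun b _ => Finset.sum_comm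
      _ = ∑ a, ∑ e, ∑ b, ∑ i, u a * P e a b * (u' i * P b i e) := Finset.sum_comm
      _ = ∑ a, ∑ e, ∑ i, ∑ b, u a * P e a b * (u' i * P b i e) :=
          Finset.sum_congr rfl fun b _ => Finset.sum_congr rfl fun b _ => Finset.sum_comm
      _ = ∑ a, ∑ i, ∑ e, ∑ b, u a * P e a b * (u' i * P b i e) :=
          Finset.sum_congr rfl fun b _ => Finset.sum_comm
      _ = ∑ a, ∑ i, ∑ b, ∑ e, u a * P e a b * (u' i * P b i e) :=
          Finset.sum_congr rfl fun b _ => Finset.sum_congr rfl fun b _ => Finset.sum_comm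
      _ = _ := by
        refine Finset.sum_congr rfl fun a _ => Finset.sum_congr rfl fun i _ =>
          Finset.sum_congr rfl fun b _ => Finset.sum_congr rfl fun e _ => ?_
        ring
  rw [h2, h3, h4]
  have h5 : ∑ a, ∑ i, ∑ b, (∑ e, T b e * P e i a) * (M b a * u' i + u a * M' b i) =
      ∑ a, ∑ i, ∑ b, (∑ e, T b e * P e i a) * (u a * M' b i)
      + ∑ a, ∑ i, ∑ b, (∑ e, T b e * P e i a) * (M b a * u' i) := by
    simp only [← Finset.sum_add_distrib]
    exact Finset.sum_congr rfl fun a _ => Finset.sum_congr rfl fun i _ =>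
      Finset.sum_congr rfl fun b _ => by ring
  rw [h5]
  ring

end Vale.Agent.P245.K.KID
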