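import Vale.Agent.P245.K.StepA

/-!
P245, block K, row STEP (helper386), final part: `StmtStep0` and `StmtStep`.
-/

set_option linter.all false

open MeasureTheory Filter Topology Set
open scoped NNReal ENNReal ContDiff Matrix
open Vale.Agent.P227.M Vale.Agent.P227.M.K814 Vale.Agent.P254.SN

namespace Vale.Agent.P245.K.StepRow

open Vale.Agent.P245.K Vale.Agent.P245.K.Step
open Vale.Agent.P245.H464 (mu integral_mu integrable_mu mu_ac ac_mu)
open Vale.Agent.P245.K2.StepOp837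

variable {n : ℕ} {V : E n → ℝ} {t : E n → Matrix (Fin n) (Fin n) ℝ} {c C : ℝ}

/-! ### boundedness -/

theorem bd_ae (hV : Continuous V) {f : E n → ℝ} (hm : Measurable f) {K : ℝ}
    (h : ∀ᵐ x, |f x| ≤ K) : Bd (mu V) f :=
  ⟨hm.aestronglyMeasurable, K, (ae_mu hV).2 h⟩

theorem bd_vol (hV : Continuous V) {f : E n → ℝ} (h : Bd (mu V) f) : ∃ K, ∀ᵐ x, |f x| ≤ K := by
  obtain ⟨hm, K, hK⟩ := h
  exact ⟨K, (ae_mu hV).1 hK⟩

theorem mf_meas {G : E n → Matrix (Fin n) (Fin n) ℝ}
    {DG : Fin n → E n → Matrix (Fin n) (Fin n) ℝ} {δ B : ℝ} (h : MF V G DG δ B) (i j : Fin n) :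
    Measurable fun x => G x i j := (h.h1 i j).u2.1

theorem mf_measD {G : E n → Matrix (Fin n) (Fin n) ℝ}
    {DG : Fin n → E n → Matrix (Fin n) (Fin n) ℝ} {δ B : ℝ} (h : MF V G DG δ B) (a i j : Fin n) :
    Measurable fun x => DG a x i j := ((h.h1 i j).D2 a).1

theorem mf_mb (hB : Base V t c C) {G : E n → Matrix (Fin n) (Fin n) ℝ}
    {DG : Fin n → E n → Matrix (Fin n) (Fin n) ℝ} {δ B : ℝ} (h : MF V G DG δ B) : MB (mu V) G :=
  fun i j => bd_ae (contV hB) (mf_meas h i j) (h.upp.mono fun x hx => hx i j)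

theorem mf_low (hB : Base V t c C) {G : E n → Matrix (Fin n) (Fin n) ℝ}
    {DG : Fin n → E n → Matrix (Fin n) (Fin n) ℝ} {δ B : ℝ} (h : MF V G DG δ B) :
    ∀ᵐ x ∂(mu V), ∀ v : Fin n → ℝ, δ * ∑ i, v i ^ 2 ≤ v ⬝ᵥ (G x *ᵥ v) := by
  refine (ae_mu (contV hB)).2 (h.low.mono fun x hx v => ?_)
  rw [quad_form]
  exact hx v

theorem mf_pd (hB : Base V t c C) {G : E n → Matrix (Fin n) (Fin n) ℝ}
    {DG : Fin n → E n → Matrix (Fin n) (Fin n) ℝ} {δ B : ℝ} (h : MF V G DG δ B) :
    ∀ᵐ x ∂(mu V), (G x).PosDef :=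
  (mf_low hB h).mono fun x hx => posDef_of_low (h.symm x) h.d_pos hx

theorem mf_inv (hB : Base V t c C) {G : E n → Matrix (Fin n) (Fin n) ℝ}
    {DG : Fin n → E n → Matrix (Fin n) (Fin n) ℝ} {δ B : ℝ} (h : MF V G DG δ B) :
    MB (mu V) fun x => (G x)⁻¹ :=
  MB.inv (mf_mb hB h) (Eventually.of_forall fun x => h.symm x) h.d_pos (mf_low hB h)

theorem mf_fm (hB : Base V t c C) {G : E n → Matrix (Fin n) (Fin n) ℝ}
    {DG : Fin n → E n → Matrix (Fin n) (Fin n) ℝ} {δ B : ℝ} (h : MF V G DG δ B)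
    (z : Fin n → ℝ) : MB (mu V) (fm DG z) := by
  intro k a
  simp only [fm_apply]
  exact Bd.sum _ fun l _ => Bd.const_mul _
    (bd_ae (contV hB) (mf_measD h a k l) (h.dupp.mono fun x hx => hx a k l))

/-- `nt t α` is bounded for bounded `α` -/
theorem nt_bd (hB : Base V t c C) {α : E n → Fin n → ℝ} (h : ∀ a, Bd (mu V) fun x => α x a) :
    Bd (mu V) (nt t α) := by
  have h1 : Bd (mu V) (ip t α α) := by
    unfold ip
    exact Bd.sum _ fun a _ => Bd.sum _ fun b _ => ((t_bd hB a b).mul (h a)).mul (h b)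
  exact h1.sqrt

/-- gradients of the next matrix function are bounded -/
theorem dupp_G (hForm : StmtForm) (hLin : K.StmtLin) (hPos : StmtPos) (hComm : StmtComm)
    (hKato : StmtKato) (hB : Base V t c C) {s : ℝ} (hs : 0 < s) {δ B : ℝ}
    {H G AG : E n → Matrix (Fin n) (Fin n) ℝ} {DH DG : Fin n → E n → Matrix (Fin n) (Fin n) ℝ}
    (hH : MF V H DH δ B)
    (hG : ∀ i j, Dom V t (fun x => G x i j) (fun a x => DG a x i j) (fun x => AG x i j))
    (he : ∀ᵐ x, ∀ i j, G x i j + s * AG x i j = H x i j) :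
    ∃ K : ℝ, ∀ᵐ x, ∀ a i j, |DG a x i j| ≤ K := by
  have hV := contV hB
  have h1 : ∀ i j : Fin n, ∃ K : ℝ, ∀ᵐ x, ∀ a, |DG a x i j| ≤ K := by
    intro i j
    have hR := hComm n V t c C hB s hs _ _ (hH.h1 i j) _ _ _ (hG i j) (he.mono fun x hx => hx i j)
    have hb : Bd (mu V) (nt t (fun x a => DH a x i j)) :=
      nt_bd hB fun a => bd_ae hV (mf_measD hH a i j) (hH.dupp.mono fun x hx => hx a i j)
    obtain ⟨Dp, Ap, hDp, hep⟩ := pop_sol hLin hB hs hb
    have hk := hKato n V t c C hB s hs _ _ hR _ _ _ hDp hep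
    obtain ⟨K, hK⟩ := bd_vol hV (sol_bd hLin hPos hB hs hb (pop_sol hLin hB hs hb))
    refine ⟨(Real.sqrt c)⁻¹ * K, ?_⟩
    filter_upwards [hk, hK] with x h2 h3 a
    have h4 := abs_le_nt hB (fun x a => DG a x i j) x a
    refine h4.trans (mul_le_mul_of_nonneg_left ?_ (inv_nonneg.mpr (Real.sqrt_nonneg _)))
    exact h2.trans ((le_abs_self _).trans h3)
  choose K hK using h1
  refine ⟨∑ i, ∑ j, |K i j|, ?_⟩
  have h2 : ∀ᵐ x, ∀ i j a, |DG a x i j| ≤ K i j :=
    ae_all_iff.2 fun i => ae_all_iff.2 fun j => hK i j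
  filter_upwards [h2] with x hx a i j
  refine (hx i j a).trans ((le_abs_self _).trans ?_)
  have h3 : |K i j| ≤ ∑ j, |K i j| :=
    Finset.single_le_sum (f := fun j => |K i j|) (fun j _ => abs_nonneg _) (Finset.mem_univ j)
  have h4 : ∑ j, |K i j| ≤ ∑ i, ∑ j, |K i j| :=
    Finset.single_le_sum (f := fun i => ∑ j, |K i j|)
      (fun i _ => Finset.sum_nonneg fun j _ => abs_nonneg _) (Finset.mem_univ i)
  exact h3.trans h4

theorem mf_G (hForm : StmtForm) (hLin : K.StmtLin) (hPos : StmtPos) (hComm : StmtComm)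
    (hKato : StmtKato) (hB : Base V t c C) {s : ℝ} (hs : 0 < s) {δ B : ℝ}
    {H G AG : E n → Matrix (Fin n) (Fin n) ℝ} {DH DG : Fin n → E n → Matrix (Fin n) (Fin n) ℝ}
    (hH : MF V H DH δ B)
    (hG : ∀ i j, Dom V t (fun x => G x i j) (fun a x => DG a x i j) (fun x => AG x i j))
    (hs1 : ∀ x i j, G x i j = G x j i) (hs2 : ∀ a x i j, DG a x i j = DG a x j i)
    (he : ∀ᵐ x, ∀ i j, G x i j + s * AG x i j = H x i j) :
    ∃ B', MF V G DG δ B' := by
  obtain ⟨K, hK⟩ := dupp_G hForm hLin hPos hComm hKato hB hs hH hG he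
  refine ⟨max B K, hH.d_pos, hs1, low_G hLin hPos hB hs hH.low hG he, ?_,
    fun i j => (hLin n V t c C hB).2.1 _ _ _ (hG i j), hs2, ?_⟩
  · exact (upp_G hLin hPos hB hs hH.upp hG he).mono fun x hx i j =>
      (hx i j).trans (le_max_left _ _)
  · exact hK.mono fun x hx a i j => (hx a i j).trans (le_max_right _ _)

/-- the rows of `fm` -/
theorem r1_fm (hR1E : StmtR1E) (hR1S : StmtR1S) (hComm : StmtComm) (hB : Base V t c C) {s : ℝ}
    (hs : 0 < s) {δ B : ℝ}
    {H G AG : E n → Matrix (Fin n) (Fin n) ℝ} {DH DG : Fin n → E n → Matrix (Fin n) (Fin n) ℝ}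
    (hH : MF V H DH δ B)
    (hG : ∀ i j, Dom V t (fun x => G x i j) (fun a x => DG a x i j) (fun x => AG x i j))
    (he : ∀ᵐ x, ∀ i j, G x i j + s * AG x i j = H x i j) (z : Fin n → ℝ) (k : Fin n) :
    R1 V t s (fun x a => fm DH z x k a) (fun x a => fm DG z x k a) :=
  r1_sum hR1E hR1S hB hs Finset.univ z fun l =>
    hComm n V t c C hB s hs _ _ (hH.h1 k l) _ _ _ (hG k l) (he.mono fun x hx => hx k l)

/-- the operator on families of covector fields: duality and domination -/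
theorem hR_of (hForm : StmtForm) (hLin : K.StmtLin) (hPos : StmtPos) (hR1E : StmtR1E)
    (hR1S : StmtR1S) (hKato : StmtKato) (hB : Base V t c C) {s : ℝ} (hs : 0 < s)
    {a b : E n → Matrix (Fin n) (Fin n) ℝ} (ab : MB (mu V) a) (bb : MB (mu V) b)
    (hab : ∀ k, R1 V t s (fun x i => a x k i) (fun x i => b x k i))
    (w : E n → Matrix (Fin n) (Fin n) ℝ) (hw : MB (mu V) w) :
    ∃ c' : E n → Matrix (Fin n) (Fin n) ℝ,
      (∫ x, (w x * t x * (b x)ᵀ).trace ∂(mu V) = ∫ x, (c' x * t x * (a x)ᵀ).trace ∂(mu V)) ∧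
      ∀ v : Fin n → ℝ, ∀ᵐ x ∂(mu V), v ⬝ᵥ ((c' x * t x * (c' x)ᵀ) *ᵥ v) ≤
        (Pop V t s (fun y => Real.sqrt (v ⬝ᵥ ((w y * t y * (w y)ᵀ) *ᵥ v))) x) ^ 2 := by
  have hV := contV hB
  haveI := finite_mu hLin hB
  -- measurable version
  set g : Fin n → E n → Fin n → ℝ := fun k x i => (hw k i).1.mk (fun x => w x k i) x with hg
  have hgm : ∀ k i, Measurable fun x => g k x i := fun k i =>
    (hw k i).1.stronglyMeasurable_mk.measurable
  have hge : ∀ᵐ x, ∀ k i, w x k i = g k x i :=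
    ae_all_iff.2 fun k => ae_all_iff.2 fun i => (ae_mu hV).1 (hw k i).1.ae_eq_mk
  have hgb : ∀ k i, Bd (mu V) fun x => g k x i := fun k i =>
    (hw k i).congr (hw k i).1.ae_eq_mk
  have hg2 : ∀ k i, L2 V fun x => g k x i := fun k i =>
    ⟨hgm k i, (integrable_mu hV _).1 (hgb k i).pow_two.integrable⟩
  have hex : ∀ k, ∃ U, R1 V t s (g k) U := fun k => hR1E n V t c C hB s hs (g k) (hg2 k)
  choose U hU using hex
  refine ⟨fun x => Matrix.of fun k i => U k x i, ?_, ?_⟩
  · -- duality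
    have e1 : ∫ x, (w x * t x * (b x)ᵀ).trace ∂(mu V) =
        ∑ k, I V (ip t (g k) (fun x i => b x k i)) := by
      have f1 : ∀ᵐ x ∂(mu V), (w x * t x * (b x)ᵀ).trace =
          ∑ k, ip t (g k) (fun x i => b x k i) x := by
        refine (ae_mu hV).2 (hge.mono fun x hx => ?_)
        rw [tr_ip]
        refine Finset.sum_congr rfl fun k _ => ?_
        unfold ip
        refine Finset.sum_congr rfl fun p _ => Finset.sum_congr rfl fun q _ => ?_
        rw [hx k p]
      rw [integral_congr_ae f1, integral_finset_sum _ fun k _ => ?_]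
      · exact Finset.sum_congr rfl fun k _ => int_mu hV _
      · unfold ip
        exact (Bd.sum _ fun p _ => Bd.sum _ fun q _ =>
          ((t_bd hB p q).mul (hgb k p)).mul (bb k q)).integrable
    have e2 : ∫ x, ((Matrix.of fun k i => U k x i) * t x * (a x)ᵀ).trace ∂(mu V) =
        ∑ k, I V (ip t (U k) (fun x i => a x k i)) := by
      have f1 : ∀ x, ((Matrix.of fun k i => U k x i) * t x * (a x)ᵀ).trace =
          ∑ k, ip t (U k) (fun x i => a x k i) x := by
        intro x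
        rw [tr_ip]
        rfl
      simp only [f1]
      rw [integral_finset_sum _ fun k _ => ?_]
      · exact Finset.sum_congr rfl fun k _ => int_mu hV _
      · unfold ip
        refine integrable_finset_sum _ fun p _ => integrable_finset_sum _ fun q _ => ?_
        have hUi : MemLp (fun x => U k x p) 2 (mu V) :=
          (Vale.Agent.P245.H464.memLp_iff hV ((hU k).U2 p).1.aestronglyMeasurable).2
            ((hU k).U2 p).2
        have hUint : Integrable (fun x => U k x p) (mu V) := hUi.integrable (by norm_num)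
        obtain ⟨hm, K, hK⟩ := (t_bd hB p q).mul (ab k q)
        have := hUint.bdd_mul hm (c := K) (by simpa [Real.norm_eq_abs] using hK)
        refine this.congr (Eventually.of_forall fun x => ?_)
        simp only
        ring
    rw [e1, e2]
    refine Finset.sum_congr rfl fun k _ => ?_
    exact ((hR1S n V t c C hB s hs _ _ _ _ (hU k) (hab k)).1).symm
  · -- domination
    intro v
    have h1 : R1 V t s (fun x i => ∑ k, v k * g k x i) (fun x i => ∑ k, v k * U k x i) :=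
      r1_sum hR1E hR1S hB hs Finset.univ v hU
    have hwv : Bd (mu V) (fun y => Real.sqrt (v ⬝ᵥ ((w y * t y * (w y)ᵀ) *ᵥ v))) :=
      (((hw.mul (t_bd hB)).mul hw.transpose).quad v).sqrt
    obtain ⟨Dp, Ap, hDp, hep⟩ := pop_sol hLin hB hs hwv
    have h2 : ∀ᵐ x, (1 + s / 2) * Pop V t s
        (fun y => Real.sqrt (v ⬝ᵥ ((w y * t y * (w y)ᵀ) *ᵥ v))) x + s * Ap x =
        nt t (fun x i => ∑ k, v k * g k x i) x := by
      filter_upwards [hep, hge] with x h3 h4
      rw [h3]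
      unfold nt
      congr 1
      rw [quad_ip]
      unfold ip
      refine Finset.sum_congr rfl fun p _ => Finset.sum_congr rfl fun q _ => ?_
      simp only [h4]
    have h3 := hKato n V t c C hB s hs _ _ h1 _ _ _ hDp h2
    refine (ae_mu hV).2 (h3.mono fun x hx => ?_)
    have h4 : v ⬝ᵥ (((Matrix.of fun k i => U k x i) * t x * (Matrix.of fun k i => U k x i)ᵀ) *ᵥ v) =
        nt t (fun x i => ∑ k, v k * U k x i) x ^ 2 := by
      rw [nt_sq hB, quad_ip]
      rfl
    rw [h4]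
    exact pow_le_pow_left₀ (nt_nonneg _ _) hx 2

/-- CSM in the matrix form -/
theorem SS_of_CSM (hB : Base V t c C) {H : E n → Matrix (Fin n) (Fin n) ℝ}
    {DH : Fin n → E n → Matrix (Fin n) (Fin n) ℝ} {Sg : E n → Matrix (Fin n) (Fin n) ℝ} {δ B : ℝ}
    (hH : MF V H DH δ B) (h : CSM t H DH Sg) :
    ∀ᵐ x, ∀ z : Fin n → ℝ, SS (H x) (t x) (fm DH z x) ≤ ∑ k, ∑ l, Sg x k l * z k * z l := by
  filter_upwards [h, hH.low] with x hx hlow z
  have hlow' : ∀ v : Fin n → ℝ, δ * ∑ i, v i ^ 2 ≤ v ⬝ᵥ (H x *ᵥ v) := fun v => by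
    rw [quad_form]; exact hlow v
  have hpd := posDef_of_low (hH.symm x) hH.d_pos hlow'
  have hT : ∀ i j, t x i j = t x j i := hB.toTE.symm x
  have key : ∀ Z : Matrix (Fin n) (Fin n) ℝ, (Z * t x * (fm DH z x)ᵀ).trace ^ 2 ≤
      (∑ k, ∑ l, Sg x k l * z k * z l) * (H x * (Z * t x * Zᵀ)).trace := by
    intro Z
    have h1 := hx z (fun a k => Z k a)
    rw [e_lin hT, e_quad hT] at h1
    exact h1
  rcases isEmpty_or_nonempty (Fin n) with hn | hn
  · have e1 : SS (H x) (t x) (fm DH z x) = 0 := by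
      simp [SS, Matrix.trace]
    have e2 : ∑ k, ∑ l, Sg x k l * z k * z l = 0 := by simp
    rw [e1, e2]
  · have hm : 0 ≤ ∑ k, ∑ l, Sg x k l * z k * z l := by
      refine m_nonneg hH.d_pos (hH.symm x) hlow' (t_psd hB x) hn ?_
      have h2 := key 1
      simp only [Matrix.one_mul, Matrix.transpose_one, Matrix.mul_one] at h2
      exact (sq_nonneg _).trans h2
    exact SS_of_cs hpd (t_psd hB x).posSemidef _ hm key

theorem CSM_of_SS (hB : Base V t c C) {G : E n → Matrix (Fin n) (Fin n) ℝ}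
    {DG : Fin n → E n → Matrix (Fin n) (Fin n) ℝ} {Sg : E n → Matrix (Fin n) (Fin n) ℝ} {δ B : ℝ}
    (hG : MF V G DG δ B)
    (h : ∀ᵐ x, ∀ z : Fin n → ℝ, SS (G x) (t x) (fm DG z x) ≤ ∑ k, ∑ l, Sg x k l * z k * z l) :
    CSM t G DG Sg := by
  filter_upwards [h, hG.low] with x hx hlow z ζ
  have hlow' : ∀ v : Fin n → ℝ, δ * ∑ i, v i ^ 2 ≤ v ⬝ᵥ (G x *ᵥ v) := fun v => by
    rw [quad_form]; exact hlow v
  have hpd := posDef_of_low (hG.symm x) hG.d_pos hlow'
  have hT : ∀ i j, t x i j = t x j i := hB.toTE.symm x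
  rw [e_lin hT, e_quad hT]
  refine (cs_of_SS hpd (t_psd hB x).posSemidef _ _).trans ?_
  exact mul_le_mul_of_nonneg_right (hx z)
    (trace_mul_nonneg hpd.posSemidef (gram_psd (t_psd hB x).posSemidef _))

/-- `P (vHv) ≤ κ vGv` -/
theorem pH_le (hLin : K.StmtLin) (hPos : StmtPos) (hB : Base V t c C) {s : ℝ} (hs : 0 < s)
    {δ B : ℝ} {H G AG : E n → Matrix (Fin n) (Fin n) ℝ}
    {DH DG : Fin n → E n → Matrix (Fin n) (Fin n) ℝ} (hH : MF V H DH δ B)
    (hG : ∀ i j, Dom V t (fun x => G x i j) (fun a x => DG a x i j) (fun x => AG x i j))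
    (he : ∀ᵐ x, ∀ i j, G x i j + s * AG x i j = H x i j) (hm : Mle AG G) (v : Fin n → ℝ) :
    ∀ᵐ x ∂(mu V), Pop V t s (fun y => v ⬝ᵥ (H y *ᵥ v)) x ≤
      ((1 + s) / (1 + 3 * s / 2)) * (v ⬝ᵥ (G x *ᵥ v)) := by
  have hb : Bd (mu V) (fun y => v ⬝ᵥ (H y *ᵥ v)) := (mf_mb hB hH).quad v
  have h1 := pop_sol hLin hB hs hb
  obtain ⟨D, hD⟩ := dom_quad hLin hB hG v
  have hp : 0 < 1 + 3 * s / 2 := by positivity
  set kap := (1 + s) / (1 + 3 * s / 2) with hkap
  have hk : kap * (1 + 3 * s / 2) = 1 + s := by rw [hkap]; field_simp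
  have hD' := (hLin n V t c C hB).1 _ _ _ _ _ _ hD hD kap 0
  have h2 : Sol V t s (fun x => (1 + s / 2) * (kap * (∑ i, ∑ j, G x i j * v i * v j) +
      0 * (∑ i, ∑ j, G x i j * v i * v j)) + s * (kap * (∑ i, ∑ j, AG x i j * v i * v j) +
      0 * (∑ i, ∑ j, AG x i j * v i * v j)))
      (fun x => kap * (∑ i, ∑ j, G x i j * v i * v j) + 0 * (∑ i, ∑ j, G x i j * v i * v j)) :=
    ⟨_, _, hD', Eventually.of_forall fun x => rfl⟩
  have h3 := sol_mono hLin hPos hB hs h1 h2 (by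
    filter_upwards [he, hm] with x h4 h5
    have h6 := h5 v
    have e1 : ∑ i, ∑ j, H x i j * v i * v j =
        ∑ i, ∑ j, G x i j * v i * v j + s * ∑ i, ∑ j, AG x i j * v i * v j := by
      rw [Finset.mul_sum, ← Finset.sum_add_distrib]
      refine Finset.sum_congr rfl fun i _ => ?_
      rw [Finset.mul_sum, ← Finset.sum_add_distrib]
      refine Finset.sum_congr rfl fun j _ => ?_
      rw [← h4 i j]
      ring
    rw [quad_form, e1]
    set g := ∑ i, ∑ j, G x i j * v i * v j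
    set ag := ∑ i, ∑ j, AG x i j * v i * v j
    -- `(1-κ) ((1+s) g - (g + s ag)) ≥ 0`
    have h7 : 0 ≤ (1 - kap) * (s * (g - ag)) := by
      refine mul_nonneg ?_ (mul_nonneg hs.le (by linarith))
      rw [hkap, sub_nonneg, div_le_one hp]
      linarith
    have h8 : (1 + s / 2) * (kap * g + 0 * g) + s * (kap * ag + 0 * ag) - (g + s * ag) =
        (1 - kap) * (s * (g - ag)) + (kap * (1 + 3 * s / 2) - (1 + s)) * g := by ring
    rw [hk] at h8
    linarith)
  refine (ae_mu (contV hB)).2 (h3.mono fun x hx => ?_)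
  rw [quad_form]
  linarith

/-- **STEP0** -/
theorem step0 (hForm : StmtForm) (hLin : K.StmtLin) (hPos : StmtPos) (hR1E : StmtR1E)
    (hR1S : StmtR1S) (hComm : StmtComm) (hKato : StmtKato) : StmtStep0 := by
  intro n V t c C hB s hs δ B H AH Sg DH hH hHD hHm hSm hSs hSb hcs G AG DG hG hs1 hs2 he W AW DW
    hW hWe
  have hV := contV hB
  haveI := finite_mu hLin hB
  obtain ⟨B', hGmf⟩ := mf_G hForm hLin hPos hComm hKato hB hs hH hG hs1 hs2 he
  have hGm : Mle AG G := mle_G hLin hPos hB hs hHD hHm hG he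
  refine ⟨⟨B', hGmf⟩, hGm, CSM_of_SS hB hGmf ?_⟩
  have hkap : 0 < (1 + s) / (1 + 3 * s / 2) := by positivity
  have hSSH := SS_of_CSM hB hH hcs
  have hSgb : MB (mu V) Sg := fun i j => bd_ae hV (hSm i j) (hSb.mono fun x hx => hx i j)
  -- `W` is bounded
  have hWs : ∀ i j, Sol V t s (fun x => Sg x i j) (fun x => W x i j) := fun i j =>
    ⟨_, _, hW i j, hWe.mono fun x hx => hx i j⟩
  have hWb : MB (mu V) W := fun i j => sol_bd hLin hPos hB hs (hSgb i j) (hWs i j)
  have key : ∀ z : Fin n → ℝ, ∀ᵐ x ∂(mu V), SS (G x) (t x) (fm DG z x) ≤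
      ((1 + s) / (1 + 3 * s / 2)) * (z ⬝ᵥ (W x *ᵥ z)) := by
    intro z
    have hb1 : Bd (mu V) (fun y => z ⬝ᵥ (Sg y *ᵥ z)) := hSgb.quad z
    refine loc (posOp hForm hLin hPos hB hs) hkap
      (Eventually.of_forall fun x => (t_psd hB x).posSemidef) (mf_pd hB hH) (mf_pd hB hGmf)
      (t_bd hB) (mf_mb hB hH) (mf_inv hB hH) (mf_mb hB hGmf) (mf_inv hB hGmf)
      (mf_fm hB hH z) (mf_fm hB hGmf z)
      (hR_of hForm hLin hPos hR1E hR1S hKato hB hs (mf_fm hB hH z) (mf_fm hB hGmf z)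
        (r1_fm hR1E hR1S hComm hB hs hH hG he z))
      (pH_le hLin hPos hB hs hH hG he hGm) hb1 (hWb.quad z) ?_ ?_
    · refine (ae_mu hV).2 (hSSH.mono fun x hx => ?_)
      rw [quad_form]
      exact hx z
    · -- `P (z Sg z) = z W z`
      obtain ⟨D, hD⟩ := dom_quad hLin hB hW z
      have h1 : Sol V t s (fun x => (1 + s / 2) * (∑ i, ∑ j, W x i j * z i * z j) +
          s * (∑ i, ∑ j, AW x i j * z i * z j)) (fun x => ∑ i, ∑ j, W x i j * z i * z j) :=
        ⟨_, _, hD, Eventually.of_forall fun x => rfl⟩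
      have h2 := sol_unique hLin hPos hB hs (pop_sol hLin hB hs hb1) h1 (by
        filter_upwards [hWe] with x hx
        rw [quad_form, Finset.mul_sum, Finset.mul_sum, ← Finset.sum_add_distrib]
        refine Finset.sum_congr rfl fun i _ => ?_
        rw [Finset.mul_sum, Finset.mul_sum, ← Finset.sum_add_distrib]
        refine Finset.sum_congr rfl fun j _ => ?_
        rw [← hx i j]
        ring)
      refine (ae_mu hV).2 (h2.mono fun x hx => ?_)
      rw [hx, quad_form]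
  have key' : ∀ z : Fin n → ℝ, ∀ᵐ x, 0 ≤ ((1 + s) / (1 + 3 * s / 2)) * (z ⬝ᵥ (W x *ᵥ z)) -
      SS (G x) (t x) (fm DG z x) := fun z =>
    ((ae_mu hV).1 (key z)).mono fun x hx => by linarith
  have h3 := ae_forall_of_forall_ae (μ := (volume : Measure (E n)))
    (F := fun (z : Fin n → ℝ) x => ((1 + s) / (1 + 3 * s / 2)) * (z ⬝ᵥ (W x *ᵥ z)) -
      SS (G x) (t x) (fm DG z x))
    (fun x => by
      refine Continuous.sub ?_ ?_
      · simp only [quad_form]
        fun_prop
      · have hf : Continuous fun z : Fin n → ℝ => fm DG z x := by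
          refine continuous_matrix fun k a => ?_
          simp only [fm_apply]
          fun_prop
        unfold SS
        exact (continuous_const.matrix_mul
          ((hf.matrix_mul continuous_const).matrix_mul hf.matrix_transpose)).matrix_trace) key'
  filter_upwards [h3] with x hx z
  have h4 := hx z
  rw [quad_form] at h4
  have e1 : ∑ k, ∑ l, (((1 + s) / (1 + 3 * s / 2)) • W x) k l * z k * z l =
      ((1 + s) / (1 + 3 * s / 2)) * ∑ i, ∑ j, W x i j * z i * z j := by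
    rw [Finset.mul_sum]
    refine Finset.sum_congr rfl fun i _ => ?_
    rw [Finset.mul_sum]
    refine Finset.sum_congr rfl fun j _ => ?_
    rw [Matrix.smul_apply, smul_eq_mul]
    ring
  show SS (G x) (t x) (fm DG z x) ≤
    ∑ k, ∑ l, (((1 + s) / (1 + 3 * s / 2)) • W x) k l * z k * z l
  rw [e1]
  linarith

/-- **STEP** -/
theorem step (h0 : StmtStep0) (hLin : K.StmtLin) (hPos : StmtPos) : StmtStep := by
  intro n V t c C hB s hs δ B σ H AH DH hσ hH hHD hHm hcs G AG DG hG hs1 hs2 he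
  have hV := contV hB
  haveI := finite_mu hLin hB
  have hmH : ∀ i j, Measurable fun x => H x i j := mf_meas hH
  -- `W = σ P H`
  have hex : ∀ i j : Fin n, ∃ (u : E n → ℝ) (Du : Fin n → E n → ℝ) (Au : E n → ℝ),
      Dom V t u Du Au ∧ ∀ᵐ x, (1 + s / 2) * u x + s * Au x = σ * H x i j := by
    intro i j
    obtain ⟨u, Du, Au, h1, h2⟩ := sol_exists hLin hB hs ((mf_mb hB hH i j).const_mul σ)
    exact ⟨u, Du, Au, h1, h2⟩
  choose u Du Au hu hue using hex
  have hue' : ∀ᵐ x, ∀ i j, (1 + s / 2) * u i j x + s * Au i j x = σ * H x i j :=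
    ae_all_iff.2 fun i => ae_all_iff.2 fun j => hue i j
  have hcs' : CSM t H DH (fun x => σ • H x) := by
    filter_upwards [hcs] with x hx z ζ
    refine (hx z ζ).trans (le_of_eq ?_)
    congr 1
    rw [Finset.mul_sum]
    refine Finset.sum_congr rfl fun i _ => ?_
    rw [Finset.mul_sum]
    refine Finset.sum_congr rfl fun j _ => ?_
    rw [Matrix.smul_apply, smul_eq_mul]
    ring
  set B1 : ℝ := max B (σ * B) with hB1
  have hH1 : MF V H DH δ B1 :=
    { d_pos := hH.d_pos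
      symm := hH.symm
      low := hH.low
      upp := hH.upp.mono fun x hx i j => (hx i j).trans (le_max_left _ _)
      h1 := hH.h1
      dsymm := hH.dsymm
      dupp := hH.dupp.mono fun x hx a i j => (hx a i j).trans (le_max_left _ _) }
  obtain ⟨hG1, hG2, hG3⟩ := h0 n V t c C hB s hs δ B1 H AH (fun x => σ • H x) DH hH1 hHD hHm
    (fun i j => by
      simp only [Matrix.smul_apply, smul_eq_mul]
      exact (hmH i j).const_mul σ)
    (fun x i j => by
      simp only [Matrix.smul_apply, smul_eq_mul]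
      rw [hH.symm x i j])
    (hH.upp.mono fun x hx i j => by
      simp only [Matrix.smul_apply, smul_eq_mul]
      rw [abs_mul, abs_of_nonneg hσ]
      exact (mul_le_mul_of_nonneg_left (hx i j) hσ).trans (le_max_right _ _))
    hcs' G AG DG hG hs1 hs2 he (fun x => Matrix.of fun i j => u i j x)
    (fun x => Matrix.of fun i j => Au i j x) (fun a x => Matrix.of fun i j => Du i j a x)
    (fun i j => hu i j) (hue'.mono fun x hx i j => by
      simp only [Matrix.of_apply, Matrix.smul_apply, smul_eq_mul]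
      exact hx i j)
  refine ⟨hG1, hG2, ?_⟩
  obtain ⟨B', hGmf⟩ := hG1
  -- `W ≤ σ κ G`
  have hWle : ∀ᵐ x, ∀ v : Fin n → ℝ, ∑ i, ∑ j, u i j x * v i * v j ≤
      σ * (((1 + s) / (1 + 3 * s / 2)) * ∑ i, ∑ j, G x i j * v i * v j) := by
    have key : ∀ v : Fin n → ℝ, ∀ᵐ x, 0 ≤
        σ * (((1 + s) / (1 + 3 * s / 2)) * ∑ i, ∑ j, G x i j * v i * v j) -
        ∑ i, ∑ j, u i j x * v i * v j := by
      intro v
      have hb : Bd (mu V) (fun y => v ⬝ᵥ (H y *ᵥ v)) := (mf_mb hB hH).quad v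
      have h1 := (ae_mu hV).1 (pH_le hLin hPos hB hs hH hG he hG2 v)
      obtain ⟨D, hD⟩ := dom_quad (G := fun x => Matrix.of fun i j => u i j x)
        (AG := fun x => Matrix.of fun i j => Au i j x)
        (DG := fun a x => Matrix.of fun i j => Du i j a x) hLin hB (fun i j => hu i j) v
      have h2 : Sol V t s (fun x => (1 + s / 2) * (∑ i, ∑ j, u i j x * v i * v j) +
          s * (∑ i, ∑ j, Au i j x * v i * v j)) (fun x => ∑ i, ∑ j, u i j x * v i * v j) :=
        ⟨_, _, hD, Eventually.of_forall fun x => rfl⟩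
      have h3 := sol_lin hLin hB (pop_sol hLin hB hs hb) (pop_sol hLin hB hs hb) σ 0
      have h4 := sol_unique hLin hPos hB hs h2 h3 (by
        filter_upwards [hue'] with x hx
        rw [quad_form, Finset.mul_sum, Finset.mul_sum, ← Finset.sum_add_distrib, zero_mul,
          add_zero, Finset.mul_sum]
        refine Finset.sum_congr rfl fun i _ => ?_
        rw [Finset.mul_sum, Finset.mul_sum, ← Finset.sum_add_distrib, Finset.mul_sum]
        refine Finset.sum_congr rfl fun j _ => ?_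
        have := hx i j
        calc (1 + s / 2) * (u i j x * v i * v j) + s * (Au i j x * v i * v j)
            = ((1 + s / 2) * u i j x + s * Au i j x) * v i * v j := by ring
          _ = σ * (H x i j * v i * v j) := by rw [this]; ring)
      filter_upwards [h1, h4] with x h1 h4
      rw [quad_form] at h1
      rw [h4, zero_mul, add_zero]
      have := mul_le_mul_of_nonneg_left h1 hσ
      linarith
    have h3 := ae_forall_of_forall_ae (μ := (volume : Measure (E n)))
      (F := fun (v : Fin n → ℝ) x =>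
        σ * (((1 + s) / (1 + 3 * s / 2)) * ∑ i, ∑ j, G x i j * v i * v j) -
        ∑ i, ∑ j, u i j x * v i * v j)
      (fun x => by fun_prop) key
    filter_upwards [h3] with x hx v
    have := hx v
    linarith
  filter_upwards [hG3, hWle, hGmf.low] with x h1 h2 hlow z ζ
  refine (h1 z ζ).trans ?_
  have hlow' : ∀ v : Fin n → ℝ, δ * ∑ i, v i ^ 2 ≤ v ⬝ᵥ (G x *ᵥ v) := fun v => by
    rw [quad_form]; exact hlow v
  have hpd := posDef_of_low (hGmf.symm x) hGmf.d_pos hlow'
  have hT : ∀ i j, t x i j = t x j i := hB.toTE.symm x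
  have hq : 0 ≤ ∑ a, ∑ b, t x a b * ∑ k, ∑ l, G x k l * ζ a k * ζ b l := by
    rw [e_quad hT]
    exact trace_mul_nonneg hpd.posSemidef (gram_psd (t_psd hB x).posSemidef _)
  refine mul_le_mul_of_nonneg_right ?_ hq
  have e1 : ∑ k, ∑ l, (((1 + s) / (1 + 3 * s / 2)) • (Matrix.of fun i j => u i j x)) k l *
      z k * z l = ((1 + s) / (1 + 3 * s / 2)) * ∑ i, ∑ j, u i j x * z i * z j := by
    rw [Finset.mul_sum]
    refine Finset.sum_congr rfl fun i _ => ?_
    rw [Finset.mul_sum]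
    refine Finset.sum_congr rfl fun j _ => ?_
    rw [Matrix.smul_apply, smul_eq_mul, Matrix.of_apply]
    ring
  show ∑ k, ∑ l, (((1 + s) / (1 + 3 * s / 2)) • (Matrix.of fun i j => u i j x)) k l *
      z k * z l ≤ _
  rw [e1]
  have hk0 : 0 < (1 + s) / (1 + 3 * s / 2) := by positivity
  have hg0 : 0 ≤ ∑ i, ∑ j, G x i j * z i * z j :=
    (mul_nonneg hGmf.d_pos.le (Finset.sum_nonneg fun i _ => sq_nonneg _)).trans (hlow z)
  have h5 := mul_le_mul_of_nonneg_left (h2 z) hk0.le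
  refine h5.trans ?_
  have h6 := factor hs
  have h7 : ((1 + s) / (1 + 3 * s / 2)) * (σ * (((1 + s) / (1 + 3 * s / 2)) *
      ∑ i, ∑ j, G x i j * z i * z j)) =
      ((1 + s) / (1 + 3 * s / 2)) ^ 2 * (σ * ∑ i, ∑ j, G x i j * z i * z j) := by ring
  rw [h7]
  refine (mul_le_mul_of_nonneg_right h6 (mul_nonneg hσ hg0)).trans (le_of_eq ?_)
  ring

end Vale.Agent.P245.K.StepRow
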