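import Vale.Agent.P245.K.StepCore

/-!
P245, block K, row STEP (helper386), part 2: localisation, inverse bounds, `CS` and `SS`.
-/

set_option linter.all false

namespace Vale.Agent.P245.K.Step

open MeasureTheory Matrix Filter
open scoped BigOperators

noncomputable section

variable {X : Type*} [MeasurableSpace X] {μ : Measure X}

/-! ### localisation -/

section Loc

variable {ι κ : Type*} [Fintype ι] [Fintype κ] [DecidableEq ι]

/-- if `∫ ρ F ≤ 0` for all bounded `ρ ≥ δ > 0` then `F ≤ 0` a.e. -/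
theorem nonpos_of_forall [IsFiniteMeasure μ] {F : X → ℝ} (hF : Bd μ F)
    (h : ∀ ρ : X → ℝ, Bd μ ρ → ∀ δ : ℝ, 0 < δ → (∀ᵐ x ∂μ, δ ≤ ρ x) → ∫ x, ρ x * F x ∂μ ≤ 0) :
    ∀ᵐ x ∂μ, F x ≤ 0 := by
  have hm : Bd μ fun x => max (F x) 0 := hF.max0
  have h1 : ∀ δ : ℝ, 0 < δ → ∫ x, (max (F x) 0) * F x ∂μ ≤ δ * |∫ x, F x ∂μ| := by
    intro δ hδ
    have h2 := h (fun x => max (F x) 0 + δ) (hm.add (Bd.const δ)) δ hδ
      (Eventually.of_forall fun x => by
        have := le_max_right (F x) 0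
        linarith)
    have h3 : ∫ x, (max (F x) 0 + δ) * F x ∂μ =
        ∫ x, (max (F x) 0) * F x ∂μ + δ * ∫ x, F x ∂μ := by
      rw [← integral_const_mul, ← integral_add (hm.mul hF).integrable
        (hF.const_mul δ).integrable]
      refine integral_congr_ae (Eventually.of_forall fun x => ?_)
      ring
    rw [h3] at h2
    have h4 : -(δ * ∫ x, F x ∂μ) ≤ δ * |∫ x, F x ∂μ| := by
      rw [← mul_neg]
      exact mul_le_mul_of_nonneg_left (neg_le_abs _) hδ.le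
    linarith
  have h5 : ∫ x, (max (F x) 0) * F x ∂μ ≤ 0 := by
    refine le_of_forall_pos_le_add fun ε hε => ?_
    have h6 := h1 (ε / (|∫ x, F x ∂μ| + 1)) (by positivity)
    have h7 : ε / (|∫ x, F x ∂μ| + 1) * |∫ x, F x ∂μ| ≤ ε := by
      rw [div_mul_eq_mul_div, div_le_iff₀ (by positivity)]
      nlinarith [abs_nonneg (∫ x, F x ∂μ)]
    linarith
  have h8 : ∀ x, (max (F x) 0) * F x = (max (F x) 0) ^ 2 := by
    intro x
    rcases le_total (F x) 0 with h | h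
    · rw [max_eq_right h]; ring
    · rw [max_eq_left h]; ring
  simp only [h8] at h5
  have h9 : ∫ x, (max (F x) 0) ^ 2 ∂μ = 0 :=
    le_antisymm h5 (integral_nonneg fun x => sq_nonneg _)
  rw [integral_eq_zero_iff_of_nonneg (fun x => sq_nonneg _) hm.pow_two.integrable] at h9
  filter_upwards [h9] with x hx
  have hx' : max (F x) 0 ^ 2 = 0 := hx
  have : max (F x) 0 = 0 := by simpa using hx'
  exact (le_max_left (F x) 0).trans this.le

/-- **one resolvent step, localised** -/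
theorem loc [IsFiniteMeasure μ] {P : (X → ℝ) → X → ℝ} (hP : PosOp μ P)
    {t : X → Matrix κ κ ℝ} {H G : X → Matrix ι ι ℝ} {a b : X → Matrix ι κ ℝ}
    {kap : ℝ} (hkap : 0 < kap)
    (ht : ∀ᵐ x ∂μ, (t x).PosSemidef) (hH : ∀ᵐ x ∂μ, (H x).PosDef)
    (hG : ∀ᵐ x ∂μ, (G x).PosDef)
    (tb : MB μ t) (Hb : MB μ H) (Hib : MB μ fun x => (H x)⁻¹) (Gb : MB μ G)
    (Gib : MB μ fun x => (G x)⁻¹) (ab : MB μ a) (bb : MB μ b)
    (hR : ∀ w : X → Matrix ι κ ℝ, MB μ w → ∃ c : X → Matrix ι κ ℝ,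
      (∫ x, (w x * t x * (b x)ᵀ).trace ∂μ = ∫ x, (c x * t x * (a x)ᵀ).trace ∂μ) ∧
      ∀ v : ι → ℝ, ∀ᵐ x ∂μ, v ⬝ᵥ ((c x * t x * (c x)ᵀ) *ᵥ v) ≤
        (P (fun y => Real.sqrt (v ⬝ᵥ ((w y * t y * (w y)ᵀ) *ᵥ v))) x) ^ 2)
    (hPH : ∀ v : ι → ℝ, ∀ᵐ x ∂μ, P (fun y => v ⬝ᵥ (H y *ᵥ v)) x ≤ kap * (v ⬝ᵥ (G x *ᵥ v)))
    {kH τ : X → ℝ} (hk : Bd μ kH) (hτ : Bd μ τ)
    (hSH : ∀ᵐ x ∂μ, SS (H x) (t x) (a x) ≤ kH x) (hPk : ∀ᵐ x ∂μ, P kH x ≤ τ x) :
    ∀ᵐ x ∂μ, SS (G x) (t x) (b x) ≤ kap * τ x := by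
  have hSSG : Bd μ fun x => SS (G x) (t x) (b x) := by
    simp only [SS]
    exact (Gib.mul ((bb.mul tb).mul bb.transpose)).trace
  have hSSH : Bd μ fun x => SS (H x) (t x) (a x) := by
    simp only [SS]
    exact (Hib.mul ((ab.mul tb).mul ab.transpose)).trace
  have hF : Bd μ fun x => SS (G x) (t x) (b x) - kap * τ x := hSSG.sub (hτ.const_mul kap)
  have key := nonpos_of_forall hF (fun ρ hρ δ hδ hρδ => by
    have hwb : MB μ fun x => ρ x • ((G x)⁻¹ * b x) := (Gib.mul bb).smul hρ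
    obtain ⟨c, hc1, hc2⟩ := hR _ hwb
    have h1 := core hP hkap hδ hρ hρδ ht hH hG tb Hb Hib Gb Gib ab bb (fun x => rfl) hc1 hc2 hPH
    have hPρ0 : ∀ᵐ x ∂μ, 0 ≤ P ρ x := hP.pos hρ (hρδ.mono fun x hx => hδ.le.trans hx)
    have h2 : ∫ x, P ρ x * SS (H x) (t x) (a x) ∂μ ≤ ∫ x, P ρ x * kH x ∂μ := by
      refine integral_mono_ae ((hP.bd hρ).mul hSSH).integrable ((hP.bd hρ).mul hk).integrable ?_
      filter_upwards [hSH, hPρ0] with x h1 h2
      exact mul_le_mul_of_nonneg_left h1 h2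
    have h3 : ∫ x, P ρ x * kH x ∂μ = ∫ x, ρ x * P kH x ∂μ := hP.symm hρ hk
    have h4 : ∫ x, ρ x * P kH x ∂μ ≤ ∫ x, ρ x * τ x ∂μ := by
      refine integral_mono_ae (hρ.mul (hP.bd hk)).integrable (hρ.mul hτ).integrable ?_
      filter_upwards [hPk, hρδ] with x h1 h2
      exact mul_le_mul_of_nonneg_left h1 (hδ.le.trans h2)
    have h5 : ∫ x, ρ x * (SS (G x) (t x) (b x) - kap * τ x) ∂μ =
        ∫ x, ρ x * SS (G x) (t x) (b x) ∂μ - kap * ∫ x, ρ x * τ x ∂μ := by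
      rw [← integral_const_mul, ← integral_sub (hρ.mul hSSG).integrable
        ((hρ.mul hτ).const_mul kap).integrable]
      refine integral_congr_ae (Eventually.of_forall fun x => ?_)
      ring
    rw [h5]
    have h6 : kap * ∫ x, P ρ x * SS (H x) (t x) (a x) ∂μ ≤ kap * ∫ x, ρ x * τ x ∂μ :=
      mul_le_mul_of_nonneg_left (by linarith) hkap.le
    linarith)
  filter_upwards [key] with x hx
  linarith

end Loc

/-! ### inverse bounds -/

section Inv

variable {ι : Type*} [Fintype ι] [DecidableEq ι]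

theorem posDef_of_low {M : Matrix ι ι ℝ} (hs : ∀ i j, M i j = M j i) {δ : ℝ} (hδ : 0 < δ)
    (h : ∀ v : ι → ℝ, δ * ∑ i, v i ^ 2 ≤ v ⬝ᵥ (M *ᵥ v)) : M.PosDef := by
  refine Matrix.PosDef.of_dotProduct_mulVec_pos ?_ fun v hv => ?_
  · ext i j
    simpa using hs j i
  · have h1 := h v
    have h2 : 0 < ∑ i, v i ^ 2 := by
      obtain ⟨i, hi⟩ := Function.ne_iff.mp hv
      refine Finset.sum_pos' (fun j _ => sq_nonneg _) ⟨i, Finset.mem_univ _, ?_⟩
      have : v i ≠ 0 := hi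
      positivity
    have h3 : 0 < v ⬝ᵥ (M *ᵥ v) := (mul_pos hδ h2).trans_le h1
    simpa using h3

theorem inv_le_of_low {M : Matrix ι ι ℝ} (hs : ∀ i j, M i j = M j i) {δ : ℝ} (hδ : 0 < δ)
    (h : ∀ v : ι → ℝ, δ * ∑ i, v i ^ 2 ≤ v ⬝ᵥ (M *ᵥ v)) (i j : ι) : |M⁻¹ i j| ≤ δ⁻¹ := by
  have hpd := posDef_of_low hs hδ h
  have hu : IsUnit M.det := (Matrix.isUnit_iff_isUnit_det _).mp hpd.isUnit
  set u : ι → ℝ := fun k => M⁻¹ k j with hu'
  have e1 : M *ᵥ u = Pi.single j 1 := by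
    have : u = M⁻¹ *ᵥ (Pi.single j 1) := by
      ext k
      simp [hu']
    rw [this, Matrix.mulVec_mulVec, Matrix.mul_nonsing_inv _ hu, Matrix.one_mulVec]
  have h1 := h u
  rw [e1] at h1
  have e2 : u ⬝ᵥ (Pi.single j 1) = u j := by simp
  rw [e2] at h1
  have h2 : ∀ k, u k ^ 2 ≤ ∑ i, u i ^ 2 := fun k =>
    Finset.single_le_sum (f := fun i => u i ^ 2) (fun i _ => sq_nonneg _) (Finset.mem_univ k)
  have h3 : δ * u j ^ 2 ≤ u j := (mul_le_mul_of_nonneg_left (h2 j) hδ.le).trans h1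
  have h4 : u j ≤ δ⁻¹ := by
    rcases le_or_gt (u j) 0 with h | h
    · exact h.trans (inv_nonneg.mpr hδ.le)
    · rw [le_inv_comm₀ h hδ, ← one_div, le_div_iff₀ h]
      nlinarith
  have h5 : δ * u i ^ 2 ≤ δ⁻¹ :=
    ((mul_le_mul_of_nonneg_left (h2 i) hδ.le).trans h1).trans h4
  have h6 : u i ^ 2 ≤ (δ⁻¹) ^ 2 := by
    have := mul_le_mul_of_nonneg_left h5 (inv_nonneg.mpr hδ.le)
    rw [← mul_assoc, inv_mul_cancel₀ hδ.ne', one_mul] at this
    rw [sq δ⁻¹]; exact this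
  exact abs_le_of_sq_le_sq h6 (inv_nonneg.mpr hδ.le)

theorem MB.inv {M : X → Matrix ι ι ℝ} (hM : MB μ M) (hs : ∀ᵐ x ∂μ, ∀ i j, M x i j = M x j i)
    {δ : ℝ} (hδ : 0 < δ)
    (h : ∀ᵐ x ∂μ, ∀ v : ι → ℝ, δ * ∑ i, v i ^ 2 ≤ v ⬝ᵥ (M x *ᵥ v)) :
    MB μ fun x => (M x)⁻¹ := by
  intro i j
  refine ⟨?_, δ⁻¹, ?_⟩
  · have h1 : ∀ N : X → Matrix ι ι ℝ, MB μ N → AEMeasurable (fun x => (N x).det) μ := by
      intro N hN
      simp only [Matrix.det_apply]
      refine Finset.aemeasurable_fun_sum _ fun σ _ => ?_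
      refine AEMeasurable.const_smul ?_ _
      refine Finset.aemeasurable_fun_prod _ fun k _ => ?_
      exact (hN _ _).1.aemeasurable
    have h2 : AEMeasurable (fun x => ((M x).det)⁻¹ * (M x).adjugate i j) μ := by
      refine (h1 M hM).inv.mul ?_
      simp only [Matrix.adjugate_apply]
      refine h1 _ fun k l => ?_
      rcases eq_or_ne k j with rfl | hk
      · simp only [Matrix.updateRow_self]
        exact Bd.const _
      · simp only [Matrix.updateRow_ne hk]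
        exact hM k l
    refine h2.aestronglyMeasurable.congr (Eventually.of_forall fun x => ?_)
    simp only [Matrix.inv_def, Ring.inverse_eq_inv', Matrix.smul_apply, smul_eq_mul]
  · filter_upwards [hs, h] with x h1 h2
    exact inv_le_of_low h1 hδ h2 i j

end Inv

/-! ### `CS` and `SS` -/

section CSS

variable {ι κ : Type*} [Fintype ι] [Fintype κ] [DecidableEq ι]

theorem tr_eq_sum (t : Matrix κ κ ℝ) (a z : Matrix ι κ ℝ) :
    (z * t * aᵀ).trace = ∑ p, ∑ q, t p q * ∑ k, z k p * a k q := by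
  simp only [Matrix.trace, Matrix.diag_apply, Matrix.mul_apply, Matrix.transpose_apply,
    Finset.sum_mul, Finset.mul_sum]
  rw [Finset.sum_comm]
  have h1 : ∀ y : κ, ∑ x : ι, ∑ i : κ, z x i * t i y * a x y =
      ∑ i : κ, ∑ x : ι, t i y * (z x i * a x y) := by
    intro y
    rw [Finset.sum_comm]
    exact Finset.sum_congr rfl fun i _ => Finset.sum_congr rfl fun x _ => by ring
  rw [Finset.sum_congr rfl fun y _ => h1 y, Finset.sum_comm]

/-- `(tr z t aᵀ)² ≤ SS(H,a) · tr (H z t zᵀ)` -/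
theorem cs_of_SS {H : Matrix ι ι ℝ} {t : Matrix κ κ ℝ} (hH : H.PosDef)
    (ht : t.PosSemidef) (z a : Matrix ι κ ℝ) :
    (z * t * aᵀ).trace ^ 2 ≤ SS H t a * (H * (z * t * zᵀ)).trace := by
  have h0 : 0 ≤ (H * (z * t * zᵀ)).trace := trace_mul_nonneg hH.posSemidef (gram_psd ht z)
  have h1 : 0 ≤ SS H t a := SS_nonneg hH.posSemidef ht a
  have key : ∀ r : ℝ, 0 ≤ (H * (z * t * zᵀ)).trace * (r * r) +
      (-2 * (z * t * aᵀ).trace) * r + SS H t a := by
    intro r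
    rcases lt_trichotomy r 0 with hr | hr | hr
    · have h := amgm hH ht z (-a) (lam := -r) (by linarith)
      have e1 : (z * t * (-a)ᵀ).trace = -(z * t * aᵀ).trace := by
        simp [Matrix.transpose_neg, Matrix.mul_neg]
      have e2 : (H⁻¹ * (-a * t * (-a)ᵀ)).trace = SS H t a := by
        simp [SS, Matrix.transpose_neg, Matrix.mul_neg, Matrix.neg_mul]
      rw [e1, e2] at h
      have h' := mul_le_mul_of_nonneg_left h (by linarith : (0 : ℝ) ≤ -r)
      have e3 : -r * ((-r) * (H * (z * t * zᵀ)).trace + (-r)⁻¹ * SS H t a) =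
          r * r * (H * (z * t * zᵀ)).trace + SS H t a := by
        have hr0 : r ≠ 0 := hr.ne
        field_simp
        ring
      rw [e3] at h'
      nlinarith
    · subst hr; simpa using h1
    · have h := amgm hH ht z a hr
      have h' := mul_le_mul_of_nonneg_left h hr.le
      have e3 : r * (r * (H * (z * t * zᵀ)).trace + r⁻¹ * (H⁻¹ * (a * t * aᵀ)).trace) =
          r * r * (H * (z * t * zᵀ)).trace + SS H t a := by
        rw [SS]
        field_simp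
      rw [e3] at h'
      nlinarith
  have := discrim_le_zero key
  rw [discrim] at this
  nlinarith [this]

/-- converse: test with `z = H⁻¹ a` -/
theorem SS_of_cs {H : Matrix ι ι ℝ} {t : Matrix κ κ ℝ} (hH : H.PosDef)
    (ht : t.PosSemidef) (a : Matrix ι κ ℝ) {m : ℝ} (hm : 0 ≤ m)
    (h : ∀ z : Matrix ι κ ℝ, (z * t * aᵀ).trace ^ 2 ≤ m * (H * (z * t * zᵀ)).trace) :
    SS H t a ≤ m := by
  have hu : IsUnit H.det := (Matrix.isUnit_iff_isUnit_det _).mp hH.isUnit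
  have hHt : Hᵀ = H := by simpa using hH.isHermitian.eq
  have h1 := h (H⁻¹ * a)
  have e1 : (H⁻¹ * a * t * aᵀ).trace = SS H t a := by
    simp only [SS, Matrix.mul_assoc]
  have e2 : (H * (H⁻¹ * a * t * (H⁻¹ * a)ᵀ)).trace = SS H t a := by
    have : H * (H⁻¹ * a * t * (H⁻¹ * a)ᵀ) = (a * t * aᵀ) * H⁻¹ := by
      rw [Matrix.transpose_mul, Matrix.transpose_nonsing_inv, hHt]
      simp only [← Matrix.mul_assoc, Matrix.mul_nonsing_inv _ hu, Matrix.one_mul]
    rw [this, Matrix.trace_mul_comm, SS]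
  rw [e1, e2] at h1
  have h0 : 0 ≤ SS H t a := SS_nonneg hH.posSemidef ht a
  rcases h0.eq_or_lt with h | h
  · rw [← h]; exact hm
  · by_contra hcon
    push Not at hcon
    nlinarith

end CSS

/-- the numeric factor -/
theorem factor {s : ℝ} (hs : 0 < s) :
    ((1 + s) / (1 + 3 * s / 2)) ^ 2 ≤ (1 + s) / (1 + 2 * s) := by
  rw [div_pow, div_le_div_iff₀ (by positivity) (by positivity)]
  nlinarith [mul_pos hs hs, mul_pos (mul_pos hs hs) hs]

end

end Vale.Agent.P245.K.Step
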