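import Mathlib

/-!
P245, block K, row STEP (helper386): matrix Cauchy-Schwarz, 867 (1) in resolvent form.
Part 1: bounded measurable functions, positive operators, matrix lemmas.
-/

set_option linter.all false

namespace Vale.Agent.P245.K.Step

open MeasureTheory Matrix Filter
open scoped BigOperators

noncomputable section

/-! ### bounded measurable functions -/

variable {X : Type*} [MeasurableSpace X] {μ : Measure X}

/-- bounded measurable functions (a.e. sense) -/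
def Bd (μ : Measure X) (f : X → ℝ) : Prop :=
  AEStronglyMeasurable f μ ∧ ∃ C : ℝ, ∀ᵐ x ∂μ, |f x| ≤ C

namespace Bd

theorem congr {f g : X → ℝ} (hf : Bd μ f) (h : f =ᵐ[μ] g) : Bd μ g := by
  obtain ⟨hm, C, hC⟩ := hf
  refine ⟨hm.congr h, C, ?_⟩
  filter_upwards [hC, h] with x hx h1
  rw [← h1]; exact hx

theorem const (c : ℝ) : Bd μ (fun _ => c) :=
  ⟨aestronglyMeasurable_const, |c|, Eventually.of_forall fun _ => le_rfl⟩

theorem add {f g : X → ℝ} (hf : Bd μ f) (hg : Bd μ g) : Bd μ (fun x => f x + g x) := by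
  obtain ⟨hm, C, hC⟩ := hf
  obtain ⟨hm', C', hC'⟩ := hg
  refine ⟨hm.add hm', C + C', ?_⟩
  filter_upwards [hC, hC'] with x h1 h2
  exact (abs_add_le _ _).trans (add_le_add h1 h2)

theorem mul {f g : X → ℝ} (hf : Bd μ f) (hg : Bd μ g) : Bd μ (fun x => f x * g x) := by
  obtain ⟨hm, C, hC⟩ := hf
  obtain ⟨hm', C', hC'⟩ := hg
  refine ⟨hm.mul hm', |C| * |C'|, ?_⟩
  filter_upwards [hC, hC'] with x h1 h2
  rw [abs_mul]
  exact mul_le_mul (h1.trans (le_abs_self _)) (h2.trans (le_abs_self _)) (abs_nonneg _)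
    (abs_nonneg _)

theorem const_mul (c : ℝ) {f : X → ℝ} (hf : Bd μ f) : Bd μ (fun x => c * f x) :=
  (const c).mul hf

theorem neg {f : X → ℝ} (hf : Bd μ f) : Bd μ (fun x => - f x) := by
  obtain ⟨hm, C, hC⟩ := hf
  refine ⟨hm.neg, C, ?_⟩
  filter_upwards [hC] with x h1
  rw [abs_neg]; exact h1

theorem sub {f g : X → ℝ} (hf : Bd μ f) (hg : Bd μ g) : Bd μ (fun x => f x - g x) := by
  have := hf.add hg.neg
  refine this.congr (Eventually.of_forall fun x => ?_)
  simp only [sub_eq_add_neg]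

theorem sum {ι : Type*} (s : Finset ι) {f : ι → X → ℝ} (h : ∀ i ∈ s, Bd μ (f i)) :
    Bd μ (fun x => ∑ i ∈ s, f i x) := by
  classical
  induction s using Finset.induction_on with
  | empty => simpa using (const (μ := μ) (0 : ℝ))
  | insert a s ha ih =>
    simp only [Finset.sum_insert ha]
    exact (h a (Finset.mem_insert_self _ _)).add
      (ih fun i hi => h i (Finset.mem_insert_of_mem hi))

theorem pow_two {f : X → ℝ} (hf : Bd μ f) : Bd μ (fun x => f x ^ 2) := by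
  have := hf.mul hf
  refine this.congr (Eventually.of_forall fun x => ?_)
  simp only [sq]

theorem sqrt {f : X → ℝ} (hf : Bd μ f) : Bd μ (fun x => Real.sqrt (f x)) := by
  obtain ⟨hm, C, hC⟩ := hf
  refine ⟨Real.continuous_sqrt.comp_aestronglyMeasurable hm, Real.sqrt C, ?_⟩
  filter_upwards [hC] with x h1
  rw [abs_of_nonneg (Real.sqrt_nonneg _)]
  exact Real.sqrt_le_sqrt ((le_abs_self _).trans h1)

theorem inv {f : X → ℝ} (hf : Bd μ f) {δ : ℝ} (hδ : 0 < δ) (h : ∀ᵐ x ∂μ, δ ≤ f x) :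
    Bd μ (fun x => (f x)⁻¹) := by
  obtain ⟨hm, C, hC⟩ := hf
  refine ⟨hm.aemeasurable.inv.aestronglyMeasurable, δ⁻¹, ?_⟩
  filter_upwards [h] with x h1
  rw [abs_of_nonneg (inv_nonneg.mpr (hδ.le.trans h1))]
  exact inv_anti₀ hδ h1

theorem max0 {f : X → ℝ} (hf : Bd μ f) : Bd μ (fun x => max (f x) 0) := by
  obtain ⟨hm, C, hC⟩ := hf
  refine ⟨(continuous_id.max continuous_const).comp_aestronglyMeasurable hm, C, ?_⟩
  filter_upwards [hC] with x h1
  rw [abs_of_nonneg (le_max_right _ _)]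
  exact max_le ((le_abs_self _).trans h1) ((abs_nonneg _).trans h1)

theorem integrable [IsFiniteMeasure μ] {f : X → ℝ} (hf : Bd μ f) : Integrable f μ := by
  obtain ⟨hm, C, hC⟩ := hf
  exact Integrable.of_bound hm C (by simpa [Real.norm_eq_abs] using hC)

end Bd

/-! ### positive symmetric operators on bounded functions -/

/-- positive symmetric operator on bounded measurable functions, bounded below on `1` -/
structure PosOp (μ : Measure X) (P : (X → ℝ) → X → ℝ) : Prop where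
  bd : ∀ {f : X → ℝ}, Bd μ f → Bd μ (P f)
  add : ∀ {f g : X → ℝ}, Bd μ f → Bd μ g →
    P (fun x => f x + g x) =ᵐ[μ] fun x => P f x + P g x
  smul : ∀ (c : ℝ) {f : X → ℝ}, Bd μ f → P (fun x => c * f x) =ᵐ[μ] fun x => c * P f x
  pos : ∀ {f : X → ℝ}, Bd μ f → (∀ᵐ x ∂μ, 0 ≤ f x) → ∀ᵐ x ∂μ, 0 ≤ P f x
  symm : ∀ {f g : X → ℝ}, Bd μ f → Bd μ g → ∫ x, P f x * g x ∂μ = ∫ x, f x * P g x ∂μ
  one : ∃ c : ℝ, 0 < c ∧ ∀ᵐ x ∂μ, c ≤ P (fun _ => 1) x

/-- swapping a dense family of a.e. inequalities -/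
theorem ae_forall_of_forall_ae {E : Type*} [TopologicalSpace E]
    [TopologicalSpace.SeparableSpace E] {F : E → X → ℝ} (hc : ∀ x, Continuous fun v => F v x)
    (h : ∀ v, ∀ᵐ x ∂μ, 0 ≤ F v x) : ∀ᵐ x ∂μ, ∀ v, 0 ≤ F v x := by
  obtain ⟨S, hS, hd⟩ := TopologicalSpace.exists_countable_dense E
  have h1 : ∀ᵐ x ∂μ, ∀ v ∈ S, 0 ≤ F v x := (ae_ball_iff hS).2 fun v _ => h v
  filter_upwards [h1] with x hx v
  have hcl : IsClosed {v | 0 ≤ F v x} := isClosed_le continuous_const (hc x)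
  have : closure S ⊆ {v | 0 ≤ F v x} := hcl.closure_subset_iff.mpr fun v hv => hx v hv
  exact this (hd v)

namespace PosOp

variable {P : (X → ℝ) → X → ℝ}

theorem mono (hP : PosOp μ P) {f g : X → ℝ} (hf : Bd μ f) (hg : Bd μ g)
    (h : ∀ᵐ x ∂μ, f x ≤ g x) : ∀ᵐ x ∂μ, P f x ≤ P g x := by
  have h1 : ∀ᵐ x ∂μ, 0 ≤ P (fun x => g x + (-1) * f x) x :=
    hP.pos (hg.add (hf.const_mul (-1))) (by
      filter_upwards [h] with x hx
      linarith)
  filter_upwards [h1, hP.add hg (hf.const_mul (-1)), hP.smul (-1) hf] with x h1 h2 h3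
  rw [h2, h3] at h1
  linarith

theorem congr (hP : PosOp μ P) {f g : X → ℝ} (hf : Bd μ f) (hg : Bd μ g)
    (h : f =ᵐ[μ] g) : P f =ᵐ[μ] P g := by
  filter_upwards [hP.mono hf hg (h.mono fun x hx => hx.le),
    hP.mono hg hf (h.mono fun x hx => hx.ge)] with x h1 h2
  exact le_antisymm h1 h2

theorem sum (hP : PosOp μ P) {ι : Type*} (s : Finset ι) (c : ι → ℝ) {f : ι → X → ℝ}
    (h : ∀ i ∈ s, Bd μ (f i)) :
    P (fun x => ∑ i ∈ s, c i * f i x) =ᵐ[μ] fun x => ∑ i ∈ s, c i * P (f i) x := by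
  classical
  induction s using Finset.induction_on with
  | empty =>
    have h0 := hP.smul 0 (Bd.const (μ := μ) (0 : ℝ))
    simp only [zero_mul] at h0
    simpa using h0
  | insert a s ha ih =>
    have ha' := h a (Finset.mem_insert_self _ _)
    have hs' : ∀ i ∈ s, Bd μ (f i) := fun i hi => h i (Finset.mem_insert_of_mem hi)
    have h1 := hP.add (ha'.const_mul (c a))
      (Bd.sum s fun i hi => (hs' i hi).const_mul (c i))
    have h2 := hP.smul (c a) ha'
    have h3 := ih hs'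
    simp only [Finset.sum_insert ha]
    filter_upwards [h1, h2, h3] with x h1 h2 h3
    rw [h1, h2, h3]

/-- Cauchy-Schwarz for a positive operator, with a weight -/
theorem cs (hP : PosOp μ P) {f ρ : X → ℝ} (hf : Bd μ f) (hρ : Bd μ ρ) {δ : ℝ} (hδ : 0 < δ)
    (hρδ : ∀ᵐ x ∂μ, δ ≤ ρ x) :
    ∀ᵐ x ∂μ, (P f x) ^ 2 ≤ P ρ x * P (fun y => f y ^ 2 * (ρ y)⁻¹) x := by
  have hq : Bd μ (fun y => f y ^ 2 * (ρ y)⁻¹) := hf.pow_two.mul (hρ.inv hδ hρδ)
  have key : ∀ r : ℝ, ∀ᵐ x ∂μ,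
      0 ≤ P ρ x * (r * r) + (-2 * P f x) * r + P (fun y => f y ^ 2 * (ρ y)⁻¹) x := by
    intro r
    have hb1 : Bd μ (fun y => r ^ 2 * ρ y) := hρ.const_mul _
    have hb2 : Bd μ (fun y => (-2 * r) * f y) := hf.const_mul _
    have h1 : ∀ᵐ x ∂μ, 0 ≤ P (fun y => (r ^ 2 * ρ y + (-2 * r) * f y) +
        f y ^ 2 * (ρ y)⁻¹) x := by
      refine hP.pos ((hb1.add hb2).add hq) ?_
      filter_upwards [hρδ] with y hy
      have hy0 : 0 < ρ y := hδ.trans_le hy
      have : (r ^ 2 * ρ y + (-2 * r) * f y) + f y ^ 2 * (ρ y)⁻¹ =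
          (r * ρ y - f y) ^ 2 * (ρ y)⁻¹ := by
        field_simp
        ring
      rw [this]
      positivity
    filter_upwards [h1, hP.add (hb1.add hb2) hq, hP.add hb1 hb2, hP.smul (r ^ 2) hρ,
      hP.smul (-2 * r) hf] with x h1 h2 h3 h4 h5
    rw [h2, h3, h4, h5] at h1
    linarith
  have hall := ae_forall_of_forall_ae (μ := μ) (E := ℝ)
    (F := fun r x => P ρ x * (r * r) + (-2 * P f x) * r + P (fun y => f y ^ 2 * (ρ y)⁻¹) x)
    (fun x => by fun_prop) key
  filter_upwards [hall] with x hx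
  have := discrim_le_zero hx
  rw [discrim] at this
  nlinarith [this]

end PosOp

/-! ### matrix lemmas -/

section Mat

variable {ι κ : Type*} [Fintype ι] [Fintype κ]

open scoped MatrixOrder in
/-- the contraction of two PSD matrices is nonnegative -/
theorem trace_mul_nonneg {H K : Matrix ι ι ℝ} (hH : H.PosSemidef) (hK : K.PosSemidef) :
    0 ≤ (H * K).trace := by
  classical
  obtain ⟨B, hB⟩ := CStarAlgebra.nonneg_iff_eq_star_mul_self.mp hH.nonneg
  rw [hB, star_eq_conjTranspose, Matrix.mul_assoc, Matrix.trace_mul_comm]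
  exact (hK.mul_mul_conjTranspose_same B).trace_nonneg

/-- pointwise arithmetic-geometric inequality -/
theorem amgm [DecidableEq ι] {H : Matrix ι ι ℝ} {t : Matrix κ κ ℝ} (hH : H.PosDef)
    (ht : t.PosSemidef) (c a : Matrix ι κ ℝ) {lam : ℝ} (hlam : 0 < lam) :
    2 * (c * t * aᵀ).trace ≤ lam * (H * (c * t * cᵀ)).trace +
      lam⁻¹ * (H⁻¹ * (a * t * aᵀ)).trace := by
  have hHt : Hᵀ = H := by simpa using hH.isHermitian.eq
  have htt : tᵀ = t := by simpa using ht.isHermitian.eq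
  have hu : IsUnit H.det := (Matrix.isUnit_iff_isUnit_det _).mp hH.isUnit
  have hHi : H * H⁻¹ = 1 := Matrix.mul_nonsing_inv _ hu
  have hHit : (H⁻¹)ᵀ = H⁻¹ := by rw [Matrix.transpose_nonsing_inv, hHt]
  set U : Matrix ι κ ℝ := lam • c - H⁻¹ * a with hU
  have h0 : 0 ≤ (H * (U * t * Uᵀ)).trace := by
    refine trace_mul_nonneg hH.posSemidef ?_
    simpa using ht.mul_mul_conjTranspose_same U
  have e1 : (H * (U * t * Uᵀ)).trace = lam ^ 2 * (H * (c * t * cᵀ)).trace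
      - 2 * lam * (c * t * aᵀ).trace + (H⁻¹ * (a * t * aᵀ)).trace := by
    have hUt : Uᵀ = lam • cᵀ - aᵀ * H⁻¹ := by
      rw [hU, Matrix.transpose_sub, Matrix.transpose_smul, Matrix.transpose_mul, hHit]
    have hHU : H * U = lam • (H * c) - a := by
      rw [hU, Matrix.mul_sub, Matrix.mul_smul, ← Matrix.mul_assoc, hHi, Matrix.one_mul]
    have : H * (U * t * Uᵀ) = (H * U) * t * Uᵀ := by
      simp only [Matrix.mul_assoc]
    rw [this, hHU, hUt]
    have e2 : (H * c * t * (aᵀ * H⁻¹)).trace = (c * t * aᵀ).trace := by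
      have : H * c * t * (aᵀ * H⁻¹) = H * (c * t * aᵀ * H⁻¹) := by
        simp only [Matrix.mul_assoc]
      rw [this, Matrix.trace_mul_comm, Matrix.mul_assoc, Matrix.nonsing_inv_mul _ hu,
        Matrix.mul_one]
    have e3 : (a * t * cᵀ).trace = (c * t * aᵀ).trace := by
      rw [← Matrix.trace_transpose, Matrix.transpose_mul, Matrix.transpose_mul,
        Matrix.transpose_transpose, htt, ← Matrix.mul_assoc]
    have e4 : (a * t * (aᵀ * H⁻¹)).trace = (H⁻¹ * (a * t * aᵀ)).trace := by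
      rw [← Matrix.mul_assoc, Matrix.trace_mul_comm]
    have e5 : (H * c * t * cᵀ).trace = (H * (c * t * cᵀ)).trace := by
      simp only [Matrix.mul_assoc]
    simp only [Matrix.sub_mul, Matrix.mul_sub, Matrix.smul_mul, Matrix.mul_smul,
      Matrix.trace_sub, Matrix.trace_smul, smul_eq_mul, e2, e3, e4, e5]
    ring
  rw [e1] at h0
  have h1 : 2 * lam * (c * t * aᵀ).trace ≤ lam ^ 2 * (H * (c * t * cᵀ)).trace +
      (H⁻¹ * (a * t * aᵀ)).trace := by linarith
  have h2 := mul_le_mul_of_nonneg_left h1 (inv_nonneg.mpr hlam.le)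
  have e6 : lam⁻¹ * (2 * lam * (c * t * aᵀ).trace) = 2 * (c * t * aᵀ).trace := by
    field_simp
  have e7 : lam⁻¹ * (lam ^ 2 * (H * (c * t * cᵀ)).trace + (H⁻¹ * (a * t * aᵀ)).trace) =
      lam * (H * (c * t * cᵀ)).trace + lam⁻¹ * (H⁻¹ * (a * t * aᵀ)).trace := by
    field_simp
  rw [e6, e7] at h2
  exact h2

/-- `tr (H⁻¹ (a t aᵀ))` -/
def SS [DecidableEq ι] (H : Matrix ι ι ℝ) (t : Matrix κ κ ℝ) (a : Matrix ι κ ℝ) : ℝ :=
  (H⁻¹ * (a * t * aᵀ)).trace

theorem SS_nonneg [DecidableEq ι] {H : Matrix ι ι ℝ} {t : Matrix κ κ ℝ} (hH : H.PosSemidef)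
    (ht : t.PosSemidef) (a : Matrix ι κ ℝ) : 0 ≤ SS H t a :=
  trace_mul_nonneg hH.inv (by simpa using ht.mul_mul_conjTranspose_same a)

theorem quad_eq_sum (M : Matrix ι ι ℝ) (v : ι → ℝ) :
    v ⬝ᵥ (M *ᵥ v) = ∑ k, ∑ l, v k * v l * M k l := by
  simp only [dotProduct, Matrix.mulVec, Finset.mul_sum]
  exact Finset.sum_congr rfl fun k _ => Finset.sum_congr rfl fun l _ => by ring

theorem gram_psd {t : Matrix κ κ ℝ} (ht : t.PosSemidef) (w : Matrix ι κ ℝ) :
    (w * t * wᵀ).PosSemidef := by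
  simpa using ht.mul_mul_conjTranspose_same w

/-- PSD from symmetry and the quadratic form -/
theorem psd_of {M : Matrix ι ι ℝ} (hs : ∀ k l, M k l = M l k)
    (h : ∀ v : ι → ℝ, 0 ≤ v ⬝ᵥ (M *ᵥ v)) : M.PosSemidef := by
  refine Matrix.PosSemidef.of_dotProduct_mulVec_nonneg ?_ (by simpa using h)
  ext k l
  simpa using hs l k

end Mat

section Core

variable {ι κ : Type*} [Fintype ι] [Fintype κ] [DecidableEq ι]

/-- entries bounded -/
def MB {ι κ : Type*} (μ : Measure X) (M : X → Matrix ι κ ℝ) : Prop :=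
  ∀ i j, Bd μ fun x => M x i j

omit [DecidableEq ι] [Fintype ι] in
theorem MB.mul {ι' κ' : Type*} {M : X → Matrix ι' κ ℝ} {N : X → Matrix κ κ' ℝ}
    (hM : MB μ M) (hN : MB μ N) : MB μ fun x => M x * N x := by
  intro i j
  simp only [Matrix.mul_apply]
  exact Bd.sum _ fun k _ => (hM i k).mul (hN k j)

omit [DecidableEq ι] [Fintype ι] [Fintype κ] in
theorem MB.transpose {M : X → Matrix ι κ ℝ} (hM : MB μ M) : MB μ fun x => (M x)ᵀ :=
  fun i j => hM j i

omit [DecidableEq ι] [Fintype ι] [Fintype κ] in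
theorem MB.smul {M : X → Matrix ι κ ℝ} (hM : MB μ M) {r : X → ℝ} (hr : Bd μ r) :
    MB μ fun x => r x • M x := by
  intro i j
  simp only [Matrix.smul_apply, smul_eq_mul]
  exact hr.mul (hM i j)

omit [DecidableEq ι] in
theorem MB.trace {M : X → Matrix ι ι ℝ} (hM : MB μ M) : Bd μ fun x => (M x).trace := by
  simp only [Matrix.trace, Matrix.diag_apply]
  exact Bd.sum _ fun k _ => hM k k

omit [DecidableEq ι] in
theorem MB.quad {M : X → Matrix ι ι ℝ} (hM : MB μ M) (v : ι → ℝ) :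
    Bd μ fun x => v ⬝ᵥ (M x *ᵥ v) := by
  simp only [quad_eq_sum]
  exact Bd.sum _ fun k _ => Bd.sum _ fun l _ => (hM k l).const_mul _

omit [DecidableEq ι] in
/-- `P` applied to a quadratic form -/
theorem PosOp.quad {P : (X → ℝ) → X → ℝ} (hP : PosOp μ P) {M : X → Matrix ι ι ℝ}
    (hM : MB μ M) (v : ι → ℝ) :
    P (fun y => v ⬝ᵥ (M y *ᵥ v)) =ᵐ[μ]
      fun x => v ⬝ᵥ ((Matrix.of fun k l => P (fun y => M y k l) x) *ᵥ v) := by
  simp only [quad_eq_sum, Matrix.of_apply]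
  have h1 := hP.sum Finset.univ (fun _ : ι => (1 : ℝ))
    (f := fun k y => ∑ l, v k * v l * M y k l) (fun k _ => Bd.sum _ fun l _ => (hM k l).const_mul _)
  simp only [one_mul] at h1
  have h2 : ∀ k : ι, P (fun y => ∑ l, v k * v l * M y k l) =ᵐ[μ]
      fun x => ∑ l, v k * v l * P (fun y => M y k l) x := fun k =>
    hP.sum Finset.univ (fun l => v k * v l) (f := fun l y => M y k l) (fun l _ => hM k l)
  have h3 : ∀ᵐ x ∂μ, ∀ k, P (fun y => ∑ l, v k * v l * M y k l) x =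
      ∑ l, v k * v l * P (fun y => M y k l) x := ae_all_iff.2 h2
  filter_upwards [h1, h3] with x h1 h3
  rw [h1]
  exact Finset.sum_congr rfl fun k _ => h3 k

/-- **matrix Cauchy-Schwarz** (867 (1), resolvent form) -/
theorem core [IsFiniteMeasure μ] {P : (X → ℝ) → X → ℝ} (hP : PosOp μ P)
    {t : X → Matrix κ κ ℝ} {H G : X → Matrix ι ι ℝ} {a b w c : X → Matrix ι κ ℝ} {ρ : X → ℝ}
    {kap δ : ℝ} (hkap : 0 < kap) (hδ : 0 < δ) (hρ : Bd μ ρ) (hρδ : ∀ᵐ x ∂μ, δ ≤ ρ x)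
    (ht : ∀ᵐ x ∂μ, (t x).PosSemidef) (hH : ∀ᵐ x ∂μ, (H x).PosDef)
    (hG : ∀ᵐ x ∂μ, (G x).PosDef)
    (tb : MB μ t) (Hb : MB μ H) (Hib : MB μ fun x => (H x)⁻¹) (Gb : MB μ G)
    (Gib : MB μ fun x => (G x)⁻¹) (ab : MB μ a) (bb : MB μ b)
    (hw : ∀ x, w x = ρ x • ((G x)⁻¹ * b x))
    (hdual : ∫ x, (w x * t x * (b x)ᵀ).trace ∂μ = ∫ x, (c x * t x * (a x)ᵀ).trace ∂μ)
    (hdom : ∀ v : ι → ℝ, ∀ᵐ x ∂μ, v ⬝ᵥ ((c x * t x * (c x)ᵀ) *ᵥ v) ≤
      (P (fun y => Real.sqrt (v ⬝ᵥ ((w y * t y * (w y)ᵀ) *ᵥ v))) x) ^ 2)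
    (hPH : ∀ v : ι → ℝ, ∀ᵐ x ∂μ, P (fun y => v ⬝ᵥ (H y *ᵥ v)) x ≤ kap * (v ⬝ᵥ (G x *ᵥ v))) :
    ∫ x, ρ x * SS (G x) (t x) (b x) ∂μ ≤ kap * ∫ x, P ρ x * SS (H x) (t x) (a x) ∂μ := by
  obtain ⟨c0, hc0, hone⟩ := hP.one
  -- lower bound of `P ρ`
  have hPρ : ∀ᵐ x ∂μ, δ * c0 ≤ P ρ x := by
    have h1 := hP.mono ((Bd.const (μ := μ) (1 : ℝ)).const_mul δ) hρ (by simpa using hρδ)
    filter_upwards [h1, hP.smul δ (Bd.const (μ := μ) (1 : ℝ)), hone] with x h1 h2 h3
    rw [h2] at h1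
    exact (mul_le_mul_of_nonneg_left h3 hδ.le).trans h1
  have hwb : MB μ w := by
    have : w = fun x => ρ x • ((G x)⁻¹ * b x) := funext hw
    rw [this]
    exact (Gib.mul bb).smul hρ
  have hρi : Bd μ fun x => (ρ x)⁻¹ := hρ.inv hδ hρδ
  have hgw : MB μ fun x => w x * t x * (w x)ᵀ := (hwb.mul tb).mul hwb.transpose
  -- the matrix `Q`
  set Q : X → Matrix ι ι ℝ := fun x => (ρ x)⁻¹ • (w x * t x * (w x)ᵀ) with hQdef
  have hQb : MB μ Q := hgw.smul hρi
  set PQ : X → Matrix ι ι ℝ := fun x => Matrix.of fun k l => P (fun y => Q y k l) x with hPQdef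
  set PH : X → Matrix ι ι ℝ := fun x => Matrix.of fun k l => P (fun y => H y k l) x with hPHdef
  have hPQb : MB μ PQ := fun k l => hP.bd (hQb k l)
  have hPHb : MB μ PH := fun k l => hP.bd (Hb k l)
  have hQpsd : ∀ᵐ x ∂μ, (Q x).PosSemidef := by
    filter_upwards [ht, hρδ] with x h1 h2
    exact (gram_psd h1 (w x)).smul (inv_nonneg.mpr (hδ.le.trans h2))
  -- the domination as matrices
  have hA : ∀ v : ι → ℝ, ∀ᵐ x ∂μ,
      0 ≤ v ⬝ᵥ ((P ρ x • PQ x - c x * t x * (c x)ᵀ) *ᵥ v) := by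
    intro v
    have hfb : Bd μ (fun y => Real.sqrt (v ⬝ᵥ ((w y * t y * (w y)ᵀ) *ᵥ v))) :=
      (hgw.quad v).sqrt
    have h2 := hP.cs hfb hρ hδ hρδ
    have h3 : P (fun y => Real.sqrt (v ⬝ᵥ ((w y * t y * (w y)ᵀ) *ᵥ v)) ^ 2 * (ρ y)⁻¹) =ᵐ[μ]
        P (fun y => v ⬝ᵥ (Q y *ᵥ v)) := by
      refine hP.congr (hfb.pow_two.mul hρi) (hQb.quad v) ?_
      filter_upwards [ht] with y hy
      have hn : 0 ≤ v ⬝ᵥ ((w y * t y * (w y)ᵀ) *ᵥ v) := by
        simpa using (gram_psd hy (w y)).dotProduct_mulVec_nonneg v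
      rw [Real.sq_sqrt hn, hQdef]
      simp only [Matrix.smul_mulVec, dotProduct_smul, smul_eq_mul]
      ring
    filter_upwards [hdom v, h2, h3, hP.quad hQb v] with x h1 h2 h3 h4
    have h5 := h1.trans h2
    rw [h3, h4] at h5
    rw [Matrix.sub_mulVec, dotProduct_sub, Matrix.smul_mulVec, dotProduct_smul, smul_eq_mul]
    linarith
  have hA' : ∀ᵐ x ∂μ, ∀ v : ι → ℝ, 0 ≤ v ⬝ᵥ ((P ρ x • PQ x - c x * t x * (c x)ᵀ) *ᵥ v) :=
    ae_forall_of_forall_ae (F := fun v x => v ⬝ᵥ ((P ρ x • PQ x - c x * t x * (c x)ᵀ) *ᵥ v))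
      (fun x => by
        simp only [quad_eq_sum]
        fun_prop) hA
  have hsymPQ : ∀ᵐ x ∂μ, ∀ k l, PQ x k l = PQ x l k := by
    refine ae_all_iff.2 fun k => ae_all_iff.2 fun l => ?_
    refine hP.congr (hQb k l) (hQb l k) ?_
    filter_upwards [hQpsd] with x hx
    have := hx.isHermitian.apply k l
    simpa using this.symm
  have hsymPH : ∀ᵐ x ∂μ, ∀ k l, PH x k l = PH x l k := by
    refine ae_all_iff.2 fun k => ae_all_iff.2 fun l => ?_
    refine hP.congr (Hb k l) (Hb l k) ?_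
    filter_upwards [hH] with x hx
    have := hx.isHermitian.apply k l
    simpa using this.symm
  -- the comparison `PH ≤ kap G`
  have hB' : ∀ᵐ x ∂μ, ∀ v : ι → ℝ, 0 ≤ v ⬝ᵥ ((kap • G x - PH x) *ᵥ v) :=
    ae_forall_of_forall_ae (F := fun v x => v ⬝ᵥ ((kap • G x - PH x) *ᵥ v))
      (fun x => by
        simp only [quad_eq_sum]
        fun_prop) (fun v => by
        filter_upwards [hPH v, hP.quad Hb v] with x h1 h2
        rw [h2] at h1
        rw [Matrix.sub_mulVec, dotProduct_sub, Matrix.smul_mulVec, dotProduct_smul, smul_eq_mul]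
        linarith)
  -- pointwise inequality
  have hpt : ∀ᵐ x ∂μ, 2 * (c x * t x * (a x)ᵀ).trace ≤
      kap⁻¹ * (H x * PQ x).trace + kap * (P ρ x * SS (H x) (t x) (a x)) := by
    filter_upwards [hA', hsymPQ, hPρ, ht, hH] with x h1 h2 h3 h4 h5
    have hp : 0 < P ρ x := (mul_pos hδ hc0).trans_le h3
    have hg : (c x * t x * (c x)ᵀ).PosSemidef := gram_psd h4 (c x)
    have hM : (P ρ x • PQ x - c x * t x * (c x)ᵀ).PosSemidef := by
      refine psd_of (fun k l => ?_) h1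
      have hh := hg.isHermitian.apply k l
      simp only [star_trivial] at hh
      simp only [Matrix.sub_apply, Matrix.smul_apply, smul_eq_mul]
      rw [h2 k l, ← hh]
    have h6 := trace_mul_nonneg h5.posSemidef hM
    rw [Matrix.mul_sub, Matrix.trace_sub, Matrix.mul_smul, Matrix.trace_smul, smul_eq_mul] at h6
    have h7 := amgm h5 h4 (c x) (a x) (lam := (kap * P ρ x)⁻¹) (by positivity)
    rw [inv_inv] at h7
    have h8 : (kap * P ρ x)⁻¹ * (H x * (c x * t x * (c x)ᵀ)).trace ≤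
        (kap * P ρ x)⁻¹ * (P ρ x * (H x * PQ x).trace) :=
      mul_le_mul_of_nonneg_left (by linarith) (by positivity)
    have h9 : (kap * P ρ x)⁻¹ * (P ρ x * (H x * PQ x).trace) = kap⁻¹ * (H x * PQ x).trace := by
      field_simp
    rw [h9] at h8
    rw [SS]
    linarith
  -- integration
  have hSSG : Bd μ fun x => SS (G x) (t x) (b x) := by
    simp only [SS]
    exact (Gib.mul ((bb.mul tb).mul bb.transpose)).trace
  have hSSH : Bd μ fun x => SS (H x) (t x) (a x) := by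
    simp only [SS]
    exact (Hib.mul ((ab.mul tb).mul ab.transpose)).trace
  have hAeq : ∫ x, (w x * t x * (b x)ᵀ).trace ∂μ = ∫ x, ρ x * SS (G x) (t x) (b x) ∂μ := by
    refine integral_congr_ae (Eventually.of_forall fun x => ?_)
    simp only [hw x, SS, Matrix.smul_mul, Matrix.trace_smul, smul_eq_mul, Matrix.mul_assoc]
  -- `∫ tr (H PQ) ≤ kap A`
  have hHQ : ∫ x, (H x * PQ x).trace ∂μ ≤ kap * ∫ x, ρ x * SS (G x) (t x) (b x) ∂μ := by
    have e1 : ∫ x, (H x * PQ x).trace ∂μ = ∫ x, (PH x * Q x).trace ∂μ := by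
      have f1 : ∀ x, (H x * PQ x).trace = ∑ k, ∑ l, H x k l * P (fun y => Q y l k) x := by
        intro x
        simp only [Matrix.trace, Matrix.diag_apply, Matrix.mul_apply, hPQdef, Matrix.of_apply]
      have f2 : ∀ x, (PH x * Q x).trace = ∑ k, ∑ l, P (fun y => H y k l) x * Q x l k := by
        intro x
        simp only [Matrix.trace, Matrix.diag_apply, Matrix.mul_apply, hPHdef, Matrix.of_apply]
      simp only [f1, f2]
      rw [integral_finset_sum _ fun k _ =>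
          (Bd.sum _ fun l _ => (Hb k l).mul (hP.bd (hQb l k))).integrable,
        integral_finset_sum _ fun k _ =>
          (Bd.sum _ fun l _ => (hP.bd (Hb k l)).mul (hQb l k)).integrable]
      refine Finset.sum_congr rfl fun k _ => ?_
      rw [integral_finset_sum _ fun l _ => ((Hb k l).mul (hP.bd (hQb l k))).integrable,
        integral_finset_sum _ fun l _ => ((hP.bd (Hb k l)).mul (hQb l k)).integrable]
      refine Finset.sum_congr rfl fun l _ => ?_
      exact (hP.symm (Hb k l) (hQb l k)).symm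
    rw [e1, ← integral_const_mul]
    refine integral_mono_ae (hPHb.mul hQb).trace.integrable
      ((hρ.mul hSSG).const_mul kap).integrable ?_
    filter_upwards [hB', hsymPH, hQpsd, hG, hρδ] with x h1 h2 h3 h4 h5
    have hx0 : ρ x ≠ 0 := (hδ.trans_le h5).ne'
    have hM : (kap • G x - PH x).PosSemidef := by
      refine psd_of (fun k l => ?_) h1
      have hh := h4.isHermitian.apply k l
      simp only [star_trivial] at hh
      simp only [Matrix.sub_apply, Matrix.smul_apply, smul_eq_mul]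
      rw [h2 k l, ← hh]
    have h6 := trace_mul_nonneg hM h3
    rw [Matrix.sub_mul, Matrix.trace_sub, Matrix.smul_mul, Matrix.trace_smul, smul_eq_mul] at h6
    have hu : IsUnit (G x).det := (Matrix.isUnit_iff_isUnit_det _).mp h4.isUnit
    have hGt : (G x)ᵀ = G x := by simpa using h4.isHermitian.eq
    have h7 : (G x * Q x).trace = ρ x * SS (G x) (t x) (b x) := by
      have g1 : (w x)ᵀ = ρ x • ((b x)ᵀ * (G x)⁻¹) := by
        rw [hw x, Matrix.transpose_smul, Matrix.transpose_mul, Matrix.transpose_nonsing_inv, hGt]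
      have g2 : G x * w x = ρ x • b x := by
        rw [hw x, Matrix.mul_smul, ← Matrix.mul_assoc, Matrix.mul_nonsing_inv _ hu,
          Matrix.one_mul]
      have g3 : G x * Q x = (ρ x)⁻¹ • ((G x * w x) * t x * (w x)ᵀ) := by
        simp only [hQdef, Matrix.mul_smul, Matrix.mul_assoc]
      rw [g3, g2, g1]
      simp only [Matrix.smul_mul, Matrix.mul_smul, Matrix.trace_smul, smul_eq_mul, SS]
      rw [← Matrix.mul_assoc, Matrix.trace_mul_comm]
      field_simp
    show (PH x * Q x).trace ≤ kap * (ρ x * SS (G x) (t x) (b x))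
    rw [← h7]
    linarith
  have hAnn : 0 ≤ ∫ x, P ρ x * SS (H x) (t x) (a x) ∂μ := by
    refine integral_nonneg_of_ae ?_
    filter_upwards [hPρ, ht, hH] with x h1 h2 h3
    exact mul_nonneg ((mul_pos hδ hc0).le.trans h1) (SS_nonneg h3.posSemidef h2 _)
  rw [hAeq] at hdual
  by_cases hint : Integrable (fun x => (c x * t x * (a x)ᵀ).trace) μ
  · have h1 : ∫ x, 2 * (c x * t x * (a x)ᵀ).trace ∂μ ≤
        ∫ x, (kap⁻¹ * (H x * PQ x).trace + kap * (P ρ x * SS (H x) (t x) (a x))) ∂μ :=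
      integral_mono_ae (hint.const_mul 2)
        (((Hb.mul hPQb).trace.const_mul _).add
          (((hP.bd hρ).mul hSSH).const_mul _)).integrable hpt
    rw [integral_const_mul, integral_add ((Hb.mul hPQb).trace.const_mul _).integrable
      (((hP.bd hρ).mul hSSH).const_mul _).integrable, integral_const_mul, integral_const_mul,
      ← hdual] at h1
    have h2 := mul_le_mul_of_nonneg_left hHQ (inv_nonneg.mpr hkap.le)
    rw [← mul_assoc, inv_mul_cancel₀ hkap.ne', one_mul] at h2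
    linarith
  · rw [integral_undef hint] at hdual
    rw [hdual]
    exact mul_nonneg hkap.le hAnn

end Core

end

end Vale.Agent.P245.K.Step
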