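import Vale.Agent.P245.K.Iface2
import Vale.Agent.P245.K.StepLoc
import Vale.Agent.P245.K2.StepOp837

/-!
P245, block K, row STEP (helper386), part 3: the matrix functions of one resolvent step.
-/

set_option linter.all false

open MeasureTheory Filter Topology Set
open scoped NNReal ENNReal ContDiff Matrix
open Vale.Agent.P227.M Vale.Agent.P227.M.K814 Vale.Agent.P254.SN

namespace Vale.Agent.P245.K.StepRow

open Vale.Agent.P245.K Vale.Agent.P245.K.Step
open Vale.Agent.P245.H464 (mu integral_mu integrable_mu mu_ac ac_mu)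
open Vale.Agent.P245.K2.StepOp837

variable {n : ℕ} {V : E n → ℝ} {t : E n → Matrix (Fin n) (Fin n) ℝ} {c C : ℝ}

/-! ### pointwise algebra -/

/-- the covector fields `d(G z)_k` -/
noncomputable def fm (DG : Fin n → E n → Matrix (Fin n) (Fin n) ℝ) (z : Fin n → ℝ) (x : E n) :
    Matrix (Fin n) (Fin n) ℝ :=
  Matrix.of fun k a => ∑ l, z l * DG a x k l

theorem fm_apply (DG : Fin n → E n → Matrix (Fin n) (Fin n) ℝ) (z : Fin n → ℝ) (x : E n)
    (k a : Fin n) : fm DG z x k a = ∑ l, z l * DG a x k l := rfl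

theorem e_lin {T : Matrix (Fin n) (Fin n) ℝ} (hT : ∀ i j, T i j = T j i)
    (DG : Fin n → E n → Matrix (Fin n) (Fin n) ℝ) (z : Fin n → ℝ) (x : E n)
    (ζ : Fin n → Fin n → ℝ) :
    ∑ a, ∑ b, T a b * ∑ k, ∑ l, DG a x k l * z l * ζ b k =
      ((Matrix.of fun k a => ζ a k) * T * (fm DG z x)ᵀ).trace := by
  rw [tr_eq_sum, Finset.sum_comm]
  refine Finset.sum_congr rfl fun p _ => Finset.sum_congr rfl fun q _ => ?_
  rw [hT q p]
  congr 1
  refine Finset.sum_congr rfl fun k _ => ?_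
  rw [fm_apply, Matrix.of_apply, Finset.mul_sum]
  exact Finset.sum_congr rfl fun l _ => by ring

theorem e_quad {T : Matrix (Fin n) (Fin n) ℝ} (hT : ∀ i j, T i j = T j i)
    (G : Matrix (Fin n) (Fin n) ℝ) (ζ : Fin n → Fin n → ℝ) :
    ∑ a, ∑ b, T a b * ∑ k, ∑ l, G k l * ζ a k * ζ b l =
      (G * ((Matrix.of fun k a => ζ a k) * T * (Matrix.of fun k a => ζ a k)ᵀ)).trace := by
  have e1 : (G * ((Matrix.of fun k a => ζ a k) * T * (Matrix.of fun k a => ζ a k)ᵀ)).trace =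
      ∑ k, ∑ l, G k l * ∑ b, (∑ a, ζ a l * T a b) * ζ b k := by
    simp only [Matrix.trace, Matrix.diag_apply, Matrix.mul_apply, Matrix.transpose_apply,
      Matrix.of_apply]
  rw [e1]
  have e2 : ∀ k l, G k l * ∑ b, (∑ a, ζ a l * T a b) * ζ b k =
      ∑ b, ∑ a, T b a * (G k l * ζ b k * ζ a l) := by
    intro k l
    rw [Finset.mul_sum]
    refine Finset.sum_congr rfl fun b _ => ?_
    rw [Finset.sum_mul, Finset.mul_sum]
    refine Finset.sum_congr rfl fun a _ => ?_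
    rw [hT b a]
    ring
  simp only [e2, Finset.mul_sum]
  -- both sides: reorder the four sums
  have e3 : ∀ F : Fin n → Fin n → Fin n → Fin n → ℝ,
      ∑ a, ∑ b, ∑ k, ∑ l, F a b k l = ∑ k, ∑ l, ∑ a, ∑ b, F a b k l := by
    intro F
    calc ∑ a, ∑ b, ∑ k, ∑ l, F a b k l = ∑ a, ∑ k, ∑ b, ∑ l, F a b k l :=
          Finset.sum_congr rfl fun a _ => Finset.sum_comm
      _ = ∑ k, ∑ a, ∑ b, ∑ l, F a b k l := Finset.sum_comm
      _ = ∑ k, ∑ a, ∑ l, ∑ b, F a b k l :=
          Finset.sum_congr rfl fun k _ => Finset.sum_congr rfl fun a _ => Finset.sum_comm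
      _ = ∑ k, ∑ l, ∑ a, ∑ b, F a b k l :=
          Finset.sum_congr rfl fun k _ => Finset.sum_comm
  exact e3 fun a b k l => T a b * (G k l * ζ a k * ζ b l)

theorem quad_form (M : Matrix (Fin n) (Fin n) ℝ) (v : Fin n → ℝ) :
    v ⬝ᵥ (M *ᵥ v) = ∑ i, ∑ j, M i j * v i * v j := by
  rw [quad_eq_sum]
  exact Finset.sum_congr rfl fun k _ => Finset.sum_congr rfl fun l _ => by ring

/-- `v · (w t wᵀ) v = ⟨v·w, v·w⟩_t` -/
theorem quad_ip (T M : Matrix (Fin n) (Fin n) ℝ) (v : Fin n → ℝ) :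
    v ⬝ᵥ ((M * T * Mᵀ) *ᵥ v) =
      ∑ a, ∑ b, T a b * (∑ k, v k * M k a) * (∑ k, v k * M k b) := by
  have e1 : v ⬝ᵥ ((M * T * Mᵀ) *ᵥ v) = (Mᵀ *ᵥ v) ⬝ᵥ (T *ᵥ (Mᵀ *ᵥ v)) := by
    rw [← Matrix.mulVec_mulVec, ← Matrix.mulVec_mulVec, Matrix.dotProduct_mulVec,
      ← Matrix.mulVec_transpose]
  rw [e1, quad_form]
  have e2 : ∀ a, (Mᵀ *ᵥ v) a = ∑ k, v k * M k a := by
    intro a
    simp only [Matrix.mulVec, dotProduct, Matrix.transpose_apply]
    exact Finset.sum_congr rfl fun k _ => mul_comm _ _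
  refine Finset.sum_congr rfl fun a _ => Finset.sum_congr rfl fun b _ => ?_
  rw [e2, e2]

/-- the trace as a sum of scalar products of rows -/
theorem tr_ip (T w b : Matrix (Fin n) (Fin n) ℝ) :
    (w * T * bᵀ).trace = ∑ k, ∑ p, ∑ q, T p q * w k p * b k q := by
  simp only [Matrix.trace, Matrix.diag_apply, Matrix.mul_apply, Matrix.transpose_apply,
    Finset.sum_mul]
  refine Finset.sum_congr rfl fun k _ => ?_
  rw [Finset.sum_comm]
  exact Finset.sum_congr rfl fun p _ => Finset.sum_congr rfl fun q _ => by ring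

theorem m_nonneg {H T : Matrix (Fin n) (Fin n) ℝ} {δ m : ℝ} (hδ : 0 < δ)
    (hs : ∀ i j, H i j = H j i)
    (hl : ∀ v : Fin n → ℝ, δ * ∑ i, v i ^ 2 ≤ v ⬝ᵥ (H *ᵥ v)) (hT : T.PosDef) (hn : Nonempty (Fin n))
    (h : 0 ≤ m * (H * T).trace) : 0 ≤ m := by
  have h1 : (H - δ • (1 : Matrix (Fin n) (Fin n) ℝ)).PosSemidef := by
    refine psd_of (fun k l => ?_) fun v => ?_
    · simp only [Matrix.sub_apply, Matrix.smul_apply, smul_eq_mul, hs k l, Matrix.one_apply,
        eq_comm]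
    · rw [Matrix.sub_mulVec, dotProduct_sub, Matrix.smul_mulVec, dotProduct_smul,
        Matrix.one_mulVec, smul_eq_mul]
      have e : v ⬝ᵥ v = ∑ i, v i ^ 2 := by
        simp only [dotProduct, sq]
      rw [e]
      have := hl v
      linarith
  have h2 := trace_mul_nonneg h1 hT.posSemidef
  rw [Matrix.sub_mul, Matrix.trace_sub, Matrix.smul_mul, Matrix.trace_smul, Matrix.one_mul,
    smul_eq_mul] at h2
  have h3 : 0 < T.trace := hT.trace_pos
  have h4 : 0 < (H * T).trace := by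
    have := mul_pos hδ h3
    linarith
  by_contra hcon
  push Not at hcon
  have := mul_neg_of_neg_of_pos hcon h4
  linarith

/-! ### facts about `t` -/

theorem t_psd (hB : Base V t c C) (x : E n) : (t x).PosDef := by
  have h := hB.toTE
  refine posDef_of_low (h.symm x) h.lam_pos fun v => ?_
  have h1 := h.low x (WithLp.toLp 2 v)
  have h2 : ‖(WithLp.toLp 2 v : E n)‖ ^ 2 = ∑ i, v i ^ 2 := by
    rw [EuclideanSpace.norm_sq_eq]
    refine Finset.sum_congr rfl fun i _ => ?_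
    rw [Real.norm_eq_abs, sq_abs]
  rw [h2] at h1
  rw [quad_form]
  exact h1

theorem t_bd (hB : Base V t c C) : MB (mu V) t := by
  intro i j
  obtain ⟨K, hK⟩ := hB.toTE.lip i j
  obtain ⟨B, hBd⟩ := hB.toTE.bt
  exact ⟨hK.continuous.aestronglyMeasurable, B, Eventually.of_forall fun x => hBd x i j⟩

theorem nt_nonneg (α : E n → Fin n → ℝ) (x : E n) : 0 ≤ nt t α x := Real.sqrt_nonneg _

theorem ip_nonneg (hB : Base V t c C) (α : E n → Fin n → ℝ) (x : E n) : 0 ≤ ip t α α x := by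
  have h := (t_psd hB x).posSemidef.dotProduct_mulVec_nonneg (α x)
  rw [star_trivial, quad_form] at h
  exact h

theorem nt_sq (hB : Base V t c C) (α : E n → Fin n → ℝ) (x : E n) :
    nt t α x ^ 2 = ip t α α x := Real.sq_sqrt (ip_nonneg hB α x)

/-- lower bound of `|α|_t` -/
theorem abs_le_nt (hB : Base V t c C) (α : E n → Fin n → ℝ) (x : E n) (a : Fin n) :
    |α x a| ≤ (Real.sqrt c)⁻¹ * nt t α x := by
  have hc := hB.toTE.lam_pos
  have h := hB.toTE
  have h1 := h.low x (WithLp.toLp 2 (α x))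
  have h2 : ‖(WithLp.toLp 2 (α x) : E n)‖ ^ 2 = ∑ i, α x i ^ 2 := by
    rw [EuclideanSpace.norm_sq_eq]
    refine Finset.sum_congr rfl fun i _ => ?_
    rw [Real.norm_eq_abs, sq_abs]
  rw [h2] at h1
  have h3 : qf (t x) (WithLp.toLp 2 (α x)) = ip t α α x := rfl
  rw [h3, ← nt_sq hB] at h1
  have h4 : α x a ^ 2 ≤ ∑ i, α x i ^ 2 :=
    Finset.single_le_sum (f := fun i => α x i ^ 2) (fun i _ => sq_nonneg _) (Finset.mem_univ a)
  have h5 : c * α x a ^ 2 ≤ nt t α x ^ 2 := (mul_le_mul_of_nonneg_left h4 hc.le).trans h1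
  have h6 : α x a ^ 2 ≤ ((Real.sqrt c)⁻¹ * nt t α x) ^ 2 := by
    rw [mul_pow, inv_pow, Real.sq_sqrt hc.le]
    have := mul_le_mul_of_nonneg_left h5 (inv_nonneg.mpr hc.le)
    rwa [← mul_assoc, inv_mul_cancel₀ hc.ne', one_mul] at this
  exact abs_le_of_sq_le_sq h6 (mul_nonneg (inv_nonneg.mpr (Real.sqrt_nonneg _)) (nt_nonneg _ _))

/-! ### sums in `Dom` and `R1` -/

theorem dom_zero (hLin : K.StmtLin) (hB : Base V t c C) :
    Dom V t (fun _ => 0) (fun _ _ => 0) (fun _ => 0) := by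
  obtain ⟨h1, -, -, -, -, h2⟩ := hLin n V t c C hB
  have h3 := h1 _ _ _ _ _ _ h2 h2 0 0
  simpa using h3

theorem dom_sum (hLin : K.StmtLin) (hB : Base V t c C) {ι : Type} (S : Finset ι) (v : ι → ℝ)
    {u : ι → E n → ℝ} {Du : ι → Fin n → E n → ℝ} {Au : ι → E n → ℝ}
    (h : ∀ i, Dom V t (u i) (Du i) (Au i)) :
    Dom V t (fun x => ∑ i ∈ S, v i * u i x) (fun a x => ∑ i ∈ S, v i * Du i a x)
      (fun x => ∑ i ∈ S, v i * Au i x) := by
  classical
  induction S using Finset.induction_on with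
  | empty => simpa using dom_zero hLin hB
  | insert i S hi ih =>
    simp only [Finset.sum_insert hi]
    have := (hLin n V t c C hB).1 _ _ _ _ _ _ (h i) ih (v i) 1
    simpa only [one_mul] using this

/-- the quadratic form of a matrix of functions in `Dom` -/
theorem dom_quad (hLin : K.StmtLin) (hB : Base V t c C)
    {G AG : E n → Matrix (Fin n) (Fin n) ℝ} {DG : Fin n → E n → Matrix (Fin n) (Fin n) ℝ}
    (h : ∀ i j, Dom V t (fun x => G x i j) (fun a x => DG a x i j) (fun x => AG x i j))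
    (v : Fin n → ℝ) :
    ∃ D, Dom V t (fun x => ∑ i, ∑ j, G x i j * v i * v j) D
      (fun x => ∑ i, ∑ j, AG x i j * v i * v j) := by
  have h1 := dom_sum hLin hB (Finset.univ : Finset (Fin n × Fin n))
    (fun p => v p.1 * v p.2) (u := fun p x => G x p.1 p.2) (Du := fun p a x => DG a x p.1 p.2)
    (Au := fun p x => AG x p.1 p.2) (fun p => h p.1 p.2)
  have e1 : ∀ M : Matrix (Fin n) (Fin n) ℝ, ∑ p : Fin n × Fin n, v p.1 * v p.2 * M p.1 p.2 =
      ∑ i, ∑ j, M i j * v i * v j := by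
    intro M
    rw [Fintype.sum_prod_type]
    exact Finset.sum_congr rfl fun i _ => Finset.sum_congr rfl fun j _ => by ring
  refine ⟨fun a x => ∑ p : Fin n × Fin n, v p.1 * v p.2 * DG a x p.1 p.2, ?_⟩
  have e2 : (fun x => ∑ p : Fin n × Fin n, v p.1 * v p.2 * G x p.1 p.2) =
      fun x => ∑ i, ∑ j, G x i j * v i * v j := funext fun x => e1 (G x)
  have e3 : (fun x => ∑ p : Fin n × Fin n, v p.1 * v p.2 * AG x p.1 p.2) =
      fun x => ∑ i, ∑ j, AG x i j * v i * v j := funext fun x => e1 (AG x)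
  rw [e2, e3] at h1
  exact h1

theorem r1_sum (hR1E : StmtR1E) (hR1S : StmtR1S) (hB : Base V t c C) {s : ℝ} (hs : 0 < s)
    {ι : Type} (S : Finset ι) (v : ι → ℝ) {γ U : ι → E n → Fin n → ℝ}
    (h : ∀ i, R1 V t s (γ i) (U i)) :
    R1 V t s (fun x a => ∑ i ∈ S, v i * γ i x a) (fun x a => ∑ i ∈ S, v i * U i x a) := by
  classical
  induction S using Finset.induction_on with
  | empty =>
    obtain ⟨U0, hU0⟩ := hR1E n V t c C hB s hs (fun _ _ => 0) (fun a => by
      refine ⟨measurable_const, ?_⟩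
      simp)
    have := (hR1S n V t c C hB s hs _ _ _ _ hU0 hU0).2 0 0
    simpa using this
  | insert i S hi ih =>
    simp only [Finset.sum_insert hi]
    have := (hR1S n V t c C hB s hs _ _ _ _ (h i) ih).2 (v i) 1
    simpa only [one_mul] using this

/-! ### the next matrix function -/

/-- comparison for `1 + s A` -/
theorem res_nonneg (hPos : StmtPos) (hB : Base V t c C) {s : ℝ} (hs : 0 < s) {u Au : E n → ℝ}
    {Du : Fin n → E n → ℝ} (h : Dom V t u Du Au) (hf : ∀ᵐ x, 0 ≤ u x + s * Au x) :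
    ∀ᵐ x, 0 ≤ u x := hPos n V t c C hB s hs u Au Du h hf

theorem low_G (hLin : K.StmtLin) (hPos : StmtPos) (hB : Base V t c C) {s : ℝ} (hs : 0 < s) {δ : ℝ}
    {H G AG : E n → Matrix (Fin n) (Fin n) ℝ} {DG : Fin n → E n → Matrix (Fin n) (Fin n) ℝ}
    (hlow : ∀ᵐ x, ∀ v : Fin n → ℝ, δ * ∑ i, v i ^ 2 ≤ ∑ i, ∑ j, H x i j * v i * v j)
    (hG : ∀ i j, Dom V t (fun x => G x i j) (fun a x => DG a x i j) (fun x => AG x i j))
    (he : ∀ᵐ x, ∀ i j, G x i j + s * AG x i j = H x i j) :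
    ∀ᵐ x, ∀ v : Fin n → ℝ, δ * ∑ i, v i ^ 2 ≤ ∑ i, ∑ j, G x i j * v i * v j := by
  have key : ∀ v : Fin n → ℝ, ∀ᵐ x, 0 ≤ ∑ i, ∑ j, G x i j * v i * v j - δ * ∑ i, v i ^ 2 := by
    intro v
    obtain ⟨D, hD⟩ := dom_quad hLin hB hG v
    have h1 := (hLin n V t c C hB).1 _ _ _ _ _ _ hD (hLin n V t c C hB).2.2.2.2.2 1
      (-(δ * ∑ i, v i ^ 2))
    have h2 := res_nonneg hPos hB hs h1 (by
      filter_upwards [hlow, he] with x h1 h2
      have h3 := h1 v
      have e1 : ∑ i, ∑ j, H x i j * v i * v j =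
          ∑ i, ∑ j, G x i j * v i * v j + s * ∑ i, ∑ j, AG x i j * v i * v j := by
        rw [Finset.mul_sum, ← Finset.sum_add_distrib]
        refine Finset.sum_congr rfl fun i _ => ?_
        rw [Finset.mul_sum, ← Finset.sum_add_distrib]
        refine Finset.sum_congr rfl fun j _ => ?_
        rw [← h2 i j]
        ring
      rw [e1] at h3
      linarith)
    filter_upwards [h2] with x hx
    linarith
  have h3 := ae_forall_of_forall_ae (μ := (volume : Measure (E n)))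
    (F := fun (v : Fin n → ℝ) x => ∑ i, ∑ j, G x i j * v i * v j - δ * ∑ i, v i ^ 2)
    (fun x => by fun_prop) key
  filter_upwards [h3] with x hx v
  have := hx v
  linarith

theorem upp_G (hLin : K.StmtLin) (hPos : StmtPos) (hB : Base V t c C) {s : ℝ} (hs : 0 < s) {B : ℝ}
    {H G AG : E n → Matrix (Fin n) (Fin n) ℝ} {DG : Fin n → E n → Matrix (Fin n) (Fin n) ℝ}
    (hupp : ∀ᵐ x, ∀ i j, |H x i j| ≤ B)
    (hG : ∀ i j, Dom V t (fun x => G x i j) (fun a x => DG a x i j) (fun x => AG x i j))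
    (he : ∀ᵐ x, ∀ i j, G x i j + s * AG x i j = H x i j) :
    ∀ᵐ x, ∀ i j, |G x i j| ≤ B := by
  refine ae_all_iff.2 fun i => ae_all_iff.2 fun j => ?_
  have h1 := (hLin n V t c C hB).1 _ _ _ _ _ _ (hG i j) (hLin n V t c C hB).2.2.2.2.2 1 B
  have h2 := (hLin n V t c C hB).1 _ _ _ _ _ _ (hG i j) (hLin n V t c C hB).2.2.2.2.2 (-1) B
  have h3 := res_nonneg hPos hB hs h1 (by
    filter_upwards [hupp, he] with x h1 h2
    have h3 := (abs_le.1 (h1 i j)).1
    have h4 := h2 i j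
    linarith)
  have h4 := res_nonneg hPos hB hs h2 (by
    filter_upwards [hupp, he] with x h1 h2
    have h3 := (abs_le.1 (h1 i j)).2
    have h4 := h2 i j
    linarith)
  filter_upwards [h3, h4] with x h3 h4
  exact abs_le.2 ⟨by linarith, by linarith⟩

theorem mle_G (hLin : K.StmtLin) (hPos : StmtPos) (hB : Base V t c C) {s : ℝ} (hs : 0 < s)
    {H AH G AG : E n → Matrix (Fin n) (Fin n) ℝ} {DH DG : Fin n → E n → Matrix (Fin n) (Fin n) ℝ}
    (hH : ∀ i j, Dom V t (fun x => H x i j) (fun a x => DH a x i j) (fun x => AH x i j))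
    (hm : Mle AH H)
    (hG : ∀ i j, Dom V t (fun x => G x i j) (fun a x => DG a x i j) (fun x => AG x i j))
    (he : ∀ᵐ x, ∀ i j, G x i j + s * AG x i j = H x i j) : Mle AG G := by
  have key : ∀ v : Fin n → ℝ, ∀ᵐ x,
      0 ≤ ∑ i, ∑ j, G x i j * v i * v j - ∑ i, ∑ j, AG x i j * v i * v j := by
    intro v
    obtain ⟨D1, hD1⟩ := dom_quad hLin hB hH v
    obtain ⟨D2, hD2⟩ := dom_quad hLin hB hG v
    obtain ⟨F1, hF1⟩ := hD1
    obtain ⟨F, y, Dy, Ay, hy, hye⟩ := Vale.Agent.P245.H464.total hB.toTE hF1.mA hF1.iA hs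
    have hyD : Dom V t y Dy Ay := ⟨F, hy⟩
    have hD1 : Dom V t _ D1 _ := ⟨F1, hF1⟩
    have e1 : ∀ᵐ x, ∑ i, ∑ j, H x i j * v i * v j =
        ∑ i, ∑ j, G x i j * v i * v j + s * ∑ i, ∑ j, AG x i j * v i * v j := by
      filter_upwards [he] with x h2
      rw [Finset.mul_sum, ← Finset.sum_add_distrib]
      refine Finset.sum_congr rfl fun i _ => ?_
      rw [Finset.mul_sum, ← Finset.sum_add_distrib]
      refine Finset.sum_congr rfl fun j _ => ?_
      rw [← h2 i j]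
      ring
    -- `G_v = H_v - s y`
    have a1 := (hLin n V t c C hB).1 _ _ _ _ _ _ hD1 hyD 1 (-s)
    have a2 := (hLin n V t c C hB).1 _ _ _ _ _ _ a1 hD2 1 (-1)
    have a3 := (hLin n V t c C hB).1 _ _ _ _ _ _ a1 hD2 (-1) 1
    have b2 := res_nonneg hPos hB hs a2 (by
      filter_upwards [e1] with x hx
      have := hye x
      nlinarith)
    have b3 := res_nonneg hPos hB hs a3 (by
      filter_upwards [e1] with x hx
      have := hye x
      nlinarith)
    -- `G_v - y ≥ 0`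
    have a4 := (hLin n V t c C hB).1 _ _ _ _ _ _ hD2 hyD 1 (-1)
    have b4 := res_nonneg hPos hB hs a4 (by
      filter_upwards [e1, hm] with x hx h2
      have h3 := hye x
      have h4 := h2 v
      nlinarith)
    filter_upwards [e1, b2, b3, b4] with x e1 b2 b3 b4
    have h5 : s * (∑ i, ∑ j, AG x i j * v i * v j) = s * y x := by linarith
    have h6 := mul_left_cancel₀ hs.ne' h5
    rw [h6]
    linarith
  have h3 := ae_forall_of_forall_ae (μ := (volume : Measure (E n)))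
    (F := fun (v : Fin n → ℝ) x =>
      ∑ i, ∑ j, G x i j * v i * v j - ∑ i, ∑ j, AG x i j * v i * v j)
    (fun x => by fun_prop) key
  filter_upwards [h3] with x hx v
  have := hx v
  linarith

end Vale.Agent.P245.K.StepRow
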